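import Vale.Agent.P007.E.Latt

/-!
P007 E, task Arith: the two places where `n` prime is used.
`scalar_of_commute`: `Y = g⁻¹ ζ g` commutes with `E_{ab}`, so with `lam = Y a a = Y b b` column
`a` of `Y` is `lam e_a` and row `b` is `lam e_b`. The `ℚ`-linear map
`ℓ : (Fin n → ℚ) → ℝ`, `ℓ v = (v ᵥ* g) a` is injective (clear denominators, `NoHypPt`) and
`ℓ (v ᵥ* ζ) = lam * ℓ v`. Hence for `p ∈ ℚ[X]`: `aeval ζ p = 0 ↔ aeval lam p = 0`; `lam` is
algebraic (Cayley-Hamilton) and `V = range ℓ` is an `n`-dimensional `ℚ`-subspace of `ℝ` stable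
under `ℚ⟮lam⟯ = ℚ[lam]`, so `d = natDegree (minpoly ℚ lam)` divides `n` (tower law
`Module.finrank_mul_finrank` for `V` as a `ℚ⟮lam⟯`-submodule of `ℝ`; alternatively: every
irreducible factor of `charpoly ζ` divides `minpoly ζ = minpoly lam`). If `d = 1`, `lam` is
rational and `ζ = lam`. If `d = n`, `charpoly ζ = minpoly ℚ lam` is separable, but
`(X - lam)²` divides `charpoly Y` (factor `X - lam` out of row `b` and column `a`:
`charmatrix Y = D1 * M * D2` with diagonal `D1, D2`), and `charpoly Y` is the image of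
`charpoly ζ` (`Matrix.charpoly_map`, conjugation invariance).
`levi_arith`: `γ m = g (s m) g⁻¹ ∈ Γ` (`mk_eq_iff`, `mem_gam_iff`) are integer matrices commuting
with the non-scalar real matrix `Z = g P g⁻¹`, `P = diagonal (indicator C)`. Choose a `ℚ`-linear
`l : ℝ → ℚ` that is nonzero on a nonzero off-diagonal entry, or on a nonzero difference of
diagonal entries, of `Z` (`Module.exists_dual_map_ne_zero`-type lemma, or a basis of `ℝ` over
`ℚ`); `ζ = Z.map l` is rational, non-scalar and commutes with all `γ m`. So `g⁻¹ ζ g` commutes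
with `c m • s m` and with the limit `E_{ab}`; apply `scalar_of_commute`.
`stab_commute`: `ζ` is the integer matrix `g s g⁻¹`.
-/

open Matrix MeasureTheory ProbabilityTheory Set Filter Topology
open scoped ENNReal

namespace Vale.Agent.P007

variable {n : ℕ}

/-- An injective rational eigen-functional: polynomials in the matrix act by the eigenvalue. -/
lemma arith_aeval (ζ : Matrix (Fin n) (Fin n) ℚ) (l : (Fin n → ℚ) →ₗ[ℚ] ℝ) {lam : ℝ}
    (h : ∀ v, l (v ᵥ* ζ) = lam * l v) (p : Polynomial ℚ) (v : Fin n → ℚ) :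
    l (v ᵥ* Polynomial.aeval ζ p) = Polynomial.aeval lam p * l v := by
  have hk : ∀ (k : ℕ) (v : Fin n → ℚ), l (v ᵥ* ζ ^ k) = lam ^ k * l v := by
    intro k
    induction k with
    | zero => intro v; simp
    | succ k ih => intro v; rw [pow_succ, ← vecMul_vecMul, h, ih, pow_succ]; ring
  induction p using Polynomial.induction_on' with
  | add p q hp hq => rw [map_add, map_add, vecMul_add, map_add, hp, hq, add_mul]
  | monomial k c =>
    rw [Polynomial.aeval_monomial, Polynomial.aeval_monomial, ← Algebra.smul_def,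
      ← Algebra.smul_def, vecMul_smul, map_smul, hk, smul_mul_assoc]

/-- The degree of the eigenvalue divides `n`. -/
lemma arith_deg_dvd (ζ : Matrix (Fin n) (Fin n) ℚ) (l : (Fin n → ℚ) →ₗ[ℚ] ℝ) {lam : ℝ}
    (hl : Function.Injective l) (h : ∀ v, l (v ᵥ* ζ) = lam * l v) (hi : IsIntegral ℚ lam) :
    (minpoly ℚ lam).natDegree ∣ n := by
  let K : IntermediateField ℚ ℝ := IntermediateField.adjoin ℚ {lam}
  have hK : ∀ k : K, ∃ p : Polynomial ℚ, Polynomial.aeval lam p = (k : ℝ) := by
    intro k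
    have h1 : (k : ℝ) ∈ K.toSubalgebra := k.2
    rw [IntermediateField.adjoin_simple_toSubalgebra_of_isAlgebraic hi.isAlgebraic,
      Algebra.adjoin_singleton_eq_range_aeval] at h1
    exact h1
  let W : Submodule K ℝ :=
    { carrier := Set.range l
      add_mem' := by
        rintro _ _ ⟨v, rfl⟩ ⟨w, rfl⟩
        exact ⟨v + w, map_add _ _ _⟩
      zero_mem' := ⟨0, map_zero _⟩
      smul_mem' := by
        rintro k _ ⟨v, rfl⟩
        obtain ⟨p, hp⟩ := hK k
        refine ⟨v ᵥ* Polynomial.aeval ζ p, ?_⟩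
        rw [arith_aeval ζ l h, hp]
        rfl }
  let f : (Fin n → ℚ) →ₗ[ℚ] W :=
    { toFun := fun v => ⟨l v, v, rfl⟩
      map_add' := fun v w => Subtype.ext (map_add l v w)
      map_smul' := fun c v => Subtype.ext (map_smul l c v) }
  have hf : Function.Bijective f := by
    constructor
    · intro v w e
      exact hl (congrArg Subtype.val e)
    · rintro ⟨_, v, rfl⟩
      exact ⟨v, rfl⟩
  have h1 : Module.finrank ℚ W = n := by
    rw [← (LinearEquiv.ofBijective f hf).finrank_eq, Module.finrank_fin_fun]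
  have h2 := Module.finrank_mul_finrank ℚ K W
  rw [h1, IntermediateField.adjoin.finrank hi] at h2
  exact ⟨_, h2.symm⟩

/-- A common eigenvalue of column `a` and row `b` is a double root. -/
lemma arith_sq_dvd (Y : Matrix (Fin n) (Fin n) ℝ) {a b : Fin n} (hab : a ≠ b) {lam : ℝ}
    (hc : ∀ p, Y p a = if p = a then lam else 0) (hr : ∀ q, Y b q = if q = b then lam else 0) :
    (Polynomial.X - Polynomial.C lam) * (Polynomial.X - Polynomial.C lam) ∣ Y.charpoly := by
  set t : Polynomial ℝ := Polynomial.X - Polynomial.C lam with ht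
  set M := Y.charmatrix with hM
  have e1 : M = updateCol M a (t • (Pi.single a 1 : Fin n → Polynomial ℝ)) := by
    ext1 p q
    by_cases hq : q = a
    · subst hq
      rw [updateCol_self, hM]
      by_cases hp : p = q
      · subst hp
        rw [charmatrix_apply_eq, hc]
        simp [ht]
      · rw [charmatrix_apply_ne _ _ _ hp, hc]
        simp [hp]
    · rw [updateCol_ne hq]
  set M1 := updateCol M a (Pi.single a 1 : Fin n → Polynomial ℝ) with hM1
  have e2 : M1 = updateRow M1 b (t • (Pi.single b 1 : Fin n → Polynomial ℝ)) := by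
    ext1 p q
    by_cases hp : p = b
    · subst hp
      rw [updateRow_self, hM1]
      by_cases hq : q = a
      · subst hq
        rw [updateCol_self]
        simp [hab, Ne.symm hab]
      · rw [updateCol_ne hq, hM]
        by_cases hpq : p = q
        · subst hpq
          rw [charmatrix_apply_eq, hr]
          simp [ht]
        · rw [charmatrix_apply_ne _ _ _ hpq, hr]
          simp [Ne.symm hpq]
    · rw [updateRow_ne hp]
  have e3 : Y.charpoly = t * M1.det := by
    rw [Matrix.charpoly, ← hM, e1, det_updateCol_smul]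
  rw [e3, e2, det_updateRow_smul, ← mul_assoc]
  exact dvd_mul_right _ _

/-- The abstract form of `scalar_of_commute`. -/
lemma arith_scalar (hn : n.Prime) (ζ : Matrix (Fin n) (Fin n) ℚ) (l : (Fin n → ℚ) →ₗ[ℚ] ℝ)
    {lam : ℝ} (hl : Function.Injective l) (h : ∀ v, l (v ᵥ* ζ) = lam * l v)
    (hsq : (Polynomial.X - Polynomial.C lam) * (Polynomial.X - Polynomial.C lam) ∣
      ζ.charpoly.map (algebraMap ℚ ℝ)) :
    ∃ c : ℚ, ζ = c • (1 : Matrix (Fin n) (Fin n) ℚ) := by
  have hroot : Polynomial.aeval lam ζ.charpoly = 0 := by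
    rw [Polynomial.aeval_def, Polynomial.eval₂_eq_eval_map]
    obtain ⟨r, hr⟩ := hsq
    rw [hr]
    simp
  have hi : IsIntegral ℚ lam := ⟨_, ζ.charpoly_monic, hroot⟩
  rcases (Nat.dvd_prime hn).1 (arith_deg_dvd ζ l hl h hi) with h1 | h1
  · obtain ⟨c, hc⟩ := minpoly.natDegree_eq_one_iff.1 h1
    refine ⟨c, ?_⟩
    have hv : ∀ v, v ᵥ* ζ = c • v := by
      intro v
      apply hl
      rw [h, map_smul, ← hc, Algebra.smul_def]
    ext p q
    have := congrFun (hv (Pi.single p 1)) q
    rw [single_one_vecMul] at this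
    rw [show ζ p q = ζ.row p q from rfl, this]
    simp [one_apply, Pi.single_apply, eq_comm]
  · exfalso
    have e : ζ.charpoly = minpoly ℚ lam :=
      Polynomial.eq_of_monic_of_dvd_of_natDegree_le (minpoly.monic hi) ζ.charpoly_monic
        (minpoly.dvd _ _ hroot) (by rw [h1, charpoly_natDegree_eq_dim, Fintype.card_fin])
    have hsep : (ζ.charpoly.map (algebraMap ℚ ℝ)).Separable := by
      rw [e]
      exact (minpoly.irreducible hi).separable.map
    exact Polynomial.not_isUnit_X_sub_C lam (hsep.squarefree _ hsq)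

/-- No nonzero rational combination of the rows lies on a coordinate hyperplane. -/
lemma arith_rat_ne {g : SL n} (hg : NoHypPt (coset g)) (a : Fin n) {v : Fin n → ℚ}
    (h : ((fun i => (v i : ℝ)) ᵥ* mat g) a = 0) : v = 0 := by
  obtain ⟨N, hN⟩ := IsLocalization.exist_integer_multiples_of_finite (nonZeroDivisors ℤ) v
  choose z hz using hN
  have hN0 : ((N : ℤ) : ℝ) ≠ 0 := by exact_mod_cast nonZeroDivisors.coe_ne_zero N
  have hz' : (fun i => (z i : ℝ)) = ((N : ℤ) : ℝ) • fun i => (v i : ℝ) := by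
    ext i
    have := congrArg (fun q : ℚ => (q : ℝ)) (hz i)
    simpa using this
  have hw : (fun i => (z i : ℝ)) ᵥ* mat g ∈ lat (coset g) := by
    rw [lat_coset]
    exact ⟨z, rfl⟩
  have h0 : (fun i => (z i : ℝ)) ᵥ* mat g = 0 := by
    by_contra hne
    apply hg _ hw hne a
    rw [hz', smul_vecMul, Pi.smul_apply, h, smul_zero]
  have h1 := congrArg (fun w => w ᵥ* mat g⁻¹) h0
  simp only [vecMul_vecMul, mat_mul_inv, vecMul_one, zero_vecMul] at h1
  rw [hz'] at h1
  ext i
  have h2 := congrFun h1 i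
  simp only [Pi.smul_apply, smul_eq_mul, Pi.zero_apply, mul_eq_zero, hN0, false_or] at h2
  exact_mod_cast h2

/-- A stabiliser element is conjugate to an integer matrix. -/
lemma arith_stab {g s : SL n} (hs : act (coset g) s = coset g) :
    ∃ ζ : Matrix (Fin n) (Fin n) ℚ,
      mat g⁻¹ * ζ.map (fun q : ℚ => (q : ℝ)) * mat g = mat s := by
  rw [act_coset] at hs
  obtain ⟨γ, hγ, e⟩ := mk_eq_iff.1 hs
  choose z hz using (mem_gam_iff γ).1 hγ
  refine ⟨Matrix.of fun p q => (z p q : ℚ), ?_⟩
  have e1 : (Matrix.of fun p q => (z p q : ℚ)).map (fun q : ℚ => (q : ℝ)) = mat γ := by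
    ext p q
    simp [hz]
  rw [e1, ← mat_mul, ← mat_mul, mul_assoc, e, inv_mul_cancel_left]

/-- A rational functional applied entrywise preserves commutation with rational matrices. -/
lemma arith_map_comm (Z : Matrix (Fin n) (Fin n) ℝ) (γ : Matrix (Fin n) (Fin n) ℚ)
    (l : ℝ →ₗ[ℚ] ℚ) (h : Commute (γ.map fun q : ℚ => (q : ℝ)) Z) : Commute γ (Z.map l) := by
  ext p q
  have h1 := congrArg l (congrFun (congrFun h.eq p) q)
  simp only [mul_apply, map_apply, map_sum] at h1 ⊢
  have e1 : ∀ (c : ℚ) (x : ℝ), l ((c : ℝ) * x) = c * l x := fun c x => by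
    rw [← smul_eq_mul c (l x), ← map_smul, Rat.smul_def]
  have e2 : ∀ (c : ℚ) (x : ℝ), l (x * (c : ℝ)) = l x * c := fun c x => by
    rw [mul_comm x, e1, mul_comm]
  simpa only [e1, e2] using h1

theorem scalar_of_commute (hn : n.Prime) {g : SL n} (hg : NoHypPt (coset g)) {a b : Fin n}
    (hab : a ≠ b) (ζ : Matrix (Fin n) (Fin n) ℚ)
    (h : Commute (mat g⁻¹ * ζ.map (fun q : ℚ => (q : ℝ)) * mat g) (single a b (1 : ℝ))) :
    ∃ c : ℚ, ζ = c • (1 : Matrix (Fin n) (Fin n) ℚ) := by
  set Z := ζ.map (fun q : ℚ => (q : ℝ)) with hZ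
  set Y := mat g⁻¹ * Z * mat g with hY
  have hc : ∀ p, Y p a = if p = a then Y b b else 0 := by
    intro p
    have h1 := congrFun (congrFun h.eq p) b
    rw [mul_single_apply_same, mul_one] at h1
    rw [h1]
    by_cases hp : p = a
    · rw [if_pos hp, hp, single_mul_apply_same, one_mul]
    · rw [if_neg hp, single_mul_apply_of_ne _ _ _ _ _ hp]
  have hr : ∀ q, Y b q = if q = b then Y b b else 0 := by
    intro q
    by_cases hq : q = b
    · rw [if_pos hq, hq]
    · have h1 := congrFun (congrFun h.eq a) q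
      rw [single_mul_apply_same, one_mul, mul_single_apply_of_ne _ _ _ _ _ hq] at h1
      rw [if_neg hq, ← h1]
  let l : (Fin n → ℚ) →ₗ[ℚ] ℝ :=
    { toFun := fun v => ((fun i => (v i : ℝ)) ᵥ* mat g) a
      map_add' := fun v w => by simp [vecMul, dotProduct, add_mul, Finset.sum_add_distrib]
      map_smul' := fun c v => by
        simp [vecMul, dotProduct, Rat.smul_def, Finset.mul_sum, mul_assoc] }
  have hl : Function.Injective l := by
    rw [injective_iff_map_eq_zero]
    exact fun v hv => arith_rat_ne hg a hv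
  have hGY : Z * mat g = mat g * Y := by
    rw [hY, ← mul_assoc, ← mul_assoc, mat_mul_inv, one_mul]
  refine arith_scalar hn ζ l (lam := Y b b) hl (fun v => ?_) ?_
  · change ((fun i => ((v ᵥ* ζ) i : ℝ)) ᵥ* mat g) a = Y b b * ((fun i => (v i : ℝ)) ᵥ* mat g) a
    have e1 : (fun i => ((v ᵥ* ζ) i : ℝ)) = (fun i => (v i : ℝ)) ᵥ* Z := by
      ext i
      simp [hZ, vecMul, dotProduct]
    rw [e1, vecMul_vecMul, hGY, ← vecMul_vecMul]
    generalize (fun i => (v i : ℝ)) ᵥ* mat g = w
    generalize Y b b = lam at hc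
    simp [vecMul, dotProduct, hc, mul_comm]
  · have e1 : ζ.charpoly.map (algebraMap ℚ ℝ) = Y.charpoly := by
      rw [hY, charpoly_mul_comm, ← mul_assoc, mat_mul_inv, one_mul, ← charpoly_map]
      rfl
    rw [e1]
    exact arith_sq_dvd Y hab hc hr

theorem stab_commute (hn : n.Prime) {x : X n} (hx : NoHypPt x) {a b : Fin n} (hab : a ≠ b)
    {s : SL n} (hs : act x s = x) (h : Commute (mat s) (single a b (1 : ℝ))) :
    ∃ c : ℝ, |c| = 1 ∧ mat s = c • (1 : Matrix (Fin n) (Fin n) ℝ) := by
  obtain ⟨g, rfl⟩ := coset_surj x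
  obtain ⟨ζ, hζ⟩ := arith_stab hs
  obtain ⟨c, hc⟩ := scalar_of_commute hn hx hab ζ (by rw [hζ]; exact h)
  have e1 : ζ.map (fun q : ℚ => (q : ℝ)) = (c : ℝ) • (1 : Matrix (Fin n) (Fin n) ℝ) := by
    ext p q
    by_cases hpq : p = q <;> simp [hc, one_apply, hpq]
  have e2 : mat s = (c : ℝ) • (1 : Matrix (Fin n) (Fin n) ℝ) := by
    rw [← hζ, e1, mul_smul_comm, mul_one, smul_mul_assoc, mat_inv_mul]
  refine ⟨c, ?_, e2⟩
  have e3 : (mat s).det = 1 := s.2
  rw [e2, det_smul, det_one, mul_one, Fintype.card_fin] at e3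
  have e4 : |(c : ℝ)| ^ n = 1 := by rw [← abs_pow, e3, abs_one]
  exact (pow_eq_one_iff_of_nonneg (abs_nonneg _) hn.ne_zero).1 e4

theorem levi_arith (hn : n.Prime) {x : X n} (hx : NoHypPt x) {a b : Fin n} (hab : a ≠ b)
    {C : Finset (Fin n)} (hC : C.Nonempty) (hC' : C ≠ Finset.univ) {s : ℕ → SL n}
    (hs : ∀ m, act x (s m) = x) (hB : ∀ m, BlockDiag C (s m)) {c : ℕ → ℝ}
    (hlim : Tendsto (fun m => c m • mat (s m)) atTop (𝓝 (single a b (1 : ℝ)))) : False := by
  obtain ⟨g, rfl⟩ := coset_surj x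
  choose γ hγ using fun m => arith_stab (hs m)
  let P : Matrix (Fin n) (Fin n) ℝ := diagonal fun p => if p ∈ C then 1 else 0
  have hP : ∀ m, Commute (mat (s m)) P := by
    intro m
    ext p q
    rw [mul_diagonal, diagonal_mul]
    by_cases hpq : p ∈ C ↔ q ∈ C
    · simp only [hpq, mul_comm]
    · rw [hB m p q hpq, zero_mul, mul_zero]
  let Z := mat g * P * mat g⁻¹
  have hconj : ∀ A B : Matrix (Fin n) (Fin n) ℝ,
      mat g⁻¹ * A * mat g * (mat g⁻¹ * B * mat g) = mat g⁻¹ * (A * B) * mat g := by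
    intro A B
    calc _ = mat g⁻¹ * A * (mat g * mat g⁻¹) * B * mat g := by simp only [mul_assoc]
      _ = _ := by rw [mat_mul_inv, mul_one, mul_assoc _ A]
  have hback : ∀ A : Matrix (Fin n) (Fin n) ℝ, mat g * (mat g⁻¹ * A * mat g) * mat g⁻¹ = A := by
    intro A
    calc _ = (mat g * mat g⁻¹) * A * (mat g * mat g⁻¹) := by simp only [mul_assoc]
      _ = _ := by rw [mat_mul_inv, mul_one, one_mul]
  have hZP : mat g⁻¹ * Z * mat g = P := by
    calc _ = (mat g⁻¹ * mat g) * P * (mat g⁻¹ * mat g) := by simp only [Z, mul_assoc]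
      _ = _ := by rw [mat_inv_mul, mul_one, one_mul]
  have hZ : ∀ m, Commute ((γ m).map fun q : ℚ => (q : ℝ)) Z := by
    intro m
    have h1 := (hP m).eq
    rw [← hγ m, ← hZP, hconj, hconj] at h1
    have h2 := congrArg (fun A => mat g * A * mat g⁻¹) h1
    simp only [hback] at h2
    exact h2
  have key : ∀ l : ℝ →ₗ[ℚ] ℚ, ∃ r : ℚ, Z.map l = r • (1 : Matrix (Fin n) (Fin n) ℚ) := by
    intro l
    refine scalar_of_commute hn hx hab _ ?_
    set Y := mat g⁻¹ * (Z.map l).map (fun q : ℚ => (q : ℝ)) * mat g with hY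
    have h1 : ∀ m, Y * (c m • mat (s m)) = (c m • mat (s m)) * Y := by
      intro m
      have h2 := congrArg (fun A : Matrix (Fin n) (Fin n) ℚ => A.map (Rat.castHom ℝ))
        (arith_map_comm Z (γ m) l (hZ m)).eq
      simp only [Matrix.map_mul] at h2
      rw [mul_smul_comm, smul_mul_assoc, ← hγ m, hY, hconj, hconj]
      exact congrArg (fun A => c m • (mat g⁻¹ * A * mat g)) h2.symm
    have h3 := hlim.const_mul Y
    have h4 := hlim.mul_const Y
    simp only [h1] at h3
    exact tendsto_nhds_unique h3 h4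
  have hoff : ∀ p q, p ≠ q → Z p q = 0 := by
    intro p q hpq
    refine (Module.forall_dual_apply_eq_zero_iff ℚ _).1 fun l => ?_
    obtain ⟨r, hr⟩ := key l
    have := congrFun (congrFun hr p) q
    simpa [one_apply, hpq] using this
  have hdiag : ∀ p, Z p p = Z a a := by
    intro p
    refine sub_eq_zero.1 ((Module.forall_dual_apply_eq_zero_iff ℚ _).1 fun l => ?_)
    obtain ⟨r, hr⟩ := key l
    have h1 := congrFun (congrFun hr p) p
    have h2 := congrFun (congrFun hr a) a
    simp only [map_apply, Matrix.smul_apply, one_apply_eq] at h1 h2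
    rw [map_sub, h1, h2, sub_self]
  have hZs : Z = Z a a • (1 : Matrix (Fin n) (Fin n) ℝ) := by
    ext p q
    by_cases hpq : p = q
    · rw [hpq, hdiag q, Matrix.smul_apply, one_apply_eq, smul_eq_mul, mul_one]
    · rw [hoff p q hpq, Matrix.smul_apply, one_apply_ne hpq, smul_zero]
  generalize Z a a = r at hZs
  rw [hZs, mul_smul_comm, mul_one, smul_mul_assoc, mat_inv_mul] at hZP
  obtain ⟨p, hp⟩ := hC
  obtain ⟨q, hq⟩ : ∃ q, q ∉ C := by
    by_contra hh
    push Not at hh
    exact hC' (Finset.eq_univ_iff_forall.2 hh)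
  have h1 := congrFun (congrFun hZP p) p
  have h2 := congrFun (congrFun hZP q) q
  simp [P, hp, hq] at h1 h2
  rw [h1] at h2
  exact one_ne_zero h2

end Vale.Agent.P007
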