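import Vale.Agent.P007.E.Core

/-!
P007 E, task Basic: elementary algebra and topology of the right action. Definitions are in
`E/Core.lean`, `E/Defs.lean`, `P007/Topo.lean` (`isOpenQuotientMap_mk`, `mk_eq_iff`, `mat_*`).
Hints. `continuous_act`: `IsOpenQuotientMap.prodMap` of `coset` with `id` is a quotient map.
`exists_lift`: pick `g0` over `x`, a countable antitone basis `U k` of `𝓝 1`; the sets
`coset '' (g0 * U k)` are neighbourhoods of `x` (open map); choose `g m ∈ U (k m)` with `k m` the
largest `k ≤ m` that works (any lift if none), or use `IsOpenQuotientMap.map_nhds_eq`.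
Do not change statements; extra lemmas are welcome.
-/

open Matrix MeasureTheory ProbabilityTheory Set Filter Topology
open scoped ENNReal

namespace Vale.Agent.P007

variable {n : ℕ}

lemma act_coset (g h : SL n) : act (coset g) h = coset (g * h) := rfl

lemma coset_surj (x : X n) : ∃ g : SL n, coset g = x := by
  exact (isOpenQuotientMap_mk n).surjective x

lemma act_mul (x : X n) (g h : SL n) : act (act x g) h = act x (g * h) := by
  obtain ⟨k, rfl⟩ := coset_surj x
  rw [act_coset, act_coset, act_coset, mul_assoc]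

lemma act_one (x : X n) : act x 1 = x := by
  obtain ⟨k, rfl⟩ := coset_surj x
  rw [act_coset, mul_one]

lemma act_inj (h : SL n) : Function.Injective (fun x : X n => act x h) := by
  intro x y e
  have := congrArg (fun z => act z h⁻¹) e
  simpa only [act_mul, mul_inv_cancel, act_one] using this

lemma exists_act_eq (x y : X n) : ∃ g : SL n, y = act x g := by
  obtain ⟨k, rfl⟩ := coset_surj x
  obtain ⟨l, rfl⟩ := coset_surj y
  exact ⟨k⁻¹ * l, by rw [act_coset, mul_inv_cancel_left]⟩

lemma coset_gam_mul (γ : Gam n) (g : SL n) : coset ((γ : SL n) * g) = coset g := by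
  exact mk_eq_iff.2 ⟨γ, γ.2, rfl⟩

lemma mem_gam_iff (g : SL n) : g ∈ Gam n ↔ ∀ p q, ∃ z : ℤ, mat g p q = z := by
  constructor
  · rintro ⟨δ, rfl⟩ p q
    exact ⟨δ.1 p q, rfl⟩
  · intro h
    choose z hz using h
    have e : (Int.castRingHom ℝ).mapMatrix (Matrix.of z) = mat g := by
      ext p q
      exact (hz p q).symm
    have hd : (Matrix.of z).det = 1 := by
      have h1 := (Int.castRingHom ℝ).map_det (Matrix.of z)
      rw [e] at h1
      have h2 : (mat g).det = 1 := g.2
      rw [h2] at h1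
      exact Int.cast_injective (α := ℝ) (by simpa using h1)
    exact ⟨⟨Matrix.of z, hd⟩, mat_inj e⟩

instance instCountGam (n : ℕ) : Countable (Gam n) := by
  have : Countable (Matrix (Fin n) (Fin n) ℤ) :=
    inferInstanceAs (Countable (Fin n → Fin n → ℤ))
  have : Countable (SpecialLinearGroup (Fin n) ℤ) :=
    inferInstanceAs (Countable {A : Matrix (Fin n) (Fin n) ℤ // A.det = 1})
  exact (SpecialLinearGroup.map (n := Fin n)
    (Int.castRingHom ℝ)).rangeRestrict_surjective.countable

lemma continuous_act : Continuous (fun p : X n × SL n => act p.1 p.2) := by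
  have h := ((isOpenQuotientMap_mk n).prodMap
    (IsOpenQuotientMap.id (X := SL n))).isQuotientMap
  rw [h.continuous_iff]
  exact (isOpenQuotientMap_mk n).continuous.comp continuous_mul

instance instSecX (n : ℕ) : SecondCountableTopology (X n) := by
  exact (isOpenQuotientMap_mk n).isQuotientMap.secondCountableTopology
    (isOpenQuotientMap_mk n).isOpenMap

instance instMetrX (n : ℕ) : TopologicalSpace.MetrizableSpace (X n) := by
  exact TopologicalSpace.metrizableSpace_of_t3_secondCountable _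

instance instSigX (n : ℕ) : SigmaCompactSpace (X n) := by
  infer_instance

instance instMetrSL (n : ℕ) : TopologicalSpace.MetrizableSpace (SL n) := by
  exact TopologicalSpace.metrizableSpace_of_t3_secondCountable _

instance instSigSL (n : ℕ) : SigmaCompactSpace (SL n) := by
  infer_instance

lemma measurable_coset : Measurable (coset : SL n → X n) := by
  exact (isOpenQuotientMap_mk n).continuous.measurable

lemma measurable_act (h : SL n) : Measurable (fun x : X n => act x h) := by
  exact (continuous_act.comp (continuous_id.prodMk continuous_const)).measurable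

lemma measurable_act2 : Measurable (fun p : X n × SL n => act p.1 p.2) := by
  exact continuous_act.measurable

lemma iterate_act (a : SL n) (k : ℕ) (x : X n) : (fun y => act y a)^[k] x = act x (a ^ k) := by
  induction k with
  | zero => rw [pow_zero, act_one]; rfl
  | succ k ih => rw [Function.iterate_succ_apply', ih, act_mul, pow_succ]

lemma HInv.mp {μ : Measure (X n)} {h : SL n} (H : HInv μ h) :
    MeasurePreserving (fun x => act x h) μ μ := by
  exact ⟨measurable_act h, H⟩

lemma HInv.mul {μ : Measure (X n)} {g h : SL n} (Hg : HInv μ g) (Hh : HInv μ h) :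
    HInv μ (g * h) := by
  have := (Hh.mp.comp Hg.mp).map_eq
  unfold HInv
  simpa only [Function.comp_def, act_mul] using this

lemma HInv.one (μ : Measure (X n)) : HInv μ 1 := by
  unfold HInv
  simp only [act_one]
  exact Measure.map_id

lemma HInv.inv {μ : Measure (X n)} {h : SL n} (H : HInv μ h) : HInv μ h⁻¹ := by
  unfold HInv at H ⊢
  conv_lhs => rw [← H]
  rw [Measure.map_map (measurable_act _) (measurable_act _)]
  simp only [Function.comp_def, act_mul, mul_inv_cancel, act_one]
  exact Measure.map_id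

lemma HInv.pow {μ : Measure (X n)} {h : SL n} (H : HInv μ h) (k : ℕ) : HInv μ (h ^ k) := by
  induction k with
  | zero => rw [pow_zero]; exact HInv.one μ
  | succ k ih => rw [pow_succ]; exact ih.mul H

lemma AInv.hinv {μ : Measure (X n)} (H : AInv μ) (u : Fin n → ℝ) (hu : ∑ p, u p = 0) :
    HInv μ (diagA u hu) := H u hu

lemma isInvProb_iff (m : Measure (X n)) :
    IsInvProb m ↔ IsProbabilityMeasure m ∧ ∀ h : SL n, HInv m h := by
  have e : ∀ (h : SL n) (S : Set (X n)), {x | ∃ g, coset g ∈ S ∧ x = coset (g * h)} =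
      (fun x => act x h⁻¹) ⁻¹' S := by
    intro h S
    ext x
    constructor
    · rintro ⟨g, hg, rfl⟩
      show act (coset (g * h)) h⁻¹ ∈ S
      rwa [act_coset, mul_inv_cancel_right]
    · intro hx
      obtain ⟨k, rfl⟩ := coset_surj x
      exact ⟨k * h⁻¹, hx, by rw [inv_mul_cancel_right]⟩
  refine and_congr_right fun _ => ⟨fun H h => ?_, fun H h S hS => ?_⟩
  · refine Measure.ext fun S hS => ?_
    have := H h⁻¹ S hS
    rw [e, inv_inv] at this
    rw [Measure.map_apply (measurable_act h) hS, this]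
  · rw [e, ← Measure.map_apply (measurable_act _) hS, H h⁻¹]

lemma mat_uu {i j : Fin n} (hij : i ≠ j) (t : ℝ) : mat (uu i j t) = 1 + single i j t := by
  rw [uu, dif_pos hij]
  rfl

lemma uu_add (i j : Fin n) (s t : ℝ) : uu i j (s + t) = uu i j s * uu i j t := by
  by_cases h : i ≠ j
  · apply mat_inj
    rw [mat_mul, mat_uu h, mat_uu h, mat_uu h, add_mul, mul_add, mul_add, one_mul, one_mul,
      mul_one, single_mul_single_of_ne _ _ _ _ h.symm, single_add]
    abel
  · simp only [uu, dif_neg h, mul_one]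

lemma uu_zero (i j : Fin n) : uu i j 0 = 1 := by
  by_cases h : i ≠ j
  · apply mat_inj
    rw [mat_uu h, mat_one, single_zero, add_zero]
  · simp only [uu, dif_neg h]

lemma uu_inv (i j : Fin n) (t : ℝ) : (uu i j t)⁻¹ = uu i j (-t) := by
  rw [inv_eq_iff_mul_eq_one, ← uu_add, add_neg_cancel, uu_zero]

lemma uu_pow (i j : Fin n) (t : ℝ) (k : ℕ) : uu i j t ^ k = uu i j (k * t) := by
  induction k with
  | zero => rw [pow_zero, Nat.cast_zero, zero_mul, uu_zero]
  | succ k ih => rw [pow_succ, ih, ← uu_add, Nat.cast_succ, add_mul, one_mul]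

lemma continuous_uu (i j : Fin n) : Continuous (uu i j) := by
  by_cases h : i ≠ j
  · refine continuous_induced_rng.2 ?_
    show Continuous fun t => mat (uu i j t)
    simp only [mat_uu h]
    refine continuous_const.add (continuous_matrix fun p q => ?_)
    simp only [single_apply]
    split_ifs
    · exact continuous_id
    · exact continuous_const
  · have e : uu i j = fun _ => 1 := funext fun t => by simp only [uu, dif_neg h]
    rw [e]
    exact continuous_const

lemma measurable_act_uu (i j : Fin n) :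
    Measurable (fun p : X n × ℝ => act p.1 (uu i j p.2)) := by
  exact (continuous_act.comp
    (continuous_fst.prodMk ((continuous_uu i j).comp continuous_snd))).measurable

/-- The commutator relation. -/
lemma uu_comm {i j k : Fin n} (hij : i ≠ j) (hjk : j ≠ k) (hik : i ≠ k) (s t : ℝ) :
    uu i j s * uu j k t = uu j k t * uu i j s * uu i k (s * t) := by
  apply mat_inj
  simp only [mat_mul, mat_uu hij, mat_uu hjk, mat_uu hik, add_mul, mul_add, one_mul, mul_one,
    single_mul_single_same, single_mul_single_of_ne _ _ _ _ hik.symm,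
    single_mul_single_of_ne _ _ _ _ hij.symm, add_zero, zero_mul]
  abel

lemma mat_diagA (u : Fin n → ℝ) (hu : ∑ p, u p = 0) :
    mat (diagA u hu) = diagonal fun p => Real.exp (u p) := rfl

lemma diagA_inv (u : Fin n → ℝ) (hu : ∑ p, u p = 0) :
    (diagA u hu)⁻¹ = diagA (-u) (by simp [hu]) := by
  rw [inv_eq_iff_mul_eq_one]
  apply mat_inj
  rw [mat_mul, mat_diagA, mat_diagA, diagonal_mul_diagonal, mat_one, ← diagonal_one]
  congr 1
  funext p
  rw [← Real.exp_add, Pi.neg_apply, add_neg_cancel, Real.exp_zero]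

lemma diagA_pow (u : Fin n → ℝ) (hu : ∑ p, u p = 0) (k : ℕ) :
    diagA u hu ^ k = diagA (fun p => k * u p) (by rw [← Finset.mul_sum, hu, mul_zero]) := by
  apply mat_inj
  have e : mat (diagA u hu ^ k) = mat (diagA u hu) ^ k := rfl
  rw [e, mat_diagA, mat_diagA, diagonal_pow]
  congr 1
  funext p
  rw [Pi.pow_apply, Real.exp_nat_mul]

lemma mat_conj_diagA (u : Fin n → ℝ) (hu : ∑ p, u p = 0) (g : SL n) (p q : Fin n) :
    mat ((diagA u hu)⁻¹ * g * diagA u hu) p q = mat g p q * Real.exp (u q - u p) := by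
  rw [diagA_inv, mat_mul, mat_mul, mat_diagA, mat_diagA, mul_diagonal, diagonal_mul, Pi.neg_apply,
    sub_eq_add_neg, Real.exp_add]
  ring

lemma mat_cj_diagA (u : Fin n → ℝ) (hu : ∑ p, u p = 0) (g : SL n) (k : ℕ) (p q : Fin n) :
    mat (cj (diagA u hu) g k) p q = mat g p q * Real.exp (k * (u q - u p)) := by
  rw [cj, diagA_pow, mat_conj_diagA, mul_sub]

lemma conj_diagA_uu (u : Fin n → ℝ) (hu : ∑ p, u p = 0) (i j : Fin n) (t : ℝ) :
    (diagA u hu)⁻¹ * uu i j t * diagA u hu = uu i j (t * Real.exp (u j - u i)) := by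
  by_cases h : i ≠ j
  · apply mat_inj
    ext p q
    rw [mat_conj_diagA, mat_uu h, mat_uu h, Matrix.add_apply, Matrix.add_apply, add_mul]
    congr 1
    · by_cases e : p = q
      · rw [e, sub_self, Real.exp_zero, mul_one]
      · rw [one_apply_ne e, zero_mul]
    · simp only [single_apply]
      split_ifs with e
      · rw [e.1, e.2]
      · exact zero_mul _
  · simp only [uu, dif_neg h, mul_one, inv_mul_cancel]

lemma cj_diagA_uu (u : Fin n → ℝ) (hu : ∑ p, u p = 0) (i j : Fin n) (t : ℝ) (k : ℕ) :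
    cj (diagA u hu) (uu i j t) k = uu i j (t * Real.exp (k * (u j - u i))) := by
  rw [cj, diagA_pow, conj_diagA_uu, mul_sub]

lemma cj_zero (a g : SL n) : cj a g 0 = g := by
  rw [cj, pow_zero, inv_one, one_mul, mul_one]

lemma cj_succ (a g : SL n) (k : ℕ) : cj a g (k + 1) = a⁻¹ * cj a g k * a := by
  rw [cj, cj, pow_succ, _root_.mul_inv_rev]
  simp only [mul_assoc]

lemma act_cj (x : X n) (a g : SL n) (k : ℕ) :
    act (act x g) (a ^ k) = act (act x (a ^ k)) (cj a g k) := by
  rw [act_mul, act_mul, cj, ← mul_assoc, mul_inv_cancel_left]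

/-- Every real weight can be normalised to sum zero without changing differences. -/
lemma exists_sum_zero (τ : Fin n → ℝ) :
    ∃ u : Fin n → ℝ, ∑ p, u p = 0 ∧ ∀ p q, u p - u q = τ p - τ q := by
  refine ⟨fun p => τ p - (∑ q, τ q) / n, ?_, fun p q => by ring⟩
  rcases Nat.eq_zero_or_pos n with rfl | hn
  · simp
  · have : (n : ℝ) ≠ 0 := by positivity
    rw [Finset.sum_sub_distrib, Finset.sum_const, Finset.card_univ, Fintype.card_fin,
      nsmul_eq_mul, mul_div_cancel₀ _ this, sub_self]

lemma tendsto_SL_iff {ι : Type} {l : Filter ι} {g : ι → SL n} {g0 : SL n} :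
    Tendsto g l (𝓝 g0) ↔ ∀ p q, Tendsto (fun m => mat (g m) p q) l (𝓝 (mat g0 p q)) := by
  refine tendsto_subtype_rng.trans (tendsto_pi_nhds.trans (forall_congr' fun p => tendsto_pi_nhds))

lemma isCompact_box_Basic (M : Matrix (Fin n) (Fin n) ℝ) (R : ℝ) :
    IsCompact {g : SL n | ∀ p q, |mat g p q - M p q| ≤ R} := by
  have h : IsCompact (Set.pi univ fun p : Fin n => Set.pi univ fun q : Fin n =>
      Icc (M p q - R) (M p q + R)) :=
    isCompact_univ_pi fun p => isCompact_univ_pi fun q => isCompact_Icc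
  have h2 := (SpecialLinearGroup.isClosedEmbedding_val (n := Fin n) (R := ℝ)).isCompact_preimage
    (K := (Set.pi univ fun p : Fin n => Set.pi univ fun q : Fin n =>
      Icc (M p q - R) (M p q + R))) h
  refine (congrArg IsCompact (Set.ext fun g => ?_)).mp h2
  show (∀ p ∈ univ, ∀ q ∈ univ, mat g p q ∈ Icc (M p q - R) (M p q + R)) ↔
    ∀ p q, |mat g p q - M p q| ≤ R
  simp only [mem_univ, forall_true_left, mem_Icc, abs_le]
  refine forall_congr' fun p => forall_congr' fun q => ?_
  constructor <;> rintro ⟨a, b⟩ <;> constructor <;> linarith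

lemma isCompact_bdd (R : ℝ) : IsCompact {g : SL n | ∀ p q, |mat g p q| ≤ R} := by
  simpa using isCompact_box_Basic (0 : Matrix (Fin n) (Fin n) ℝ) R

lemma isCompact_near (ε : ℝ) : IsCompact {g : SL n | Near g ε} := by
  exact isCompact_box_Basic 1 ε

lemma near_mem_nhds {ε : ℝ} (hε : 0 < ε) : {g : SL n | Near g ε} ∈ 𝓝 (1 : SL n) := by
  have h : ∀ p q, ∀ᶠ g in 𝓝 (1 : SL n),
      |mat g p q - (1 : Matrix (Fin n) (Fin n) ℝ) p q| ≤ ε := by
    intro p q
    have t := tendsto_SL_iff.1 (tendsto_id (x := 𝓝 (1 : SL n))) p q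
    filter_upwards [Metric.tendsto_nhds.1 t ε hε] with g hg
    exact le_of_lt hg
  exact eventually_all.2 fun p => eventually_all.2 fun q => h p q

lemma exists_near_subset {U : Set (SL n)} (hU : U ∈ 𝓝 (1 : SL n)) :
    ∃ ε : ℝ, 0 < ε ∧ ∀ g, Near g ε → g ∈ U := by
  by_contra hc
  push Not at hc
  choose g hg hU' using fun k : ℕ => hc (1 / ((k : ℝ) + 1)) (by positivity)
  have t : Tendsto g atTop (𝓝 1) := by
    refine tendsto_SL_iff.2 fun p q => ?_
    rw [tendsto_iff_dist_tendsto_zero]
    exact squeeze_zero (fun _ => dist_nonneg) (fun k => hg k p q)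
      tendsto_one_div_add_atTop_nhds_zero_nat
  obtain ⟨k, hk⟩ := (t.eventually hU).exists
  exact hU' k hk

lemma Near.mono {g : SL n} {ε ε' : ℝ} (h : Near g ε) (hε : ε ≤ ε') : Near g ε' := by
  exact fun p q => (h p q).trans hε

lemma abs_mul_le_Basic {A B : Matrix (Fin n) (Fin n) ℝ} {a b : ℝ} (hA : ∀ p q, |A p q| ≤ a)
    (hB : ∀ p q, |B p q| ≤ b) (p q : Fin n) : |(A * B) p q| ≤ n * a * b := by
  rw [mul_apply]
  refine (Finset.abs_sum_le_sum_abs _ _).trans ?_
  refine (Finset.sum_le_sum (g := fun _ => a * b) fun r _ => ?_).trans ?_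
  · rw [abs_mul]
    exact mul_le_mul (hA p r) (hB r q) (abs_nonneg _) ((abs_nonneg _).trans (hA p r))
  · rw [Finset.sum_const, Finset.card_univ, Fintype.card_fin, nsmul_eq_mul, mul_assoc]

lemma Near.mul {g h : SL n} {ε ε' : ℝ} (hg : Near g ε) (hh : Near h ε') :
    Near (g * h) (ε + ε' + n * ε * ε') := by
  intro p q
  have e : mat (g * h) - 1 = (mat g - 1) + (mat h - 1) + (mat g - 1) * (mat h - 1) := by
    rw [mat_mul]
    noncomm_ring
  have e1 := congrFun (congrFun e p) q
  rw [Matrix.sub_apply] at e1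
  rw [e1, Matrix.add_apply, Matrix.add_apply]
  have := abs_mul_le_Basic (A := mat g - 1) (B := mat h - 1) (fun p q => hg p q)
    (fun p q => hh p q) p q
  refine (abs_add_three _ _ _).trans (add_le_add (add_le_add (hg p q) (hh p q)) this)

/-- With `M` the largest entry of `g⁻¹ - 1 = -(g - 1) - (g - 1)(g⁻¹ - 1)`: `M ≤ ε + n ε M`. -/
lemma Near.inv {g : SL n} {ε : ℝ} (hg : Near g ε) (hε : 2 * n * ε ≤ 1) : Near g⁻¹ (2 * ε) := by
  intro p q
  obtain ⟨m, -, hm⟩ := Finset.exists_max_image (Finset.univ : Finset (Fin n × Fin n))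
    (fun x => |(mat g⁻¹ - 1) x.1 x.2|) ⟨(p, q), Finset.mem_univ _⟩
  have hm' : ∀ p q, |(mat g⁻¹ - 1) p q| ≤ |(mat g⁻¹ - 1) m.1 m.2| :=
    fun p q => hm (p, q) (Finset.mem_univ _)
  have e : mat g⁻¹ - 1 = -(mat g - 1) - (mat g - 1) * (mat g⁻¹ - 1) := by
    rw [sub_mul, mul_sub, mat_mul_inv]
    noncomm_ring
  have h1 := abs_mul_le_Basic (A := mat g - 1) (B := mat g⁻¹ - 1) (fun p q => hg p q) hm'
    m.1 m.2
  have h2 : |(mat g⁻¹ - 1) m.1 m.2| ≤ ε + n * ε * |(mat g⁻¹ - 1) m.1 m.2| := by
    conv_lhs => rw [e, Matrix.sub_apply, Matrix.neg_apply]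
    refine (abs_sub _ _).trans (add_le_add ?_ h1)
    rw [abs_neg]
    exact hg m.1 m.2
  have h3 := hm' p q
  rw [Matrix.sub_apply] at h3
  nlinarith [abs_nonneg ((mat g⁻¹ - 1) m.1 m.2)]

lemma exists_lift {y : ℕ → X n} {x : X n} (h : Tendsto y atTop (𝓝 x)) :
    ∃ g : ℕ → SL n, Tendsto g atTop (𝓝 1) ∧ ∀ m, y m = act x (g m) := by
  obtain ⟨g0, rfl⟩ := coset_surj x
  classical
  obtain ⟨U, hU⟩ := (𝓝 (1 : SL n)).exists_antitone_basis
  have ev : ∀ k, ∀ᶠ m in atTop, ∃ g ∈ U k, y m = act (coset g0) g := by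
    intro k
    have o : IsOpenMap fun g : SL n => coset (g0 * g) :=
      (isOpenQuotientMap_mk n).isOpenMap.comp (isOpenMap_mul_left g0)
    have := o.image_mem_nhds (hU.mem k)
    rw [mul_one] at this
    filter_upwards [h.eventually this] with m hm
    obtain ⟨g, hg, e⟩ := hm
    exact ⟨g, hg, e.symm⟩
  have ex : ∀ m, ∃ g : SL n, y m = act (coset g0) g ∧
      ∀ k ≤ m, (∃ g ∈ U k, y m = act (coset g0) g) → g ∈ U k := by
    intro m
    by_cases hP : ∃ k ≤ m, ∃ g ∈ U k, y m = act (coset g0) g
    · obtain ⟨k, hk, hk'⟩ := hP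
      obtain ⟨g, hg, e⟩ := Nat.findGreatest_spec
        (P := fun k => ∃ g ∈ U k, y m = act (coset g0) g) hk hk'
      exact ⟨g, e, fun l hl hl' => hU.antitone (Nat.le_findGreatest hl hl') hg⟩
    · obtain ⟨g, e⟩ := exists_act_eq (coset g0) (y m)
      exact ⟨g, e, fun l hl hl' => absurd ⟨l, hl, hl'⟩ hP⟩
  choose g hg hg' using ex
  refine ⟨g, hU.1.tendsto_right_iff.2 fun k _ => ?_, hg⟩
  filter_upwards [ev k, eventually_ge_atTop k] with m h1 h2
  exact hg' m k h2 h1

end Vale.Agent.P007
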