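import Vale.Agent.P007.E.Iface

/-!
Definitions for the rigidity proof (project P007 E, leader helper13, notes `notes/P007E.md`).
No proofs here. Conventions: `G = SL n` acts on the right on `X n = Γ \ G` through `act`.
`uu i j t = 1 + t E_{ij}`, `cj a g k = a^{-k} g a^k`; for `a = diagA u` the `(p,q)` entry of
`cj a g k` is `g_{pq} exp (k (u_q - u_p))`.
-/

open Matrix MeasureTheory ProbabilityTheory Set Filter Topology
open scoped ENNReal

namespace Vale.Agent.P007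

instance instMeasSL (n : ℕ) : MeasurableSpace (SL n) := borel (SL n)

instance instBorelSL (n : ℕ) : BorelSpace (SL n) := ⟨rfl⟩

/-- The root subgroup `1 + t E_{ij}` (junk value `1` if `i = j`). -/
noncomputable def uu {n : ℕ} (i j : Fin n) (t : ℝ) : SL n :=
  if h : i ≠ j then SpecialLinearGroup.transvection h t else 1

/-- `a^{-k} g a^k`. -/
def cj {n : ℕ} (a g : SL n) (k : ℕ) : SL n := (a ^ k)⁻¹ * g * a ^ k

/-- The lattice of a point of `X n`. -/
def lat {n : ℕ} (x : X n) : Set (Fin n → ℝ) := {w | ∃ g : SL n, x = coset g ∧ w ∈ rowLattice g}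

/-- All entries of `g - 1` are at most `ε` in absolute value. -/
def Near {n : ℕ} (g : SL n) (ε : ℝ) : Prop :=
  ∀ p q, |mat g p q - (1 : Matrix (Fin n) (Fin n) ℝ) p q| ≤ ε

/-- `μ` is invariant under the right action of `h`. -/
def HInv {n : ℕ} (μ : Measure (X n)) (h : SL n) : Prop := μ.map (fun x => act x h) = μ

/-- `μ` is invariant under the root subgroup `(i,j)`. -/
def UInv {n : ℕ} (μ : Measure (X n)) (i j : Fin n) : Prop := ∀ t : ℝ, HInv μ (uu i j t)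

/-- The lattice of `x` has no nonzero vector on a coordinate hyperplane. -/
def NoHypPt {n : ℕ} (x : X n) : Prop := ∀ w ∈ lat x, w ≠ 0 → ∀ p, w p ≠ 0

/-- The root `(i,j)` is trivial for `μ`: a conull set meets every `uu i j`-orbit at most once. -/
def Triv {n : ℕ} (μ : Measure (X n)) (i j : Fin n) : Prop :=
  ∃ X' : Set (X n), MeasurableSet X' ∧ μ X'ᶜ = 0 ∧
    ∀ x ∈ X', ∀ t : ℝ, act x (uu i j t) ∈ X' → t = 0

open Classical in
/-- Number of `k < m` with `T^k x ∉ S`. -/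
noncomputable def cntOut {Y : Type} (T : Y → Y) (S : Set Y) (x : Y) (m : ℕ) : ℕ :=
  ((Finset.range m).filter (fun k => T^[k] x ∉ S)).card

/-- Points whose forward orbit leaves `S` with frequency at most `ε` on every initial segment. -/
def freqGood {Y : Type} (T : Y → Y) (S : Set Y) (ε : ℝ) : Set Y :=
  {x | ∀ m : ℕ, (cntOut T S x m : ℝ) ≤ ε * m}

/-- Shannon entropy of a countable-valued function, as the integral of the information. -/
noncomputable def Ent {Y α : Type} [MeasurableSpace Y] (μ : Measure Y) (f : Y → α) : ℝ≥0∞ :=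
  ∫⁻ x, ENNReal.ofReal (-Real.log (μ.real (f ⁻¹' {f x}))) ∂μ

/-- All fibres of `f` are measurable. -/
def MFib {Y α : Type} [MeasurableSpace Y] (f : Y → α) : Prop :=
  ∀ a, MeasurableSet (f ⁻¹' {a})

/-- The itinerary `(P x, P (T x), …, P (T^{N-1} x))`. -/
def itin {Y α : Type} (T : Y → Y) (P : Y → α) (N : ℕ) (x : Y) : Fin N → α :=
  fun k => P (T^[k] x)

/-- `h(T,P) = 0`. -/
def ZeroEnt {Y α : Type} [MeasurableSpace Y] (μ : Measure Y) (T : Y → Y) (P : Y → α) : Prop :=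
  ∀ η : ℝ≥0∞, 0 < η → ∃ C : ℝ≥0∞, C ≠ ∞ ∧ ∀ N : ℕ, Ent μ (itin T P N) ≤ C + N * η

/-- The level of `x`: least `k` such that `x` has a representative with entries `< 2^k`. -/
noncomputable def lev {n : ℕ} (x : X n) : ℕ :=
  sInf {k : ℕ | ∃ g : SL n, coset g = x ∧ ∀ p q, |mat g p q| < 2 ^ k}

/-- A lower bound for the injectivity radius at `x`. -/
noncomputable def rho {n : ℕ} (x : X n) : ℝ :=
  1 / (2 * ((n : ℝ) ^ 2 * (n.factorial : ℝ) + 1) * 2 ^ ((n + 1) * lev x))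

/-- `P` is a partition whose atoms have size `ε ρ`. -/
def Adapted {n : ℕ} (P : X n → ℕ) (ε : ℝ) : Prop :=
  ∀ x y, P x = P y → ∃ g : SL n, y = act x g ∧ Near g (ε * rho x)

/-- `σ` is a measurable section of `coset`. -/
def IsSec {n : ℕ} (σ : X n → SL n) : Prop := Measurable σ ∧ ∀ x, coset (σ x) = x

/-- The `Γ`-invariant lift of `μ` to `G`. -/
noncomputable def liftM {n : ℕ} (σ : X n → SL n) (μ : Measure (X n)) : Measure (SL n) :=
  Measure.sum fun γ : Gam n => μ.map fun x => (γ : SL n) * σ x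

/-- A measurable flow. -/
structure IsFlow {Y : Type} [MeasurableSpace Y] (φ : Y → ℝ → Y) : Prop where
  meas : Measurable (fun p : Y × ℝ => φ p.1 p.2)
  zero : ∀ y, φ y 0 = y
  add : ∀ y s t, φ (φ y s) t = φ y (s + t)

/-- Exactly covariant leafwise measures `ν` of `m` along the flow `φ` (upstairs). -/
structure Up {Y : Type} [MeasurableSpace Y] (φ : Y → ℝ → Y) (m : Measure Y)
    (ν : Kernel Y ℝ) : Prop where
  sfin : IsSFiniteKernel ν
  cov : ∀ y s, ν (φ y s) = (ν y).map (fun t => t - s)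
  dis : ∃ P : Measure Y, IsFiniteMeasure P ∧
    ∀ f : Y → ℝ≥0∞, Measurable f → ∫⁻ y, f y ∂m = ∫⁻ y, ∫⁻ t, f (φ y t) ∂(ν y) ∂P
  fin : ∀ᵐ y ∂m, ∀ R : ℝ, ν y (Ioo (-R) R) ≠ ∞
  pos : ∀ᵐ y ∂m, ∀ r : ℝ, 0 < r → ν y (Ioo (-r) r) ≠ 0

/-- `ν'` is a positive finite multiple of `ν`. -/
def Prp (ν' ν : Measure ℝ) : Prop := ∃ c : ℝ≥0∞, c ≠ 0 ∧ c ≠ ∞ ∧ ν' = c • ν

/-- Leafwise measures of `μ` along the root `(i,j)`, normalised by `ν x (-1,1) = 1`. -/
structure Leaf0 {n : ℕ} (μ : Measure (X n)) (i j : Fin n) where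
  ν : Kernel (X n) ℝ
  sfin : IsSFiniteKernel ν
  X1 : Set (X n)
  meas : MeasurableSet X1
  conull : μ X1ᶜ = 0
  fin : ∀ x ∈ X1, ∀ R : ℝ, ν x (Ioo (-R) R) ≠ ∞
  pos : ∀ x ∈ X1, ∀ r : ℝ, 0 < r → ν x (Ioo (-r) r) ≠ 0
  norm : ∀ x ∈ X1, ν x (Ioo (-1) 1) = 1
  shift : ∀ x ∈ X1, ∀ s : ℝ, act x (uu i j s) ∈ X1 →
    Prp (ν (act x (uu i j s))) ((ν x).map fun t => t - s)
  scale : ∀ (u : Fin n → ℝ) (hu : ∑ p, u p = 0), ∀ᵐ x ∂μ,
    Prp (ν (act x (diagA u hu))) ((ν x).map fun t => t * Real.exp (u j - u i))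
  mt : ∀ F : X n × ℝ → ℝ≥0∞, Measurable F →
    ∫⁻ x, ∫⁻ t, F (x, t) ∂(ν x) ∂μ =
      ∫⁻ x, ∫⁻ t, F (act x (uu i j t), -t) / ν x (Ioo (t - 1) (t + 1)) ∂(ν x) ∂μ

/-- Points where the leafwise average of the indicator of `N` over `(-R,R)` exceeds `ε` for
some `0 < R ≤ δ`. -/
def badMax {n : ℕ} (ν : Kernel (X n) ℝ) (i j : Fin n) (N : Set (X n)) (ε : ℝ≥0∞) (δ : ℝ) :
    Set (X n) :=
  {x | ∃ R : ℝ, 0 < R ∧ R ≤ δ ∧
    ε * ν x (Ioo (-R) R) < ν x {t | t ∈ Ioo (-R) R ∧ act x (uu i j t) ∈ N}}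

/-- Leafwise measures with the leafwise maximal inequality. -/
structure Leaf {n : ℕ} (μ : Measure (X n)) (i j : Fin n) extends Leaf0 μ i j where
  C : ℝ≥0∞
  hC : C ≠ ∞
  maxi : ∀ N : Set (X n), MeasurableSet N → ∀ ε : ℝ≥0∞, ε ≠ 0 → ε ≠ ∞ → ∀ δ : ℝ,
    ε * μ (badMax ν i j N ε δ) ≤ C * μ N

/-- The normalised Lebesgue measure, `Leb (-1,1) = 1`. -/
noncomputable def Leb : Measure ℝ := (2⁻¹ : ℝ≥0∞) • (volume : Measure ℝ)

/-- Vague continuity of a kernel on `K`. -/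
def VCont {Y : Type} [MeasurableSpace Y] [TopologicalSpace Y] (ν : Kernel Y ℝ) (K : Set Y) :
    Prop :=
  ∀ φ : ℝ → ℝ, Continuous φ → HasCompactSupport φ → ContinuousOn (fun x => ∫ t, φ t ∂(ν x)) K

/-- The conclusion of PEEL for the set of roots `T`. -/
def PeelSet {n : ℕ} (T : Set (Fin n × Fin n)) (X' : Set (X n)) : Prop :=
  ∀ x ∈ X', ∀ h : SL n, act x h ∈ X' → (∀ p, mat h p p = 1) →
    (∀ p q, p ≠ q → mat h p q ≠ 0 → (p, q) ∈ T) →
    (∃ τ : Fin n → ℝ, ∀ p q, p ≠ q → mat h p q ≠ 0 → τ q < τ p) → h = 1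

/-- The size of the part of `g` that does not commute with `E_{ab}`. -/
noncomputable def kap {n : ℕ} (a b : Fin n) (g : SL n) : ℝ :=
  max |mat g a a - mat g b b| (max √|mat g b a|
    ‖fun p : Fin n => if p ≠ a ∧ p ≠ b then max |mat g p a| |mat g b p| else 0‖)

/-- The weight `e_a - e_b`. -/
noncomputable def wab {n : ℕ} (a b : Fin n) : Fin n → ℝ := Pi.single a 1 - Pi.single b 1

lemma wab_sum {n : ℕ} (a b : Fin n) : ∑ p, wab a b p = 0 := by
  simp [wab, Finset.sum_sub_distrib]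

/-- `diag(e at a, e⁻¹ at b, 1 elsewhere)`; conjugation `cj (bet a b) g m` contracts `E_{ab}` by
`exp (-2 m)`. -/
noncomputable def bet {n : ℕ} (a b : Fin n) : SL n := diagA (wab a b) (wab_sum a b)

/-- The subgroup of matrices equal to the identity outside the block `C × C`. -/
def InBlock {n : ℕ} (C : Finset (Fin n)) (h : SL n) : Prop :=
  ∀ p q, ¬ (p ∈ C ∧ q ∈ C) → mat h p q = (1 : Matrix (Fin n) (Fin n) ℝ) p q

/-- Block diagonal for the blocks `C`, `Cᶜ`. -/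
def BlockDiag {n : ℕ} (C : Finset (Fin n)) (g : SL n) : Prop :=
  ∀ p q, ¬ (p ∈ C ↔ q ∈ C) → mat g p q = 0

end Vale.Agent.P007
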