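import Vale.Agent.P007.Defs

open Matrix MeasureTheory

namespace Vale.Agent.P007

/-- The right action of `SL_n(ℝ)` on `X_n`: `act (Γ g) h = Γ (g h)`. -/
def act {n : ℕ} (x : X n) (h : SpecialLinearGroup (Fin n) ℝ) : X n :=
  Quotient.map' (fun g : SpecialLinearGroup (Fin n) ℝ => g * h)
    (fun _ _ hab => by
      obtain ⟨γ, hγ⟩ := hab
      exact ⟨γ, by simp only [← hγ, Subgroup.smul_def, smul_eq_mul, mul_assoc]⟩) x

/-- The element `diag(e^{u_1}, …, e^{u_n})` of `A_n`, for `∑ u_j = 0`. -/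
noncomputable def diagA {n : ℕ} (u : Fin n → ℝ) (hu : ∑ j, u j = 0) :
    SpecialLinearGroup (Fin n) ℝ :=
  ⟨Matrix.diagonal fun j => Real.exp (u j), by
    rw [Matrix.det_diagonal, ← Real.exp_sum, hu, Real.exp_zero]⟩

end Vale.Agent.P007
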