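import Vale.Agent.P007.E.Core

/-!
P007 E, task UpEx: existence of covariant leafwise measures for a flow with a time coordinate.
`m` is σ-finite (the sets `C k` cover `Y`: take `R = 0`, `φ y 0 = y`); `w > 0` measurable with
finite integral from `exists_pos_lintegral_lt_of_sigmaFinite`. `b y = φ y (-τ y)`, so
`b (φ y s) = b y`, `φ (b y) (τ y) = y`. `ρ = (m.withDensity w).map (fun y => (b y, τ y))` is a
finite measure on `Y × ℝ`; `κ = ρ.condKernel`, `P = ρ.fst`, `ρ = P ⊗ₘ κ` (`Measure.disintegrate`).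
Define `ν y = (((κ (b y)).map (· - τ y)).withDensity fun t => (w (φ y t))⁻¹)` as a kernel
(`Kernel.map` of `Kernel.id ×ₖ κ.comap b`, then `Kernel.withDensity`; s-finite by
`IsSFiniteKernel.withDensity`). `cov` holds everywhere. `dis`: `P`-a.e. `y` satisfies `τ y = 0`,
`b y = y`; `∫ f dm = ∫ f (φ (b y) (τ y)) / w (…) d(w m) = ∫ ∫ f (φ y t) / w (φ y t) dκ dP`.
`fin`: by `dis` for the indicator of `C k`, `P`-a.e. `ν y {t | φ y t ∈ C k} < ∞` for all `k`; the
set `{y | ∀ R : ℕ, ν y (Ioo (-R) R) < ∞}` is measurable and flow invariant (`cov`), so `dis`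
transfers it to `m`. `pos`: for `r = 1/(l+1)`, `dis` for the indicator of
`{y | ν y (Ioo (-r) r) = 0}` and `ν y {t | ν y (Ioo (t-r) (t+r)) = 0} = 0`
(`measure_null_of_locally_null`).
-/

open Matrix MeasureTheory ProbabilityTheory Set Filter Topology
open scoped ENNReal

namespace Vale.Agent.P007

theorem up_dis {Y : Type} [MeasurableSpace Y] {φ : Y → ℝ → Y} (hφ : IsFlow φ)
    {τ : Y → ℝ} (hτ : Measurable τ) (hτφ : ∀ y s, τ (φ y s) = τ y + s) (m : Measure Y)
    [SigmaFinite m] : ∃ ν : Kernel Y ℝ, IsSFiniteKernel ν ∧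
      (∀ y s, ν (φ y s) = (ν y).map (fun t => t - s)) ∧ ∃ P : Measure Y, IsFiniteMeasure P ∧
      ∀ f : Y → ℝ≥0∞, Measurable f → ∫⁻ y, f y ∂m = ∫⁻ y, ∫⁻ t, f (φ y t) ∂(ν y) ∂P := by
  obtain ⟨w, w0, wm, wi⟩ := exists_pos_lintegral_lt_of_sigmaFinite m one_ne_zero
  have wm' : Measurable fun y => (w y : ℝ≥0∞) := wm.coe_nnreal_ennreal
  let b : Y → Y := fun y => φ y (-τ y)
  have hb : Measurable b := hφ.meas.comp (measurable_id.prodMk hτ.neg)
  have hbφ : ∀ y s, b (φ y s) = b y := fun y s => by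
    simp only [b, hφ.add, hτφ]
    congr 1
    ring
  have hφb : ∀ y, φ (b y) (τ y) = y := fun y => by
    simp only [b, hφ.add, neg_add_cancel, hφ.zero]
  have _ : IsFiniteMeasure (m.withDensity fun y => (w y : ℝ≥0∞)) :=
    isFiniteMeasure_withDensity (wi.trans ENNReal.one_lt_top).ne
  let ρ : Measure (Y × ℝ) := (m.withDensity fun y => (w y : ℝ≥0∞)).map fun y => (b y, τ y)
  have hd : Measurable (Function.uncurry fun y t => (w (φ y t) : ℝ≥0∞)⁻¹) :=
    (wm'.comp hφ.meas).inv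
  let ν0 : Kernel Y ℝ := ρ.condKernel.withDensity fun y t => (w (φ y t) : ℝ≥0∞)⁻¹
  have _ : IsSFiniteKernel ν0 := Kernel.IsSFiniteKernel.withDensity _ fun y t =>
    ENNReal.inv_ne_top.2 (ENNReal.coe_ne_zero.2 (w0 _).ne')
  have hs : Measurable fun p : Y × ℝ => p.2 - τ p.1 := measurable_snd.sub (hτ.comp measurable_fst)
  let ν : Kernel Y ℝ := (Kernel.id ×ₖ ν0.comap b hb).map fun p : Y × ℝ => p.2 - τ p.1
  have hν : ∀ y, ν y = (ν0 (b y)).map fun t => t - τ y := fun y => by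
    simp only [ν]
    rw [Kernel.map_apply _ hs, Kernel.prod_apply, Kernel.id_apply, Kernel.comap_apply,
      Measure.dirac_prod, Measure.map_map hs measurable_prodMk_left]
    rfl
  refine ⟨ν, inferInstance, fun y s => ?_, ρ.fst, inferInstance, fun f hf => ?_⟩
  · rw [hν, hν, hbφ, hτφ, Measure.map_map (measurable_sub_const _) (measurable_sub_const _)]
    congr 1
    funext t
    simp only [Function.comp_apply, sub_sub]
  · have hF : Measurable fun p : Y × ℝ => (w (φ p.1 p.2) : ℝ≥0∞)⁻¹ * f (φ p.1 p.2) :=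
      hd.mul (hf.comp hφ.meas)
    have h1 : ∫⁻ y, f y ∂m = ∫⁻ p, (w (φ p.1 p.2) : ℝ≥0∞)⁻¹ * f (φ p.1 p.2) ∂ρ := by
      rw [lintegral_map hF (hb.prodMk hτ)]
      simp only [hφb]
      refine Eq.trans (lintegral_congr fun y => ?_)
        (lintegral_withDensity_eq_lintegral_mul _ wm' (wm'.inv.mul hf)).symm
      rw [Pi.mul_apply, Pi.mul_apply, Pi.inv_apply, ← mul_assoc, ENNReal.mul_inv_cancel (ENNReal.coe_ne_zero.2 (w0 _).ne')
        ENNReal.coe_ne_top, one_mul]
    have h2 : ∀ᵐ y ∂ρ.fst, τ y = 0 := by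
      rw [Measure.fst_map_prodMk hτ]
      refine (ae_map_iff hb.aemeasurable (hτ (measurableSet_singleton 0))).2
        (Eventually.of_forall fun y => ?_)
      exact (hτφ _ _).trans (add_neg_cancel _)
    rw [h1]
    conv_lhs => rw [← ρ.disintegrate ρ.condKernel, Measure.lintegral_compProd hF]
    refine lintegral_congr_ae (h2.mono fun y hy => ?_)
    have h3 : b y = y := by simp only [b, hy, neg_zero, hφ.zero]
    have h4 : Measurable fun t => φ y t := hφ.meas.comp measurable_prodMk_left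
    simp only [hν, hy, h3, sub_zero, Measure.map_id', ν0]
    rw [Kernel.withDensity_apply _ hd]
    exact (lintegral_withDensity_eq_lintegral_mul _ (wm'.comp h4).inv (hf.comp h4)).symm

theorem up_exists {Y : Type} [MeasurableSpace Y] {φ : Y → ℝ → Y} (hφ : IsFlow φ)
    {τ : Y → ℝ} (hτ : Measurable τ) (hτφ : ∀ y s, τ (φ y s) = τ y + s) (m : Measure Y)
    {C : ℕ → Set Y} (hC : ∀ k, MeasurableSet (C k)) (hCm : ∀ k, m (C k) ≠ ∞)
    (hcov : ∀ y (R : ℝ), ∃ k, ∀ t ∈ Icc (-R) R, φ y t ∈ C k) :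
    ∃ ν : Kernel Y ℝ, Up φ m ν := by
  have _ : SigmaFinite m := ⟨⟨⟨C, fun _ => trivial, fun k => (hCm k).lt_top,
    eq_univ_of_forall fun y => by
      obtain ⟨k, hk⟩ := hcov y 0
      exact mem_iUnion.2 ⟨k, hφ.zero y ▸ hk 0 (by simp)⟩⟩⟩⟩
  obtain ⟨ν, hs, hc, P, hP, hd⟩ := up_dis hφ hτ hτφ m
  have h4 : ∀ y, Measurable fun t => φ y t := fun y => hφ.meas.comp measurable_prodMk_left
  have key : ∀ B : Set Y, MeasurableSet B → m B = ∫⁻ y, ν y {t | φ y t ∈ B} ∂P := by
    intro B hB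
    rw [← lintegral_indicator_one hB, hd _ (measurable_one.indicator hB)]
    refine lintegral_congr fun y => ?_
    rw [← lintegral_indicator_one (s := {t | φ y t ∈ B}) (h4 y hB)]
    rfl
  have hc' : ∀ y s (r : ℝ), ν (φ y s) (Ioo (-r) r) = ν y ((fun t => t - s) ⁻¹' Ioo (-r) r) :=
    fun y s r => by rw [hc, Measure.map_apply (measurable_sub_const s) measurableSet_Ioo]
  refine ⟨ν, hs, hc, ⟨P, hP, hd⟩, ?_, ?_⟩
  · have h1 : ∀ᵐ y ∂P, ∀ k, ν y {t | φ y t ∈ C k} < ∞ := ae_all_iff.2 fun k =>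
      ae_lt_top (Kernel.measurable_kernel_prodMk_left (hφ.meas (hC k))) (key _ (hC k) ▸ hCm k)
    have h2 : ∀ R : ℕ, ∀ᵐ y ∂m, ν y (Ioo (-(R : ℝ)) R) ≠ ∞ := fun R => by
      rw [ae_iff, key {y | ¬ ν y (Ioo (-(R : ℝ)) R) ≠ ∞}
        ((ν.measurable_coe measurableSet_Ioo (measurableSet_singleton ∞)).compl.compl)]
      refine (lintegral_congr_ae (h1.mono fun y hy => ?_)).trans lintegral_zero
      refine measure_mono_null (t := ∅) (fun s hs => hs ?_) measure_empty
      obtain ⟨k, hk⟩ := hcov y (R + |s|)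
      rw [hc']
      refine ne_top_of_le_ne_top (hy k).ne (measure_mono fun t ht => hk t ⟨?_, ?_⟩)
      · linarith [ht.1, neg_abs_le s]
      · linarith [ht.2, le_abs_self s]
    filter_upwards [ae_all_iff.2 h2] with y hy R
    obtain ⟨N, hN⟩ := exists_nat_ge R
    exact ne_top_of_le_ne_top (hy N) (measure_mono (Ioo_subset_Ioo (neg_le_neg hN) hN))
  · have h2 : ∀ r : ℝ, 0 < r → ∀ᵐ y ∂m, ν y (Ioo (-r) r) ≠ 0 := fun r hr => by
      rw [ae_iff, key {y | ¬ ν y (Ioo (-r) r) ≠ 0}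
        ((ν.measurable_coe measurableSet_Ioo (measurableSet_singleton 0)).compl.compl)]
      refine (lintegral_congr fun y => ?_).trans lintegral_zero
      refine measure_null_of_locally_null _ fun s hs => ⟨(fun t => t - s) ⁻¹' Ioo (-r) r,
        mem_nhdsWithin_of_mem_nhds ?_, ?_⟩
      · refine (isOpen_Ioo.preimage (continuous_sub_right s)).mem_nhds ?_
        simp [hr]
      · rw [← hc']
        exact not_not.1 hs
    filter_upwards [ae_all_iff.2 fun l : ℕ => h2 _ (Nat.one_div_pos_of_nat (n := l))] with y hy r hr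
    obtain ⟨l, hl⟩ := exists_nat_one_div_lt hr
    exact fun h => hy l (measure_mono_null (Ioo_subset_Ioo (neg_le_neg hl.le) hl.le) h)

end Vale.Agent.P007
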