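import Vale.Agent.P007.E.Core

/-!
P007 E, task UpUniq: mass transport identity and uniqueness of leafwise measures.
`Up.mt`: by `dis` and `cov` both sides equal `∫ P(dy) ∫ ν y (ds) ∫ ν y (dt) F (φ y s, t - s)`
after Tonelli (`lintegral_lintegral_swap`; `ν y` is s-finite). Measurability:
`Measurable.lintegral_kernel_prod_right`.
`Up.uniq`: let `J H = ∫ m(dy) ∫ ν y (dt) ∫ ν' y (ds) H (y,t,s)`. `mt` for `ν` and `cov` for `ν'`
give `J H = J (H ∘ T1)`, `T1 (y,t,s) = (φ y t, -t, s - t)`; symmetrically `J H = J (H ∘ T2)`,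
`T2 (y,t,s) = (φ y s, t - s, -s)`; `T1 ∘ T2 ∘ T1 (y,t,s) = (y,s,t)`. With
`H = 1_S(y) 1_A(t) 1_B(s)` and `ae_eq_of_forall_setLIntegral_eq_of_sigmaFinite`:
a.e. `ν y A * ν' y B = ν y B * ν' y A` for all rational open intervals `A, B`. With
`B = (-1,1)` and `Real.measure_ext_Ioo_rat` get `ν' y = (ν' y B / ν y B) • ν y`.
`Up.transport`: `ν'' y = (ν (e y)).map (· / lam)` satisfies `Up φ m ν''` (with `P` replaced by
`P.map e.symm`); apply `Up.uniq`.
-/

open Matrix MeasureTheory ProbabilityTheory Set Filter Topology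
open scoped ENNReal

namespace Vale.Agent.P007

variable {Y : Type} [MeasurableSpace Y] {φ : Y → ℝ → Y} {m : Measure Y} {ν ν' : Kernel Y ℝ}

lemma Prp.refl (a : Measure ℝ) : Prp a a := ⟨1, one_ne_zero, ENNReal.one_ne_top, (one_smul _ _).symm⟩

lemma Prp.symm {a b : Measure ℝ} (h : Prp a b) : Prp b a := by
  obtain ⟨c, h0, h1, rfl⟩ := h
  refine ⟨c⁻¹, ENNReal.inv_ne_zero.2 h1, ENNReal.inv_ne_top.2 h0, ?_⟩
  rw [smul_smul, ENNReal.inv_mul_cancel h0 h1, one_smul]

lemma Prp.trans {a b c : Measure ℝ} (h : Prp a b) (h' : Prp b c) : Prp a c := by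
  obtain ⟨d, h0, h1, rfl⟩ := h
  obtain ⟨e, k0, k1, rfl⟩ := h'
  exact ⟨d * e, mul_ne_zero h0 k0, ENNReal.mul_ne_top h1 k1, smul_smul _ _ _⟩

lemma Prp.map {a b : Measure ℝ} (h : Prp a b) (f : ℝ → ℝ) : Prp (a.map f) (b.map f) := by
  obtain ⟨c, h0, h1, rfl⟩ := h
  exact ⟨c, h0, h1, Measure.map_smul _ _ _⟩

/-- Proportional measures with the same positive finite mass on a set are equal. -/
lemma Prp.eq_of_norm {a b : Measure ℝ} (h : Prp a b) (ha : a (Ioo (-1) 1) = 1)
    (hb : b (Ioo (-1) 1) = 1) : a = b := by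
  obtain ⟨c, -, -, rfl⟩ := h
  rw [Measure.smul_apply, hb, smul_eq_mul, mul_one] at ha
  rw [ha, one_smul]

theorem Up.lintegral_cov (h : Up φ m ν) (y : Y) (s : ℝ) {g : ℝ → ℝ≥0∞} (hg : Measurable g) :
    ∫⁻ t, g t ∂(ν (φ y s)) = ∫⁻ t, g (t - s) ∂(ν y) := by
  rw [h.cov, lintegral_map hg (measurable_id'.sub_const s)]

theorem Up.mt (hφ : IsFlow φ) (h : Up φ m ν) {F : Y × ℝ → ℝ≥0∞} (hF : Measurable F) :
    ∫⁻ y, ∫⁻ t, F (y, t) ∂(ν y) ∂m = ∫⁻ y, ∫⁻ t, F (φ y t, -t) ∂(ν y) ∂m := by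
  have := h.sfin
  obtain ⟨P, -, hP⟩ := h.dis
  have hF2 : Measurable fun p : Y × ℝ => F (φ p.1 p.2, -p.2) :=
    hF.comp (hφ.meas.prodMk measurable_snd.neg)
  rw [hP _ (hF.lintegral_kernel_prod_right' (κ := ν)),
    hP _ (hF2.lintegral_kernel_prod_right' (κ := ν))]
  refine lintegral_congr fun y => ?_
  have hy : Measurable (φ y) := hφ.meas.comp (measurable_const.prodMk measurable_id)
  have e1 : ∀ s, ∫⁻ t, F (φ y s, t) ∂(ν (φ y s)) = ∫⁻ t, F (φ y s, t - s) ∂(ν y) := fun s =>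
    h.lintegral_cov y s (hF.comp (measurable_const.prodMk measurable_id))
  have e2 : ∀ s, ∫⁻ t, F (φ (φ y s) t, -t) ∂(ν (φ y s)) = ∫⁻ t, F (φ y t, s - t) ∂(ν y) := by
    intro s
    rw [h.lintegral_cov y s (g := fun t => F (φ (φ y s) t, -t))
      (hF2.comp (measurable_const.prodMk measurable_id))]
    simp only [hφ.add, add_sub_cancel, neg_sub]
  simp only [e1, e2]
  refine lintegral_lintegral_swap (f := fun s t => F (φ y s, t - s)) (Measurable.aemeasurable ?_)
  exact hF.comp ((hy.comp measurable_fst).prodMk (measurable_snd.sub measurable_fst))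

/-- the triple integral -/
noncomputable def upJ (m : Measure Y) (ν ν' : Kernel Y ℝ) (H : Y × ℝ × ℝ → ℝ≥0∞) : ℝ≥0∞ :=
  ∫⁻ y, ∫⁻ t, ∫⁻ s, H (y, t, s) ∂(ν' y) ∂(ν y) ∂m

theorem upJ_swap (h : Up φ m ν) (h' : Up φ m ν') {H : Y × ℝ × ℝ → ℝ≥0∞} (hH : Measurable H) :
    upJ m ν ν' H = upJ m ν' ν (fun p => H (p.1, p.2.2, p.2.1)) := by
  have := h.sfin
  have := h'.sfin
  refine lintegral_congr fun y => ?_
  refine lintegral_lintegral_swap (f := fun t s => H (y, t, s)) (Measurable.aemeasurable ?_)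
  exact hH.comp (measurable_const.prodMk measurable_id)

theorem upJ_T1 (hφ : IsFlow φ) (h : Up φ m ν) (h' : Up φ m ν') {H : Y × ℝ × ℝ → ℝ≥0∞}
    (hH : Measurable H) :
    upJ m ν ν' H = upJ m ν ν' (fun p => H (φ p.1 p.2.1, -p.2.1, p.2.2 - p.2.1)) := by
  have := h'.sfin
  have h1 : Measurable fun q : (Y × ℝ) × ℝ => H (q.1.1, q.1.2, q.2) :=
    hH.comp (measurable_fst.fst.prodMk (measurable_fst.snd.prodMk measurable_snd))
  have h2 : Measurable fun p : Y × ℝ => ∫⁻ s, H (p.1, p.2, s) ∂(ν' p.1) :=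
    h1.lintegral_kernel_prod_right' (κ := ν'.comap Prod.fst measurable_fst)
  refine (h.mt hφ h2).trans (lintegral_congr fun y => lintegral_congr fun t => ?_)
  exact h'.lintegral_cov y t (g := fun s => H (φ y t, -t, s))
    (hH.comp (measurable_const.prodMk (measurable_const.prodMk measurable_id)))

theorem upJ_symm (hφ : IsFlow φ) (h : Up φ m ν) (h' : Up φ m ν') {H : Y × ℝ × ℝ → ℝ≥0∞}
    (hH : Measurable H) : upJ m ν ν' H = upJ m ν ν' (fun p => H (p.1, p.2.2, p.2.1)) := by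
  have m1 : Measurable fun p : Y × ℝ × ℝ => (φ p.1 p.2.1, -p.2.1, p.2.2 - p.2.1) :=
    (hφ.meas.comp (measurable_fst.prodMk measurable_snd.fst)).prodMk
      (measurable_snd.fst.neg.prodMk (measurable_snd.snd.sub measurable_snd.fst))
  have m2 : Measurable fun p : Y × ℝ × ℝ => (p.1, p.2.2, p.2.1) :=
    measurable_fst.prodMk (measurable_snd.snd.prodMk measurable_snd.fst)
  refine (upJ_T1 hφ h h' hH).trans ((upJ_swap h h' (hH.comp m1)).trans
    ((upJ_T1 hφ h' h ((hH.comp m1).comp m2)).trans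
    ((upJ_swap h' h (((hH.comp m1).comp m2).comp m1)).trans
    ((upJ_T1 hφ h h' ((((hH.comp m1).comp m2).comp m1).comp m2)).trans ?_))))
  congr 1
  funext p
  obtain ⟨y, t, s⟩ := p
  simp only [Function.comp_apply, hφ.add]
  congr 1
  refine Prod.ext ?_ (Prod.ext ?_ ?_)
  · show φ y _ = y
    rw [show t + (s - t) + (-t - (s - t)) = 0 by ring, hφ.zero]
  · show _ = s
    ring
  · show _ = t
    ring

theorem upJ_ind (m : Measure Y) (ν ν' : Kernel Y ℝ) {S : Set Y} (hS : MeasurableSet S)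
    {A B : Set ℝ} (hA : MeasurableSet A) (hB : MeasurableSet B) :
    upJ m ν ν' (fun p => S.indicator 1 p.1 * (A.indicator 1 p.2.1 * B.indicator 1 p.2.2)) =
      ∫⁻ y in S, ν y A * ν' y B ∂m := by
  rw [← lintegral_indicator hS]
  refine lintegral_congr fun y => ?_
  by_cases hy : y ∈ S
  · simp only [indicator_of_mem hy, Pi.one_apply, one_mul]
    have e1 : ∀ t, ∫⁻ s, A.indicator (1 : ℝ → ℝ≥0∞) t * B.indicator 1 s ∂(ν' y) =
        A.indicator 1 t * ν' y B := fun t => by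
      rw [lintegral_const_mul _ (measurable_one.indicator hB), lintegral_indicator_one hB]
    simp only [e1]
    rw [lintegral_mul_const _ (measurable_one.indicator hA), lintegral_indicator_one hA]
  · simp [indicator_of_notMem hy]

theorem up_cross [SigmaFinite m] (hφ : IsFlow φ) (h : Up φ m ν) (h' : Up φ m ν') {A B : Set ℝ}
    (hA : MeasurableSet A) (hB : MeasurableSet B) :
    ∀ᵐ y ∂m, ν y A * ν' y B = ν y B * ν' y A := by
  refine ae_eq_of_forall_setLIntegral_eq_of_sigmaFinite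
    ((ν.measurable_coe hA).mul (ν'.measurable_coe hB))
    ((ν.measurable_coe hB).mul (ν'.measurable_coe hA)) fun S hS _ => ?_
  rw [← upJ_ind m ν ν' hS hA hB, ← upJ_ind m ν ν' hS hB hA, upJ_symm hφ h h']
  · congr 1
    funext p
    rw [mul_comm (A.indicator 1 _)]
  · exact ((measurable_one.indicator hS).comp measurable_fst).mul
      (((measurable_one.indicator hA).comp measurable_snd.fst).mul
        ((measurable_one.indicator hB).comp measurable_snd.snd))

theorem Up.uniq [SigmaFinite m] (hφ : IsFlow φ) (h : Up φ m ν) (h' : Up φ m ν') :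
    ∀ᵐ y ∂m, Prp (ν' y) (ν y) := by
  have h1 : ∀ᵐ y ∂m, ∀ q : ℚ × ℚ, ν y (Ioo q.1 q.2) * ν' y (Ioo (-1) 1) =
      ν y (Ioo (-1) 1) * ν' y (Ioo q.1 q.2) :=
    ae_all_iff.2 fun q => up_cross hφ h h' measurableSet_Ioo measurableSet_Ioo
  filter_upwards [h1, h.fin, h.pos, h'.fin, h'.pos] with y a1 a2 a3 a4 a5
  have b1 := a2 1
  have b2 := a3 1 one_pos
  have b3 := a4 1
  have b4 := a5 1 one_pos
  have : IsLocallyFiniteMeasure (ν' y) := ⟨fun x =>
    ⟨Ioo (-(|x| + 1)) (|x| + 1),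
      Ioo_mem_nhds (by linarith [neg_abs_le x]) (by linarith [le_abs_self x]),
      lt_top_iff_ne_top.2 (a4 _)⟩⟩
  refine ⟨ν' y (Ioo (-1) 1) * (ν y (Ioo (-1) 1))⁻¹, mul_ne_zero b4 (ENNReal.inv_ne_zero.2 b1),
    ENNReal.mul_ne_top b3 (ENNReal.inv_ne_top.2 b2), Real.measure_ext_Ioo_rat fun a b => ?_⟩
  have c1 := a1 (a, b)
  rw [Measure.smul_apply, smul_eq_mul]
  calc ν' y (Ioo (a : ℝ) b)
      = (ν y (Ioo (-1) 1))⁻¹ * (ν y (Ioo (-1) 1) * ν' y (Ioo (a : ℝ) b)) := by
        rw [← mul_assoc, ENNReal.inv_mul_cancel b2 b1, one_mul]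
    _ = _ := by
        rw [← c1]
        ring

theorem Up.transport [SigmaFinite m] (hφ : IsFlow φ) (h : Up φ m ν) (e : Y ≃ᵐ Y)
    (he : m.map e = m) {lam : ℝ} (hl : 0 < lam) (hc : ∀ y t, e (φ y t) = φ (e y) (t * lam)) :
    ∀ᵐ y ∂m, Prp (ν (e y)) ((ν y).map fun t => t * lam) := by
  have := h.sfin
  have md : Measurable fun t : ℝ => t / lam := measurable_id'.div_const lam
  have mm : Measurable fun t : ℝ => t * lam := measurable_id'.mul_const lam
  let κ : Kernel Y ℝ := (ν.comap e e.measurable).map fun t => t / lam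
  have hκ : ∀ y, κ y = (ν (e y)).map fun t => t / lam := fun y => Kernel.map_apply _ md y
  have hI : ∀ y R, κ y (Ioo (-R) R) = ν (e y) (Ioo (-(R * lam)) (R * lam)) := by
    intro y R
    rw [hκ, Measure.map_apply md measurableSet_Ioo]
    congr 1
    ext t
    simp only [mem_preimage, mem_Ioo, lt_div_iff₀ hl, div_lt_iff₀ hl, neg_mul]
  have hU : Up φ m κ := by
    refine ⟨inferInstance, fun y s => ?_, ?_, ?_, ?_⟩
    · rw [hκ, hκ, hc, h.cov, Measure.map_map md (measurable_id'.sub_const _),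
        Measure.map_map (measurable_id'.sub_const _) md]
      congr 1
      funext t
      simp only [Function.comp_apply]
      field_simp
    · obtain ⟨P, hP0, hP⟩ := h.dis
      refine ⟨P.map e.symm, inferInstance, fun f hf => ?_⟩
      have h1 : ∫⁻ y, f y ∂m = ∫⁻ y, f (e.symm y) ∂m := by
        conv_rhs => rw [← he, lintegral_map_equiv]
        simp only [MeasurableEquiv.symm_apply_apply]
      rw [h1, hP (fun y => f (e.symm y)) (hf.comp e.symm.measurable), lintegral_map_equiv]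
      refine lintegral_congr fun y => ?_
      have hy : Measurable (φ (e.symm y)) :=
        hφ.meas.comp (measurable_const.prodMk measurable_id)
      rw [hκ, lintegral_map (f := fun t => f (φ (e.symm y) t)) (hf.comp hy) md,
        MeasurableEquiv.apply_symm_apply]
      refine lintegral_congr fun t => ?_
      congr 1
      apply e.injective
      rw [hc, MeasurableEquiv.apply_symm_apply, MeasurableEquiv.apply_symm_apply,
        div_mul_cancel₀ _ hl.ne']
    · have h1 := h.fin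
      rw [← he] at h1
      filter_upwards [ae_of_ae_map e.measurable.aemeasurable h1] with y hy R
      rw [hI]
      exact hy _
    · have h1 := h.pos
      rw [← he] at h1
      filter_upwards [ae_of_ae_map e.measurable.aemeasurable h1] with y hy r hr
      rw [hI]
      exact hy _ (mul_pos hr hl)
  filter_upwards [h.uniq hφ hU] with y hy
  have h1 := hy.map fun t => t * lam
  rw [hκ, Measure.map_map mm md] at h1
  have h2 : ((fun t : ℝ => t * lam) ∘ fun t : ℝ => t / lam) = id := by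
    funext t
    exact div_mul_cancel₀ _ hl.ne'
  rw [h2, Measure.map_id] at h1
  exact h1

end Vale.Agent.P007
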