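import Vale.Agent.P007.E.Lift
import Vale.Agent.P007.E.UpEx
import Vale.Agent.P007.E.UpUniq

/-!
P007 E, task Down1: leafwise measures on `X n`.
`exists_up`: `up_exists` for `φ g t = g * uu i j t`, `τ g = g p j / g p i` with `p` the least row
with `mat g p i ≠ 0` (column `i` of an invertible matrix is nonzero and is unchanged by `φ`,
column `j` changes by `t` times column `i`), `C k = {|g p q| ≤ k}` (`isCompact_bdd`,
`liftM_compact`).
`exists_leaf0`: `ν x = (νu (σ x) (Ioo (-1) 1))⁻¹ • νu (σ x)` (kernel: `Kernel.withDensity` of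
`νu.comap σ` by a finite density, e.g. `1` where the mass is `0`). `Up.transport` with
`e = (γ * ·)`, `lam = 1` (`liftM_left`): a.e. `Prp (νu (γ g)) (νu g)` for all `γ`. `X1` is a
measurable conull set on which for all `γ`: `Prp (νu (γ σ x)) (νu (σ x))`, `fin`, `pos` hold
(`ae_of_ae_liftM`). `shift`: `σ x * uu s = γ * σ (act x (uu s))` (`IsSec.exists_gam`), use
`Prp` at `act x (uu s) ∈ X1` and `cov`. `scale`: `Up.transport` with `e = (· * diagA u)`
(`liftM_right`, `conj_diagA_uu`), and a.e. `act x a ∈ X1`. `mt`: apply `Up.mt` to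
`F' (g,t) = 1_{range σ} g * F (coset g, t) / νu g (Ioo (-1) 1)`; left side by
`lintegral_liftM_range`; right side by `lintegral_liftM`, `cov`
(`νu (g uu t) (Ioo (-1) 1) = νu g (Ioo (t-1) (t+1))`), homogeneity in `νu (γ σ x)`, and
`∑' γ, 1_{range σ} (γ g) = 1` (`IsSec.existsUnique_mem`).
-/

open Matrix MeasureTheory ProbabilityTheory Set Filter Topology
open scoped ENNReal

namespace Vale.Agent.P007

variable {n : ℕ}

lemma isFlow_uu (i j : Fin n) : IsFlow (fun (g : SL n) (t : ℝ) => g * uu i j t) := by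
  refine ⟨?_, fun y => by simp only [uu_zero, mul_one], fun y s t => by
    simp only [uu_add, mul_assoc]⟩
  exact (continuous_fst.mul ((continuous_uu i j).comp continuous_snd)).measurable

lemma sigmaFinite_liftM {σ : X n → SL n} (hσ : IsSec σ) (μ : Measure (X n)) [IsFiniteMeasure μ] :
    SigmaFinite (liftM σ μ) := by
  have : IsFiniteMeasureOnCompacts (liftM σ μ) :=
    ⟨fun K hK => lt_top_iff_ne_top.2 (liftM_compact hσ hK)⟩
  infer_instance

lemma mat_mul_uu_Down1 {i j : Fin n} (hij : i ≠ j) (g : SL n) (t : ℝ) (p q : Fin n) :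
    mat (g * uu i j t) p q = mat g p q + if q = j then mat g p i * t else 0 := by
  rw [mat_mul, mat_uu hij, Matrix.mul_add, Matrix.mul_one, Matrix.add_apply]
  congr 1
  split_ifs with h
  · subst h
    exact Matrix.mul_single_apply_same _ _ _ _ _
  · exact Matrix.mul_single_apply_of_ne _ _ _ _ _ h _

lemma col_pos_Down1 (g : SL n) (i : Fin n) : 0 < ∑ p, mat g p i ^ 2 := by
  by_contra h
  have h0 : ∑ p, mat g p i ^ 2 = 0 :=
    le_antisymm (not_lt.1 h) (Finset.sum_nonneg fun p _ => sq_nonneg _)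
  rw [Finset.sum_eq_zero_iff_of_nonneg fun p _ => sq_nonneg _] at h0
  have h1 := congrFun (congrFun (mat_inv_mul g) i) i
  rw [Matrix.mul_apply, Finset.sum_eq_zero fun p _ => by
    rw [pow_eq_zero_iff two_ne_zero |>.1 (h0 p (Finset.mem_univ p)), mul_zero]] at h1
  simp at h1

theorem exists_up {σ : X n → SL n} (hσ : IsSec σ) (μ : Measure (X n)) [IsFiniteMeasure μ]
    {i j : Fin n} (hij : i ≠ j) :
    ∃ νu : Kernel (SL n) ℝ, Up (fun (g : SL n) (t : ℝ) => g * uu i j t) (liftM σ μ) νu := by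
  have hc : ∀ p q, Continuous fun g : SL n => mat g p q := fun p q =>
    continuous_mat.matrix_elem p q
  refine up_exists (isFlow_uu i j)
    (τ := fun g => (∑ p, mat g p j * mat g p i) / ∑ p, mat g p i ^ 2) ?_ ?_ (liftM σ μ)
    (C := fun k => {g : SL n | ∀ p q, |mat g p q| ≤ (k : ℝ)})
    (fun k => (isCompact_bdd _).measurableSet) (fun k => liftM_compact hσ (isCompact_bdd _)) ?_
  · exact (continuous_finsetSum _ fun p _ => (hc p j).mul (hc p i)).measurable.div
      (continuous_finsetSum _ fun p _ => (hc p i).pow 2).measurable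
  · intro y s
    simp only [mat_mul_uu_Down1 hij, if_true, if_neg hij, add_zero]
    have := (col_pos_Down1 y i).ne'
    rw [div_add' _ _ _ this, Finset.mul_sum, ← Finset.sum_add_distrib]
    congr 1
    exact Finset.sum_congr rfl fun p _ => by ring
  · intro y R
    obtain ⟨k, hk⟩ := exists_nat_ge ((∑ p, ∑ q, |mat y p q|) * (1 + |R|))
    have hb : ∀ p q, |mat y p q| ≤ ∑ p, ∑ q, |mat y p q| := fun p q =>
      (Finset.single_le_sum (f := fun q => |mat y p q|) (fun _ _ => abs_nonneg _)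
        (Finset.mem_univ q)).trans (Finset.single_le_sum (f := fun p => ∑ q, |mat y p q|)
        (fun _ _ => Finset.sum_nonneg fun _ _ => abs_nonneg _) (Finset.mem_univ p))
    refine ⟨k, fun t ht p q => ?_⟩
    have ht' : |t| ≤ |R| := abs_le.2 ⟨by linarith [ht.1, le_abs_self R], ht.2.trans (le_abs_self R)⟩
    rw [mat_mul_uu_Down1 hij]
    refine le_trans ?_ hk
    have h1 := hb p q
    have h2 : |if q = j then mat y p i * t else 0| ≤ (∑ p, ∑ q, |mat y p q|) * |R| := by
      split_ifs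
      · rw [abs_mul]
        exact mul_le_mul (hb p i) ht' (abs_nonneg _) ((abs_nonneg _).trans h1)
      · rw [abs_zero]
        exact mul_nonneg ((abs_nonneg _).trans h1) (abs_nonneg _)
    linarith [abs_add_le (mat y p q) (if q = j then mat y p i * t else 0)]

lemma Prp.lintegral_div_Down1 {a b : Measure ℝ} (h : Prp a b) (G : ℝ → ℝ≥0∞) (J : ℝ → Set ℝ) :
    ∫⁻ t, G t / a (J t) ∂a = ∫⁻ t, G t / b (J t) ∂b := by
  obtain ⟨c, c0, c1, rfl⟩ := h
  rw [lintegral_smul_measure, smul_eq_mul, ← lintegral_const_mul' _ _ c1]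
  refine lintegral_congr fun t => ?_
  rw [Measure.smul_apply, smul_eq_mul, ← mul_div_assoc, ENNReal.mul_div_mul_left _ _ c0 c1]

lemma map_Ioo_Down1 (a : Measure ℝ) (t : ℝ) :
    (a.map fun s => s - t) (Ioo (-1) 1) = a (Ioo (t - 1) (t + 1)) := by
  rw [Measure.map_apply (by fun_prop) measurableSet_Ioo]
  congr 1
  ext s
  simp only [mem_preimage, mem_Ioo]
  constructor <;> rintro ⟨h1, h2⟩ <;> constructor <;> linarith

lemma act_sec_Down1 {σ : X n → SL n} (hσ : IsSec σ) (x : X n) (h : SL n) :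
    act x h = coset (σ x * h) := by
  rw [← act_coset, hσ.2]

lemma exists_gam_Down1 {σ : X n → SL n} (hσ : IsSec σ) (x : X n) (h : SL n) :
    ∃ γ : Gam n, (γ : SL n) * σ (act x h) = σ x * h := by
  obtain ⟨γ, hγ⟩ := hσ.exists_gam (σ x * h)
  refine ⟨γ⁻¹, ?_⟩
  rw [act_sec_Down1 hσ, hγ, ← mul_assoc, Subgroup.coe_inv, inv_mul_cancel, one_mul]

lemma mt_Down1 {σ : X n → SL n} (hσ : IsSec σ) {μ : Measure (X n)} {i j : Fin n}
    {νu : Kernel (SL n) ℝ} (hU : Up (fun (g : SL n) (t : ℝ) => g * uu i j t) (liftM σ μ) νu)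
    (hP : ∀ᵐ x ∂μ, ∀ γ : Gam n, Prp (νu ((γ : SL n) * σ x)) (νu (σ x)))
    {F : X n × ℝ → ℝ≥0∞} (hF : Measurable F) :
    ∫⁻ x, ∫⁻ t, F (x, t) / νu (σ x) (Ioo (-1) 1) ∂(νu (σ x)) ∂μ =
      ∫⁻ x, ∫⁻ t, F (act x (uu i j t), -t) / νu (σ x) (Ioo (t - 1) (t + 1)) ∂(νu (σ x)) ∂μ := by
  have := hU.sfin
  have hN : Measurable fun g : SL n => νu g (Ioo (-1) 1) := νu.measurable_coe measurableSet_Ioo
  have hG : Measurable fun p : SL n × ℝ => F (coset p.1, p.2) / νu p.1 (Ioo (-1) 1) :=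
    (hF.comp ((measurable_coset.comp measurable_fst).prodMk measurable_snd)).div
      (hN.comp measurable_fst)
  have hF' : Measurable fun p : SL n × ℝ => (Prod.fst ⁻¹' range σ).indicator
      (fun p : SL n × ℝ => F (coset p.1, p.2) / νu p.1 (Ioo (-1) 1)) p :=
    hG.indicator (measurable_fst hσ.measurableSet_range)
  have hφ : Measurable fun p : SL n × ℝ => (p.1 * uu i j p.2, -p.2) :=
    (isFlow_uu i j).meas.prodMk measurable_snd.neg
  have key := hU.mt (isFlow_uu i j) hF'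
  have e1 : ∫⁻ g, ∫⁻ t, (Prod.fst ⁻¹' range σ).indicator
      (fun p : SL n × ℝ => F (coset p.1, p.2) / νu p.1 (Ioo (-1) 1)) (g, t) ∂(νu g) ∂(liftM σ μ) =
      ∫⁻ x, ∫⁻ t, F (x, t) / νu (σ x) (Ioo (-1) 1) ∂(νu (σ x)) ∂μ := by
    have h1 := lintegral_liftM_range (μ := μ) hσ (hG.lintegral_kernel_prod_right' (κ := νu))
    simp only [hσ.2] at h1
    rw [← h1]
    refine lintegral_congr fun g => ?_
    by_cases hg : g ∈ range σ
    · rw [indicator_of_mem hg]
      exact lintegral_congr fun t => indicator_of_mem (show (g, t) ∈ Prod.fst ⁻¹' range σ from hg) _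
    · rw [indicator_of_notMem hg]
      refine (lintegral_congr fun t => indicator_of_notMem
        (show (g, t) ∉ Prod.fst ⁻¹' range σ from hg) _).trans lintegral_zero
  rw [← e1, key]
  refine (lintegral_liftM hσ ((hF'.comp hφ).lintegral_kernel_prod_right' (κ := νu))).trans
    (lintegral_congr_ae ?_)
  filter_upwards [hP] with x hx
  have e2 : ∀ γ : Gam n, ∫⁻ t, (Prod.fst ⁻¹' range σ).indicator
      (fun p : SL n × ℝ => F (coset p.1, p.2) / νu p.1 (Ioo (-1) 1))
        ((γ : SL n) * σ x * uu i j t, -t) ∂(νu ((γ : SL n) * σ x)) =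
      ∫⁻ t, (range σ).indicator (fun _ => F (act x (uu i j t), -t))
        ((γ : SL n) * (σ x * uu i j t)) / νu (σ x) (Ioo (t - 1) (t + 1)) ∂(νu (σ x)) := by
    intro γ
    rw [← (hx γ).lintegral_div_Down1 _ fun t => Ioo (t - 1) (t + 1)]
    refine lintegral_congr fun t => ?_
    by_cases hg : (γ : SL n) * (σ x * uu i j t) ∈ range σ
    · rw [indicator_of_mem hg, indicator_of_mem (show ((γ : SL n) * σ x * uu i j t, -t) ∈
        Prod.fst ⁻¹' range σ by rw [mul_assoc]; exact hg)]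
      simp only
      rw [hU.cov, map_Ioo_Down1, mul_assoc, coset_gam_mul, act_sec_Down1 hσ]
    · rw [indicator_of_notMem hg, indicator_of_notMem (show ((γ : SL n) * σ x * uu i j t, -t) ∉
        Prod.fst ⁻¹' range σ by rw [mul_assoc]; exact hg), ENNReal.zero_div]
  refine (tsum_congr e2).trans ?_
  have hu : Measurable fun t : ℝ => σ x * uu i j t :=
    (continuous_const.mul (continuous_uu i j)).measurable
  have hJ : Measurable fun t : ℝ => νu (σ x) (Ioo (t - 1) (t + 1)) := by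
    have := hN.comp hu
    simpa only [Function.comp_def, hU.cov, map_Ioo_Down1] using this
  have hA : Measurable fun t : ℝ => F (act x (uu i j t), -t) :=
    hF.comp (((measurable_act_uu i j).comp measurable_prodMk_left).prodMk measurable_neg)
  rw [← lintegral_tsum fun γ => ?_]
  · refine lintegral_congr fun t => ?_
    obtain ⟨γ, h1, h2⟩ := hσ.existsUnique_mem (σ x * uu i j t)
    rw [tsum_eq_single γ fun γ' h => by
      rw [indicator_of_notMem fun h' => h (h2 γ' h'), ENNReal.zero_div], indicator_of_mem h1]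
  · refine (Measurable.div ?_ hJ).aemeasurable
    exact hA.indicator (s := (fun t : ℝ => (γ : SL n) * (σ x * uu i j t)) ⁻¹' range σ)
      ((hu.const_mul _) hσ.measurableSet_range)

theorem exists_leaf0 {σ : X n → SL n} (hσ : IsSec σ) {μ : Measure (X n)} [IsFiniteMeasure μ]
    (hA : AInv μ) {i j : Fin n} {νu : Kernel (SL n) ℝ}
    (hU : Up (fun (g : SL n) (t : ℝ) => g * uu i j t) (liftM σ μ) νu) :
    ∃ L : Leaf0 μ i j, ∀ x ∈ L.X1, Prp (L.ν x) (νu (σ x)) := by
  classical
  have := hU.sfin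
  have := sigmaFinite_liftM hσ μ
  have hN : Measurable fun x : X n => νu (σ x) (Ioo (-1) 1) :=
    (νu.measurable_coe measurableSet_Ioo).comp hσ.1
  let d : X n → ℝ≥0∞ := fun x =>
    if νu (σ x) (Ioo (-1) 1) = 0 then 1 else (νu (σ x) (Ioo (-1) 1))⁻¹
  have hd : Measurable d :=
    Measurable.ite (hN (measurableSet_singleton 0)) measurable_const hN.inv
  have hdt : ∀ x, d x ≠ ∞ := fun x => by
    simp only [d]
    split_ifs with h
    · exact ENNReal.one_ne_top
    · exact ENNReal.inv_ne_top.2 h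
  let ν : Kernel (X n) ℝ := (νu.comap σ hσ.1).withDensity fun x _ => d x
  have hν : ∀ x, ν x = d x • νu (σ x) := fun x => by
    simp only [ν]
    rw [Kernel.withDensity_apply _ (f := fun x _ => d x) (hd.comp measurable_fst),
      withDensity_const, Kernel.comap_apply]
  have hsf : IsSFiniteKernel ν := Kernel.IsSFiniteKernel.withDensity _ fun x _ => hdt x
  have hγ : ∀ᵐ g ∂(liftM σ μ), ∀ γ : Gam n, Prp (νu ((γ : SL n) * g)) (νu g) := by
    refine ae_all_iff.2 fun γ => ?_
    have := hU.transport (isFlow_uu i j) (MeasurableEquiv.mulLeft (γ : SL n)) (liftM_left hσ γ)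
      one_pos fun y t => by simp [mul_assoc]
    simpa using this
  have hQ : ∀ᵐ x ∂μ, (∀ γ : Gam n, Prp (νu ((γ : SL n) * σ x)) (νu (σ x))) ∧
      (∀ R : ℝ, νu (σ x) (Ioo (-R) R) ≠ ∞) ∧ ∀ r : ℝ, 0 < r → νu (σ x) (Ioo (-r) r) ≠ 0 := by
    filter_upwards [ae_of_ae_liftM hσ (hγ.and (hU.fin.and hU.pos))] with x hx
    simpa using hx 1
  obtain ⟨S, hS1, hS2, hS3⟩ := exists_measurable_superset_of_null (ae_iff.1 hQ)
  have hX : ∀ x ∈ Sᶜ, (∀ γ : Gam n, Prp (νu ((γ : SL n) * σ x)) (νu (σ x))) ∧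
      (∀ R : ℝ, νu (σ x) (Ioo (-R) R) ≠ ∞) ∧ ∀ r : ℝ, 0 < r → νu (σ x) (Ioo (-r) r) ≠ 0 :=
    fun x hx => by_contra fun h => hx (hS1 h)
  have hd1 : ∀ x ∈ Sᶜ, d x = (νu (σ x) (Ioo (-1) 1))⁻¹ := fun x hx =>
    if_neg ((hX x hx).2.2 1 one_pos)
  have hd0 : ∀ x ∈ Sᶜ, d x ≠ 0 := fun x hx => by
    rw [hd1 x hx]
    exact ENNReal.inv_ne_zero.2 ((hX x hx).2.1 1)
  have hPr : ∀ x ∈ Sᶜ, Prp (ν x) (νu (σ x)) := fun x hx => ⟨d x, hd0 x hx, hdt x, hν x⟩
  have hae : ∀ᵐ x ∂μ, x ∈ Sᶜ := compl_mem_ae_iff.2 hS3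
  have hact : ∀ (x : X n) (h : SL n), act x h ∈ Sᶜ → Prp (ν (act x h)) (νu (σ x * h)) := by
    intro x h hx
    obtain ⟨γ, e⟩ := exists_gam_Down1 hσ x h
    rw [← e]
    exact (hPr _ hx).trans ((hX _ hx).1 γ).symm
  refine ⟨⟨ν, hsf, Sᶜ, hS2.compl, by rw [compl_compl]; exact hS3, fun x hx R => ?_,
    fun x hx r hr => ?_, fun x hx => ?_, fun x hx s hs => ?_, fun u hu => ?_, fun F hF => ?_⟩, hPr⟩
  · rw [hν, Measure.smul_apply, smul_eq_mul]
    exact ENNReal.mul_ne_top (hdt x) ((hX x hx).2.1 R)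
  · rw [hν, Measure.smul_apply, smul_eq_mul]
    exact mul_ne_zero (hd0 x hx) ((hX x hx).2.2 r hr)
  · rw [hν, Measure.smul_apply, smul_eq_mul, hd1 x hx]
    exact ENNReal.inv_mul_cancel ((hX x hx).2.2 1 one_pos) ((hX x hx).2.1 1)
  · refine (hact x _ hs).trans ?_
    rw [hU.cov]
    exact ((hPr x hx).map _).symm
  · have h1 := hU.transport (isFlow_uu i j) (MeasurableEquiv.mulRight (diagA u hu))
      (liftM_right hσ (hA.hinv u hu)) (Real.exp_pos (u j - u i)) fun y t => by
        simp only [MeasurableEquiv.coe_mulRight, ← conj_diagA_uu u hu]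
        group
    filter_upwards [ae_of_ae_liftM hσ h1, hae,
      (hA.hinv u hu).mp.quasiMeasurePreserving.ae hae] with x hx hx1 hx2
    have h2 := hx 1
    simp only [MeasurableEquiv.coe_mulRight, Subgroup.coe_one, one_mul] at h2
    exact ((hact x _ hx2).trans h2).trans ((hPr x hx1).map _).symm
  · have h1 := mt_Down1 hσ hU (hQ.mono fun x hx => hx.1) hF
    refine (lintegral_congr_ae ?_).trans (h1.trans (lintegral_congr_ae ?_))
    · filter_upwards [hae] with x hx
      rw [hν, lintegral_smul_measure, smul_eq_mul, ← lintegral_const_mul' _ _ (hdt x), hd1 x hx]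
      exact lintegral_congr fun t => by rw [div_eq_mul_inv, mul_comm]
    · filter_upwards [hae] with x hx
      exact ((hPr x hx).lintegral_div_Down1 _ fun t => Ioo (t - 1) (t + 1)).symm

end Vale.Agent.P007
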