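import Vale.Agent.P007.E.Core

/-!
P007 E, task Lusin.
`lusin`: a finite measure on a σ-compact metrizable space is inner regular for compact sets
(instances exist: `Measure.InnerRegular`/`Regular`; use `MeasurableSet.exists_isCompact_diff_lt`).
For a countable basis `V m` of `Z` choose compact `C m ⊆ S ∩ f ⁻¹' V m`, `D m ⊆ S \ f ⁻¹' V m`
with `μ (C m ∪ D m)ᶜ < ε 2^{-m}` (also one compact subset of `S` in case the basis is empty);
`K` is the intersection; on `K` the preimage of `V m` is `K \ D m`, relatively open.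
`lusin_seq`: finite unions of the sets for `ε = 2^{-l}` (`ContinuousOn.union_of_isClosed`).
`lusin_vague`: countable family of test functions: for `N : ℕ` a cutoff `χ N` (continuous,
`1` on `[-N,N]`, `0` off `(-N-1,N+1)`, values in `[0,1]`) times `ψ ∘ projIcc` with `ψ` in a
countable dense subset of `C(Icc (-N-1) (N+1), ℝ)`, and `χ N` itself. Apply `lusin` to the map
into `ι → ℝ` (`ι` countable). For `φ` supported in `[-N,N]`, `|φ - χ ψ| ≤ δ χ`, and
`x ↦ ∫ χ dν x` is bounded on `K`: uniform approximation (`continuousOn_of_uniform_approx_of_continuousOn`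
or `TendstoUniformlyOn.continuousOn`).
`ext_of_cc`: two measures on `ℝ` finite on bounded intervals with equal integrals of continuous
compactly supported functions agree (`Measure.ext_of_integral_eq_on_compactlySupported` or
approximate indicators of intervals and use `Real.measure_ext_Ioo_rat`).
-/

open Matrix MeasureTheory ProbabilityTheory Set Filter Topology
open scoped ENNReal

namespace Vale.Agent.P007

variable {Y : Type} [TopologicalSpace Y] [TopologicalSpace.MetrizableSpace Y]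
  [SigmaCompactSpace Y] [MeasurableSpace Y] [BorelSpace Y] {μ : Measure Y} [IsFiniteMeasure μ]

lemma exists_compact_subset {S : Set Y} (hS : MeasurableSet S) {ε : ℝ≥0∞} (hε : ε ≠ 0) :
    ∃ K : Set Y, IsCompact K ∧ K ⊆ S ∧ μ (S \ K) < ε := by
  obtain ⟨K, h1, h2, h3⟩ := hS.exists_isCompact_sdiff_lt (measure_ne_top μ S) hε
  exact ⟨K, h2, h1, h3⟩

theorem lusin {Z : Type} [TopologicalSpace Z] [SecondCountableTopology Z] [MeasurableSpace Z]
    [OpensMeasurableSpace Z] {f : Y → Z} (hf : Measurable f) {S : Set Y} (hS : MeasurableSet S)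
    (h0 : μ Sᶜ = 0) {ε : ℝ≥0∞} (hε : ε ≠ 0) :
    ∃ K : Set Y, IsCompact K ∧ K ⊆ S ∧ μ Kᶜ < ε ∧ ContinuousOn f K := by
  classical
  obtain ⟨B, hBc, -, hB⟩ := TopologicalSpace.exists_countable_basis Z
  have : Countable B := hBc.to_subtype
  obtain ⟨δ, hδ, hsum⟩ := ENNReal.exists_pos_sum_of_countable' hε (Option B × Bool)
  let V : Option B → Set Z := fun o => o.elim ∅ fun b => b.1
  have hV : ∀ o, IsOpen (V o) := fun o => by
    rcases o with _ | b
    · exact isOpen_empty
    · exact hB.isOpen b.2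
  have hm : ∀ o, MeasurableSet (f ⁻¹' V o) := fun o => hf (hV o).measurableSet
  choose C hC1 hC2 hC3 using fun o =>
    exists_compact_subset (μ := μ) (hS.inter (hm o)) (hδ (o, true)).ne'
  choose D hD1 hD2 hD3 using fun o =>
    exists_compact_subset (μ := μ) (hS.diff (hm o)) (hδ (o, false)).ne'
  have hK : ∀ o, IsCompact (C o ∪ D o) := fun o => (hC1 o).union (hD1 o)
  refine ⟨⋂ o, (C o ∪ D o), ?_, ?_, ?_, ?_⟩
  · exact (hK none).of_isClosed_subset (isClosed_iInter fun o => (hK o).isClosed)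
      (iInter_subset _ none)
  · exact (iInter_subset _ none).trans
      (union_subset ((hC2 none).trans inter_subset_left) ((hD2 none).trans sdiff_subset))
  · let E : Option B × Bool → Set Y := fun p =>
      if p.2 = true then (S ∩ f ⁻¹' V p.1) \ C p.1 else (S \ f ⁻¹' V p.1) \ D p.1
    have hsub : (⋂ o, (C o ∪ D o))ᶜ ⊆ Sᶜ ∪ ⋃ p, E p := by
      intro x hx
      by_cases hxS : x ∈ S
      · right
        rw [mem_compl_iff, mem_iInter, not_forall] at hx
        obtain ⟨o, ho⟩ := hx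
        by_cases hxV : x ∈ f ⁻¹' V o
        · exact mem_iUnion.2 ⟨(o, true), by
            simp only [E, if_true]
            exact ⟨⟨hxS, hxV⟩, fun h => ho (Or.inl h)⟩⟩
        · exact mem_iUnion.2 ⟨(o, false), by
            simp only [E, Bool.false_eq_true, if_false]
            exact ⟨⟨hxS, hxV⟩, fun h => ho (Or.inr h)⟩⟩
      · exact Or.inl hxS
    have hE : ∀ p, μ (E p) ≤ δ p := by
      rintro ⟨o, b⟩
      cases b
      · simp only [E, Bool.false_eq_true, if_false]
        exact (hD3 o).le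
      · simp only [E, if_true]
        exact (hC3 o).le
    calc μ (⋂ o, (C o ∪ D o))ᶜ ≤ μ Sᶜ + μ (⋃ p, E p) :=
          (measure_mono hsub).trans (measure_union_le _ _)
      _ ≤ ∑' p, δ p := by
          rw [h0, zero_add]
          exact (measure_iUnion_le _).trans (ENNReal.tsum_le_tsum hE)
      _ < ε := hsum
  · rw [hB.continuousOn_iff]
    intro t ht
    refine ⟨(D (some ⟨t, ht⟩))ᶜ, (hD1 _).isClosed.isOpen_compl, ?_⟩
    ext x
    constructor
    · rintro ⟨h1, h2⟩
      exact ⟨fun h => (hD2 _ h).2 h1, h2⟩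
    · rintro ⟨h1, h2⟩
      refine ⟨?_, h2⟩
      exact (hC2 _ ((mem_iInter.1 h2 (some ⟨t, ht⟩)).resolve_right h1)).2

theorem lusin_seq {Z : Type} [TopologicalSpace Z] [SecondCountableTopology Z] [MeasurableSpace Z]
    [OpensMeasurableSpace Z] {f : Y → Z} (hf : Measurable f) {S : Set Y} (hS : MeasurableSet S)
    (h0 : μ Sᶜ = 0) :
    ∃ K : ℕ → Set Y, Monotone K ∧ (∀ l, IsCompact (K l) ∧ K l ⊆ S ∧ ContinuousOn f (K l)) ∧
      Tendsto (fun l => μ (K l)ᶜ) atTop (𝓝 0) := by
  have hne : ∀ l : ℕ, ((l : ℝ≥0∞))⁻¹ ≠ 0 := fun l => ENNReal.inv_ne_zero.2 (ENNReal.natCast_ne_top l)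
  choose C hC1 hC2 hC3 hC4 using fun l : ℕ => lusin (μ := μ) hf hS h0 (hne l)
  let K : ℕ → Set Y := fun l => Nat.rec (C 0) (fun m T => T ∪ C (m + 1)) l
  have hK : ∀ l, IsCompact (K l) ∧ K l ⊆ S ∧ ContinuousOn f (K l) := by
    intro l
    induction l with
    | zero => exact ⟨hC1 0, hC2 0, hC4 0⟩
    | succ m ih =>
      exact ⟨ih.1.union (hC1 _), union_subset ih.2.1 (hC2 _),
        ih.2.2.union_of_isClosed (hC4 _) ih.1.isClosed (hC1 _).isClosed⟩
  have hCK : ∀ l, C l ⊆ K l := by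
    intro l
    cases l with
    | zero => exact Subset.rfl
    | succ m => exact subset_union_right
  refine ⟨K, monotone_nat_of_le_succ fun l => subset_union_left, hK, ?_⟩
  refine tendsto_of_tendsto_of_tendsto_of_le_of_le tendsto_const_nhds
    ENNReal.tendsto_inv_nat_nhds_zero (fun _ => zero_le) fun l => ?_
  exact (measure_mono (compl_subset_compl.2 (hCK l))).trans (hC3 l).le

lemma locFin_of_fin {m : Measure ℝ} (h : ∀ R : ℝ, m (Ioo (-R) R) ≠ ∞) :
    IsLocallyFiniteMeasure m := by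
  refine ⟨fun x => ⟨Ioo (-(|x| + 1)) (|x| + 1), Ioo_mem_nhds ?_ ?_, (h _).lt_top⟩⟩
  · linarith [neg_abs_le x]
  · linarith [le_abs_self x]

/-- cutoff function -/
private noncomputable def cut (N : ℕ) (t : ℝ) : ℝ := max 0 (min 1 ((N : ℝ) + 1 - |t|))

private lemma cut_cont (N : ℕ) : Continuous (cut N) := by
  unfold cut
  fun_prop

private lemma cut_nonneg (N : ℕ) (t : ℝ) : 0 ≤ cut N t := le_max_left _ _

private lemma cut_one {N : ℕ} {t : ℝ} (h : |t| ≤ N) : cut N t = 1 := by
  unfold cut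
  rw [min_eq_left (by linarith), max_eq_right zero_le_one]

private lemma cut_zero {N : ℕ} {t : ℝ} (h : t ∉ Icc (-((N : ℝ) + 1)) ((N : ℝ) + 1)) :
    cut N t = 0 := by
  unfold cut
  have h1 : (N : ℝ) + 1 < |t| := by
    by_contra hc
    exact h (abs_le.1 (not_lt.1 hc))
  exact max_eq_left ((min_le_right _ _).trans (by linarith))

private lemma cut_supp (N : ℕ) : HasCompactSupport (cut N) :=
  HasCompactSupport.intro isCompact_Icc fun _ h => cut_zero h

private lemma cut_le (N : ℕ) : -((N : ℝ) + 1) ≤ (N : ℝ) + 1 := by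
  have : (0 : ℝ) ≤ N := Nat.cast_nonneg N
  linarith

/-- countable family of test functions -/
private noncomputable def tst (p : ℕ × Option ℕ) (t : ℝ) : ℝ :=
  cut p.1 t * p.2.elim 1 fun k =>
    TopologicalSpace.denseSeq C(Icc (-((p.1 : ℝ) + 1)) ((p.1 : ℝ) + 1), ℝ) k
      (projIcc _ _ (cut_le p.1) t)

private lemma tst_cont (p : ℕ × Option ℕ) : Continuous (tst p) := by
  rcases p with ⟨N, _ | k⟩
  · exact (cut_cont N).mul continuous_const
  · exact (cut_cont N).mul ((map_continuous _).comp continuous_projIcc)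

private lemma tst_supp (p : ℕ × Option ℕ) : HasCompactSupport (tst p) :=
  HasCompactSupport.intro isCompact_Icc fun t h => by
    unfold tst
    rw [cut_zero h, zero_mul]

private lemma tst_approx {φ : ℝ → ℝ} (hφ : Continuous φ) {N : ℕ} (hN : ∀ t, φ t ≠ 0 → |t| ≤ N)
    {δ : ℝ} (hδ : 0 < δ) : ∃ k, ∀ t, |φ t - tst (N, some k) t| ≤ δ * tst (N, none) t := by
  obtain ⟨k, hk⟩ := (TopologicalSpace.denseRange_denseSeq
    C(Icc (-((N : ℝ) + 1)) ((N : ℝ) + 1), ℝ)).exists_dist_lt
    ⟨fun t => φ t.1, hφ.comp continuous_subtype_val⟩ hδ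
  refine ⟨k, fun t => ?_⟩
  simp only [tst, Option.elim, mul_one]
  have e : φ t = cut N t * φ t := by
    by_cases h : φ t = 0
    · rw [h, mul_zero]
    · rw [cut_one (hN t h), one_mul]
  by_cases ht : t ∈ Icc (-((N : ℝ) + 1)) ((N : ℝ) + 1)
  · rw [e, ← mul_sub, abs_mul, abs_of_nonneg (cut_nonneg N t), mul_comm, projIcc_of_mem _ ht]
    refine mul_le_mul_of_nonneg_right ?_ (cut_nonneg N t)
    have h1 := (ContinuousMap.dist_apply_le_dist (⟨t, ht⟩ : Icc _ _)).trans hk.le
    rwa [Real.dist_eq] at h1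
  · rw [e, cut_zero ht]
    simp

theorem lusin_vague (ν : Kernel Y ℝ) [IsSFiniteKernel ν] {S : Set Y} (hS : MeasurableSet S)
    (h0 : μ Sᶜ = 0) (hfin : ∀ x ∈ S, ∀ R : ℝ, ν x (Ioo (-R) R) ≠ ∞) {ε : ℝ≥0∞} (hε : ε ≠ 0) :
    ∃ K : Set Y, IsCompact K ∧ K ⊆ S ∧ μ Kᶜ < ε ∧ VCont ν K := by
  have hf : Measurable (fun (x : Y) (p : ℕ × Option ℕ) => ∫ t, tst p t ∂(ν x)) :=
    measurable_pi_lambda _ fun p =>
      (StronglyMeasurable.integral_kernel (κ := ν) (tst_cont p).stronglyMeasurable).measurable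
  obtain ⟨K, hK1, hK2, hK3, hK4⟩ := lusin (μ := μ) hf hS h0 hε
  refine ⟨K, hK1, hK2, hK3, fun φ hφ hc => ?_⟩
  have hp : ∀ p, ContinuousOn (fun x => ∫ t, tst p t ∂(ν x)) K := continuousOn_pi.1 hK4
  obtain ⟨R, hR⟩ := hc.isCompact.isBounded.exists_norm_le
  obtain ⟨N, hN⟩ := exists_nat_ge R
  have hN2 : ∀ t, φ t ≠ 0 → |t| ≤ N := fun t ht =>
    (hR t (subset_tsupport φ ht)).trans hN
  obtain ⟨M, hM⟩ := hK1.exists_bound_of_continuousOn (hp (N, none))
  refine continuousOn_of_uniform_approx_of_continuousOn fun u hu => ?_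
  obtain ⟨e, he, hu2⟩ := Metric.mem_uniformity_dist.1 hu
  have hM1 : 0 < |M| + 1 := by positivity
  obtain ⟨k, hk⟩ := tst_approx hφ hN2 (div_pos he hM1)
  refine ⟨_, hp (N, some k), fun x hx => hu2 ?_⟩
  have := locFin_of_fin (hfin x (hK2 hx))
  have i1 : Integrable φ (ν x) := hφ.integrable_of_hasCompactSupport hc
  have i2 : ∀ p, Integrable (tst p) (ν x) := fun p =>
    (tst_cont p).integrable_of_hasCompactSupport (tst_supp p)
  rw [dist_eq_norm, ← integral_sub i1 (i2 _)]
  have h1 := norm_integral_le_of_norm_le (μ := ν x) (f := fun t => φ t - tst (N, some k) t)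
    ((i2 (N, none)).const_mul (e / (|M| + 1))) (Eventually.of_forall hk)
  rw [integral_const_mul] at h1
  refine h1.trans_lt ?_
  have h2 : ∫ t, tst (N, none) t ∂(ν x) < |M| + 1 := by
    have h3 := hM x hx
    rw [Real.norm_eq_abs] at h3
    linarith [le_abs_self M, le_abs_self (∫ t, tst (N, none) t ∂(ν x))]
  calc e / (|M| + 1) * ∫ t, tst (N, none) t ∂(ν x) < e / (|M| + 1) * (|M| + 1) :=
        mul_lt_mul_of_pos_left h2 (div_pos he hM1)
    _ = e := div_mul_cancel₀ _ hM1.ne'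

lemma ext_of_cc {m m' : Measure ℝ} (h : ∀ R : ℝ, m (Ioo (-R) R) ≠ ∞)
    (h' : ∀ R : ℝ, m' (Ioo (-R) R) ≠ ∞)
    (he : ∀ φ : ℝ → ℝ, Continuous φ → HasCompactSupport φ → ∫ t, φ t ∂m = ∫ t, φ t ∂m') :
    m = m' := by
  have := locFin_of_fin h
  have := locFin_of_fin h'
  exact Measure.ext_of_integral_eq_on_compactlySupported fun f =>
    he f (map_continuous f) f.hasCompactSupport

end Vale.Agent.P007
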