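import Vale.Agent.P007.E.Core

/-!
P007 E, task UpMax: local maximal inequality along a flow.
`line_max`: `Besicovitch.exist_disjoint_covering_families` (with `N, τ` from
`HasBesicovitchCovering.no_satelliteConfig` for `ℝ`) for the ball package indexed by `E` with
radii `R t ≤ δ`; each family is countable (disjoint balls with nonempty interior,
`PairwiseDisjoint.countable_of_nonempty_interior`) and
`ε ν(E) ≤ ∑_i ∑_j ε ν(ball) ≤ ∑_i ∑_j ν(ball ∩ N) ≤ N ν(N')`.
`Up.max`: `dis` for the indicators of `E` and `N'`; for each `y` apply `line_max` to `ν y`,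
`{t | φ y t ∈ E}`, using `cov` to rewrite the hypothesis at `φ y t` on `Ioo (t-R) (t+R)`.
-/

open Matrix MeasureTheory ProbabilityTheory Set Filter Topology
open scoped ENNReal

namespace Vale.Agent.P007

theorem line_max : ∃ C : ℕ, ∀ (ν : Measure ℝ) (E N N' : Set ℝ) (ε : ℝ≥0∞) (δ : ℝ),
    MeasurableSet N → (∀ t ∈ E, ∀ s, |s - t| < δ → s ∈ N → s ∈ N') →
    (∀ t ∈ E, ∃ R, 0 < R ∧ R ≤ δ ∧ ε * ν (Ioo (t - R) (t + R)) < ν (Ioo (t - R) (t + R) ∩ N)) →
      ε * ν E ≤ C * ν N' := by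
  obtain ⟨M, τ, hτ, hM⟩ := HasBesicovitchCovering.no_satelliteConfig (α := ℝ)
  refine ⟨M, fun ν E N N' ε δ hN hNN hE => ?_⟩
  choose! R hR0 hRδ hR using hE
  let q : Besicovitch.BallPackage E ℝ :=
    ⟨Subtype.val, fun t => R t, fun t => hR0 t t.2, δ, fun t => hRδ t t.2⟩
  obtain ⟨s, hs, hcov⟩ := Besicovitch.exist_disjoint_covering_families hτ hM q
  have hd : ∀ i, (s i).PairwiseDisjoint fun j : E => Metric.ball (j : ℝ) (R j) := fun i =>
    (hs i).mono fun j => Metric.ball_subset_closedBall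
  have hc : ∀ i, (s i).Countable := fun i =>
    (hd i).countable_of_isOpen (fun j _ => Metric.isOpen_ball)
      (fun j _ => Metric.nonempty_ball.2 (hR0 j j.2))
  have key : ∀ i, ε * ν (⋃ j ∈ s i, Metric.ball (j : ℝ) (R j)) ≤ ν N' := by
    intro i
    calc ε * ν (⋃ j ∈ s i, Metric.ball (j : ℝ) (R j))
        ≤ ε * ∑' j : s i, ν (Metric.ball (j : ℝ) (R j)) :=
          mul_le_mul_right (measure_biUnion_le ν (hc i) _) _
      _ = ∑' j : s i, ε * ν (Metric.ball (j : ℝ) (R j)) := ENNReal.tsum_mul_left.symm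
      _ ≤ ∑' j : s i, ν (Metric.ball (j : ℝ) (R j) ∩ N) := ENNReal.tsum_le_tsum fun j => by
          rw [Real.ball_eq_Ioo]
          exact (hR j j.1.2).le
      _ = ν (⋃ j ∈ s i, Metric.ball (j : ℝ) (R j) ∩ N) :=
          (measure_biUnion (hc i) ((hd i).mono fun j => inter_subset_left)
            (fun j _ => Metric.isOpen_ball.measurableSet.inter hN)).symm
      _ ≤ ν N' := by
          refine measure_mono (iUnion₂_subset fun j _ t ht => hNN j j.2 t ?_ ht.2)
          exact lt_of_lt_of_le (by simpa [Real.dist_eq] using ht.1) (hRδ j j.2)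
  have hE : E ⊆ ⋃ i, ⋃ j ∈ s i, Metric.ball (j : ℝ) (R j) := fun t ht => hcov ⟨⟨t, ht⟩, rfl⟩
  calc ε * ν E ≤ ε * ∑ i, ν (⋃ j ∈ s i, Metric.ball (j : ℝ) (R j)) :=
        mul_le_mul_right ((measure_mono hE).trans (measure_iUnion_fintype_le ν _)) _
    _ = ∑ i, ε * ν (⋃ j ∈ s i, Metric.ball (j : ℝ) (R j)) := Finset.mul_sum _ _ _
    _ ≤ ∑ _i : Fin M, ν N' := Finset.sum_le_sum fun i _ => key i
    _ = M * ν N' := by simp

theorem Up.max : ∃ C : ℕ, ∀ {Y : Type} [MeasurableSpace Y] {φ : Y → ℝ → Y} {m : Measure Y}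
    {ν : Kernel Y ℝ}, IsFlow φ → Up φ m ν → ∀ (E N N' : Set Y) (ε : ℝ≥0∞) (δ : ℝ),
      MeasurableSet E → MeasurableSet N → MeasurableSet N' →
      (∀ y ∈ E, ∀ t, |t| < δ → φ y t ∈ N → φ y t ∈ N') →
      (∀ y ∈ E, ∃ R, 0 < R ∧ R ≤ δ ∧
        ε * ν y (Ioo (-R) R) < ν y {t | t ∈ Ioo (-R) R ∧ φ y t ∈ N}) →
      ε * m E ≤ C * m N' := by
  obtain ⟨C, hC⟩ := line_max
  refine ⟨C, fun {Y} _ {φ} {m} {ν} hφ hU E N N' ε δ hE hN hN' h1 h2 => ?_⟩
  obtain ⟨P, -, hP⟩ := hU.dis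
  have := hU.sfin
  have hφy : ∀ y, Measurable (φ y) := fun y => hφ.meas.comp measurable_prodMk_left
  have hm : ∀ S : Set Y, MeasurableSet S → m S = ∫⁻ y, ν y (φ y ⁻¹' S) ∂P := by
    intro S hS
    rw [← lintegral_indicator_one hS, hP _ (measurable_one.indicator hS)]
    refine lintegral_congr fun y => ?_
    rw [← lintegral_indicator_one (hφy y hS)]
    rfl
  have hmeas : ∀ S : Set Y, MeasurableSet S → Measurable fun y => ν y (φ y ⁻¹' S) :=
    fun S hS => Kernel.measurable_kernel_prodMk_left (hφ.meas hS)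
  rw [hm E hE, hm N' hN', ← lintegral_const_mul _ (hmeas E hE),
    ← lintegral_const_mul _ (hmeas N' hN')]
  refine lintegral_mono fun y => hC (ν y) _ (φ y ⁻¹' N) _ ε δ (hφy y hN) ?_ ?_
  · intro t ht s hs hsN
    have e : φ y s = φ (φ y t) (s - t) := by rw [hφ.add, add_sub_cancel]
    rw [mem_preimage, e] at hsN ⊢
    exact h1 _ ht _ hs hsN
  · intro t ht
    obtain ⟨R, hR0, hRδ, hR⟩ := h2 _ ht
    refine ⟨R, hR0, hRδ, ?_⟩
    have hsub : Measurable fun s : ℝ => s - t := measurable_id.sub_const t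
    have hms : MeasurableSet {s | s ∈ Ioo (-R) R ∧ φ (φ y t) s ∈ N} :=
      measurableSet_Ioo.inter (hφy _ hN)
    rw [hU.cov, Measure.map_apply hsub measurableSet_Ioo, Measure.map_apply hsub hms] at hR
    have e1 : (fun s : ℝ => s - t) ⁻¹' Ioo (-R) R = Ioo (t - R) (t + R) := by
      ext s
      simp only [mem_preimage, mem_Ioo]
      constructor <;> rintro ⟨a, b⟩ <;> constructor <;> linarith
    have e2 : (fun s : ℝ => s - t) ⁻¹' {s | s ∈ Ioo (-R) R ∧ φ (φ y t) s ∈ N} =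
        Ioo (t - R) (t + R) ∩ φ y ⁻¹' N := by
      rw [← e1]
      ext s
      simp only [mem_preimage, mem_ofPred_eq, mem_inter_iff, hφ.add, add_sub_cancel]
    rwa [e1, e2] at hR

end Vale.Agent.P007
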