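import Vale.Agent.P007.E.Down1
import Vale.Agent.P007.E.UpMax
import Vale.Agent.P007.E.Lusin

/-!
P007 E, task Down2: the leafwise maximal inequality on `X n`.
`badMax_ae`: on `X1` (finite masses) a real radius can be replaced by a smaller rational one
(continuity from below), so `badMax ∩ X1` is a countable union of measurable sets.
`max_loc`: `F = range σ` has `liftM F = μ univ < ∞`; choose a compact `Ω ⊆ F` with
`liftM (F \ Ω) < η` (`exists_compact_subset` for the finite measure `(liftM σ μ).restrict F`);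
`exists_injOn_thicken` gives `e`; take `δ = e` (`Near (uu i j t) |t|`). Apply `Up.max` to
`E = Ω ∩ coset ⁻¹' (badMax ∩ X1)`, `coset ⁻¹' N` and `N' = coset ⁻¹' N ∩ Ω'` where `Ω'` is the
compact thickening; `liftM_le_of_injOn` bounds `liftM N' ≤ μ N`, `liftM_restrict` gives
`μ (badMax ∩ X1) ≤ liftM E + η`.
`max_glob`: given `δ, η`, take `δ'` from the local statement, `a = diagA u` with
`δ * exp (u j - u i) ≤ δ'`; by `scale` and `conj_diagA_uu`, a.e. `x ∈ badMax N ε δ` implies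
`act x a ∈ badMax N1 ε δ'` with `N1 = (act · a⁻¹) ⁻¹' N`; invariance
(`MeasurePreserving.measure_preimage_le`-style bound `μ (T ⁻¹' S) ≤ μ S` via `toMeasurable`),
then let `η → 0`.
-/

open Matrix MeasureTheory ProbabilityTheory Set Filter Topology
open scoped ENNReal

namespace Vale.Agent.P007

variable {n : ℕ}

private lemma badMax_eq (ν : Kernel (X n) ℝ) (i j : Fin n) (N : Set (X n)) (ε : ℝ≥0∞) (δ : ℝ) :
    badMax ν i j N ε δ = ⋃ q : ℚ, {x | (0 < (q : ℝ) ∧ (q : ℝ) ≤ δ) ∧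
      ε * ν x (Ioo (-(q : ℝ)) q) < ν x {t | t ∈ Ioo (-(q : ℝ)) q ∧ act x (uu i j t) ∈ N}} := by
  ext x
  simp only [badMax, mem_ofPred_eq, mem_iUnion]
  constructor
  · rintro ⟨R, hR, hRδ, h⟩
    have hU : {t | t ∈ Ioo (-R) R ∧ act x (uu i j t) ∈ N} =
        ⋃ q : {q : ℚ // (q : ℝ) < R},
          {t | t ∈ Ioo (-(q.1 : ℝ)) q.1 ∧ act x (uu i j t) ∈ N} := by
      ext t
      simp only [mem_ofPred_eq, mem_iUnion, mem_Ioo]
      constructor
      · rintro ⟨⟨h1, h2⟩, h3⟩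
        obtain ⟨q, hq1, hq2⟩ := exists_rat_btwn (abs_lt.2 ⟨h1, h2⟩)
        exact ⟨⟨q, hq2⟩, abs_lt.1 hq1, h3⟩
      · rintro ⟨⟨q, hq⟩, ⟨h1, h2⟩, h3⟩
        exact ⟨⟨by linarith, by linarith⟩, h3⟩
    have hmono : Monotone (fun q : {q : ℚ // (q : ℝ) < R} =>
        {t | t ∈ Ioo (-(q.1 : ℝ)) q.1 ∧ act x (uu i j t) ∈ N}) := by
      intro q q' hq t ht
      have h1 : (q.1 : ℝ) ≤ q'.1 := by exact_mod_cast (show q.1 ≤ q'.1 from hq)
      exact ⟨⟨by linarith [ht.1.1], by linarith [ht.1.2]⟩, ht.2⟩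
    rw [hU, hmono.measure_iUnion, lt_iSup_iff] at h
    obtain ⟨⟨q, hq⟩, h⟩ := h
    have hq0 : 0 < (q : ℝ) := by
      by_contra hc
      have he : {t | t ∈ Ioo (-(q : ℝ)) q ∧ act x (uu i j t) ∈ N} = ∅ := by
        ext t
        simp only [mem_ofPred_eq, mem_Ioo, mem_empty_iff_false, iff_false]
        rintro ⟨⟨h1, h2⟩, -⟩
        exact hc (by linarith)
      simp only [he, measure_empty] at h
      exact not_lt_zero h
    refine ⟨q, ⟨hq0, hq.le.trans hRδ⟩, lt_of_le_of_lt ?_ h⟩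
    exact mul_le_mul_right (measure_mono (Ioo_subset_Ioo (by linarith) hq.le)) ε
  · rintro ⟨q, ⟨h1, h2⟩, h⟩
    exact ⟨q, h1, h2, h⟩

lemma measurableSet_badMax {μ : Measure (X n)} {i j : Fin n} (L : Leaf0 μ i j) {N : Set (X n)}
    (hN : MeasurableSet N) (ε : ℝ≥0∞) (δ : ℝ) :
    MeasurableSet (badMax L.ν i j N ε δ ∩ L.X1) := by
  refine MeasurableSet.inter ?_ L.meas
  have := L.sfin
  rw [badMax_eq]
  refine MeasurableSet.iUnion fun q => ?_
  have hS : MeasurableSet {p : X n × ℝ | p.2 ∈ Ioo (-(q : ℝ)) q ∧ act p.1 (uu i j p.2) ∈ N} :=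
    (measurable_snd measurableSet_Ioo).inter (measurable_act_uu i j hN)
  have h1 : Measurable fun x => ε * L.ν x (Ioo (-(q : ℝ)) q) :=
    (L.ν.measurable_coe measurableSet_Ioo).const_mul ε
  have h2 : Measurable fun x => L.ν x {t | t ∈ Ioo (-(q : ℝ)) q ∧ act x (uu i j t) ∈ N} :=
    Kernel.measurable_kernel_prodMk_left (κ := L.ν) hS
  exact (MeasurableSet.const _).inter (measurableSet_lt h1 h2)

private lemma near_uu (i j : Fin n) {t e : ℝ} (h : |t| ≤ e) : Near (uu i j t) e := by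
  intro p q
  have he : 0 ≤ e := (abs_nonneg t).trans h
  by_cases hij : i = j
  · have h1 : uu i j t = 1 := by simp [uu, hij]
    rw [h1, mat_one, sub_self, abs_zero]
    exact he
  · rw [mat_uu hij, Matrix.add_apply, add_sub_cancel_left, Matrix.single_apply]
    split_ifs
    · exact h
    · rwa [abs_zero]

theorem max_loc {σ : X n → SL n} (hσ : IsSec σ) {μ : Measure (X n)} [IsFiniteMeasure μ]
    {i j : Fin n} {νu : Kernel (SL n) ℝ}
    (hU : Up (fun (g : SL n) (t : ℝ) => g * uu i j t) (liftM σ μ) νu) (L : Leaf0 μ i j)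
    (hL : ∀ x ∈ L.X1, Prp (L.ν x) (νu (σ x))) :
    ∃ C : ℝ≥0∞, C ≠ ∞ ∧ ∀ η : ℝ≥0∞, η ≠ 0 → ∃ δ : ℝ, 0 < δ ∧ ∀ N : Set (X n), MeasurableSet N →
      ∀ ε : ℝ≥0∞, ε * μ (badMax L.ν i j N ε δ) ≤ C * μ N + ε * η := by
  obtain ⟨C, hC⟩ := Up.max
  refine ⟨C, ENNReal.natCast_ne_top C, fun η hη => ?_⟩
  have hF := hσ.measurableSet_range
  have : IsFiniteMeasure ((liftM σ μ).restrict (range σ)) := by
    refine ⟨?_⟩
    have h1 := liftM_restrict (μ := μ) hσ MeasurableSet.univ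
    rw [Measure.restrict_apply MeasurableSet.univ]
    rw [preimage_univ] at h1
    rw [h1]
    exact measure_lt_top μ _
  obtain ⟨K, hK, hKF, hKη⟩ :=
    exists_compact_subset (μ := (liftM σ μ).restrict (range σ)) hF hη
  rw [Measure.restrict_apply (hF.diff hK.measurableSet), inter_eq_left.2 sdiff_subset] at hKη
  have hKσ : ∀ g ∈ K, σ (coset g) = g := by
    intro g hg
    obtain ⟨x, rfl⟩ := hKF hg
    rw [hσ.2]
  have hinj : InjOn coset K := fun g hg g' hg' e => by rw [← hKσ g hg, e, hKσ g' hg']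
  obtain ⟨e, he, hinj'⟩ := exists_injOn_thicken hK hinj
  set Ω : Set (SL n) := {g | ∃ ω ∈ K, ∃ h : SL n, Near h e ∧ g = ω * h} with hΩ
  have hΩc : IsCompact Ω := by
    have h1 := (hK.prod (isCompact_near (n := n) e)).image
      (continuous_mul : Continuous fun p : SL n × SL n => p.1 * p.2)
    convert h1 using 1
    ext g
    constructor
    · rintro ⟨ω, hω, h, hh, rfl⟩
      exact ⟨(ω, h), ⟨hω, hh⟩, rfl⟩
    · rintro ⟨⟨ω, h⟩, ⟨hω, hh⟩, rfl⟩
      exact ⟨ω, hω, h, hh, rfl⟩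
  refine ⟨e, he, fun N hN ε => ?_⟩
  have hB := measurableSet_badMax L hN ε e
  set B := badMax L.ν i j N ε e ∩ L.X1 with hBdef
  have hN' : MeasurableSet (coset ⁻¹' N ∩ Ω) := (measurable_coset hN).inter hΩc.measurableSet
  have key := hC (isFlow_uu i j) hU (K ∩ coset ⁻¹' B) (coset ⁻¹' N) (coset ⁻¹' N ∩ Ω) ε e
    (hK.measurableSet.inter (measurable_coset hB)) (measurable_coset hN) hN'
    (fun y hy t ht h => ⟨h, y, hy.1, uu i j t, near_uu i j ht.le, rfl⟩) (by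
      rintro y ⟨hyK, ⟨R, hR, hRe, h⟩, hy1⟩
      refine ⟨R, hR, hRe, ?_⟩
      obtain ⟨c, hc0, hc1, hc⟩ := hL _ hy1
      rw [hc, hKσ y hyK, Measure.smul_apply, Measure.smul_apply, smul_eq_mul, smul_eq_mul,
        mul_left_comm] at h
      simp only [act_coset] at h
      exact lt_of_mul_lt_mul_left h zero_le)
  have h1 : liftM σ μ (coset ⁻¹' N ∩ Ω) ≤ μ N :=
    (liftM_le_of_injOn hσ hN' (hinj'.mono inter_subset_right)).trans
      (measure_mono (by rintro _ ⟨g, hg, rfl⟩; exact hg.1))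
  have h2 : μ (badMax L.ν i j N ε e) ≤ μ B := by
    refine measure_mono_ae ?_
    have h3 : ∀ᵐ x ∂μ, x ∈ L.X1 := L.conull
    filter_upwards [h3] with x hx hx' using ⟨hx', hx⟩
  have h3 : μ B ≤ liftM σ μ (K ∩ coset ⁻¹' B) + η := by
    rw [← liftM_restrict hσ hB]
    refine le_trans (measure_mono ?_) ((measure_union_le (K ∩ coset ⁻¹' B) (range σ \ K)).trans
      (add_le_add le_rfl hKη.le))
    rintro g ⟨hg1, hg2⟩
    by_cases hgK : g ∈ K
    · exact Or.inl ⟨hgK, hg1⟩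
    · exact Or.inr ⟨hg2, hgK⟩
  calc ε * μ (badMax L.ν i j N ε e) ≤ ε * (liftM σ μ (K ∩ coset ⁻¹' B) + η) :=
        mul_le_mul_right (h2.trans h3) ε
    _ = ε * liftM σ μ (K ∩ coset ⁻¹' B) + ε * η := mul_add _ _ _
    _ ≤ C * μ N + ε * η := add_le_add (key.trans (mul_le_mul_right h1 _)) le_rfl

theorem max_glob {μ : Measure (X n)} [IsFiniteMeasure μ] (hA : AInv μ) {i j : Fin n}
    (hij : i ≠ j) (L : Leaf0 μ i j) {C : ℝ≥0∞}
    (h : ∀ η : ℝ≥0∞, η ≠ 0 → ∃ δ : ℝ, 0 < δ ∧ ∀ N : Set (X n), MeasurableSet N →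
      ∀ ε : ℝ≥0∞, ε * μ (badMax L.ν i j N ε δ) ≤ C * μ N + ε * η) :
    ∀ N : Set (X n), MeasurableSet N → ∀ ε : ℝ≥0∞, ε ≠ 0 → ε ≠ ∞ → ∀ δ : ℝ,
      ε * μ (badMax L.ν i j N ε δ) ≤ C * μ N := by
  intro N hN ε _ hε δ
  refine ENNReal.le_of_forall_pos_le_add fun η hη _ => ?_
  obtain ⟨δ', hδ', H⟩ := h (η / ε)
    (ENNReal.div_ne_zero.2 ⟨ENNReal.coe_ne_zero.2 hη.ne', hε⟩)
  obtain ⟨u, hu, hτ⟩ := exists_sum_zero (Pi.single j (Real.log (δ' / (|δ| + 1))) : Fin n → ℝ)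
  have hd : 0 < |δ| + 1 := by positivity
  have hlam : Real.exp (u j - u i) = δ' / (|δ| + 1) := by
    rw [hτ, Pi.single_eq_same, Pi.single_eq_of_ne hij, sub_zero, Real.exp_log (by positivity)]
  set lam := Real.exp (u j - u i) with hlamdef
  have hl0 : 0 < lam := Real.exp_pos _
  set a := diagA u hu with ha
  have hN1 : MeasurableSet ((fun x : X n => act x a⁻¹) ⁻¹' N) := measurable_act _ hN
  have hμ1 : μ ((fun x : X n => act x a⁻¹) ⁻¹' N) = μ N :=
    (hA.hinv u hu).inv.mp.measure_preimage hN.nullMeasurableSet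
  have hm : Measurable fun t : ℝ => t * lam := measurable_id.mul_const lam
  have h1 : μ (badMax L.ν i j N ε δ) ≤ μ ((fun x : X n => act x a) ⁻¹'
      badMax L.ν i j ((fun x : X n => act x a⁻¹) ⁻¹' N) ε δ') := by
    refine measure_mono_ae ?_
    filter_upwards [L.scale u hu] with x hx hb
    obtain ⟨R, hR, hRδ, hb⟩ := hb
    obtain ⟨c, hc0, hc1, hc⟩ := hx
    refine ⟨R * lam, mul_pos hR hl0, ?_, ?_⟩
    · rw [hlam, ← mul_div_assoc, div_le_iff₀ hd]
      have h2 : R ≤ |δ| + 1 := by linarith [le_abs_self δ]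
      nlinarith
    · have hIoo : ∀ t : ℝ, t * lam ∈ Ioo (-(R * lam)) (R * lam) ↔ t ∈ Ioo (-R) R := by
        intro t
        rw [mem_Ioo, mem_Ioo, ← neg_mul, mul_lt_mul_iff_left₀ hl0, mul_lt_mul_iff_left₀ hl0]
      have e1 : (fun t : ℝ => t * lam) ⁻¹' Ioo (-(R * lam)) (R * lam) = Ioo (-R) R :=
        Set.ext hIoo
      have e2 : (fun t : ℝ => t * lam) ⁻¹' {t | t ∈ Ioo (-(R * lam)) (R * lam) ∧
          act (act x a) (uu i j t) ∈ (fun x : X n => act x a⁻¹) ⁻¹' N} =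
          {t | t ∈ Ioo (-R) R ∧ act x (uu i j t) ∈ N} := by
        ext t
        have e3 : act (act (act x a) (uu i j (t * lam))) a⁻¹ = act x (uu i j t) := by
          rw [act_mul, act_mul, hlamdef, ← conj_diagA_uu u hu i j t, ← ha]
          congr 1
          group
        simp only [mem_preimage, mem_ofPred_eq, hIoo, e3]
      show ε * L.ν (act x a) _ < L.ν (act x a) _
      rw [hc, Measure.smul_apply, Measure.smul_apply, smul_eq_mul, smul_eq_mul, mul_left_comm,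
        Measure.map_apply hm measurableSet_Ioo, e1]
      refine lt_of_lt_of_le (ENNReal.mul_lt_mul_right hc0 hc1 hb) (mul_le_mul_right ?_ c)
      rw [← e2]
      exact Measure.le_map_apply hm.aemeasurable _
  have h2 : μ ((fun x : X n => act x a) ⁻¹'
      badMax L.ν i j ((fun x : X n => act x a⁻¹) ⁻¹' N) ε δ') ≤
      μ (badMax L.ν i j ((fun x : X n => act x a⁻¹) ⁻¹' N) ε δ') := by
    have h3 := Measure.le_map_apply (μ := μ) (measurable_act a).aemeasurable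
      (badMax L.ν i j ((fun x : X n => act x a⁻¹) ⁻¹' N) ε δ')
    rwa [hA u hu] at h3
  calc ε * μ (badMax L.ν i j N ε δ)
      ≤ ε * μ (badMax L.ν i j ((fun x : X n => act x a⁻¹) ⁻¹' N) ε δ') :=
        mul_le_mul_right (h1.trans h2) ε
    _ ≤ C * μ ((fun x : X n => act x a⁻¹) ⁻¹' N) + ε * (η / ε) := H _ hN1 ε
    _ ≤ C * μ N + η := by rw [hμ1]; exact add_le_add le_rfl ENNReal.mul_div_le

theorem exists_leaf {μ : Measure (X n)} [IsFiniteMeasure μ] (hA : AInv μ) {i j : Fin n}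
    (hij : i ≠ j) : Nonempty (Leaf μ i j) := by
  obtain ⟨σ, hσ⟩ := exists_sec n
  obtain ⟨νu, hU⟩ := exists_up hσ μ hij
  obtain ⟨L, hL⟩ := exists_leaf0 hσ hA hU
  obtain ⟨C, hC, h⟩ := max_loc hσ hU L hL
  exact ⟨{ L with C := C, hC := hC, maxi := max_glob hA hij L h }⟩

end Vale.Agent.P007
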