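import Vale.Agent.P007.E.Core

/-!
P007 E, task Ent: entropy calculus in `ℝ≥0∞`. Write `p_f x = μ.real (f ⁻¹' {f x})`,
`I_f x = -log (p_f x) ≥ 0`. For countable `α` and measurable fibres `p_f` is measurable
(countable union of fibres) and `p_f x > 0` a.e. (`ae_atom_pos`).
`ent_mono`: a.e. the atom of `g` is contained mod null sets in the atom of `f`.
`ent_gibbs`: pointwise `I_f + 1 ≤ -log q(f x) + q (f x) / p_f x` (`log t ≤ t - 1`) and
`∫ q(f x)/p_f x = ∑_{a, μ(atom a) > 0} q a ≤ 1`; cancel the `1`.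
`ent_pair_le`: `ent_gibbs` for the pair with `q (a,b) = μ(f = a) μ(g = b)` (work a.e., where
these are positive).
`ent_small`: `ent_gibbs` with `q none = 1 - e`, `q (some a) = e μ(P = a)`; gives
`≤ -log (1-e) + ∫⁻_{Kᶜ} (I_P + log (1/e))`; choose `e` small, then use
`exists_pos_setLIntegral_lt_of_measure_lt`.
`ent_fano`: on an atom of `W` of mass `p + q` split by `B` into `p, q`, the smaller part has
information gain `≥ log 2`, the larger part gain `≥ 0`. `pred w = decide (μ(W = w, B false) ≤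
μ(W = w, B true))`; pointwise a.e. `I_W + log 2 * 1_{pred (W x) ≠ B x} ≤ I_{(B,W)}`.
-/

open Matrix MeasureTheory ProbabilityTheory Set Filter Topology
open scoped ENNReal

namespace Vale.Agent.P007

variable {Y α β : Type} [MeasurableSpace Y] {μ : Measure Y} [IsProbabilityMeasure μ]

omit [IsProbabilityMeasure μ] in
lemma ae_atom_pos [Countable α] (f : Y → α) : ∀ᵐ x ∂μ, μ (f ⁻¹' {f x}) ≠ 0 := by
  have h : ∀ᵐ x ∂μ, ∀ a, μ (f ⁻¹' {a}) = 0 → x ∉ f ⁻¹' {a} :=
    ae_all_iff.2 fun a => by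
      by_cases h : μ (f ⁻¹' {a}) = 0
      · exact (measure_eq_zero_iff_ae_notMem.1 h).mono fun x hx _ => hx
      · exact Eventually.of_forall fun x hx => (h hx).elim
  exact h.mono fun x hx h0 => hx _ h0 rfl

lemma MFib.pair {f : Y → α} {g : Y → β} (hf : MFib f) (hg : MFib g) :
    MFib (fun x => (f x, g x)) := fun a => by
  have h : (fun x => (f x, g x)) ⁻¹' {a} = f ⁻¹' {a.1} ∩ g ⁻¹' {a.2} := by
    ext x
    simp [Prod.ext_iff]
  rw [h]
  exact (hf _).inter (hg _)

lemma MFib.comp {f : Y → α} (hf : MFib f) {T : Y → Y} (hT : Measurable T) :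
    MFib (fun x => f (T x)) := fun a => hT (hf a)

lemma MFib.itin {P : Y → α} (hP : MFib P) {T : Y → Y} (hT : Measurable T) (N : ℕ) :
    MFib (itin T P N) := fun a => by
  have h : P007.itin T P N ⁻¹' {a} = ⋂ k : Fin N, T^[k] ⁻¹' (P ⁻¹' {a k}) := by
    ext x
    simp [P007.itin, funext_iff]
  rw [h]
  exact MeasurableSet.iInter fun k => (hT.iterate k) (hP _)

lemma MFib.post [Countable α] {f : Y → α} (hf : MFib f) (F : α → β) :
    MFib (fun x => F (f x)) := fun b => by
  let _ : MeasurableSpace α := ⊤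
  exact measurable_to_countable' hf (show MeasurableSet (F ⁻¹' {b}) from trivial)

lemma MFib.measurable [Countable α] {f : Y → α} (hf : MFib f) {Z : Type} [MeasurableSpace Z]
    (F : α → Z) : Measurable (fun x => F (f x)) := by
  let _ : MeasurableSpace α := ⊤
  exact (measurable_from_top (f := F)).comp (measurable_to_countable' hf)

omit [IsProbabilityMeasure μ] in
lemma ent_tsum [Countable α] {f : Y → α} (hf : MFib f) (F : α → ℝ≥0∞) :
    ∫⁻ x, F (f x) ∂μ = ∑' a, F a * μ (f ⁻¹' {a}) := by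
  let _ : MeasurableSpace α := ⊤
  have h : Measurable f := measurable_to_countable' hf
  rw [← lintegral_map measurable_from_top h, lintegral_countable']
  exact tsum_congr fun a => by rw [Measure.map_apply h trivial]

lemma ent_tsum_one [Countable α] {f : Y → α} (hf : MFib f) : ∑' a, μ (f ⁻¹' {a}) = 1 := by
  have h := ent_tsum (μ := μ) hf fun _ => 1
  simpa using h.symm

lemma ent_pos {s : Set Y} (h : μ s ≠ 0) : 0 < μ.real s :=
  ENNReal.toReal_pos h (measure_ne_top _ _)

lemma ent_nonneg (s : Set Y) : 0 ≤ -Real.log (μ.real s) :=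
  neg_nonneg.2 (Real.log_nonpos measureReal_nonneg measureReal_le_one)

theorem ent_mono [Countable β] {f : Y → α} {g : Y → β} {S : Set Y} (hS : μ Sᶜ = 0)
    (h : ∀ x ∈ S, ∀ y ∈ S, g x = g y → f x = f y) : Ent μ f ≤ Ent μ g := by
  refine lintegral_mono_ae ?_
  filter_upwards [ae_atom_pos (μ := μ) g, measure_eq_zero_iff_ae_notMem.1 hS] with x hx hx'
  refine ENNReal.ofReal_le_ofReal (neg_le_neg (Real.log_le_log (ent_pos hx) ?_))
  refine ENNReal.toReal_mono (measure_ne_top _ _) (measure_mono_ae ?_)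
  filter_upwards [measure_eq_zero_iff_ae_notMem.1 hS] with y hy hy'
  exact h y (not_notMem.1 hy) x (not_notMem.1 hx') hy'

theorem ent_gibbs [Countable α] {f : Y → α} (hf : MFib f) (q : α → ℝ) (hq : ∀ a, 0 ≤ q a)
    (hpos : ∀ᵐ x ∂μ, 0 < q (f x)) (hsum : ∑' a, ENNReal.ofReal (q a) ≤ 1) :
    Ent μ f ≤ ∫⁻ x, ENNReal.ofReal (-Real.log (q (f x))) ∂μ := by
  have h1 : ∫⁻ x, ENNReal.ofReal (q (f x) / μ.real (f ⁻¹' {f x})) ∂μ ≤ 1 := by
    refine (ent_tsum hf fun a => ENNReal.ofReal (q a / μ.real (f ⁻¹' {a}))).trans_le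
      ((ENNReal.tsum_le_tsum fun a => ?_).trans hsum)
    rw [← ofReal_measureReal, ← ENNReal.ofReal_mul' measureReal_nonneg]
    refine ENNReal.ofReal_le_ofReal ?_
    rcases eq_or_ne (μ.real (f ⁻¹' {a})) 0 with h | h
    · rw [h, mul_zero]
      exact hq a
    · rw [div_mul_cancel₀ _ h]
  refine (ENNReal.add_le_add_iff_right ENNReal.one_ne_top).1 (le_trans ?_ (add_le_add_right h1 _))
  have h2 : Ent μ f + 1 =
      ∫⁻ x, (ENNReal.ofReal (-Real.log (μ.real (f ⁻¹' {f x}))) + 1) ∂μ := by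
    rw [lintegral_add_right _ measurable_const, lintegral_one, measure_univ, Ent]
  rw [h2, ← lintegral_add_left (hf.measurable fun a => ENNReal.ofReal (-Real.log (q a)))]
  refine lintegral_mono_ae ?_
  filter_upwards [hpos, ae_atom_pos (μ := μ) f] with x h3 h4
  have h5 := ent_pos h4
  have h6 : q (f x) ≤ 1 := ENNReal.ofReal_le_one.1 
    ((ENNReal.le_tsum (f := fun a => ENNReal.ofReal (q a)) (f x)).trans hsum)
  rw [← ENNReal.ofReal_one, ← ENNReal.ofReal_add (ent_nonneg _) zero_le_one,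
    ← ENNReal.ofReal_add (neg_nonneg.2 (Real.log_nonpos h3.le h6)) (div_pos h3 h5).le]
  refine ENNReal.ofReal_le_ofReal ?_
  have h7 := Real.log_le_sub_one_of_pos (div_pos h3 h5)
  rw [Real.log_div h3.ne' h5.ne'] at h7
  linarith

theorem ent_pair_le [Countable α] [Countable β] {f : Y → α} {g : Y → β} (hf : MFib f)
    (hg : MFib g) : Ent μ (fun x => (f x, g x)) ≤ Ent μ f + Ent μ g := by
  have h1 : ∀ᵐ x ∂μ, 0 < μ.real (f ⁻¹' {f x}) ∧ 0 < μ.real (g ⁻¹' {g x}) :=
    ((ae_atom_pos f).and (ae_atom_pos g)).mono fun x hx => ⟨ent_pos hx.1, ent_pos hx.2⟩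
  refine (ent_gibbs (hf.pair hg) (fun a => μ.real (f ⁻¹' {a.1}) * μ.real (g ⁻¹' {a.2}))
    (fun _ => mul_nonneg measureReal_nonneg measureReal_nonneg)
    (h1.mono fun x hx => mul_pos hx.1 hx.2) (le_of_eq ?_)).trans ?_
  · simp only [ENNReal.ofReal_mul measureReal_nonneg, ofReal_measureReal, ne_eq, measure_ne_top,
      not_false_eq_true]
    rw [ENNReal.tsum_prod']
    simp only [ENNReal.tsum_mul_left, ent_tsum_one hg, mul_one, ent_tsum_one hf]
  · rw [Ent, Ent, ← lintegral_add_left
      (hf.measurable fun a => ENNReal.ofReal (-Real.log (μ.real (f ⁻¹' {a}))))]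
    refine lintegral_mono_ae (h1.mono fun x hx => ?_)
    dsimp only
    rw [Real.log_mul hx.1.ne' hx.2.ne', neg_add]
    exact ENNReal.ofReal_add_le

theorem ent_comp [Countable α] {f : Y → α} (hf : MFib f) {T : Y → Y}
    (hT : MeasurePreserving T μ μ) : Ent μ (fun x => f (T x)) = Ent μ f := by
  rw [Ent, Ent, ← hT.lintegral_comp
    (hf.measurable fun a => ENNReal.ofReal (-Real.log (μ.real (f ⁻¹' {a}))))]
  refine lintegral_congr fun x => ?_
  rw [← hT.measureReal_preimage (hf _).nullMeasurableSet]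
  rfl

theorem ent_lower [Countable α] {f : Y → α} {m : ℝ} (h : ∀ x, μ.real (f ⁻¹' {f x}) ≤ m) :
    ENNReal.ofReal (-Real.log m) ≤ Ent μ f := by
  refine le_trans (by rw [lintegral_const, measure_univ, mul_one]) (lintegral_mono_ae
    (f := fun _ => ENNReal.ofReal (-Real.log m)) ((ae_atom_pos (μ := μ) f).mono fun x hx => ?_))
  exact ENNReal.ofReal_le_ofReal (neg_le_neg (Real.log_le_log (ent_pos hx) (h x)))

theorem ent_fintype_ne_top [Finite α] {f : Y → α} (hf : MFib f) : Ent μ f ≠ ∞ := by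
  have := Fintype.ofFinite α
  rw [Ent, ent_tsum hf fun a => ENNReal.ofReal (-Real.log (μ.real (f ⁻¹' {a}))), tsum_fintype]
  exact ENNReal.sum_ne_top.2 fun a _ =>
    ENNReal.mul_ne_top ENNReal.ofReal_ne_top (measure_ne_top _ _)

open Classical in
theorem ent_small [Countable α] {P : Y → α} (hP : MFib P) (hfin : Ent μ P ≠ ∞) {η : ℝ≥0∞}
    (hη : 0 < η) : ∃ δ : ℝ≥0∞, 0 < δ ∧ ∀ K : Set Y, MeasurableSet K → μ Kᶜ < δ →
      Ent μ (fun x => if x ∈ K then none else some (P x)) ≤ η := by
  obtain ⟨r, hr0, hr⟩ : ∃ r : ℝ, 0 < r ∧ ENNReal.ofReal r ≤ η / 2 := by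
    obtain ⟨r, -, h1, h2⟩ := ENNReal.lt_iff_exists_real_btwn.1 (ENNReal.half_pos hη.ne')
    exact ⟨r, ENNReal.ofReal_pos.1 h1, h2.le⟩
  have e0 : 0 < 1 - Real.exp (-r) := sub_pos.2 (Real.exp_lt_one_iff.2 (neg_lt_zero.2 hr0))
  have e1 := Real.exp_pos (-r)
  let G : α → ℝ≥0∞ := fun a => ENNReal.ofReal (-Real.log (1 - Real.exp (-r))) +
    ENNReal.ofReal (-Real.log (μ.real (P ⁻¹' {a})))
  have hG : ∫⁻ x, G (P x) ∂μ ≠ ∞ := by
    rw [lintegral_add_left measurable_const, lintegral_const, measure_univ, mul_one]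
    exact ENNReal.add_ne_top.2 ⟨ENNReal.ofReal_ne_top, hfin⟩
  obtain ⟨δ, hδ, h1⟩ := exists_pos_setLIntegral_lt_of_measure_lt hG (ENNReal.half_pos hη.ne').ne'
  refine ⟨δ, hδ, fun K hK hK' => ?_⟩
  have hm : MFib fun x => if x ∈ K then none else some (P x) := fun a =>
    MeasurableSet.ite hK (s₁ := (fun _ => none) ⁻¹' {a}) (s₂ := (fun x => some (P x)) ⁻¹' {a})
      (MeasurableSet.const _) (hP.post some a) |>.congr (by
        ext x
        by_cases hx : x ∈ K <;> simp [Set.ite, hx])
  have h2 := (ae_atom_pos (μ := μ) P).mono fun x hx => ent_pos hx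
  refine (ent_gibbs hm (fun o => o.elim (Real.exp (-r)) fun a =>
    (1 - Real.exp (-r)) * μ.real (P ⁻¹' {a})) (fun o => ?_) (h2.mono fun x hx => ?_) ?_).trans ?_
  · cases o
    · exact e1.le
    · exact mul_nonneg e0.le measureReal_nonneg
  · split_ifs
    · exact e1
    · exact mul_pos e0 hx
  · rw [ENNReal.tsum_eq_add_tsum_ite none, ← (Option.some_injective α).tsum_eq fun o ho => by
      cases o
      · simp at ho
      · exact ⟨_, rfl⟩]
    simp only [reduceCtorEq, if_false, Option.elim, ENNReal.ofReal_mul e0.le, ofReal_measureReal,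
      ne_eq, measure_ne_top, not_false_eq_true, ENNReal.tsum_mul_left, ent_tsum_one hP, mul_one]
    rw [← ENNReal.ofReal_add e1.le e0.le, add_sub_cancel, ENNReal.ofReal_one]
  · refine (lintegral_mono_ae (g := fun x => ENNReal.ofReal r + Kᶜ.indicator (fun x => G (P x)) x)
      (h2.mono fun x hx => ?_)).trans ?_
    · by_cases h3 : x ∈ K
      · rw [if_pos h3, Option.elim, Real.log_exp, neg_neg]
        exact le_self_add
      · rw [if_neg h3, Option.elim, indicator_of_mem (mem_compl h3), Real.log_mul e0.ne' hx.ne',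
          neg_add]
        exact ENNReal.ofReal_add_le.trans le_add_self
    · rw [lintegral_add_left measurable_const, lintegral_const, measure_univ, mul_one,
        lintegral_indicator hK.compl, ← ENNReal.add_halves η]
      exact add_le_add hr (h1 _ hK').le

theorem ent_fano [Countable α] {B : Y → Bool} {W : Y → α} (hB : MFib B) (hW : MFib W) :
    ∃ pred : α → Bool, Ent μ W + ENNReal.ofReal (Real.log 2) * μ {x | pred (W x) ≠ B x} ≤
      Ent μ (fun x => (B x, W x)) := by
  let p : Bool → α → ℝ := fun b w => μ.real ((fun x => (B x, W x)) ⁻¹' {(b, w)})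
  have hp : ∀ w, p false w + p true w = μ.real (W ⁻¹' {w}) := fun w => by
    rw [← measureReal_union _ (hB.pair hW _)]
    · refine congrArg μ.real (Set.ext fun x => ?_)
      cases h : B x <;> simp [h]
    · exact Set.disjoint_left.2 fun x h1 h2 => by simp_all
  have h0 : ∀ b w, 0 ≤ p b w := fun _ _ => measureReal_nonneg
  refine ⟨fun w => decide (p false w ≤ p true w), ?_⟩
  have hm : MeasurableSet {x | decide (p false (W x) ≤ p true (W x)) ≠ B x} :=
    ((hB.pair hW).post (fun a => decide (p false a.2 ≤ p true a.2) = a.1) True).compl.congr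
      (by ext x; simp)
  rw [← lintegral_indicator_const hm, Ent, ← lintegral_add_left
    (hW.measurable fun a => ENNReal.ofReal (-Real.log (μ.real (W ⁻¹' {a}))))]
  refine lintegral_mono_ae ((ae_atom_pos (μ := μ) fun x => (B x, W x)).mono fun x hx => ?_)
  have h1 : 0 < p (B x) (W x) := ent_pos hx
  have h2 := hp (W x)
  have h3 := h0 false (W x)
  have h4 := h0 true (W x)
  change _ ≤ ENNReal.ofReal (-Real.log (p (B x) (W x)))
  by_cases h : x ∈ {x | decide (p false (W x) ≤ p true (W x)) ≠ B x}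
  · rw [indicator_of_mem h, ← ENNReal.ofReal_add (ent_nonneg _) (Real.log_nonneg one_le_two)]
    refine ENNReal.ofReal_le_ofReal ?_
    have h5 : 2 * p (B x) (W x) ≤ μ.real (W ⁻¹' {W x}) := by
      rw [mem_ofPred_eq] at h
      cases hb : B x
      · rw [hb] at h
        have h6 : p false (W x) ≤ p true (W x) := by simpa using h
        linarith
      · rw [hb] at h
        have h6 : p true (W x) < p false (W x) := by simpa using h
        linarith
    have h6 := Real.log_le_log (mul_pos two_pos h1) h5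
    rw [Real.log_mul two_ne_zero h1.ne'] at h6
    linarith
  · rw [indicator_of_notMem h, add_zero]
    refine ENNReal.ofReal_le_ofReal (neg_le_neg (Real.log_le_log h1 ?_))
    cases B x <;> linarith

end Vale.Agent.P007
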