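import Vale.Agent.P007.E.Hopf

/-!
P007 E, task Peel: unipotent displacements along trivial roots are trivial.
`peel`: let `supp h = {(p,q) | p ≠ q, mat h p q ≠ 0}` (a Finset). Prove by induction on `m` that
there is a conull measurable `X'` for which the conclusion of `PeelSet` holds for all `h` with
`card (supp h) ≤ m`. `m ≤ 1`: `h = 1` or `h = uu p q t`, use the finite intersection of the sets
given by `Triv`. Step: take compact increasing `K l ⊆ X'_m` (`lusin_seq` for a constant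
function). For every Finset `S` of roots with `2 ≤ card S` that admits a positive weight `τ`,
`exists_weight` gives `τ'` (choose one for each `S`), normalise to sum zero (`exists_sum_zero`),
`a = diagA τ'`, and `hopf2` gives a conull set; `X'_{m+1}` is the intersection over `S` (finite)
with `X'_m`. By `mat_cj_diagA`, `cj a h k` tends to the matrix `h0` that keeps the diagonal and
the entries with `τ' p = τ' q` (its determinant is one as a limit; build the element of `SL n`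
from that); `supp h0` is a nonempty proper subset of `S`, contradiction with the
induction hypothesis at `z, act z h0 ∈ K l`.
`exists_weight`: take distinct `(i,j), (k,l) ∈ S` and `σ = e_i` if `i ≠ k`, else `σ = -e_j`; then
`σ(α)/τ(α)` (with `σ(p,q) = σ p - σ q`) is not constant on `S`; let `α0` minimise it and
`τ' = σ - (σ(α0)/τ(α0)) τ`.
`peelL`: if `mat h p b ≠ 0` for some `p ∉ {a,b}` use `τ = e_a` (contracts row `a`, fixes the
entries `(p,b)`), `hopf2`, and `peel` for the limit (weight `-e_b`); symmetrically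
`τ = -e_b` and weight `e_a` if `mat h a q ≠ 0`, `q ∉ {a,b}`. Otherwise `h = uu a b (h a b)`.
-/

open Matrix MeasureTheory ProbabilityTheory Set Filter Topology
open scoped ENNReal

namespace Vale.Agent.P007

variable {n : ℕ} {μ : Measure (X n)} [IsFiniteMeasure μ]

lemma peel_weight_aux (S : Finset (Fin n × Fin n)) (τ σ : Fin n → ℝ)
    (hτ : ∀ α ∈ S, τ α.2 < τ α.1) {α1 α2 : Fin n × Fin n} (h1 : α1 ∈ S) (h2 : α2 ∈ S)
    (hp : σ α1.2 < σ α1.1) (hn : σ α2.1 ≤ σ α2.2) :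
    ∃ τ' : Fin n → ℝ, (∀ α ∈ S, τ' α.2 ≤ τ' α.1) ∧ (∃ α ∈ S, τ' α.2 = τ' α.1) ∧
      ∃ α ∈ S, τ' α.2 < τ' α.1 := by
  obtain ⟨α0, h0, hmin⟩ := S.exists_min_image
    (fun α => (σ α.1 - σ α.2) / (τ α.1 - τ α.2)) ⟨α1, h1⟩
  set r := (σ α0.1 - σ α0.2) / (τ α0.1 - τ α0.2) with hr
  have hr0 : r ≤ 0 := (hmin α2 h2).trans
    (div_nonpos_of_nonpos_of_nonneg (by linarith) (by linarith [hτ α2 h2]))
  refine ⟨fun p => σ p - r * τ p, fun α hα => ?_, ⟨α0, h0, ?_⟩, α1, h1, ?_⟩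
  · have h3 := hmin α hα
    rw [le_div_iff₀ (by linarith [hτ α hα])] at h3
    show σ α.2 - r * τ α.2 ≤ σ α.1 - r * τ α.1
    linarith
  · have h3 : r * (τ α0.1 - τ α0.2) = σ α0.1 - σ α0.2 :=
      div_mul_cancel₀ _ (by linarith [hτ α0 h0])
    show σ α0.2 - r * τ α0.2 = σ α0.1 - r * τ α0.1
    linarith
  · have h3 := mul_nonneg (neg_nonneg.2 hr0) (sub_nonneg.2 (hτ α1 h1).le)
    show σ α1.2 - r * τ α1.2 < σ α1.1 - r * τ α1.1
    linarith

lemma exists_weight (S : Finset (Fin n × Fin n)) (hS : 2 ≤ S.card) (τ : Fin n → ℝ)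
    (hτ : ∀ α ∈ S, τ α.2 < τ α.1) :
    ∃ τ' : Fin n → ℝ, (∀ α ∈ S, τ' α.2 ≤ τ' α.1) ∧ (∃ α ∈ S, τ' α.2 = τ' α.1) ∧
      ∃ α ∈ S, τ' α.2 < τ' α.1 := by
  obtain ⟨⟨i, j⟩, h1, ⟨k, l⟩, h2, hne⟩ := Finset.one_lt_card.1 (show 1 < S.card from hS)
  have hij : j ≠ i := fun e => by
    have := hτ _ h1
    simp only [e] at this
    exact lt_irrefl _ this
  by_cases hik : i = k
  · have hjl : l ≠ j := fun e => hne (by rw [hik, e])
    refine peel_weight_aux S τ (fun p => if p = j then -1 else 0) hτ h1 h2 ?_ ?_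
    · simp [hij.symm]
    · simp only [hjl, if_false]
      split_ifs <;> norm_num
  · refine peel_weight_aux S τ (fun p => if p = i then 1 else 0) hτ h1 h2 ?_ ?_
    · simp [hij]
    · simp only [Ne.symm hik, if_false]
      split_ifs <;> norm_num

lemma peel_lim (h : SL n) (u : Fin n → ℝ) (hu : ∑ p, u p = 0)
    (hle : ∀ p q, mat h p q ≠ 0 → u q ≤ u p) :
    ∃ h0 : SL n, Tendsto (cj (diagA u hu) h) atTop (𝓝 h0) ∧
      ∀ p q, mat h0 p q = if u p = u q then mat h p q else 0 := by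
  have ht : ∀ p q, Tendsto (fun k : ℕ => mat (cj (diagA u hu) h k) p q) atTop
      (𝓝 (if u p = u q then mat h p q else 0)) := by
    intro p q
    simp only [mat_cj_diagA]
    split_ifs with e
    · simp [e]
    · by_cases h0 : mat h p q = 0
      · simp [h0]
      · have hlt : u q - u p < 0 := sub_neg.2 (lt_of_le_of_ne (hle p q h0) (Ne.symm e))
        have h1 : Tendsto (fun k : ℕ => (k : ℝ) * (u q - u p)) atTop atBot :=
          tendsto_natCast_atTop_atTop.atTop_mul_const_of_neg hlt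
        simpa using (Real.tendsto_exp_atBot.comp h1).const_mul (mat h p q)
  have hM : Tendsto (fun k : ℕ => mat (cj (diagA u hu) h k)) atTop
      (𝓝 (Matrix.of fun p q => if u p = u q then mat h p q else 0)) :=
    tendsto_pi_nhds.2 fun p => tendsto_pi_nhds.2 fun q => ht p q
  have hd : (Matrix.of fun p q => if u p = u q then mat h p q else 0).det = 1 := by
    have h1 := ((continuous_id.matrix_det (R := ℝ)).tendsto _).comp hM
    have h2 : ((fun x : Matrix (Fin n) (Fin n) ℝ => (id x).det) ∘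
        fun k : ℕ => mat (cj (diagA u hu) h k)) = fun _ => 1 :=
      funext fun k => (cj (diagA u hu) h k).2
    rw [h2] at h1
    exact tendsto_nhds_unique h1 tendsto_const_nhds
  exact ⟨⟨_, hd⟩, tendsto_SL_iff.2 ht, fun p q => rfl⟩

lemma peel_step (hA : AInv μ) {X0 : Set (X n)} (hm : MeasurableSet X0) (h0 : μ X0ᶜ = 0)
    (τ : Fin n → ℝ) :
    ∃ X' : Set (X n), MeasurableSet X' ∧ μ X'ᶜ = 0 ∧ ∀ x ∈ X', ∀ h : SL n, act x h ∈ X' →
      (∀ p q, mat h p q ≠ 0 → τ q ≤ τ p) → ∃ z ∈ X0, ∃ h0 : SL n, act z h0 ∈ X0 ∧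
        ∀ p q, mat h0 p q = if τ p = τ q then mat h p q else 0 := by
  obtain ⟨K, hKm, hK, hK0⟩ := lusin_seq (μ := μ) (f := fun _ : X n => (0 : ℝ))
    measurable_const hm h0
  obtain ⟨u, hu, hd⟩ := exists_sum_zero τ
  obtain ⟨X', h1, h2, h3⟩ := hopf2 (hA.hinv u hu) hKm (fun l => (hK l).1) hK0
  refine ⟨X', h1, h2, fun x hx h hh hle => ?_⟩
  obtain ⟨g, hg, hg'⟩ := peel_lim h u hu fun p q e => by linarith [hd p q, hle p q e]
  obtain ⟨l, -, z, hz, -, hz', -⟩ := h3 x hx h g hh hg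
  refine ⟨z, (hK l).2.1 hz, g, (hK l).2.1 hz', fun p q => ?_⟩
  rw [hg']
  exact if_congr ⟨fun e => by linarith [hd p q], fun e => by linarith [hd p q]⟩ rfl rfl

lemma peel_iInter {ι : Type} [Countable ι] {Y : ι → Set (X n)} (h0 : ∀ i, μ (Y i)ᶜ = 0) :
    μ (⋂ i, Y i)ᶜ = 0 := by
  rw [compl_iInter]
  exact measure_iUnion_null h0

lemma peel_inter {Y Y' : Set (X n)} (h0 : μ Yᶜ = 0) (h1 : μ Y'ᶜ = 0) : μ (Y ∩ Y')ᶜ = 0 := by
  rw [compl_inter]
  exact measure_union_null h0 h1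

lemma peel_eq_uu {h : SL n} {a b : Fin n} (hab : a ≠ b) (hd : ∀ p, mat h p p = 1)
    (ho : ∀ p q, p ≠ q → (p, q) ≠ (a, b) → mat h p q = 0) : h = uu a b (mat h a b) := by
  apply mat_inj
  ext p q
  rw [mat_uu hab, Matrix.add_apply, single_apply]
  by_cases e : p = q
  · subst e
    rw [hd, one_apply_eq, if_neg, add_zero]
    rintro ⟨rfl, rfl⟩
    exact hab rfl
  · rw [one_apply_ne e, zero_add]
    split_ifs with e'
    · rw [e'.1, e'.2]
    · refine ho p q e fun e2 => e' ?_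
      rw [Prod.mk.injEq] at e2
      exact ⟨e2.1.symm, e2.2.symm⟩

open Classical in
/-- The off-diagonal support. -/
noncomputable def peelSupp (h : SL n) : Finset (Fin n × Fin n) :=
  Finset.univ.filter fun α => α.1 ≠ α.2 ∧ mat h α.1 α.2 ≠ 0

lemma mem_peelSupp {h : SL n} {α : Fin n × Fin n} :
    α ∈ peelSupp h ↔ α.1 ≠ α.2 ∧ mat h α.1 α.2 ≠ 0 := by
  simp [peelSupp]

lemma peel_ind (hA : AInv μ) (T : Set (Fin n × Fin n)) (hT : ∀ α ∈ T, Triv μ α.1 α.2) (m : ℕ) :
    ∃ X' : Set (X n), MeasurableSet X' ∧ μ X'ᶜ = 0 ∧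
      ∀ x ∈ X', ∀ h : SL n, act x h ∈ X' → (∀ p, mat h p p = 1) →
        (∀ p q, p ≠ q → mat h p q ≠ 0 → (p, q) ∈ T) →
        (∃ τ : Fin n → ℝ, ∀ p q, p ≠ q → mat h p q ≠ 0 → τ q < τ p) →
        (peelSupp h).card ≤ m + 1 → h = 1 := by
  induction m with
  | zero =>
    have hY : ∀ α : Fin n × Fin n, ∃ Y : Set (X n), MeasurableSet Y ∧ μ Yᶜ = 0 ∧
        (α ∈ T → ∀ x ∈ Y, ∀ t : ℝ, act x (uu α.1 α.2 t) ∈ Y → t = 0) := by
      intro α
      by_cases hα : α ∈ T
      · obtain ⟨Y, h1, h2, h3⟩ := hT α hα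
        exact ⟨Y, h1, h2, fun _ => h3⟩
      · exact ⟨univ, MeasurableSet.univ, by simp, fun h => absurd h hα⟩
    choose Y h1 h2 h3 using hY
    refine ⟨⋂ α, Y α, MeasurableSet.iInter h1, peel_iInter h2, ?_⟩
    intro x hx h hh hd hS _ hc
    rcases (peelSupp h).eq_empty_or_nonempty with he | ⟨⟨a, b⟩, hab⟩
    · apply mat_inj
      ext p q
      rw [mat_one]
      by_cases e : p = q
      · rw [e, hd, one_apply_eq]
      · rw [one_apply_ne e]
        by_contra hne
        have : (p, q) ∈ peelSupp h := mem_peelSupp.2 ⟨e, hne⟩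
        rw [he] at this
        exact Finset.notMem_empty _ this
    · have hab' := mem_peelSupp.1 hab
      have e : h = uu a b (mat h a b) := by
        refine peel_eq_uu hab'.1 hd fun p q hpq hne => ?_
        by_contra h0
        exact hne (Finset.card_le_one.1 hc _ (mem_peelSupp.2 ⟨hpq, h0⟩) _ hab)
      have h4 := h3 (a, b) (hS a b hab'.1 hab'.2) x (mem_iInter.1 hx _) (mat h a b)
        (by rw [← e]; exact mem_iInter.1 hh _)
      exact absurd h4 hab'.2
  | succ m ih =>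
    obtain ⟨X0, hm, h0, hX0⟩ := ih
    have hw : ∀ S : Finset (Fin n × Fin n), ∃ τ' : Fin n → ℝ, 2 ≤ S.card →
        (∃ τ : Fin n → ℝ, ∀ α ∈ S, τ α.2 < τ α.1) →
        (∀ α ∈ S, τ' α.2 ≤ τ' α.1) ∧ (∃ α ∈ S, τ' α.2 = τ' α.1) ∧ ∃ α ∈ S, τ' α.2 < τ' α.1 := by
      intro S
      by_cases hc : 2 ≤ S.card ∧ ∃ τ : Fin n → ℝ, ∀ α ∈ S, τ α.2 < τ α.1
      · obtain ⟨hc, τ, hτ⟩ := hc
        obtain ⟨τ', hτ'⟩ := exists_weight S hc τ hτ
        exact ⟨τ', fun _ _ => hτ'⟩
      · exact ⟨0, fun h1 h2 => absurd ⟨h1, h2⟩ hc⟩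
    choose τ' hτ' using hw
    choose Y h1 h2 h3 using fun S => peel_step hA hm h0 (τ' S)
    refine ⟨X0 ∩ ⋂ S, Y S, hm.inter (MeasurableSet.iInter h1), peel_inter h0 (peel_iInter h2), ?_⟩
    rintro x hx h hh hd hS ⟨τ, hτ⟩ hc
    by_cases hc' : (peelSupp h).card ≤ m + 1
    · exact hX0 x hx.1 h hh.1 hd hS ⟨τ, hτ⟩ hc'
    exfalso
    obtain ⟨k1, ⟨α, hα, k2⟩, β, hβ, k3⟩ := hτ' (peelSupp h) (by omega)
      ⟨τ, fun α hα => hτ _ _ (mem_peelSupp.1 hα).1 (mem_peelSupp.1 hα).2⟩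
    obtain ⟨z, hz, g, hg, hg'⟩ := h3 (peelSupp h) x (mem_iInter.1 hx.2 _) h (mem_iInter.1 hh.2 _)
      (fun p q e => by
        by_cases hpq : p = q
        · rw [hpq]
        · exact k1 (p, q) (mem_peelSupp.2 ⟨hpq, e⟩))
    have hsub : ∀ p q, mat g p q ≠ 0 → mat h p q ≠ 0 := by
      intro p q e e'
      rw [hg', e', ite_self] at e
      exact e rfl
    have hcard : (peelSupp g).card < (peelSupp h).card := by
      refine Finset.card_lt_card ⟨fun γ hγ => ?_, fun hs => ?_⟩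
      · rw [mem_peelSupp] at hγ ⊢
        exact ⟨hγ.1, hsub _ _ hγ.2⟩
      · have := (mem_peelSupp.1 (hs hβ)).2
        rw [hg', if_neg k3.ne'] at this
        exact this rfl
    have e := hX0 z hz g hg (fun p => by rw [hg', if_pos rfl, hd])
      (fun p q hpq e => hS p q hpq (hsub p q e)) ⟨τ, fun p q hpq e => hτ p q hpq (hsub p q e)⟩
      (by omega)
    have h5 := hg' α.1 α.2
    rw [e, mat_one, one_apply_ne (mem_peelSupp.1 hα).1, if_pos k2.symm] at h5
    exact (mem_peelSupp.1 hα).2 h5.symm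

theorem peel (hA : AInv μ) (T : Set (Fin n × Fin n)) (hT : ∀ α ∈ T, Triv μ α.1 α.2) :
    ∃ X' : Set (X n), MeasurableSet X' ∧ μ X'ᶜ = 0 ∧ PeelSet T X' := by
  obtain ⟨X', h1, h2, h3⟩ := peel_ind hA T hT (Fintype.card (Fin n × Fin n))
  exact ⟨X', h1, h2, fun x hx h hh hd hS hτ =>
    h3 x hx h hh hd hS hτ ((Finset.card_le_univ _).trans (Nat.le_succ _))⟩

theorem peelL (hA : AInv μ) {a b : Fin n} (hab : a ≠ b)
    (hT : ∀ p, p ≠ a → p ≠ b → Triv μ p b ∧ Triv μ a p) :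
    ∃ X' : Set (X n), MeasurableSet X' ∧ μ X'ᶜ = 0 ∧ ∀ x ∈ X', ∀ h : SL n, act x h ∈ X' →
      (∀ p q, ¬ (p = a ∧ q ≠ a) → ¬ (q = b ∧ p ≠ b) →
        mat h p q = (1 : Matrix (Fin n) (Fin n) ℝ) p q) → ∃ r : ℝ, h = uu a b r := by
  obtain ⟨X0, hm, h0, hX0⟩ := peel hA
    {α | (α.2 = b ∧ α.1 ≠ a ∧ α.1 ≠ b) ∨ (α.1 = a ∧ α.2 ≠ a ∧ α.2 ≠ b)} (by
      rintro ⟨p, q⟩ (⟨h1, h2, h3⟩ | ⟨h1, h2, h3⟩)
      · simp only at h1 h2 h3
        rw [h1]
        exact (hT p h2 h3).1
      · simp only at h1 h2 h3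
        rw [h1]
        exact (hT q h2 h3).2)
  obtain ⟨X1, m1, n1, k1⟩ := peel_step hA hm h0 (fun p => if p = a then 1 else 0)
  obtain ⟨X2, m2, n2, k2⟩ := peel_step hA hm h0 (fun p => if p = b then -1 else 0)
  refine ⟨X1 ∩ X2, m1.inter m2, peel_inter n1 n2, fun x hx h hh hS => ?_⟩
  have hd : ∀ p, mat h p p = 1 := fun p => by
    rw [hS p p (fun e => e.2 e.1) (fun e => e.2 e.1), one_apply_eq]
  have ho : ∀ p q, p ≠ q → mat h p q ≠ 0 → p = a ∨ q = b := by
    intro p q hpq e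
    by_contra hc
    push Not at hc
    exact e (by rw [hS p q (fun e => hc.1 e.1) (fun e => hc.2 e.1), one_apply_ne hpq])
  have c1 : ∀ p, p ≠ a → p ≠ b → mat h p b = 0 := by
    obtain ⟨z, hz, g, hg, hg'⟩ := k1 x hx.1 h hh.1 (fun p q e => by
      by_cases hpq : p = q
      · rw [hpq]
      · rcases ho p q hpq e with e1 | e1
        · rw [if_pos e1]
          split_ifs <;> norm_num
        · rw [if_neg (e1 ▸ hab.symm)]
          split_ifs <;> norm_num)
    have hs : ∀ p q, p ≠ q → mat g p q ≠ 0 → q = b ∧ p ≠ a ∧ p ≠ b := by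
      intro p q hpq e
      have hpa : p ≠ a := by
        rintro rfl
        rw [hg', if_neg] at e
        · exact e rfl
        · simp [hpq.symm]
      have e' : mat h p q ≠ 0 := fun e' => by
        rw [hg', e', ite_self] at e
        exact e rfl
      have hq : q = b := (ho p q hpq e').resolve_left hpa
      exact ⟨hq, hpa, hq ▸ hpq⟩
    have e := hX0 z hz g hg (fun p => by rw [hg', if_pos rfl, hd])
      (fun p q hpq e => Or.inl (hs p q hpq e))
      ⟨fun p => if p = b then -1 else 0, fun p q hpq e => by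
        obtain ⟨e1, -, e3⟩ := hs p q hpq e
        simp [e1, e3]⟩
    intro p hpa hpb
    have h5 := hg' p b
    rw [e, mat_one, one_apply_ne hpb, if_pos (by simp [hpa, hab.symm])] at h5
    exact h5.symm
  have c2 : ∀ q, q ≠ a → q ≠ b → mat h a q = 0 := by
    obtain ⟨z, hz, g, hg, hg'⟩ := k2 x hx.2 h hh.2 (fun p q e => by
      by_cases hpq : p = q
      · rw [hpq]
      · rcases ho p q hpq e with e1 | e1
        · rw [if_neg (e1 ▸ hab : p ≠ b)]
          split_ifs <;> norm_num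
        · rw [if_pos e1]
          split_ifs <;> norm_num)
    have hs : ∀ p q, p ≠ q → mat g p q ≠ 0 → p = a ∧ q ≠ a ∧ q ≠ b := by
      intro p q hpq e
      have hqb : q ≠ b := by
        rintro rfl
        rw [hg', if_neg] at e
        · exact e rfl
        · simp [hpq]
      have e' : mat h p q ≠ 0 := fun e' => by
        rw [hg', e', ite_self] at e
        exact e rfl
      have hp : p = a := (ho p q hpq e').resolve_right hqb
      exact ⟨hp, hp ▸ hpq.symm, hqb⟩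
    have e := hX0 z hz g hg (fun p => by rw [hg', if_pos rfl, hd])
      (fun p q hpq e => Or.inr (hs p q hpq e))
      ⟨fun p => if p = a then 1 else 0, fun p q hpq e => by
        obtain ⟨e1, e2, -⟩ := hs p q hpq e
        simp [e1, e2]⟩
    intro q hqa hqb
    have h5 := hg' a q
    rw [e, mat_one, one_apply_ne hqa.symm, if_pos (by simp [hqb, hab])] at h5
    exact h5.symm
  refine ⟨_, peel_eq_uu hab hd fun p q hpq hne => ?_⟩
  by_contra e
  rcases ho p q hpq e with e1 | e1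
  · subst e1
    exact e (c2 q hpq.symm fun e2 => hne (by rw [e2]))
  · subst e1
    exact e (c1 p (fun e2 => hne (by rw [e2])) hpq)

end Vale.Agent.P007
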