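import Vale.Agent.P007.E.Part
import Vale.Agent.P007.E.Peel

/-!
P007 E, task EntA: if all roots expanded by `a = diagA u` are trivial then the entropy is zero.
Let `T = (act · a)`, `ε0` from `adapted_chain a`, shrunk so that `ε0 ≤ 1` and `C ε0 ≤ 1` with
`C` from `Near.conj a`; `P0` adapted for `ε0` (`exists_adapted`, `lintegral_lev`),
`P = (P0, P')` (finite entropy, `ent_pair_le`). Given `η`, take `δ` from `ent_small`, `X'` from
`peel` for `{(p,q) | u p < u q}`, and `K ⊆ X'` compact with `μ Kᶜ < δ` on which an injective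
encoding of `P` into `ℕ` is continuous (`lusin`, `MFib.measurable`).
`entA_unif` (compactness; sequences `z m → z`, `h m → h` in `isCompact_near 1`; the limit has
diagonal one and support in `{u p < u q}`, weight `-u`, so `h = 1`) gives `d > 0`.
`Q` adapted for `min d ε0`. `W k x = (Q x, itin T P k x)`. Then `W (k+1)` is determined by
`(W k, P^K ∘ T^k)` where `P^K x = if x ∈ K then none else some (P x)`: if both `T^k x, T^k y ∈ K`
write `y = act x g` with `Near g (min d ε0 * rho x)`; `adapted_chain` up to `k-1` and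
`Near.conj` give `Near (cj a g k) 1`, `mat_cj_diagA` bounds the non-expanded entries by `d`.
So `Ent (W (k+1)) ≤ Ent (W k) + η` (`ent_mono` with `S = univ`, `ent_pair_le`, `ent_comp`),
`Ent (itin T P' N) ≤ Ent (W N) ≤ Ent Q + N η`.
-/

open Matrix MeasureTheory ProbabilityTheory Set Filter Topology
open scoped ENNReal

namespace Vale.Agent.P007

variable {n : ℕ}

lemma entA_unif {u : Fin n → ℝ} {X' K : Set (X n)} (hX : PeelSet {α | u α.1 < u α.2} X')
    (hK : IsCompact K) (hKX : K ⊆ X') {f : X n → ℕ} (hf : ContinuousOn f K) :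
    ∃ d : ℝ, 0 < d ∧ ∀ z ∈ K, ∀ h : SL n, act z h ∈ K → Near h 1 →
      (∀ p q, u q ≤ u p → |mat h p q - (1 : Matrix (Fin n) (Fin n) ℝ) p q| ≤ d) →
        f (act z h) = f z := by
  let C : Set (X n × SL n) := (K ×ˢ {g | Near g 1}) ∩ (fun p => act p.1 p.2) ⁻¹' K
  have hC : IsCompact C :=
    (hK.prod (isCompact_near 1)).inter_right (hK.isClosed.preimage continuous_act)
  have h1 : ContinuousOn (fun p : X n × SL n => (f (act p.1 p.2), f p.1)) C :=
    (hf.comp continuous_act.continuousOn fun _ hp => hp.2).prodMk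
      (hf.comp continuous_fst.continuousOn fun _ hp => hp.1.1)
  have h2 := hC.of_isClosed_subset (h1.preimage_isClosed_of_isClosed hC.isClosed
    (isClosed_discrete {a : ℕ × ℕ | a.1 ≠ a.2})) inter_subset_left
  let D : X n × SL n → Fin n × Fin n → ℝ := fun p α =>
    if u α.2 ≤ u α.1 then mat p.2 α.1 α.2 - (1 : Matrix (Fin n) (Fin n) ℝ) α.1 α.2 else 0
  have h3 : Continuous D := continuous_pi fun α => continuous_if_const _
    (fun _ => ((continuous_mat.comp continuous_snd).matrix_elem _ _).sub continuous_const)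
    fun _ => continuous_const
  obtain ⟨d, hd, h4⟩ := h2.exists_forall_le' (a := 0) h3.norm.continuousOn fun p hp => by
    refine norm_pos_iff.2 fun h0 => hp.2 ?_
    have h5 : ∀ a b, u b ≤ u a → mat p.2 a b = (1 : Matrix (Fin n) (Fin n) ℝ) a b :=
      fun a b hab => sub_eq_zero.1 ((if_pos hab).symm.trans (congrFun h0 (a, b)))
    have h6 : ∀ a b, a ≠ b → mat p.2 a b ≠ 0 → u a < u b := fun a b hab h =>
      not_le.1 fun h7 => h ((h5 a b h7).trans (one_apply_ne hab))
    dsimp only
    rw [hX p.1 (hKX hp.1.1.1) p.2 (hKX hp.1.2) (fun a => (h5 a a le_rfl).trans (one_apply_eq a))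
      h6 ⟨-u, fun a b hab h => neg_lt_neg (h6 a b hab h)⟩, act_one]
  refine ⟨d / 2, half_pos hd, fun z hz h h5 h6 h7 => by_contra fun h8 => ?_⟩
  refine (half_lt_self hd).not_ge ((h4 (z, h) ⟨⟨⟨hz, h6⟩, h5⟩, h8⟩).trans
    ((pi_norm_le_iff_of_nonneg (half_pos hd).le).2 fun α => ?_))
  by_cases h9 : u α.2 ≤ u α.1
  · exact (congrArg norm (if_pos h9)).trans_le (h7 _ _ h9)
  · exact (congrArg norm (if_neg h9)).trans_le (norm_zero.trans_le (half_pos hd).le)

open Classical in
lemma entA_mfib {Y α : Type} [MeasurableSpace Y] [Countable α] {P : Y → α} (hP : MFib P)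
    {K : Set Y} (hK : MeasurableSet K) : MFib fun x => if x ∈ K then none else some (P x) :=
  fun a => MeasurableSet.ite hK (s₁ := (fun _ => none) ⁻¹' {a})
    (s₂ := (fun x => some (P x)) ⁻¹' {a}) (MeasurableSet.const _) (hP.post some a) |>.congr (by
      ext x
      by_cases hx : x ∈ K <;> simp [Set.ite, hx])

theorem entA {μ : Measure (X n)} [IsProbabilityMeasure μ] (hA : AInv μ) (hS : S1 μ)
    (u : Fin n → ℝ) (hu : ∑ p, u p = 0) (hT : ∀ i j, u i < u j → Triv μ i j)
    {α : Type} [Countable α] {P' : X n → α} (hP : MFib P') (hfin : Ent μ P' ≠ ∞) :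
    ZeroEnt μ (fun x => act x (diagA u hu)) P' := by
  have hTm := (hA.hinv u hu).mp
  obtain ⟨ε1, hε1, hch⟩ := adapted_chain (diagA u hu)
  obtain ⟨C, hC, hconj⟩ := Near.conj (diagA u hu)
  obtain ⟨ε, e0, e1, e2, e3⟩ : ∃ ε : ℝ, 0 < ε ∧ ε ≤ ε1 ∧ ε ≤ 1 ∧ C * ε ≤ 1 :=
    ⟨min ε1 (min 1 C⁻¹), lt_min hε1 (lt_min one_pos (inv_pos.2 hC)), min_le_left _ _,
      (min_le_right _ _).trans (min_le_left _ _), (mul_le_mul_of_nonneg_left
        ((min_le_right _ _).trans (min_le_right _ _)) hC.le).trans_eq (mul_inv_cancel₀ hC.ne')⟩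
  obtain ⟨P0, p1, p2, p3⟩ := exists_adapted (lintegral_lev hS) e0
  have hP2 := p1.pair hP
  intro η hη
  obtain ⟨δ, hδ, hsm⟩ := ent_small hP2 (ne_top_of_le_ne_top (ENNReal.add_ne_top.2 ⟨p2, hfin⟩)
    (ent_pair_le p1 hP)) hη
  obtain ⟨X', x1, x2, x3⟩ := peel hA {α | u α.1 < u α.2} fun α hα => hT _ _ hα
  obtain ⟨enc, henc⟩ := Countable.exists_injective_nat (ℕ × α)
  obtain ⟨K, k1, k2, k3, k4⟩ := lusin (hP2.measurable enc) x1 x2 hδ.ne'
  obtain ⟨d, hd, hun⟩ := entA_unif x3 k1 k2 k4
  obtain ⟨Q, q1, q2, q3⟩ := exists_adapted (lintegral_lev hS) (lt_min hd e0)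
  have key : ∀ (k : ℕ) (x y : X n), Q x = Q y →
      (∀ j < k, P0 (act x (diagA u hu ^ j)) = P0 (act y (diagA u hu ^ j))) →
      act x (diagA u hu ^ k) ∈ K → act y (diagA u hu ^ k) ∈ K →
      (P0 (act y (diagA u hu ^ k)), P' (act y (diagA u hu ^ k))) =
        (P0 (act x (diagA u hu ^ k)), P' (act x (diagA u hu ^ k))) := by
    intro k x y h1 h2 h3 h4
    obtain ⟨g, rfl, hg⟩ := q3 x y h1
    have h5 : min d ε * rho x ≤ min d ε := mul_le_of_le_one_right (lt_min hd e0).le (rho_le_one x)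
    rw [act_cj] at h4 ⊢
    refine henc (hun _ h3 _ h4 ?_ fun p q hpq => ?_)
    · cases k with
      | zero => exact (cj_zero _ g).symm ▸ hg.mono (h5.trans ((min_le_right _ _).trans e2))
      | succ k =>
        rw [cj_succ]
        refine (hconj _ _ (hch ε e0 e1 P0 p3 x g k (hg.mono (mul_le_mul_of_nonneg_right
          (min_le_right _ _) (rho_pos x).le)) (fun j _ hj => h2 j (Nat.lt_succ_of_le hj))
          k le_rfl)).mono ?_
        rw [← mul_assoc]
        exact mul_le_one₀ e3 (rho_pos _).le (rho_le_one _)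
    · have h6 := (hg p q).trans (h5.trans (min_le_left _ _))
      rw [mat_cj_diagA]
      rcases eq_or_ne p q with rfl | h7
      · rwa [sub_self, mul_zero, Real.exp_zero, mul_one]
      · rw [one_apply_ne h7, sub_zero] at h6 ⊢
        rw [abs_mul, abs_of_pos (Real.exp_pos _)]
        exact (mul_le_of_le_one_right (abs_nonneg _) (Real.exp_le_one_iff.2
          (mul_nonpos_of_nonneg_of_nonpos (Nat.cast_nonneg _) (sub_nonpos.2 hpq)))).trans h6
  have hK := k1.isClosed.measurableSet
  have h1 : ∀ k : ℕ, Ent μ (fun x => (Q x, itin (fun x => act x (diagA u hu))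
      (fun x => (P0 x, P' x)) k x)) ≤ Ent μ Q + k * η := fun k => by
    induction k with
    | zero =>
      rw [Nat.cast_zero, zero_mul, add_zero]
      exact ent_mono (S := univ) (by simp) fun x _ y _ h => Prod.ext h (Subsingleton.elim _ _)
    | succ k ih =>
      rw [Nat.cast_succ, add_one_mul, ← add_assoc]
      refine le_trans ?_ (add_le_add ih (hsm K hK k3))
      rw [← ent_comp (entA_mfib hP2 hK) (hTm.iterate k)]
      refine le_trans ?_ (ent_pair_le (q1.pair (hP2.itin hTm.measurable k))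
        ((entA_mfib hP2 hK).comp (hTm.iterate k).measurable))
      refine ent_mono (S := univ) (by simp) fun x _ y _ h => ?_
      obtain ⟨⟨h2, h3⟩, h4⟩ := (Prod.ext_iff.1 h).imp_left Prod.ext_iff.1
      refine Prod.ext h2 (funext fun j => Fin.lastCases ?_ (fun j => congrFun h3 j) j)
      dsimp only at h4
      rw [iterate_act, iterate_act] at h4
      simp only [itin, iterate_act, Fin.val_last]
      split_ifs at h4 with h5 h6
      · refine (key k x y h2 (fun j hj => ?_) h5 h6).symm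
        simpa only [itin, iterate_act] using congrArg Prod.fst (congrFun h3 ⟨j, hj⟩)
      · exact Option.some.inj h4
  refine ⟨Ent μ Q, q2, fun N => le_trans ?_ (h1 N)⟩
  exact ent_mono (S := univ) (by simp) fun x _ y _ h =>
    funext fun j => congrArg Prod.snd (congrFun (congrArg Prod.snd h) j)

end Vale.Agent.P007
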