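import Vale.Agent.P007.E.Core

/-!
P007 E, task Erg: maximal ergodic inequality for indicators and recurrence.
`freqGood_compl_le`: let `E L = {x | ∃ m ≤ L, ε m < cntOut T S x m}` (increasing in `L`, union is
the complement). Combinatorial lemma: for every `x`, `M`:
`ε * #{k < M | T^k x ∈ E L} ≤ #{k < M + L | T^k x ∉ S}` (strong induction on `M` from the left:
generalise to starting index `s`; if `T^s x ∉ E L` move to `s+1`; otherwise take its `m`
(`1 ≤ m ≤ L`) and jump to `s+m`, the block contributes at most `ε m <` number of exits).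
Integrate: `ε M μ(E L) ≤ (M + L) μ Sᶜ`, let `M → ∞`.
`recur`: `Conservative.ae_mem_imp_frequently_image_mem` for `S ∩ V`, `V` in a countable basis,
then extract a subsequence (`extraction_forall_of_frequently` with an antitone basis).
`ae_eq_of_le_comp`: integrals of `f` and `f ∘ T` agree and are finite.
-/

open Matrix MeasureTheory ProbabilityTheory Set Filter Topology
open scoped ENNReal

namespace Vale.Agent.P007

variable {Y : Type} [MeasurableSpace Y] {μ : Measure Y} {T : Y → Y}

omit [MeasurableSpace Y] in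
lemma erg_cntOut_eq_sum (T : Y → Y) (S : Set Y) (x : Y) (m : ℕ) :
    cntOut T S x m = ∑ k ∈ Finset.range m, Sᶜ.indicator (fun _ => (1 : ℕ)) (T^[k] x) := by
  classical
  unfold cntOut
  rw [Finset.card_filter]
  refine Finset.sum_congr rfl fun k _ => ?_
  by_cases h : T^[k] x ∈ S <;> simp [h]

omit [MeasurableSpace Y] in
lemma erg_cntOut_add (T : Y → Y) (S : Set Y) (x : Y) (m l : ℕ) :
    cntOut T S x (m + l) = cntOut T S x m + cntOut T S (T^[m] x) l := by
  simp only [erg_cntOut_eq_sum, Finset.sum_range_add]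
  congr 1
  refine Finset.sum_congr rfl fun k _ => ?_
  rw [add_comm m k, Function.iterate_add_apply]

omit [MeasurableSpace Y] in
lemma erg_cntOut_le (T : Y → Y) (S : Set Y) (x : Y) (m : ℕ) : cntOut T S x m ≤ m := by
  classical
  unfold cntOut
  exact (Finset.card_filter_le _ _).trans (by simp)

omit [MeasurableSpace Y] in
lemma erg_cntOut_mono (T : Y → Y) (S : Set Y) (x : Y) {m l : ℕ} (h : m ≤ l) :
    cntOut T S x m ≤ cntOut T S x l := by
  obtain ⟨d, rfl⟩ := Nat.exists_eq_add_of_le h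
  rw [erg_cntOut_add]
  omega

lemma erg_measurable_cntOut (hT : Measurable T) {S : Set Y} (hS : MeasurableSet S) (m : ℕ) :
    Measurable fun x => cntOut T S x m := by
  simp only [erg_cntOut_eq_sum]
  refine Finset.measurable_sum _ fun k _ => ?_
  exact (measurable_const.indicator hS.compl).comp (hT.iterate k)

lemma measurableSet_freqGood (hT : Measurable T) {S : Set Y} (hS : MeasurableSet S) (ε : ℝ) :
    MeasurableSet (freqGood T S ε) := by
  have : freqGood T S ε = ⋂ m : ℕ, (fun x => cntOut T S x m) ⁻¹' {c : ℕ | (c : ℝ) ≤ ε * m} := by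
    ext x
    simp [freqGood]
  rw [this]
  exact MeasurableSet.iInter fun m => erg_measurable_cntOut hT hS m (MeasurableSet.of_discrete)

lemma freqGood_mono {S S' : Set Y} (h : S ⊆ S') (ε : ℝ) : freqGood T S ε ⊆ freqGood T S' ε := by
  classical
  intro x hx m
  refine le_trans ?_ (hx m)
  have : cntOut T S' x m ≤ cntOut T S x m := by
    unfold cntOut
    refine Finset.card_le_card fun k hk => ?_
    simp only [Finset.mem_filter] at hk ⊢
    exact ⟨hk.1, fun hS => hk.2 (h hS)⟩
  exact_mod_cast this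

/-- The points that are bad at a time at most `L`. -/
def ergBad (T : Y → Y) (S : Set Y) (ε : ℝ) (L : ℕ) : Set Y :=
  {x | ∃ m : ℕ, m ≤ L ∧ ε * m < (cntOut T S x m : ℝ)}

omit [MeasurableSpace Y] in
lemma erg_comb (T : Y → Y) (S : Set Y) {ε : ℝ} (hε : 0 < ε) (L : ℕ) (M : ℕ) :
    ∀ x : Y, ε * (cntOut T (ergBad T S ε L)ᶜ x M : ℝ) ≤ (cntOut T S x (M + L) : ℝ) := by
  induction M using Nat.strong_induction_on with
  | _ M ih =>
    intro x
    rcases Nat.eq_zero_or_pos M with rfl | hM
    · simp [cntOut]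
    by_cases hx : x ∈ ergBad T S ε L
    · obtain ⟨m, hmL, hm⟩ := hx
      have hm0 : 0 < m := by
        rcases Nat.eq_zero_or_pos m with rfl | h
        · simp [cntOut] at hm
        · exact h
      by_cases hMm : M ≤ m
      · have h1 : (cntOut T (ergBad T S ε L)ᶜ x M : ℝ) ≤ m := by
          exact Nat.cast_le.mpr ((erg_cntOut_le _ _ _ _).trans hMm)
        have h2 : (cntOut T S x m : ℝ) ≤ cntOut T S x (M + L) := by
          exact Nat.cast_le.mpr (erg_cntOut_mono _ _ _ (by omega))
        nlinarith [mul_le_mul_of_nonneg_left h1 hε.le]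
      · push Not at hMm
        obtain ⟨d, rfl⟩ := Nat.exists_eq_add_of_le hMm.le
        have h1 := ih d (by omega) (T^[m] x)
        rw [erg_cntOut_add, add_assoc, erg_cntOut_add]
        have h2 : (cntOut T (ergBad T S ε L)ᶜ x m : ℝ) ≤ m := by
          exact Nat.cast_le.mpr (erg_cntOut_le _ _ _ _)
        push_cast
        nlinarith [mul_le_mul_of_nonneg_left h2 hε.le]
    · obtain ⟨d, rfl⟩ := Nat.exists_eq_add_of_le (show 1 ≤ M from hM)
      have h1 := ih d (by omega) (T^[1] x)
      rw [erg_cntOut_add, add_assoc, erg_cntOut_add]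
      have h2 : cntOut T (ergBad T S ε L)ᶜ x 1 = 0 := by
        rw [erg_cntOut_eq_sum]
        simp [hx]
      rw [h2]
      push_cast
      have h3 : (0 : ℝ) ≤ cntOut T S x 1 := Nat.cast_nonneg _
      linarith

lemma erg_lintegral_cntOut (hT : MeasurePreserving T μ μ) {S : Set Y} (hS : MeasurableSet S)
    (m : ℕ) : ∫⁻ x, (cntOut T S x m : ℝ≥0∞) ∂μ = m * μ Sᶜ := by
  have h1 : ∀ x, (cntOut T S x m : ℝ≥0∞) =
      ∑ k ∈ Finset.range m, (T^[k] ⁻¹' Sᶜ).indicator (fun _ => (1 : ℝ≥0∞)) x := by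
    intro x
    rw [erg_cntOut_eq_sum]
    push_cast
    refine Finset.sum_congr rfl fun k _ => ?_
    by_cases h : T^[k] x ∈ S <;> simp [h]
  simp_rw [h1]
  rw [lintegral_finsetSum]
  · have h2 : ∀ k ∈ Finset.range m,
        ∫⁻ x, (T^[k] ⁻¹' Sᶜ).indicator (fun _ => (1 : ℝ≥0∞)) x ∂μ = μ Sᶜ := by
      intro k _
      rw [lintegral_indicator_const ((hT.iterate k).measurable hS.compl), one_mul,
        (hT.iterate k).measure_preimage hS.compl.nullMeasurableSet]
    rw [Finset.sum_congr rfl h2]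
    simp
  · intro k _
    exact measurable_const.indicator ((hT.iterate k).measurable hS.compl)

lemma erg_measurableSet_ergBad (hT : Measurable T) {S : Set Y} (hS : MeasurableSet S) (ε : ℝ)
    (L : ℕ) : MeasurableSet (ergBad T S ε L) := by
  have : ergBad T S ε L =
      ⋃ m : ℕ, (fun x => cntOut T S x m) ⁻¹' {c : ℕ | m ≤ L ∧ ε * m < (c : ℝ)} := by
    ext x
    simp [ergBad]
  rw [this]
  exact MeasurableSet.iUnion fun m => erg_measurable_cntOut hT hS m (MeasurableSet.of_discrete)

lemma erg_ergBad_le (hT : MeasurePreserving T μ μ) {S : Set Y} (hS : MeasurableSet S)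
    {ε : ℝ} (hε : 0 < ε) (L : ℕ) : ENNReal.ofReal ε * μ (ergBad T S ε L) ≤ μ Sᶜ := by
  have hB := erg_measurableSet_ergBad hT.measurable hS ε L
  have key : ∀ M : ℕ, (M : ℝ≥0∞) * (ENNReal.ofReal ε * μ (ergBad T S ε L)) ≤
      ((M + L : ℕ) : ℝ≥0∞) * μ Sᶜ := by
    intro M
    have h1 := erg_lintegral_cntOut hT hB.compl M
    rw [compl_compl] at h1
    rw [← erg_lintegral_cntOut hT hS, mul_left_comm, ← h1, ← lintegral_const_mul' _ _
      ENNReal.ofReal_ne_top]
    refine lintegral_mono fun x => ?_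
    have h2 := erg_comb T S hε L M x
    have h3 := ENNReal.ofReal_le_ofReal h2
    rw [ENNReal.ofReal_mul hε.le, ENNReal.ofReal_natCast, ENNReal.ofReal_natCast] at h3
    exact h3
  by_cases hfin : μ Sᶜ = ∞
  · simp [hfin]
  set a := ENNReal.ofReal ε * μ (ergBad T S ε L) with ha
  have hafin : a ≠ ∞ := by
    intro h
    have h1 := key 1
    rw [h] at h1
    simp only [Nat.cast_one, one_mul, top_le_iff] at h1
    exact ENNReal.mul_ne_top (ENNReal.natCast_ne_top _) hfin h1
  lift a to NNReal using hafin with a' ha'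
  lift μ Sᶜ to NNReal using hfin with b hb
  have key' : ∀ M : ℕ, (M : ℝ) * (a' : ℝ) ≤ ((M : ℝ) + L) * (b : ℝ) := by
    intro M
    have h1 := key M
    exact_mod_cast h1
  have : (a' : ℝ) ≤ b := by
    by_contra hlt
    push Not at hlt
    obtain ⟨M, hM⟩ := exists_nat_gt ((L : ℝ) * b / ((a' : ℝ) - b))
    rw [div_lt_iff₀ (by linarith)] at hM
    have := key' M
    nlinarith
  exact_mod_cast this

/-- Maximal ergodic inequality. -/
theorem freqGood_compl_le (hT : MeasurePreserving T μ μ) {S : Set Y} (hS : MeasurableSet S)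
    {ε : ℝ} (hε : 0 < ε) : ENNReal.ofReal ε * μ (freqGood T S ε)ᶜ ≤ μ Sᶜ := by
  have h1 : (freqGood T S ε)ᶜ = ⋃ L : ℕ, ergBad T S ε L := by
    ext x
    simp only [freqGood, ergBad, mem_compl_iff, mem_ofPred_eq, not_forall, not_le, mem_iUnion]
    constructor
    · rintro ⟨m, hm⟩
      exact ⟨m, m, le_rfl, hm⟩
    · rintro ⟨L, m, -, hm⟩
      exact ⟨m, hm⟩
  have hmono : Monotone (ergBad T S ε) := by
    intro L L' h x hx
    obtain ⟨m, hm, hm'⟩ := hx
    exact ⟨m, hm.trans h, hm'⟩
  rw [h1, hmono.measure_iUnion, ENNReal.mul_iSup]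
  exact iSup_le fun L => erg_ergBad_le hT hS hε L

omit [MeasurableSpace Y] in
lemma erg_cover {S : Set Y} {x y : Y} {a N : ℕ}
    (h : ∀ k, a ≤ k → k < N → ¬ (T^[k] x ∈ S ∧ T^[k] y ∈ S)) :
    N ≤ a + cntOut T S x N + cntOut T S y N := by
  classical
  unfold cntOut
  have hsub : Finset.range N ⊆ Finset.range a ∪
      ((Finset.range N).filter (fun k => T^[k] x ∉ S) ∪
        (Finset.range N).filter (fun k => T^[k] y ∉ S)) := by
    intro k hk
    simp only [Finset.mem_union, Finset.mem_filter, Finset.mem_range] at hk ⊢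
    by_cases hka : k < a
    · exact Or.inl hka
    · have := h k (not_lt.mp hka) hk
      right
      by_cases hx : T^[k] x ∈ S
      · exact Or.inr ⟨hk, fun hy => this ⟨hx, hy⟩⟩
      · exact Or.inl ⟨hk, hx⟩
  have h1 := Finset.card_le_card hsub
  have h2 := Finset.card_union_le (Finset.range a)
      ((Finset.range N).filter (fun k => T^[k] x ∉ S) ∪
        (Finset.range N).filter (fun k => T^[k] y ∉ S))
  have h3 := Finset.card_union_le ((Finset.range N).filter (fun k => T^[k] x ∉ S))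
        ((Finset.range N).filter (fun k => T^[k] y ∉ S))
  simp only [Finset.card_range] at h1 h2
  omega

omit [MeasurableSpace Y] in
/-- Two points with exit frequency at most `1/3` are simultaneously in `S` infinitely often. -/
lemma frequently_both {S : Set Y} {x y : Y} (hx : x ∈ freqGood T S (1 / 3))
    (hy : y ∈ freqGood T S (1 / 3)) : ∃ᶠ k in atTop, T^[k] x ∈ S ∧ T^[k] y ∈ S := by
  rw [Filter.frequently_atTop]
  intro a
  by_contra hcon
  push Not at hcon
  have h1 : 3 * a + 3 ≤ a + cntOut T S x (3 * a + 3) + cntOut T S y (3 * a + 3) :=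
    erg_cover fun k hk _ hb => hcon k hk hb.1 hb.2
  have h2 := hx (3 * a + 3)
  have h3 := hy (3 * a + 3)
  have h4 : ((3 * a + 3 : ℕ) : ℝ) ≤
      (a : ℝ) + cntOut T S x (3 * a + 3) + cntOut T S y (3 * a + 3) := by exact_mod_cast h1
  push_cast at h2 h3 h4
  linarith

omit [MeasurableSpace Y] in
/-- Two points with exit frequency at most `1/10` are simultaneously in `S` at a time in the
second half of `[0, N)`. -/
lemma exists_both_second_half {S : Set Y} {x y : Y} (hx : x ∈ freqGood T S (1 / 10))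
    (hy : y ∈ freqGood T S (1 / 10)) {N : ℕ} (hN : 10 ≤ N) :
    ∃ k : ℕ, N ≤ 2 * k ∧ k < N ∧ T^[k] x ∈ S ∧ T^[k] y ∈ S := by
  by_contra hcon
  push Not at hcon
  have h1 : N ≤ (N + 1) / 2 + cntOut T S x N + cntOut T S y N :=
    erg_cover fun k hk hk' hb => hcon k (by omega) hk' hb.1 hb.2
  have h2 := hx N
  have h3 := hy N
  have h2' : 10 * cntOut T S x N ≤ N := by
    have : (10 : ℝ) * cntOut T S x N ≤ N := by linarith
    exact_mod_cast this
  have h3' : 10 * cntOut T S y N ≤ N := by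
    have : (10 : ℝ) * cntOut T S y N ≤ N := by linarith
    exact_mod_cast this
  omega

/-- A conull set contains a forward invariant conull measurable set. -/
lemma exists_inv_conull (hT : MeasurePreserving T μ μ) {p : Y → Prop} (hp : ∀ᵐ x ∂μ, p x) :
    ∃ S : Set Y, MeasurableSet S ∧ μ Sᶜ = 0 ∧ ∀ x ∈ S, ∀ k : ℕ, T^[k] x ∈ S ∧ p (T^[k] x) := by
  have hN : μ (toMeasurable μ {x | ¬ p x}) = 0 := by
    rw [measure_toMeasurable]
    exact ae_iff.mp hp
  have hNm : MeasurableSet (toMeasurable μ {x | ¬ p x}) := measurableSet_toMeasurable _ _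
  refine ⟨⋂ k : ℕ, T^[k] ⁻¹' (toMeasurable μ {x | ¬ p x})ᶜ, ?_, ?_, ?_⟩
  · exact MeasurableSet.iInter fun k => (hT.iterate k).measurable hNm.compl
  · rw [compl_iInter]
    refine measure_iUnion_null fun k => ?_
    rw [← preimage_compl, compl_compl, (hT.iterate k).measure_preimage hNm.nullMeasurableSet, hN]
  · intro x hx k
    simp only [mem_iInter, mem_preimage, mem_compl_iff] at hx ⊢
    refine ⟨fun j => ?_, ?_⟩
    · rw [← Function.iterate_add_apply]
      exact hx _
    · by_contra h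
      exact hx k (subset_toMeasurable _ _ h)

theorem recur [TopologicalSpace Y] [SecondCountableTopology Y] [OpensMeasurableSpace Y]
    [IsFiniteMeasure μ] (hT : MeasurePreserving T μ μ) {S : Set Y} (hS : MeasurableSet S) :
    ∀ᵐ x ∂μ, x ∈ S → ∃ φ : ℕ → ℕ, StrictMono φ ∧ (∀ m, T^[φ m] x ∈ S) ∧
      Tendsto (fun m => T^[φ m] x) atTop (𝓝 x) := by
  have hc : Conservative T μ := hT.conservative
  have h1 : ∀ V ∈ TopologicalSpace.countableBasis Y,
      ∀ᵐ x ∂μ, x ∈ S ∩ V → ∃ᶠ n in atTop, T^[n] x ∈ S ∩ V := by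
    intro V hV
    exact hc.ae_mem_imp_frequently_image_mem
      (hS.inter (TopologicalSpace.isOpen_of_mem_countableBasis hV).measurableSet).nullMeasurableSet
  have h2 := (ae_ball_iff (TopologicalSpace.countable_countableBasis Y)).mpr h1
  filter_upwards [h2] with x hx hxS
  obtain ⟨U, hU⟩ := (𝓝 x).exists_antitone_basis
  have h3 : ∀ m : ℕ, ∃ᶠ n in atTop, T^[n] x ∈ S ∩ U m := by
    intro m
    obtain ⟨V, hV, hxV, hVU⟩ :=
      (TopologicalSpace.isBasis_countableBasis Y).mem_nhds_iff.mp (hU.mem m)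
    exact (hx V hV ⟨hxS, hxV⟩).mono fun n hn => ⟨hn.1, hVU hn.2⟩
  obtain ⟨φ, hφ, hφ'⟩ := extraction_forall_of_frequently h3
  exact ⟨φ, hφ, fun m => (hφ' m).1, hU.tendsto fun m => (hφ' m).2⟩

lemma ae_eq_of_le_comp [IsFiniteMeasure μ] (hT : MeasurePreserving T μ μ) {f : Y → ℝ≥0∞}
    (hf : Measurable f) (h1 : ∀ᵐ x ∂μ, f x ≤ 1) (hle : ∀ᵐ x ∂μ, f (T x) ≤ f x) :
    ∀ᵐ x ∂μ, f (T x) = f x := by
  have hint : ∫⁻ x, f (T x) ∂μ = ∫⁻ x, f x ∂μ := hT.lintegral_comp hf
  have hfin : ∫⁻ x, f x ∂μ ≠ ∞ := by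
    refine ne_top_of_le_ne_top ?_ (lintegral_mono_ae h1)
    simp
  exact ae_eq_of_ae_le_of_lintegral_le hle (hint ▸ hfin) hf.aemeasurable hint.ge

end Vale.Agent.P007
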