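import Vale.Agent.P007.E.Ent
import Vale.Agent.P007.E.Erg

/-!
P007 E, task EntM2: zero entropy means the future determines the present.
Let `H N = Ent μ (itin T B N)` (finite, `ent_fintype_ne_top`). `W N x = itin T B N (T x)` has
entropy `H N` (`ent_comp`), and `(B x, W N x)` is determined by `itin T B (N+1) x`
(`ent_mono`), so `ent_fano` gives `H N + log 2 * err N ≤ H (N+1)`; summing,
`log 2 * ∑_{k<N} err k ≤ H N ≤ C + N η`, so for every `l` some `err (N l) ≤ 2^{-l}`.
Borel-Cantelli (`ae_eventually_notMem` / `measure_limsup_atTop_eq_zero`): a.e. `x` has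
`pred l (W (N l) x) = B x` for all large `l`. On that set two points with the same values
`B (T^k ·)`, `k ≥ 1`, have the same `B`. Use `exists_inv_conull` and downward induction on `m`.
-/

open Matrix MeasureTheory ProbabilityTheory Set Filter Topology
open scoped ENNReal

namespace Vale.Agent.P007

variable {Y : Type} [MeasurableSpace Y] {μ : Measure Y} [IsProbabilityMeasure μ] {T : Y → Y}

theorem future_determines (hT : MeasurePreserving T μ μ) {B : Y → Bool} (hB : MFib B)
    (h0 : ZeroEnt μ T B) :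
    ∃ X' : Set Y, MeasurableSet X' ∧ μ X'ᶜ = 0 ∧ ∀ x ∈ X', ∀ y ∈ X', ∀ m : ℕ,
      (∀ k, m ≤ k → B (T^[k] x) = B (T^[k] y)) → B x = B y := by
  have hW : ∀ N, MFib fun x => itin T B N (T x) := fun N =>
    (hB.itin hT.measurable N).comp hT.measurable
  choose pred hp using fun N => ent_fano (μ := μ) hB (hW N)
  let err : ℕ → ℝ≥0∞ := fun N => μ {x | pred N (itin T B N (T x)) ≠ B x}
  have hl : ENNReal.ofReal (Real.log 2) ≠ 0 :=
    (ENNReal.ofReal_pos.2 (Real.log_pos one_lt_two)).ne'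
  have h1 : ∀ N, Ent μ (itin T B N) + ENNReal.ofReal (Real.log 2) * err N ≤
      Ent μ (itin T B (N + 1)) := fun N => by
    rw [← ent_comp (hB.itin hT.measurable N) hT]
    refine (hp N).trans (ent_mono (S := univ) (by simp) fun x _ y _ h => ?_)
    exact Prod.ext (congrFun h 0) (funext fun k => congrFun h k.succ)
  have h2 : ∀ e : ℝ≥0∞, 0 < e → e ≠ ∞ → ∃ N, err N ≤ e := fun e he he' => by
    by_contra hc
    push Not at hc
    have h3 : ∀ N : ℕ, N * (ENNReal.ofReal (Real.log 2) * e) ≤ Ent μ (itin T B N) := fun N => by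
      induction N with
      | zero => simp
      | succ N ih =>
        rw [Nat.cast_succ, add_one_mul]
        exact (add_le_add ih (mul_le_mul_right (hc N).le _)).trans (h1 N)
    obtain ⟨c, hc'⟩ : ∃ c, c = ENNReal.ofReal (Real.log 2) * e / 2 := ⟨_, rfl⟩
    have h4 : c ≠ 0 := hc' ▸ (ENNReal.half_pos (mul_ne_zero hl he.ne')).ne'
    have h5 : c ≠ ∞ := hc' ▸ ENNReal.div_ne_top (ENNReal.mul_ne_top ENNReal.ofReal_ne_top he')
      two_ne_zero
    obtain ⟨C, hC, h6⟩ := h0 c (pos_iff_ne_zero.2 h4)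
    obtain ⟨N, hN⟩ := ENNReal.exists_nat_mul_gt h4 hC
    have h7 := (h3 N).trans (h6 N)
    rw [← ENNReal.add_halves (ENNReal.ofReal (Real.log 2) * e), ← hc', mul_add,
      ENNReal.add_le_add_iff_right (ENNReal.mul_ne_top (ENNReal.natCast_ne_top N) h5)] at h7
    exact hN.not_ge h7
  choose N hN using fun l : ℕ => h2 (2⁻¹ ^ l) (ENNReal.pow_pos (by simp) l)
    (ENNReal.pow_ne_top (by simp))
  have h3 := ae_eventually_notMem (μ := μ)
    (s := fun l => {x | pred (N l) (itin T B (N l) (T x)) ≠ B x})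
    (ne_top_of_le_ne_top (by simp [ENNReal.tsum_geometric]) (ENNReal.tsum_le_tsum hN))
  obtain ⟨S, h4, h5, h6⟩ := exists_inv_conull hT h3
  refine ⟨S, h4, h5, fun x hx y hy m => ?_⟩
  induction m with
  | zero => exact fun h => h 0 le_rfl
  | succ m ih =>
    refine fun h => ih fun k hk => ?_
    rcases hk.eq_or_lt with rfl | hk
    · obtain ⟨l, h7, h8⟩ := ((h6 x hx m).2.and (h6 y hy m).2).exists
      rw [← not_not.1 h7, ← not_not.1 h8]
      refine congrArg _ (funext fun k => ?_)
      have h9 := h (k + 1 + m) (by omega)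
      rw [Function.iterate_add_apply T _ m x, Function.iterate_add_apply T _ m y] at h9
      exact h9
    · exact h k hk

omit [IsProbabilityMeasure μ] in
/-- A level with summable boundary strips (Tonelli in `t` over `Ioo r r'`). -/
theorem exists_summable_level [IsFiniteMeasure μ] {F : Y → ℝ} (hF : Measurable F) {r r' θ : ℝ}
    (hr : r < r') (h0 : 0 < θ) (h1 : θ < 1) :
    ∃ t ∈ Ioo r r', ∑' k : ℕ, μ {x | |F x - t| ≤ θ ^ k} ≠ ∞ := by
  have hm : ∀ k : ℕ, MeasurableSet {p : ℝ × Y | |F p.2 - p.1| ≤ θ ^ k} := fun k =>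
    measurableSet_le ((hF.comp measurable_snd).sub measurable_fst).abs measurable_const
  have h2 : ∀ k : ℕ, Measurable fun t => μ {x | |F x - t| ≤ θ ^ k} := fun k =>
    measurable_measure_prodMk_left (hm k)
  have h3 : ∀ k : ℕ, ∫⁻ t, μ {x | |F x - t| ≤ θ ^ k} ≤
      ENNReal.ofReal θ ^ k * (2 * μ univ) := fun k => by
    refine ((Measure.prod_apply (hm k)).symm.trans (Measure.prod_apply_symm (hm k))).trans_le
      (le_of_eq ?_)
    rw [← mul_assoc, ← lintegral_const]
    refine lintegral_congr fun x => ?_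
    have h4 : (fun t => (t, x)) ⁻¹' {p : ℝ × Y | |F p.2 - p.1| ≤ θ ^ k} =
        Metric.closedBall (F x) (θ ^ k) := by
      ext t
      simp [Real.dist_eq, abs_sub_comm]
    rw [h4, Real.volume_closedBall, ENNReal.ofReal_mul zero_le_two, ENNReal.ofReal_pow h0.le,
      ENNReal.ofReal_ofNat, mul_comm]
  have h4 : ∫⁻ t, ∑' k : ℕ, μ {x | |F x - t| ≤ θ ^ k} ≠ ∞ := by
    rw [lintegral_tsum fun k => (h2 k).aemeasurable]
    refine ne_top_of_le_ne_top ?_ (ENNReal.tsum_le_tsum h3)
    rw [ENNReal.tsum_mul_right, ENNReal.tsum_geometric]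
    exact ENNReal.mul_ne_top (ENNReal.inv_ne_top.2 (tsub_pos_of_lt (ENNReal.ofReal_lt_one.2 h1)).ne')
      (ENNReal.mul_ne_top ENNReal.ofNat_ne_top (measure_ne_top _ _))
  obtain ⟨t, h5, h6⟩ := Measure.exists_mem_of_measure_ne_zero_of_ae
    (μ := volume) (s := Ioo r r') (by simpa using hr)
    (ae_restrict_of_ae (ae_lt_top (Measurable.tsum h2) h4))
  exact ⟨t, h5, h6.ne⟩

end Vale.Agent.P007
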