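import Vale.Agent.P007.E.Latt
import Vale.Agent.P007.E.EntM2

/-!
P007 E, task EntB: zero entropy forces the contracted roots to be trivial.
`T = (act · a)`, `a = diagA u`, `θ = exp (-(u i - u j)/2) < 1`. For `w : Fin n → ℚ` let
`F w x = Metric.infDist w (lat x)` (measurable: `{F w < c}` is open by `isOpen_lat_meets`,
`lat x` is nonempty). For `m : ℕ`, `r = 1/(4(m+1))`, choose `t w m ∈ Ioo r (2r)` by
`exists_summable_level`; `B w m x = decide (F w x < t w m)`. Borel-Cantelli for the sets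
`T^[k] ⁻¹' {|F w - t| ≤ θ^k}`: a.e. `x` has `θ^k < |F w (T^k x) - t|` for large `k`. `X'` is a
measurable conull set inside all these, the sets of `future_determines` and `NoHypPt`.
If `x, y = act x (uu i j s) ∈ X'` then `T^k y = act (T^k x) (uu i j (s θ^{2k}))` (`act_cj`,
`cj_diagA_uu`) and `|s| θ^{2k} (‖w‖ + 1) < θ^k` for large `k`, so `B (T^k x) = B (T^k y)` for large
`k` (`vecMul_uu`, `mem_lat_act`), hence `B x = B y` for all `w, m`. Take `0 ≠ v ∈ lat x`
(`minkowski_box`); approximating `v` by rational `w` gives `v ∈ closure (lat y) = lat y`, so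
`v = v' + s v'_i e_j` with `v' ∈ lat x`; `v - v' ∈ lat x` has zero `i`-th entry so it vanishes,
`v' ≠ 0` so `v'_i ≠ 0`, so `s = 0`.
-/

open Matrix MeasureTheory ProbabilityTheory Set Filter Topology
open scoped ENNReal

namespace Vale.Agent.P007

variable {n : ℕ}

lemma entB_meas (w : Fin n → ℝ) : Measurable fun x : X n => Metric.infDist w (lat x) :=
  measurable_of_Iio fun c =>
    (isOpen_lat_meets (Metric.isOpen_ball (x := w) (ε := c))).measurableSet.congr (Set.ext fun x => by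
      rw [mem_preimage, mem_Iio, Metric.infDist_lt_iff ⟨0, zero_mem_lat _⟩]
      simp only [Metric.mem_ball', mem_ofPred_eq])

lemma entB_step {i j : Fin n} (hij : i ≠ j) {w : Fin n → ℝ} {z : X n} {s t e : ℝ} (ht : t ≤ 1)
    (hs : |s| * (‖w‖ + 1) ≤ e) (h1 : e < |Metric.infDist w (lat z) - t|)
    (h2 : Metric.infDist w (lat z) < t) : Metric.infDist w (lat (act z (uu i j s))) < t := by
  rw [abs_of_neg (sub_neg.2 h2)] at h1
  obtain ⟨v, h3, h4⟩ := (Metric.infDist_lt_iff ⟨0, zero_mem_lat z⟩).1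
    (show Metric.infDist w (lat z) < t - e by linarith)
  have h5 : 0 ≤ e := le_trans (by positivity) hs
  have h6 : |v i| ≤ ‖w‖ + 1 := by
    have h7 := norm_le_pi_norm v i
    have h8 := norm_le_norm_add_norm_sub' v w
    rw [← dist_eq_norm'] at h8
    rw [Real.norm_eq_abs] at h7
    linarith
  refine (Metric.infDist_le_dist_of_mem ((mem_lat_act _ _ _).2 ⟨v, h3, rfl⟩)).trans_lt
    ((dist_triangle _ v _).trans_lt ?_)
  rw [vecMul_uu hij, dist_self_add_right, Pi.norm_single, Real.norm_eq_abs, abs_mul]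
  linarith [mul_le_mul_of_nonneg_left h6 (abs_nonneg s)]

theorem entB {μ : Measure (X n)} [IsProbabilityMeasure μ] (hA : AInv μ)
    (hN : ∀ᵐ x ∂μ, NoHypPt x) (u : Fin n → ℝ) (hu : ∑ p, u p = 0)
    (h0 : ∀ B : X n → Bool, MFib B → ZeroEnt μ (fun x => act x (diagA u hu)) B)
    {i j : Fin n} (hij : u j < u i) : Triv μ i j := by
  have hne : i ≠ j := fun h => hij.ne (by rw [h])
  have hTm := (hA.hinv u hu).mp
  obtain ⟨θ, hθ⟩ : ∃ θ, θ = Real.exp ((u j - u i) / 2) := ⟨_, rfl⟩
  have t0 : 0 < θ := hθ ▸ Real.exp_pos _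
  have t1 : θ < 1 := hθ ▸ Real.exp_lt_one_iff.2 (by linarith)
  have t2 : ∀ k : ℕ, Real.exp (k * (u j - u i)) = θ ^ k * θ ^ k := fun k => by
    rw [hθ, ← mul_pow, ← Real.exp_add, add_halves, Real.exp_nat_mul]
  let F : (Fin n → ℚ) × ℕ → X n → ℝ := fun a x => Metric.infDist (fun p => (a.1 p : ℝ)) (lat x)
  have hF : ∀ a, Measurable (F a) := fun a => entB_meas _
  have hr : ∀ m : ℕ, (0 : ℝ) < 1 / (m + 1) := fun m => Nat.one_div_pos_of_nat
  choose t ht hs using fun a : (Fin n → ℚ) × ℕ => exists_summable_level (μ := μ) (hF a)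
    (show 1 / ((a.2 : ℝ) + 1) / 4 < 1 / (a.2 + 1) / 2 by linarith [hr a.2]) t0 t1
  let B : (Fin n → ℚ) × ℕ → X n → Bool := fun a x => if F a x < t a then true else false
  have hB : ∀ a, MFib (B a) := fun a b =>
    Measurable.ite (measurableSet_lt (hF a) measurable_const) measurable_const measurable_const
      (measurableSet_singleton b)
  choose Z z1 z2 z3 using fun a => future_determines hTm (hB a) (h0 _ (hB a))
  have h1 : ∀ a, ∀ᵐ x ∂μ, ∀ᶠ k in atTop, x ∉ (fun x => act x (diagA u hu))^[k] ⁻¹'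
      {x | |F a x - t a| ≤ θ ^ k} := fun a => ae_eventually_notMem (by
    rw [tsum_congr fun k => (hTm.iterate k).measure_preimage (measurableSet_le
      ((hF a).sub_const _).abs measurable_const).nullMeasurableSet]
    exact hs a)
  obtain ⟨S, s1, s2, s3⟩ := exists_inv_conull hTm (hN.and (ae_all_iff.2 fun a =>
    (h1 a).and (measure_eq_zero_iff_ae_notMem.1 (z2 a))))
  refine ⟨S, s1, s2, fun x hx s hy => ?_⟩
  obtain ⟨x1, x2⟩ := (s3 x hx 0).2
  have y2 := (s3 _ hy 0).2.2
  have h2 : ∀ a, F a x < t a → F a (act x (uu i j s)) < t a := fun a h => by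
    have h3 := (tendsto_pow_atTop_nhds_zero_of_lt_one t0.le t1).const_mul
      (|s| * (‖fun p => (a.1 p : ℝ)‖ + 1))
    rw [mul_zero] at h3
    obtain ⟨m, hm⟩ := eventually_atTop.1
      (((x2 a).1.and (y2 a).1).and (h3.eventually_le_const one_pos))
    have h4 := z3 a x (not_notMem.1 (x2 a).2) _ (not_notMem.1 (y2 a).2) m fun k hk => by
      obtain ⟨⟨h5, h6⟩, h7⟩ := hm k hk
      simp only [mem_preimage, mem_ofPred_eq, not_le, iterate_act, pow_zero, act_one] at h5 h6 ⊢
      rw [act_cj, cj_diagA_uu, t2] at h6 ⊢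
      have h8 : t a ≤ 1 := by
        have := (ht a).2
        have : 1 / ((a.2 : ℝ) + 1) ≤ 1 := Nat.one_div_le_one_div (Nat.zero_le a.2) |>.trans_eq
          (by simp)
        linarith [hr a.2]
      have h9 : |s * (θ ^ k * θ ^ k)| * (‖fun p => (a.1 p : ℝ)‖ + 1) ≤ θ ^ k := by
        rw [abs_mul, abs_of_pos (by positivity : 0 < θ ^ k * θ ^ k)]
        exact le_of_eq_of_le (by ring) (mul_le_of_le_one_left (pow_pos t0 k).le h7)
      refine if_congr ⟨entB_step hne h8 h9 h5, fun h10 => ?_⟩ rfl rfl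
      have h11 := entB_step hne h8 (s := -(s * (θ ^ k * θ ^ k))) (by rwa [abs_neg]) h6 h10
      rwa [act_mul, ← uu_add, add_neg_cancel, uu_zero, act_one] at h11
    by_contra h5
    simp [B, h, h5] at h4
  obtain ⟨v, v1, v2, -⟩ := minkowski_box i.pos x (fun _ => 2) (fun _ => two_pos) (by
    rw [Finset.prod_const, Finset.card_univ, Fintype.card_fin]
    exact one_lt_pow₀ one_lt_two i.pos.ne')
  have h3 : v ∈ lat (act x (uu i j s)) := by
    refine (isClosed_lat _).closure_subset (Metric.mem_closure_iff.2 fun e he => ?_)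
    obtain ⟨m, hm⟩ := exists_nat_one_div_lt he
    have h4 : 0 < 1 / ((m : ℝ) + 1) / 4 := by linarith [hr m]
    choose w hw using fun p => exists_rat_near (v p) h4
    have h5 : dist v (fun p => (w p : ℝ)) < 1 / ((m : ℝ) + 1) / 4 := (dist_pi_lt_iff h4).2 hw
    obtain ⟨b, h6, h7⟩ := (Metric.infDist_lt_iff ⟨0, zero_mem_lat _⟩).1 (h2 (w, m)
      ((Metric.infDist_le_dist_of_mem v1).trans_lt (((dist_comm _ _).trans_lt h5).trans
        (ht (w, m)).1)))
    refine ⟨b, h6, (dist_triangle _ (fun p => (w p : ℝ)) _).trans_lt ?_⟩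
    have h8 : t (w, m) < 1 / ((m : ℝ) + 1) / 2 := (ht (w, m)).2
    linarith [hr m]
  obtain ⟨v', h4, h5⟩ := (mem_lat_act _ _ _).1 h3
  rw [vecMul_uu hne] at h5
  have h6 : v - v' = 0 := by_contra fun h => x1 _ (sub_mem_lat v1 h4) h i (by
    rw [h5, add_sub_cancel_left, Pi.single_eq_of_ne hne])
  have h7 := congrFun h6 j
  rw [h5, add_sub_cancel_left, Pi.single_eq_same, ← sub_eq_zero.1 h6] at h7
  exact (mul_eq_zero.1 h7).resolve_right (x1 v v1 v2 i)

end Vale.Agent.P007
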