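import Vale.Agent.P007.E.Part

/-!
P007 E, task EntC: (S1) gives positive entropy for regular `a = diagA u`.
`prod_close`: `(w h)_j = w_j h_jj + O(θ)`, `∏ h_jj = det h + O(θ) = 1 + O(θ)` (`Matrix.det_apply`:
every permutation other than the identity moves a point, so its term contains an off-diagonal
entry), and `|∏ a_j - ∏ b_j| ≤ n M^n max |a_j - b_j|` for entries bounded by `M ≥ 1`.
`entC`: `P` adapted for `ε = min ε0 (1/(10 n))` (`adapted_chain a`, `exists_adapted`,
`lintegral_lev`), `gap = min_{p ≠ q} |u p - u q| > 0`. If `x, y` have the same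
`itin T P (2N+1)` then `y = act x g`, `Near (cj a g j) ε` for `j ≤ 2N`; comparing `j = N` with
`j = 0` and `j = 2N` (`mat_cj_diagA`) the off-diagonal entries of `h = cj a g N` are
`≤ θ = exp (-gap N)`. With `w ∈ lat (T^N x)` from `minkowski_box` (sides `3/2`) the atom of `x`
lies in `T^[N] ⁻¹' thin n (∏ w) ((L+1) θ)`, of measure `≤ C' ((L+1) θ)^c` for large `N`
(`isOpen_thin`, invariance; `C' = max C 1`). `ent_lower` gives entropy `≥ c gap N - C''`,
contradicting `ZeroEnt` with `η = c gap / 4`.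
-/

open Matrix MeasureTheory ProbabilityTheory Set Filter Topology
open scoped ENNReal

namespace Vale.Agent.P007

variable {n : ℕ}

lemma entC_prod_lip {ι : Type} (s : Finset ι) (a b : ι → ℝ) {δ : ℝ} (hδ : 0 ≤ δ)
    (ha : ∀ i, |a i| ≤ 2) (hb : ∀ i, |b i| ≤ 2) (hab : ∀ i, |a i - b i| ≤ δ) :
    |∏ i ∈ s, b i| ≤ 2 ^ s.card ∧ |∏ i ∈ s, a i - ∏ i ∈ s, b i| ≤ s.card * 2 ^ s.card * δ := by
  classical
  induction s using Finset.induction_on with
  | empty => simp
  | insert i s hi ih =>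
    obtain ⟨h1, h2⟩ := ih
    rw [Finset.prod_insert hi, Finset.prod_insert hi, Finset.card_insert_of_notMem hi]
    have hp : (0 : ℝ) ≤ 2 ^ s.card := by positivity
    constructor
    · rw [abs_mul, pow_succ, mul_comm]
      exact mul_le_mul h1 (hb i) (abs_nonneg _) hp
    · have e : a i * ∏ j ∈ s, a j - b i * ∏ j ∈ s, b j =
          a i * (∏ j ∈ s, a j - ∏ j ∈ s, b j) + (a i - b i) * ∏ j ∈ s, b j := by ring
      rw [e]
      refine (abs_add_le _ _).trans ?_
      rw [abs_mul, abs_mul]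
      have h3 := mul_le_mul (ha i) h2 (abs_nonneg _) (by norm_num)
      have h4 := mul_le_mul (hab i) h1 (abs_nonneg _) hδ
      have h5 : 0 ≤ 2 ^ s.card * δ := mul_nonneg hp hδ
      push_cast
      rw [pow_succ]
      nlinarith

lemma prod_close (n : ℕ) : ∃ L : ℝ, 0 ≤ L ∧ ∀ (w : Fin n → ℝ) (h : SL n) (θ : ℝ), 0 ≤ θ →
    (∀ j, |w j| ≤ 3 / 2) → Near h (1 / (10 * n)) → (∀ p q, p ≠ q → |mat h p q| ≤ θ) →
      (∀ j, |(w ᵥ* mat h) j| < 2) ∧ |∏ j, (w ᵥ* mat h) j - ∏ j, w j| ≤ L * θ := by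
  refine ⟨n * 2 ^ n * (n * 2) + 2 ^ n * (n.factorial * (n * 2 ^ n)), by positivity, ?_⟩
  intro w h θ hθ hw hN hoff
  have hsm : ∀ j : Fin n, (n : ℝ) * (3 / 2 * (1 / (10 * n))) = 3 / 20 := by
    intro j
    have : (n : ℝ) ≠ 0 := Nat.cast_ne_zero.2 (Fin.pos j).ne'
    field_simp
    norm_num
  have hsm2 : ∀ j : Fin n, 1 / (10 * (n : ℝ)) ≤ 1 / 10 := by
    intro j
    have : (1 : ℝ) ≤ n := Nat.one_le_cast.2 (Fin.pos j)
    apply one_div_le_one_div_of_le <;> linarith
  have hent : ∀ p q, |mat h p q| ≤ 11 / 10 := by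
    intro p q
    have h1 := (hN p q).trans (hsm2 p)
    have h2 : |(1 : Matrix (Fin n) (Fin n) ℝ) p q| ≤ 1 := by
      rw [one_apply]; split_ifs <;> simp
    have h3 := abs_add_le (mat h p q - (1 : Matrix (Fin n) (Fin n) ℝ) p q)
      ((1 : Matrix (Fin n) (Fin n) ℝ) p q)
    rw [sub_add_cancel] at h3
    linarith
  have hsum : ∀ (M : Matrix (Fin n) (Fin n) ℝ) (c : ℝ), (∀ p q, |M p q| ≤ c) →
      ∀ j, |(w ᵥ* M) j| ≤ n * (3 / 2 * c) := by
    intro M c hM j
    show |∑ p, w p * M p j| ≤ _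
    refine (Finset.abs_sum_le_sum_abs _ _).trans ?_
    refine (Finset.sum_le_sum (g := fun _ => 3 / 2 * c) fun p _ => ?_).trans ?_
    · rw [abs_mul]
      exact mul_le_mul (hw p) (hM p j) (abs_nonneg _) (by norm_num)
    · rw [Finset.sum_const, Finset.card_univ, Fintype.card_fin, nsmul_eq_mul]
  have h1 : ∀ j, |(w ᵥ* mat h) j| < 2 := by
    intro j
    have e : (w ᵥ* mat h) j = w j + (w ᵥ* (mat h - 1)) j := by
      rw [vecMul_sub, vecMul_one, Pi.sub_apply]; ring
    have h2 := hsum (mat h - 1) _ (fun p q => hN p q) j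
    rw [hsm j] at h2
    rw [e]
    have := abs_add_le (w j) ((w ᵥ* (mat h - 1)) j)
    linarith [hw j]
  refine ⟨h1, ?_⟩
  set D : Matrix (Fin n) (Fin n) ℝ := diagonal fun j => mat h j j with hD
  have hdiff : ∀ p q, |mat h p q - D p q| ≤ θ := by
    intro p q
    by_cases e : p = q
    · rw [e, hD, diagonal_apply_eq, sub_self, abs_zero]; exact hθ
    · rw [hD, diagonal_apply_ne _ e, sub_zero]; exact hoff p q e
  have hDb : ∀ p q, |D p q| ≤ 2 := by
    intro p q
    by_cases e : p = q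
    · rw [e, hD, diagonal_apply_eq]; linarith [hent q q]
    · rw [hD, diagonal_apply_ne _ e]; simp
  have h2 : |∏ j, (w ᵥ* mat h) j - ∏ j, w j * mat h j j| ≤ n * 2 ^ n * (n * (3 / 2 * θ)) := by
    have := (entC_prod_lip Finset.univ (fun j => (w ᵥ* mat h) j) (fun j => w j * mat h j j)
      (δ := n * (3 / 2 * θ)) (by positivity) (fun j => (h1 j).le) (fun j => ?_) (fun j => ?_)).2
    · simpa using this
    · rw [abs_mul]
      have := mul_le_mul (hw j) (hent j j) (abs_nonneg _) (by norm_num)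
      linarith
    · have e : (w ᵥ* mat h) j - w j * mat h j j = (w ᵥ* (mat h - D)) j := by
        rw [vecMul_sub, Pi.sub_apply, hD, vecMul_diagonal]
      rw [e]
      exact hsum _ _ hdiff j
  have h3 : |∏ j, mat h j j - 1| ≤ n.factorial * (n * 2 ^ n * θ) := by
    have e1 : (mat h).det = 1 := h.2
    have e2 : D.det = ∏ j, mat h j j := det_diagonal
    rw [← e1, ← e2, det_apply', det_apply', ← Finset.sum_sub_distrib]
    refine (Finset.abs_sum_le_sum_abs _ _).trans ?_
    refine (Finset.sum_le_sum (g := fun _ => n * 2 ^ n * θ) fun σ _ => ?_).trans ?_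
    · rw [← mul_sub, abs_mul]
      have e3 : |((Equiv.Perm.sign σ : ℤ) : ℝ)| = 1 := by
        rcases Int.units_eq_one_or (Equiv.Perm.sign σ) with e | e <;> simp [e]
      rw [e3, one_mul, abs_sub_comm]
      have := (entC_prod_lip Finset.univ (fun j => mat h (σ j) j) (fun j => D (σ j) j) hθ
        (fun j => by linarith [hent (σ j) j]) (fun j => hDb _ _) (fun j => hdiff _ _)).2
      simpa using this
    · rw [Finset.sum_const, Finset.card_univ, Fintype.card_perm, Fintype.card_fin, nsmul_eq_mul]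
  have h4 : |∏ j, w j| ≤ 2 ^ n := by
    have := (entC_prod_lip Finset.univ w w le_rfl (fun j => by linarith [hw j])
      (fun j => by linarith [hw j]) (fun j => by simp)).1
    simpa using this
  have e : ∏ j, (w ᵥ* mat h) j - ∏ j, w j =
      (∏ j, (w ᵥ* mat h) j - ∏ j, w j * mat h j j) + (∏ j, w j) * (∏ j, mat h j j - 1) := by
    rw [Finset.prod_mul_distrib]; ring
  rw [e]
  refine (abs_add_le _ _).trans ?_
  rw [abs_mul]
  have h5 := mul_le_mul h4 h3 (abs_nonneg _) (by positivity)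
  have h6 : (n : ℝ) * 2 ^ n * (n * (3 / 2 * θ)) ≤ n * 2 ^ n * (n * (2 * θ)) := by
    gcongr; norm_num
  nlinarith

lemma entC_atom (hn : 2 ≤ n) {μ : Measure (X n)} [IsProbabilityMeasure μ] (hA : AInv μ)
    (u : Fin n → ℝ) (hu : ∑ p, u p = 0) {gap : ℝ} (hgap : ∀ p q, p ≠ q → gap ≤ |u p - u q|)
    {ε : ℝ} (hε0 : 0 < ε) (hε : ε ≤ 1 / (10 * n)) {P : X n → ℕ} (hP : Adapted P ε)
    (hch : ∀ (x : X n) (g : SL n) (k : ℕ), Near g (ε * rho x) →
      (∀ j, 1 ≤ j → j ≤ k → P (act x (diagA u hu ^ j)) = P (act (act x g) (diagA u hu ^ j))) →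
        ∀ j, j ≤ k → Near (cj (diagA u hu) g j) (ε * rho (act x (diagA u hu ^ j)))) :
    ∃ L : ℝ, 0 < L ∧ ∀ (N : ℕ) (x : X n), ∃ t : ℝ,
      μ (itin (fun x => act x (diagA u hu)) P (2 * N + 1) ⁻¹'
        {itin (fun x => act x (diagA u hu)) P (2 * N + 1) x}) ≤
          μ (thin n t (L * Real.exp (-(gap * N)))) := by
  obtain ⟨L, hL, hpc⟩ := prod_close n
  refine ⟨L + 1, by linarith, fun N x => ?_⟩
  have hn0 : 0 < n := by omega
  obtain ⟨w, hw, hw0, hwb⟩ := minkowski_box hn0 (act x (diagA u hu ^ N)) (fun _ => 3 / 2)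
    (fun _ => by norm_num) (by
      rw [Finset.prod_const, Finset.card_univ, Fintype.card_fin]
      exact one_lt_pow₀ (by norm_num) hn0.ne')
  refine ⟨∏ j, w j, ?_⟩
  rw [← ((hA.hinv u hu).pow N).mp.measure_preimage
    (isOpen_thin _ _).measurableSet.nullMeasurableSet]
  refine measure_mono fun y hy => ?_
  have hy' : ∀ j, j ≤ 2 * N → P (act x (diagA u hu ^ j)) = P (act y (diagA u hu ^ j)) := by
    intro j hj
    have := congrFun (show itin _ P _ y = itin _ P _ x from hy) ⟨j, by omega⟩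
    simp only [itin, iterate_act] at this
    exact this.symm
  obtain ⟨g, rfl, hg⟩ := hP x y (by simpa [act_one] using hy' 0 (by omega))
  have hε1 : ε ≤ 1 := by
    have : (2 : ℝ) ≤ n := by exact_mod_cast hn
    refine hε.trans ?_
    rw [div_le_one (by linarith)]
    linarith
  have hc : ∀ j, j ≤ 2 * N → Near (cj (diagA u hu) g j) ε := fun j hj =>
    (hch x g (2 * N) hg (fun j _ hj => hy' j hj) j hj).mono
      (mul_le_of_le_one_right hε0.le (rho_le_one _))
  have hoff : ∀ p q, p ≠ q → |mat (cj (diagA u hu) g N) p q| ≤ Real.exp (-(gap * N)) := by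
    intro p q hpq
    have hN : (0 : ℝ) ≤ N := Nat.cast_nonneg N
    have k : ∀ j, j ≤ 2 * N → |mat g p q| * Real.exp (j * (u q - u p)) ≤ 1 := by
      intro j hj
      have := hc j hj p q
      rw [one_apply_ne hpq, sub_zero, mat_cj_diagA, abs_mul, abs_of_pos (Real.exp_pos _)] at this
      linarith
    rw [mat_cj_diagA, abs_mul, abs_of_pos (Real.exp_pos _)]
    rcases le_abs'.1 (hgap p q hpq) with e | e
    · have k2 := k (2 * N) le_rfl
      have e1 : Real.exp (N * (u q - u p)) =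
          Real.exp (((2 * N : ℕ) : ℝ) * (u q - u p)) * Real.exp (-(N * (u q - u p))) := by
        rw [← Real.exp_add]; congr 1; push_cast; ring
      rw [e1, ← mul_assoc]
      refine (mul_le_of_le_one_left (Real.exp_pos _).le k2).trans (Real.exp_le_exp.2 ?_)
      nlinarith
    · have k0 := k 0 (by omega)
      simp only [Nat.cast_zero, zero_mul, Real.exp_zero, mul_one] at k0
      refine (mul_le_of_le_one_left (Real.exp_pos _).le k0).trans (Real.exp_le_exp.2 ?_)
      nlinarith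
  obtain ⟨h1, h2⟩ := hpc w (cj (diagA u hu) g N) _ (Real.exp_pos _).le (fun j => (hwb j).le)
    ((hc N (by omega)).mono hε) hoff
  show act (act x g) (diagA u hu ^ N) ∈ thin n _ _
  rw [act_cj, mem_thin_iff]
  refine ⟨_, (mem_lat_act _ _ _).2 ⟨w, hw, rfl⟩, fun e => hw0 ?_, h1, ?_⟩
  · have := congrArg (fun v => v ᵥ* mat (cj (diagA u hu) g N)⁻¹) e
    simpa only [vecMul_vecMul, mat_mul_inv, vecMul_one, zero_vecMul] using this
  · have := Real.exp_pos (-(gap * N))
    linarith

theorem entC (hn : 2 ≤ n) {μ : Measure (X n)} [IsProbabilityMeasure μ] (hA : AInv μ)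
    (hS : S1 μ) (u : Fin n → ℝ) (hu : ∑ p, u p = 0) (hinj : Function.Injective u) :
    ∃ P : X n → ℕ, MFib P ∧ Ent μ P ≠ ∞ ∧ ¬ ZeroEnt μ (fun x => act x (diagA u hu)) P := by
  obtain ⟨ε0, hε0, hch⟩ := adapted_chain (diagA u hu)
  have hn2 : (2 : ℝ) ≤ n := by exact_mod_cast hn
  have hε : 0 < min ε0 (1 / (10 * (n : ℝ))) := lt_min hε0 (by positivity)
  obtain ⟨P, hP, hfin, hAd⟩ := exists_adapted (lintegral_lev hS) hε
  refine ⟨P, hP, hfin, fun hZ => ?_⟩
  have hg : ∀ᶠ δ in 𝓝[>] (0 : ℝ), ∀ p q, p ≠ q → δ ≤ |u p - u q| := by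
    refine eventually_all.2 fun p => eventually_all.2 fun q => ?_
    by_cases hpq : p = q
    · exact Eventually.of_forall fun _ h => absurd hpq h
    · have h0 : 0 < |u p - u q| := abs_pos.2 (sub_ne_zero.2 fun e => hpq (hinj e))
      filter_upwards [Ioo_mem_nhdsGT h0] with δ hδ _ using hδ.2.le
  obtain ⟨gap, hgap, hgap0⟩ := (hg.and self_mem_nhdsWithin).exists
  have hgap0' : 0 < gap := hgap0
  obtain ⟨L, hL, hat⟩ := entC_atom hn hA u hu hgap hε (min_le_right _ _) hAd
    (hch _ hε (min_le_left _ _) P hAd)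
  obtain ⟨C, c, hc, hSb⟩ := hS
  obtain ⟨C0, hC0, hZ'⟩ := hZ (ENNReal.ofReal (c * gap / 4)) (ENNReal.ofReal_pos.2 (by positivity))
  have hC1 : 0 < max C 1 := lt_max_of_lt_right one_pos
  obtain ⟨N, hN⟩ := exists_nat_gt (max (Real.log L / gap)
    ((C0.toReal + c * gap / 4 + Real.log (max C 1) + c * Real.log L) / (c * gap / 2)))
  have hN1 : Real.log L < gap * N := by
    have := (le_max_left _ _).trans_lt hN
    rw [div_lt_iff₀ hgap0'] at this
    linarith
  have hN2 : C0.toReal + c * gap / 4 + Real.log (max C 1) + c * Real.log L <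
      N * (c * gap / 2) := by
    have := (le_max_right _ _).trans_lt hN
    rwa [div_lt_iff₀ (by positivity)] at this
  have hη0 : 0 < L * Real.exp (-(gap * N)) := by positivity
  have hlog : Real.log (L * Real.exp (-(gap * N))) = Real.log L - gap * N := by
    rw [Real.log_mul hL.ne' (Real.exp_pos _).ne', Real.log_exp]; ring
  have hη1 : L * Real.exp (-(gap * N)) < 1 := by
    rw [← Real.log_neg_iff hη0, hlog]; linarith
  have hpw : 0 < (L * Real.exp (-(gap * N))) ^ c := Real.rpow_pos_of_pos hη0 c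
  have hlow := ent_lower (μ := μ) (f := itin (fun x => act x (diagA u hu)) P (2 * N + 1))
    (m := max C 1 * (L * Real.exp (-(gap * N))) ^ c) (fun x => by
      obtain ⟨t, ht⟩ := hat N x
      refine ENNReal.toReal_le_of_le_ofReal (by positivity) (ht.trans ((hSb t _ hη0 hη1).trans ?_))
      exact ENNReal.ofReal_le_ofReal (mul_le_mul_of_nonneg_right (le_max_left _ _) hpw.le))
  have hfinal := hlow.trans (hZ' (2 * N + 1))
  rw [← ENNReal.ofReal_toReal hC0, ← ENNReal.ofReal_natCast,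
    ← ENNReal.ofReal_mul (Nat.cast_nonneg _),
    ← ENNReal.ofReal_add ENNReal.toReal_nonneg (by positivity),
    ENNReal.ofReal_le_ofReal_iff (by positivity), Real.log_mul hC1.ne' hpw.ne',
    Real.log_rpow hη0, hlog] at hfinal
  push_cast at hfinal
  nlinarith

end Vale.Agent.P007
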