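import Vale.Agent.P007.E.LeafBasic

/-!
P007 E, task Restrict: leafwise measures restrict to a.e. `A`-invariant sets.
`μ[|S] = (μ S)⁻¹ • μ.restrict S` (`ProbabilityTheory.cond`).
`saturated`: `hopf_set` for `a = diagA u` with `u j < u i` (`cj_diagA_uu` tends to `1`), and
`Leaf0.null` for the complement of its conull set.
`Leaf.restrict`: same `ν`, `X1`, `C`. `mt`: apply `L.mt` to `F' (x,t) = 1_S x * F (x,t)` and use
`saturated` to replace `1_S (act x (uu t))` by `1_S x`. `maxi`: a.e. `x ∈ S ∩ badMax N` lies in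
`badMax (N ∩ S)`.
-/

open Matrix MeasureTheory ProbabilityTheory Set Filter Topology
open scoped ENNReal

namespace Vale.Agent.P007

variable {n : ℕ}

variable {μ : Measure (X n)} {i j : Fin n}

/-- `S` is a.e. invariant under every element of `A`. -/
def AEInv (μ : Measure (X n)) (S : Set (X n)) : Prop :=
  ∀ (u : Fin n → ℝ) (hu : ∑ p, u p = 0), ∀ᵐ x ∂μ, (act x (diagA u hu) ∈ S ↔ x ∈ S)

lemma AInv.cond (hA : AInv μ) {S : Set (X n)} (hS : MeasurableSet S) (hI : AEInv μ S) :
    AInv (μ[|S]) := by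
  intro u hu
  have hT := measurable_act (diagA u hu)
  have h1 : (μ.restrict S).map (fun x => act x (diagA u hu)) = μ.restrict S := by
    have h2 : (fun x => act x (diagA u hu)) ⁻¹' S =ᵐ[μ] S := by
      filter_upwards [hI u hu] with x hx
      exact propext hx
    calc (μ.restrict S).map (fun x => act x (diagA u hu))
        = (μ.restrict ((fun x => act x (diagA u hu)) ⁻¹' S)).map
            (fun x => act x (diagA u hu)) := by rw [Measure.restrict_congr_set h2]
      _ = (μ.map (fun x => act x (diagA u hu))).restrict S := (Measure.restrict_map hT hS).symm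
      _ = μ.restrict S := by rw [hA u hu]
  rw [ProbabilityTheory.cond, Measure.map_smul, h1]

lemma S1.cond (h : S1 μ) {S : Set (X n)} (h0 : μ S ≠ 0) : S1 (μ[|S]) := by
  obtain ⟨C, c, hc, H⟩ := h
  refine ⟨((μ S)⁻¹).toReal * C, c, hc, fun t η h1 h2 => ?_⟩
  have hne : (μ S)⁻¹ ≠ ∞ := ENNReal.inv_ne_top.mpr h0
  rw [ProbabilityTheory.cond, Measure.smul_apply, smul_eq_mul, mul_assoc,
    ENNReal.ofReal_mul ENNReal.toReal_nonneg, ENNReal.ofReal_toReal hne]
  gcongr
  exact (Measure.restrict_apply_le _ _).trans (H t η h1 h2)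

lemma Leaf0.saturated [IsFiniteMeasure μ] (L : Leaf0 μ i j) (hij : i ≠ j) (hA : AInv μ)
    {S : Set (X n)} (hS : MeasurableSet S) (hI : AEInv μ S) :
    ∀ᵐ x ∂μ, ∀ᵐ t ∂(L.ν x), (act x (uu i j t) ∈ S ↔ x ∈ S) := by
  obtain ⟨u, hu, hτ⟩ := exists_sum_zero (n := n) (Pi.single i (1 : ℝ))
  have hd : u j - u i = -1 := by
    rw [hτ j i]
    simp [Pi.single_eq_of_ne hij.symm]
  obtain ⟨X', hX'm, hX'0, hX'⟩ := hopf_set (hA.hinv u hu) hS (hI u hu)
  have hx : ∀ᵐ x ∂μ, x ∈ X' := mem_ae_iff.mpr hX'0
  filter_upwards [hx, L.null hX'0] with x hx1 hx2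
  have ht : ∀ᵐ t ∂(L.ν x), act x (uu i j t) ∈ X' := by
    rw [ae_iff]
    exact hx2
  filter_upwards [ht] with t ht1
  refine hX' x hx1 _ ht1 ?_
  have e : cj (diagA u hu) (uu i j t) = fun k : ℕ => uu i j (t * Real.exp (-(k : ℝ))) := by
    funext k
    rw [cj_diagA_uu, hd, mul_neg_one]
  rw [e, ← uu_zero i j]
  refine ((continuous_uu i j).tendsto 0).comp ?_
  have h3 : Tendsto (fun k : ℕ => Real.exp (-(k : ℝ))) atTop (𝓝 0) :=
    Real.tendsto_exp_neg_atTop_nhds_zero.comp tendsto_natCast_atTop_atTop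
  simpa using h3.const_mul t

theorem Leaf.restrict [IsFiniteMeasure μ] (L : Leaf μ i j) (hij : i ≠ j) (hA : AInv μ)
    {S : Set (X n)} (hS : MeasurableSet S) (hI : AEInv μ S) (h0 : μ S ≠ 0) :
    ∃ L' : Leaf (μ[|S]) i j, L'.ν = L.ν := by
  have hac : μ[|S] ≪ μ := cond_absolutelyContinuous
  have hsat := L.toLeaf0.saturated hij hA hS hI
  refine ⟨{ ν := L.ν, sfin := L.sfin, X1 := L.X1, meas := L.meas, conull := hac L.conull,
            fin := L.fin, pos := L.pos, norm := L.norm, shift := L.shift,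
            scale := fun u hu => hac.ae_le (L.scale u hu), mt := ?_, C := L.C, hC := L.hC,
            maxi := ?_ }, rfl⟩
  · intro F hF
    have hm := L.mt ((Prod.fst ⁻¹' S).indicator F) (hF.indicator (measurable_fst hS))
    rw [ProbabilityTheory.cond, lintegral_smul_measure, lintegral_smul_measure,
      ← lintegral_indicator hS, ← lintegral_indicator hS]
    congr 1
    refine Eq.trans ?_ (hm.trans ?_)
    · refine lintegral_congr fun x => ?_
      by_cases hx : x ∈ S
      · rw [indicator_of_mem hx]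
        refine lintegral_congr fun t => ?_
        rw [indicator_of_mem (show (x, t) ∈ Prod.fst ⁻¹' S from hx)]
      · rw [indicator_of_notMem hx]
        symm
        refine (lintegral_congr fun t => ?_).trans lintegral_zero
        rw [indicator_of_notMem (show (x, t) ∉ Prod.fst ⁻¹' S from hx)]
    · refine lintegral_congr_ae ?_
      filter_upwards [hsat] with x hx
      by_cases hxS : x ∈ S
      · rw [indicator_of_mem hxS]
        refine lintegral_congr_ae ?_
        filter_upwards [hx] with t ht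
        rw [indicator_of_mem
          (show (act x (uu i j t), -t) ∈ Prod.fst ⁻¹' S from ht.mpr hxS)]
      · rw [indicator_of_notMem hxS]
        refine (lintegral_congr_ae ?_).trans lintegral_zero
        filter_upwards [hx] with t ht
        rw [indicator_of_notMem
          (show (act x (uu i j t), -t) ∉ Prod.fst ⁻¹' S from fun h => hxS (ht.mp h))]
        simp
  · intro N hN ε hε0 hε1 δ
    have hm := L.maxi (N ∩ S) (hN.inter hS) ε hε0 hε1 δ
    have hle : μ (badMax L.ν i j N ε δ ∩ S) ≤ μ (badMax L.ν i j (N ∩ S) ε δ) := by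
      refine measure_mono_ae ?_
      filter_upwards [hsat] with x hx hxB
      obtain ⟨⟨R, hR0, hR1, hR⟩, hxS⟩ := hxB
      refine ⟨R, hR0, hR1, hR.trans_le (measure_mono_ae ?_)⟩
      filter_upwards [hx] with t ht htB
      exact ⟨htB.1, htB.2, ht.mpr hxS⟩
    rw [ProbabilityTheory.cond, Measure.smul_apply, Measure.smul_apply, smul_eq_mul, smul_eq_mul,
      Measure.restrict_apply' hS, Measure.restrict_apply' hS, mul_left_comm,
      mul_left_comm L.C]
    exact mul_le_mul_right (le_trans (mul_le_mul_right hle ε) hm) _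

/-- A measure all of whose conditionings on the pieces of a finite partition are invariant is
invariant. -/
lemma hinv_of_pieces [IsFiniteMeasure μ] {ι : Type} [Fintype ι] {ty : X n → ι}
    (hty : ∀ c, MeasurableSet (ty ⁻¹' {c})) {h : SL n}
    (H : ∀ c, μ (ty ⁻¹' {c}) ≠ 0 → HInv (μ[|ty ⁻¹' {c}]) h) : HInv μ h := by
  classical
  have hT := measurable_act h
  have hp : ∀ c, (μ.restrict (ty ⁻¹' {c})).map (fun x => act x h) = μ.restrict (ty ⁻¹' {c}) := by
    intro c
    by_cases hc : μ (ty ⁻¹' {c}) = 0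
    · rw [Measure.restrict_eq_zero.mpr hc, Measure.map_zero]
    · have e : μ.restrict (ty ⁻¹' {c}) = μ (ty ⁻¹' {c}) • μ[|ty ⁻¹' {c}] := by
        rw [ProbabilityTheory.cond, smul_smul, ENNReal.mul_inv_cancel hc (measure_ne_top _ _),
          one_smul]
      have h1 : (μ[|ty ⁻¹' {c}]).map (fun x => act x h) = μ[|ty ⁻¹' {c}] := H c hc
      rw [e, Measure.map_smul, h1]
  have hd : Pairwise (Function.onFun Disjoint fun c => ty ⁻¹' {c}) := by
    intro c d hcd
    exact Disjoint.preimage _ (disjoint_singleton.mpr hcd)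
  have hsum : μ = Measure.sum fun c => μ.restrict (ty ⁻¹' {c}) := by
    rw [← Measure.restrict_iUnion hd hty]
    have : (⋃ c, ty ⁻¹' {c}) = univ := by
      ext x
      simp
    rw [this, Measure.restrict_univ]
  show μ.map (fun x => act x h) = μ
  calc μ.map (fun x => act x h)
      = (Measure.sum fun c => μ.restrict (ty ⁻¹' {c})).map (fun x => act x h) := by
        rw [← hsum]
    _ = Measure.sum fun c => (μ.restrict (ty ⁻¹' {c})).map (fun x => act x h) :=
        Measure.map_sum hT.aemeasurable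
    _ = μ := by
        simp only [hp]
        exact hsum.symm

end Vale.Agent.P007
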