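import Vale.Agent.P007.E.Lift

/-!
P007 E, task Uniq: uniqueness of the invariant probability.
`liftM σ m` is right invariant (`isInvProb_iff`, `liftM_right`) and finite on compact sets, so its
image under inversion is left invariant and equals `c • haar` (`isMulLeftInvariant_eq_smul`).
Thus `liftM σ m = c • h`, `liftM σ m' = c' • h` with `h = haar.inv`; `liftM_restrict` with
`S = univ` gives `c h(F) = 1 = c' h(F)`, so `c = c'`, and `liftM_restrict` gives `m = m'`.
-/

open Matrix MeasureTheory ProbabilityTheory Set Filter Topology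
open scoped ENNReal

namespace Vale.Agent.P007

variable {n : ℕ}

private lemma lift_eq_smul {σ : X n → SL n} (hσ : IsSec σ) {m : Measure (X n)}
    (hm : IsInvProb m) :
    ∃ c : ℝ≥0∞, liftM σ m = c • (Measure.haar : Measure (SL n)).inv := by
  obtain ⟨hp, hi⟩ := (isInvProb_iff m).1 hm
  have : (liftM σ m).IsMulRightInvariant := ⟨fun h => liftM_right hσ (hi h)⟩
  have : IsFiniteMeasureOnCompacts (liftM σ m) := ⟨fun _ hC => (liftM_compact hσ hC).lt_top⟩
  have e := Measure.isMulLeftInvariant_eq_smul (liftM σ m).inv (Measure.haar : Measure (SL n))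
  refine ⟨Measure.haarScalarFactor (liftM σ m).inv (Measure.haar : Measure (SL n)), ?_⟩
  calc liftM σ m = (liftM σ m).inv.inv := (Measure.inv_inv _).symm
    _ = (Measure.haarScalarFactor (liftM σ m).inv (Measure.haar : Measure (SL n)) •
          (Measure.haar : Measure (SL n))).inv := by rw [← e]
    _ = _ := by
      unfold Measure.inv
      rw [Measure.map_smul]
      rfl

theorem uniq (n : ℕ) : UniqStmt n := by
  intro m m' hm hm'
  obtain ⟨σ, hσ⟩ := exists_sec n
  obtain ⟨c, hc⟩ := lift_eq_smul hσ hm
  obtain ⟨c', hc'⟩ := lift_eq_smul hσ hm'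
  have := hm.1
  have := hm'.1
  have h1 := liftM_restrict (μ := m) hσ MeasurableSet.univ
  have h2 := liftM_restrict (μ := m') hσ MeasurableSet.univ
  rw [hc, Measure.smul_apply, smul_eq_mul, measure_univ] at h1
  rw [hc', Measure.smul_apply, smul_eq_mul, measure_univ] at h2
  have e : c = c' := by
    calc c = c * (c' * (Measure.haar : Measure (SL n)).inv (coset ⁻¹' univ ∩ range σ)) := by
          rw [h2, mul_one]
      _ = c' * (c * (Measure.haar : Measure (SL n)).inv (coset ⁻¹' univ ∩ range σ)) :=
          mul_left_comm _ _ _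
      _ = c' := by rw [h1, mul_one]
  ext S hS
  rw [← liftM_restrict (μ := m) hσ hS, ← liftM_restrict (μ := m') hσ hS, hc, hc', e]

end Vale.Agent.P007
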