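import Vale.Agent.P007.E.Pure
import Vale.Agent.P007.E.Restrict
import Vale.Agent.P007.E.Uniq

/-!
P007 E, task Final: decomposition into pure pieces.
Choose `L i j h` by `exists_leaf`. `ty x : Fin n → Fin n → Fin 3` records for `i ≠ j` whether
`ν x` is `dirac 0`, `Leb` or neither (`0` on the diagonal). Fibres are measurable
(`measurableSet_ker_eq`) and `AEInv` (`dirac_inv`, `leb_inv`). On a fibre `S` of positive
measure `μ[|S]` is a probability (`cond_isProbabilityMeasure`), `AInv.cond`, `S1.cond`,
`Leaf.restrict`, purity holds since `μ[|S]`-a.e. point is in `S` (`ae_cond_mem`); `pure_case`,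
`hinv_of_pieces`, `hinv_of_inBlock` with `C = univ`, `isInvProb_iff`.
-/

open Matrix MeasureTheory ProbabilityTheory Set Filter Topology
open scoped ENNReal

namespace Vale.Agent.P007

variable {n : ℕ}

theorem rigid (hn : n.Prime) (h3 : 3 ≤ n) : RigidStmt n := by
  classical
  intro μ hμ hA hS
  refine (isInvProb_iff μ).2 ⟨hμ, fun h => ?_⟩
  let L : ∀ i j : Fin n, i ≠ j → Leaf μ i j := fun i j hij => Classical.choice (exists_leaf hA hij)
  let ty : X n → {p : Fin n × Fin n // p.1 ≠ p.2} → Prop × Prop := fun x p =>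
    ((L _ _ p.2).ν x = Measure.dirac 0, (L _ _ p.2).ν x = Leb)
  have hm : Measurable ty := by
    refine measurable_pi_lambda _ fun p => Measurable.prodMk ?_ ?_
    · exact measurableSet_setOfPred.1 (measurableSet_ker_eq _ fun R => measure_ne_top _ _)
    · refine measurableSet_setOfPred.1 (measurableSet_ker_eq _ fun R => ?_)
      rw [Leb, Measure.smul_apply, smul_eq_mul]
      exact ENNReal.mul_ne_top (by simp) (by simp)
  have hty : ∀ c, MeasurableSet (ty ⁻¹' {c}) := fun c => hm (measurableSet_singleton c)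
  refine hinv_of_pieces hty fun c hc => ?_
  have hI : AEInv μ (ty ⁻¹' {c}) := by
    intro u hu
    have h1 : ∀ᵐ x ∂μ, ∀ p, ty (act x (diagA u hu)) p = ty x p := by
      refine ae_all_iff.2 fun p => ?_
      filter_upwards [(L _ _ p.2).toLeaf0.dirac_inv hA u hu, (L _ _ p.2).toLeaf0.leb_inv hA u hu]
        with x h1 h2
      exact Prod.ext (propext h1) (propext h2)
    filter_upwards [h1] with x hx
    rw [mem_preimage, mem_preimage, funext hx]
  have := cond_isProbabilityMeasure hc
  choose L' hL' using fun i j (hij : i ≠ j) => (L i j hij).restrict hij hA (hty c) hI hc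
  have hU := pure_case hn h3 (hA.cond (hty c) hI) (hS.cond hc) L' fun i j hij => by
    have h1 : ∀ᵐ x ∂μ[|ty ⁻¹' {c}], ty x ⟨(i, j), hij⟩ = c ⟨(i, j), hij⟩ := by
      filter_upwards [ae_cond_mem (μ := μ) (hty c)] with x hx
      exact congrFun hx _
    rw [hL']
    by_cases h2 : (c ⟨(i, j), hij⟩).1
    · refine Or.inl ?_
      filter_upwards [h1] with x hx
      exact (congrArg Prod.fst hx).mpr h2
    by_cases h4 : (c ⟨(i, j), hij⟩).2
    · refine Or.inr (Or.inl ?_)
      filter_upwards [h1] with x hx
      exact (congrArg Prod.snd hx).mpr h4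
    refine Or.inr (Or.inr ⟨?_, ?_⟩)
    · filter_upwards [h1] with x hx
      exact fun e => h2 ((congrArg Prod.fst hx).mp e)
    · filter_upwards [h1] with x hx
      exact fun e => h4 ((congrArg Prod.snd hx).mp e)
  exact hinv_of_inBlock (C := Finset.univ) (fun i _ j _ hij => hU i j hij)
    fun p q hpq => absurd ⟨Finset.mem_univ _, Finset.mem_univ _⟩ hpq

end Vale.Agent.P007
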