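import Vale.Agent.P007.E.Basic

/-!
P007 E, task Gen: the block group is generated by its root subgroups.
`gen_block`: the map sending `M : Matrix C C ℝ` (`C` as a subtype) to the `n × n` matrix equal to
`M` on `C × C` and to the identity elsewhere is multiplicative and preserves the determinant
(e.g. `Matrix.reindex (Equiv.sumCompl (· ∈ C))` of `fromBlocks M 0 0 1`); this gives a monoid
hom `SpecialLinearGroup C ℝ →* SL n` whose range contains every `h` with `InBlock C h` and
which sends transvections to `uu`. In `SpecialLinearGroup C ℝ` use the induction principle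
in `Mathlib/LinearAlgebra/Matrix/SpecialLinearGroup.lean` (section induction: `diag2n`,
`diag_eq_diag2n_prod`, transvection induction) or
`Matrix.Pivot.exists_list_transvec_mul_diagonal_mul_list_transvec`, and
`diag(c, c⁻¹) = w(c) w(-1)`, `w(c) = u_{ij}(c) u_{ji}(-c⁻¹) u_{ij}(c)`.
`levi_norm`: `D g` = `g` on `C × C`, identity elsewhere; near `g = 1`, `det (D g) > 0`;
`lam = det (D g) ^ (1/|C|)`, `k = diagonal (lam on C, 1 off C) * (D g)⁻¹` has determinant one,
`InBlock C k`, `k → 1` as `g → 1`, and `g k` has `C × C` block `lam`.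
`conj_near`: tube lemma for the continuous map `(g,h) ↦ h⁻¹ g h` on `{1} × B`.
-/

open Matrix MeasureTheory ProbabilityTheory Set Filter Topology
open scoped ENNReal

namespace Vale.Agent.P007

variable {n : ℕ}

/-- The matrix equal to `M` on `C × C` and to the identity elsewhere. -/
noncomputable def embGen (C : Finset (Fin n)) (M : Matrix C C ℝ) : Matrix (Fin n) (Fin n) ℝ :=
  Matrix.reindex (Equiv.sumCompl (· ∈ C)) (Equiv.sumCompl (· ∈ C)) (fromBlocks M 0 0 1)

/-- The `C × C` block. -/
def resGen (C : Finset (Fin n)) (A : Matrix (Fin n) (Fin n) ℝ) : Matrix C C ℝ :=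
  A.submatrix Subtype.val Subtype.val

lemma embGen_mul (C : Finset (Fin n)) (M N : Matrix C C ℝ) :
    embGen C (M * N) = embGen C M * embGen C N := by
  simp only [embGen, reindex_apply, submatrix_mul_equiv, fromBlocks_multiply]
  simp

lemma embGen_one (C : Finset (Fin n)) : embGen C 1 = 1 := by
  simp [embGen]

lemma det_embGen (C : Finset (Fin n)) (M : Matrix C C ℝ) : (embGen C M).det = M.det := by
  rw [embGen, det_reindex_self, det_fromBlocks_zero₂₁, det_one, mul_one]

lemma embGen_in (C : Finset (Fin n)) (M : Matrix C C ℝ) {p q : Fin n} (hp : p ∈ C) (hq : q ∈ C) :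
    embGen C M p q = M ⟨p, hp⟩ ⟨q, hq⟩ := by
  simp only [embGen, reindex_apply, submatrix_apply]
  rw [Equiv.sumCompl_symm_apply_of_pos (p := (· ∈ C)) hp,
    Equiv.sumCompl_symm_apply_of_pos (p := (· ∈ C)) hq, fromBlocks_apply₁₁]

lemma embGen_out (C : Finset (Fin n)) (M : Matrix C C ℝ) {p q : Fin n}
    (h : ¬ (p ∈ C ∧ q ∈ C)) : embGen C M p q = (1 : Matrix (Fin n) (Fin n) ℝ) p q := by
  simp only [embGen, reindex_apply, submatrix_apply]
  by_cases hp : p ∈ C <;> by_cases hq : q ∈ C
  · exact absurd ⟨hp, hq⟩ h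
  · rw [Equiv.sumCompl_symm_apply_of_pos (p := (· ∈ C)) hp,
      Equiv.sumCompl_symm_apply_of_neg (p := (· ∈ C)) hq, fromBlocks_apply₁₂,
      one_apply_ne (fun e : p = q => hq (e ▸ hp)), Matrix.zero_apply]
  · rw [Equiv.sumCompl_symm_apply_of_neg (p := (· ∈ C)) hp,
      Equiv.sumCompl_symm_apply_of_pos (p := (· ∈ C)) hq, fromBlocks_apply₂₁,
      one_apply_ne (fun e : p = q => hp (e ▸ hq)), Matrix.zero_apply]
  · rw [Equiv.sumCompl_symm_apply_of_neg (p := (· ∈ C)) hp,
      Equiv.sumCompl_symm_apply_of_neg (p := (· ∈ C)) hq, fromBlocks_apply₂₂]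
    simp [one_apply]

lemma sum_block_Gen (C : Finset (Fin n)) (f : Fin n → ℝ) (hf : ∀ r, r ∉ C → f r = 0) :
    ∑ r, f r = ∑ r : C, f r := by
  rw [Finset.sum_coe_sort C f]
  exact (Finset.sum_subset (Finset.subset_univ C) fun r _ hr => hf r hr).symm

lemma resGen_embGen_mul (C : Finset (Fin n)) (M : Matrix C C ℝ) (A : Matrix (Fin n) (Fin n) ℝ) :
    resGen C (embGen C M * A) = M * resGen C A := by
  ext p q
  simp only [resGen, submatrix_apply, mul_apply]
  rw [sum_block_Gen C]
  · refine Finset.sum_congr rfl fun r _ => ?_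
    rw [embGen_in C M p.2 r.2]
  · intro r hr
    rw [embGen_out C M (fun h => hr h.2), one_apply_ne (fun e : p.1 = r => hr (e ▸ p.2)),
      zero_mul]

lemma resGen_mul_embGen (C : Finset (Fin n)) (M : Matrix C C ℝ) (A : Matrix (Fin n) (Fin n) ℝ) :
    resGen C (A * embGen C M) = resGen C A * M := by
  ext p q
  simp only [resGen, submatrix_apply, mul_apply]
  rw [sum_block_Gen C]
  · refine Finset.sum_congr rfl fun r _ => ?_
    rw [embGen_in C M r.2 q.2]
  · intro r hr
    rw [embGen_out C M (fun h => hr h.1), one_apply_ne (fun e : r = q.1 => hr (e ▸ q.2)),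
      mul_zero]

/-- The block embedding of special linear groups. -/
noncomputable def homGen (C : Finset (Fin n)) : SpecialLinearGroup C ℝ →* SL n where
  toFun M := ⟨embGen C M.1, by rw [det_embGen, M.2]⟩
  map_one' := Subtype.ext (embGen_one C)
  map_mul' M N := Subtype.ext (embGen_mul C M.1 N.1)

lemma mat_homGen (C : Finset (Fin n)) (M : SpecialLinearGroup C ℝ) :
    mat (homGen C M) = embGen C M.1 := rfl

lemma inBlock_iff_Gen (C : Finset (Fin n)) (h : SL n) :
    InBlock C h ↔ h ∈ (homGen C).range := by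
  constructor
  · intro hh
    have e : embGen C (resGen C (mat h)) = mat h := by
      ext p q
      by_cases hpq : p ∈ C ∧ q ∈ C
      · rw [embGen_in C _ hpq.1 hpq.2]
        rfl
      · rw [embGen_out C _ hpq, hh p q hpq]
    have hd : (resGen C (mat h)).det = 1 := by
      rw [← det_embGen, e]
      exact h.2
    exact ⟨⟨_, hd⟩, mat_inj e⟩
  · rintro ⟨M, rfl⟩ p q hpq
    rw [mat_homGen, embGen_out C _ hpq]

lemma homGen_transvection (C : Finset (Fin n)) {i j : C} (hij : i ≠ j) (t : ℝ) :
    homGen C (SpecialLinearGroup.transvection hij t) = uu i.1 j.1 t := by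
  have hij' : i.1 ≠ j.1 := fun e => hij (Subtype.ext e)
  apply mat_inj
  rw [mat_homGen, mat_uu hij', SpecialLinearGroup.transvection_coe]
  ext p q
  by_cases hpq : p ∈ C ∧ q ∈ C
  · rw [embGen_in C _ hpq.1 hpq.2]
    simp [one_apply, single_apply, Subtype.ext_iff]
  · rw [embGen_out C _ hpq, Matrix.add_apply, single_apply_of_ne, add_zero]
    rintro ⟨e1, e2⟩
    exact hpq ⟨e1 ▸ i.2, e2 ▸ j.2⟩

lemma diag2n_decompose_Gen {ι : Type} [Fintype ι] [DecidableEq ι] {i j : ι} (hij : i ≠ j)
    (a : ℝ) (ha : a ≠ 0) :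
    SpecialLinearGroup.diag2n hij a ha = SpecialLinearGroup.transvection hij a *
      SpecialLinearGroup.transvection hij.symm (- a⁻¹) *
      SpecialLinearGroup.transvection hij a *
      SpecialLinearGroup.transvection hij (-1) *
      SpecialLinearGroup.transvection hij.symm 1 *
      SpecialLinearGroup.transvection hij (-1) := by
  apply Subtype.ext
  show diagonal (fun k => if k = i then a else if k = j then a⁻¹ else 1) =
    (1 + single i j a) * (1 + single j i (-a⁻¹)) * (1 + single i j a) * (1 + single i j (-1)) *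
      (1 + single j i 1) * (1 + single i j (-1 : ℝ))
  simp only [mul_add, add_mul, one_mul, mul_one, single_mul_single_same,
    single_mul_single_of_ne _ _ _ _ hij, single_mul_single_of_ne _ _ _ _ hij.symm, zero_mul,
    add_zero]
  ext p q
  have hji := hij.symm
  by_cases h1 : i = p <;> by_cases h2 : j = p <;> by_cases h3 : i = q <;> by_cases h4 : j = q <;>
    simp_all [diagonal_apply, one_apply, single_apply, eq_comm]

theorem gen_block (C : Finset (Fin n)) (S : Subgroup (SL n))
    (hS : ∀ i ∈ C, ∀ j ∈ C, i ≠ j → ∀ t : ℝ, uu i j t ∈ S) {h : SL n} (hh : InBlock C h) :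
    h ∈ S := by
  obtain ⟨M, rfl⟩ := (inBlock_iff_Gen C h).1 hh
  have ht : ∀ (i j : C) (hij : i ≠ j) (a : ℝ),
      homGen C (SpecialLinearGroup.transvection hij a) ∈ S := by
    intro i j hij a
    rw [homGen_transvection]
    exact hS _ i.2 _ j.2 (fun e => hij (Subtype.ext e)) a
  rcases subsingleton_or_nontrivial C with hC | hC
  · rw [Subsingleton.elim M 1, map_one]
    exact S.one_mem
  · refine SpecialLinearGroup.diagonal_transvection_induction' (fun A => homGen C A ∈ S) M
      (fun i j hij c hc => ?_) ht (fun A B hA hB => ?_)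
    · rw [diag2n_decompose_Gen]
      simp only [map_mul]
      exact S.mul_mem (S.mul_mem (S.mul_mem (S.mul_mem (S.mul_mem (ht _ _ _ _) (ht _ _ _ _))
        (ht _ _ _ _)) (ht _ _ _ _)) (ht _ _ _ _)) (ht _ _ _ _)
    · rw [map_mul]
      exact S.mul_mem hA hB

theorem hinv_of_inBlock {μ : Measure (X n)} {C : Finset (Fin n)}
    (hU : ∀ i ∈ C, ∀ j ∈ C, i ≠ j → UInv μ i j) {h : SL n} (hh : InBlock C h) : HInv μ h := by
  let S : Subgroup (SL n) :=
    { carrier := {g | HInv μ g}
      mul_mem' := fun ha hb => HInv.mul ha hb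
      one_mem' := HInv.one μ
      inv_mem' := fun ha => HInv.inv ha }
  exact gen_block C S (fun i hi j hj hij t => hU i hi j hj hij t) hh

/-- The block group as a subgroup. -/
def blockGrp (C : Finset (Fin n)) : Subgroup (SL n) where
  carrier := {h | InBlock C h}
  mul_mem' := fun ha hb => (inBlock_iff_Gen C _).2
    (Subgroup.mul_mem _ ((inBlock_iff_Gen C _).1 ha) ((inBlock_iff_Gen C _).1 hb))
  one_mem' := fun _ _ _ => rfl
  inv_mem' := fun ha => (inBlock_iff_Gen C _).2
    (Subgroup.inv_mem _ ((inBlock_iff_Gen C _).1 ha))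

lemma isClosed_blockGrp (C : Finset (Fin n)) : IsClosed (blockGrp C : Set (SL n)) := by
  have e : (blockGrp C : Set (SL n)) = ⋂ p, ⋂ q, ⋂ (_ : ¬ (p ∈ C ∧ q ∈ C)),
      {h | mat h p q = (1 : Matrix (Fin n) (Fin n) ℝ) p q} := by
    ext h
    simp only [mem_iInter]
    rfl
  rw [e]
  refine isClosed_iInter fun p => isClosed_iInter fun q => isClosed_iInter fun _ => ?_
  exact isClosed_eq (continuous_mat.matrix_elem p q) continuous_const

lemma BlockDiag.mul {C : Finset (Fin n)} {g h : SL n} (hg : BlockDiag C g) (hh : BlockDiag C h) :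
    BlockDiag C (g * h) := by
  intro p q hpq
  rw [mat_mul, mul_apply]
  refine Finset.sum_eq_zero fun r _ => ?_
  by_cases h1 : p ∈ C ↔ r ∈ C
  · rw [hh r q (fun h2 => hpq (h1.trans h2)), mul_zero]
  · rw [hg p r h1, zero_mul]

lemma BlockDiag.inv {C : Finset (Fin n)} {g : SL n} (hg : BlockDiag C g) : BlockDiag C g⁻¹ := by
  have key : ∀ k : SL n, BlockDiag C k ↔
      diagonal (fun p => if p ∈ C then (1 : ℝ) else 0) * mat k =
        mat k * diagonal (fun p => if p ∈ C then (1 : ℝ) else 0) := by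
    intro k
    constructor
    · intro hk
      ext p q
      rw [diagonal_mul, mul_diagonal]
      by_cases hp : p ∈ C <;> by_cases hq : q ∈ C
      · simp [hp, hq]
      · rw [hk p q (by simp [hp, hq])]
        simp
      · rw [hk p q (by simp [hp, hq])]
        simp
      · simp [hp, hq]
    · intro hk p q hpq
      have := congrFun (congrFun hk p) q
      rw [diagonal_mul, mul_diagonal] at this
      by_cases hp : p ∈ C <;> by_cases hq : q ∈ C
      · simp [hp, hq] at hpq
      · simpa [hp, hq] using this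
      · simpa [hp, hq] using this.symm
      · simp [hp, hq] at hpq
  rw [key] at hg ⊢
  set P := diagonal (fun p => if p ∈ C then (1 : ℝ) else 0)
  calc P * mat g⁻¹ = mat g⁻¹ * mat g * P * mat g⁻¹ := by rw [mat_inv_mul, one_mul]
    _ = mat g⁻¹ * (P * mat g) * mat g⁻¹ := by rw [hg, mul_assoc (mat g⁻¹)]
    _ = mat g⁻¹ * P * (mat g * mat g⁻¹) := by simp only [mul_assoc]
    _ = mat g⁻¹ * P := by rw [mat_mul_inv, mul_one]

lemma InBlock.blockDiag {C : Finset (Fin n)} {g : SL n} (hg : InBlock C g) : BlockDiag C g := by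
  intro p q hpq
  rw [hg p q (fun h => hpq ⟨fun _ => h.2, fun _ => h.1⟩), one_apply_ne]
  rintro rfl
  exact hpq Iff.rfl

/-- Conjugation by a block element preserves a scalar `C × C` block. -/
lemma scalar_block_conj {C : Finset (Fin n)} {g h : SL n} (hh : InBlock C h) {lam : ℝ}
    (hg : ∀ p ∈ C, ∀ q ∈ C, mat g p q = if p = q then lam else 0) :
    ∀ p ∈ C, ∀ q ∈ C, mat (h⁻¹ * g * h) p q = if p = q then lam else 0 := by
  obtain ⟨M, rfl⟩ := (inBlock_iff_Gen C h).1 hh
  have e : resGen C (mat g) = lam • (1 : Matrix C C ℝ) := by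
    ext p q
    simp only [resGen, submatrix_apply, hg _ p.2 _ q.2, Matrix.smul_apply, one_apply,
      Subtype.ext_iff, smul_eq_mul, mul_ite, mul_one, mul_zero]
  have e2 : resGen C (mat ((homGen C M)⁻¹ * g * homGen C M)) = lam • (1 : Matrix C C ℝ) := by
    rw [← map_inv, mat_mul, mat_mul, mat_homGen, mat_homGen, resGen_mul_embGen,
      resGen_embGen_mul, e, Matrix.mul_smul, mul_one, Matrix.smul_mul]
    exact congrArg (fun A : SpecialLinearGroup C ℝ => lam • A.1) (inv_mul_cancel M)
  intro p hp q hq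
  have := congrFun (congrFun e2 ⟨p, hp⟩) ⟨q, hq⟩
  simpa only [resGen, submatrix_apply, Matrix.smul_apply, one_apply,
      Subtype.ext_iff, smul_eq_mul, mul_ite, mul_one, mul_zero] using this

theorem levi_norm (C : Finset (Fin n)) (hC : C.Nonempty) {ε : ℝ} (hε : 0 < ε) :
    ∃ δ : ℝ, 0 < δ ∧ ∀ g : SL n, Near g δ → ∃ k : SL n, InBlock C k ∧ Near k ε ∧
      ∃ lam : ℝ, ∀ p ∈ C, ∀ q ∈ C, mat (g * k) p q = if p = q then lam else 0 := by
  have hc : (0 : ℝ) < Fintype.card C := by
    rw [Fintype.card_coe]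
    exact_mod_cast hC.card_pos
  let d : SL n → ℝ := fun g => (resGen C (mat g)).det
  let K : SL n → Matrix C C ℝ := fun g =>
    (d g ^ ((Fintype.card C : ℝ)⁻¹) * (d g)⁻¹) • (resGen C (mat g)).adjugate
  have hr : Continuous fun g : SL n => resGen C (mat g) :=
    continuous_mat.matrix_submatrix _ _
  have hd : Continuous d := hr.matrix_det
  have r1 : resGen C (mat (1 : SL n)) = 1 := by
    rw [mat_one, resGen, submatrix_one _ Subtype.val_injective]
  have d1 : d 1 = 1 := by
    show (resGen C (mat (1 : SL n))).det = 1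
    rw [r1, det_one]
  have hK : ContinuousAt K 1 := by
    have a1 : ContinuousAt (fun g => d g ^ ((Fintype.card C : ℝ)⁻¹)) 1 :=
      hd.continuousAt.rpow_const (Or.inl (by rw [d1]; exact one_ne_zero))
    have a2 : ContinuousAt (fun g => (d g)⁻¹) 1 :=
      hd.continuousAt.inv₀ (by rw [d1]; exact one_ne_zero)
    exact (a1.mul a2).smul hr.matrix_adjugate.continuousAt
  have K1 : K 1 = 1 := by
    show (d 1 ^ ((Fintype.card C : ℝ)⁻¹) * (d 1)⁻¹) • (resGen C (mat (1 : SL n))).adjugate = 1
    rw [d1, r1, Real.one_rpow, inv_one, mul_one, one_smul, adjugate_one]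
  have h1 : ∀ᶠ g in 𝓝 (1 : SL n), 0 < d g :=
    hd.continuousAt.eventually (lt_mem_nhds (by rw [d1]; exact one_pos))
  have h2 : ∀ᶠ g in 𝓝 (1 : SL n), ∀ p q : C, |K g p q - (1 : Matrix C C ℝ) p q| ≤ ε := by
    refine eventually_all.2 fun p => eventually_all.2 fun q => ?_
    have t : Tendsto (fun g => K g p q) (𝓝 1) (𝓝 ((1 : Matrix C C ℝ) p q)) := by
      rw [← K1]
      exact tendsto_pi_nhds.1 (tendsto_pi_nhds.1 hK.tendsto p) q
    filter_upwards [Metric.tendsto_nhds.1 t ε hε] with g hg
    exact le_of_lt hg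
  obtain ⟨δ, hδ, hU⟩ := exists_near_subset (h1.and h2)
  refine ⟨δ, hδ, fun g hg => ?_⟩
  obtain ⟨g1, g2⟩ := hU g hg
  have e : resGen C (mat g) * K g = d g ^ ((Fintype.card C : ℝ)⁻¹) • (1 : Matrix C C ℝ) := by
    show resGen C (mat g) * ((d g ^ ((Fintype.card C : ℝ)⁻¹) * (d g)⁻¹) •
      (resGen C (mat g)).adjugate) = _
    rw [Matrix.mul_smul, mul_adjugate, smul_smul]
    congr 1
    show _ * (d g)⁻¹ * d g = _
    rw [inv_mul_cancel_right₀ g1.ne']
  have hdet : (K g).det = 1 := by
    have := congrArg det e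
    rw [det_smul, det_mul, det_one, mul_one, ← Real.rpow_natCast, ← Real.rpow_mul g1.le,
      inv_mul_cancel₀ hc.ne', Real.rpow_one] at this
    exact mul_left_cancel₀ g1.ne' (this.trans (mul_one _).symm)
  refine ⟨homGen C ⟨K g, hdet⟩, (inBlock_iff_Gen C _).2 ⟨_, rfl⟩, fun p q => ?_,
    d g ^ ((Fintype.card C : ℝ)⁻¹), fun p hp q hq => ?_⟩
  · show |embGen C (K g) p q - _| ≤ ε
    by_cases hpq : p ∈ C ∧ q ∈ C
    · rw [embGen_in C _ hpq.1 hpq.2]
      have := g2 ⟨p, hpq.1⟩ ⟨q, hpq.2⟩
      simpa only [one_apply, Subtype.ext_iff] using this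
    · rw [embGen_out C _ hpq, sub_self, abs_zero]
      exact hε.le
  · have e2 : resGen C (mat (g * homGen C ⟨K g, hdet⟩)) =
        d g ^ ((Fintype.card C : ℝ)⁻¹) • (1 : Matrix C C ℝ) := by
      exact (resGen_mul_embGen C (K g) (mat g)).trans e
    have := congrFun (congrFun e2 ⟨p, hp⟩) ⟨q, hq⟩
    simpa only [resGen, submatrix_apply, Matrix.smul_apply, one_apply,
      Subtype.ext_iff, smul_eq_mul, mul_ite, mul_one, mul_zero] using this

lemma conj_near {B : Set (SL n)} (hB : IsCompact B) {ε : ℝ} (hε : 0 < ε) :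
    ∃ δ : ℝ, 0 < δ ∧ ∀ g : SL n, Near g δ → ∀ h ∈ B, Near (h⁻¹ * g * h) ε := by
  have h1 : ∀ᶠ g in 𝓝 (1 : SL n), ∀ h ∈ B, Near (h⁻¹ * g * h) ε := by
    refine hB.eventually_forall_of_forall_eventually fun h _ => ?_
    have c : Continuous fun z : SL n × SL n => z.2⁻¹ * z.1 * z.2 :=
      (continuous_snd.inv.mul continuous_fst).mul continuous_snd
    have t := c.tendsto (1, h)
    simp only [mul_one, inv_mul_cancel] at t
    exact t.eventually (near_mem_nhds hε)
  exact exists_near_subset h1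

end Vale.Agent.P007
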