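import Vale.Agent.P007.E.Stab

/-!
P007 E, task High: the high entropy (commutator) argument.
Write `α = (i,j)`, `β = (j,k)`, `γ = (i,k)`. By `eq_of_scale_one` and `hopf_ker` (with
`cj_diagA_uu`, `exists_sum_zero`) there is a conull measurable `X'` (inside all three `X1` and the
a.e. set of `Lγ.stab`) such that for `x` and the moved point in `X'`:
`νγ` is unchanged by `uu i j s` (weight `τ i = τ k = 1`, else `0`) and by `uu j k t`
(weight `τ j = 1`); `νβ` is unchanged by `uu i j s` (weight `τ i = 1`); `να` is unchanged by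
`uu j k t` (weight `τ k = -1`). By `Leaf0.null` (twice) for a.e. `x ∈ X'`: for `να x`-a.e. `s`,
`x uα(s) ∈ X'` and for `νβ x`-a.e. `t`, `x uα(s) uβ(t) ∈ X'`; symmetrically for `νβ x`-a.e. `t`,
`x uβ(t) ∈ X'` and for `να x`-a.e. `s`, `x uβ(t) uα(s) ∈ X'`. Swap the order in the second
statement (`Measure.ae_ae_comm`, the set of `(s,t)` is measurable). A normalised measure that is
not `dirac 0` charges `{0}ᶜ`, so some `s, t ≠ 0` satisfy everything. With `y = x uβ(t) uα(s)`,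
`uu_comm` gives `x uα(s) uβ(t) = y uγ(s t)`, and `νγ` at both points equals `νγ x`; `shift` gives
`Prp (νγ x) ((νγ x).map (· - s t))`; conclude with `stab`.
-/

open Matrix MeasureTheory ProbabilityTheory Set Filter Topology
open scoped ENNReal

namespace Vale.Agent.P007

variable {n : ℕ}

lemma measure_inter_eq_of_ae_High {m : Measure ℝ} {S : Set ℝ} (h : ∀ᵐ s ∂m, s ∈ S) (A : Set ℝ) :
    m (A ∩ S) = m A := by
  refine measure_congr ?_
  filter_upwards [h] with s hs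
  exact propext ⟨fun h => h.1, fun h => ⟨h, hs⟩⟩

lemma high_inv {μ : Measure (X n)} [IsFiniteMeasure μ] (hA : AInv μ) {p q : Fin n}
    (L : Leaf0 μ p q) (a b : Fin n) (τ : Fin n → ℝ) (h1 : τ p = τ q) (h2 : τ b < τ a) :
    ∃ X' : Set (X n), MeasurableSet X' ∧ μ X'ᶜ = 0 ∧ ∀ x ∈ X', ∀ s : ℝ,
      act x (uu a b s) ∈ X' → L.ν (act x (uu a b s)) = L.ν x := by
  obtain ⟨u, hu, hτ⟩ := exists_sum_zero τ
  have hpq : u p = u q := by
    have := hτ p q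
    linarith
  have hab : u b - u a < 0 := by
    have := hτ b a
    linarith
  have hfin : ∀ᵐ x ∂μ, ∀ R : ℝ, L.ν x (Ioo (-R) R) ≠ ∞ := by
    have h : ∀ᵐ x ∂μ, x ∈ L.X1 := L.conull
    filter_upwards [h] with x hx using L.fin x hx
  obtain ⟨X', hm, h0, hX⟩ := hopf_ker (hA.hinv u hu) L.ν hfin (L.eq_of_scale_one hA u hu hpq)
  refine ⟨X', hm, h0, fun x hx s hs => hX x hx _ hs ?_⟩
  have e : cj (diagA u hu) (uu a b s) = fun k : ℕ => uu a b (s * Real.exp (k * (u b - u a))) :=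
    funext fun k => cj_diagA_uu u hu a b s k
  rw [e, ← uu_zero a b]
  refine ((continuous_uu a b).tendsto 0).comp ?_
  have h3 : Tendsto (fun k : ℕ => (k : ℝ) * (u b - u a)) atTop atBot :=
    tendsto_natCast_atTop_atTop.atTop_mul_const_of_neg hab
  have h4 := (Real.tendsto_exp_atBot.comp h3).const_mul s
  rw [mul_zero] at h4
  exact h4

lemma high_exists_ne {m : Measure ℝ} (h1 : m (Ioo (-1) 1) = 1) (hd : m ≠ Measure.dirac 0)
    {Q : ℝ → Prop} (hQ : ∀ᵐ s ∂m, Q s) : ∃ s, s ≠ 0 ∧ Q s := by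
  by_contra hne
  push Not at hne
  have h0 : m ({0}ᶜ : Set ℝ) = 0 :=
    measure_mono_null (fun s hs => hne s hs) (ae_iff.1 hQ)
  have hae : ∀ᵐ s ∂m, s ∈ ({0} : Set ℝ) := h0
  have key : ∀ A : Set ℝ, m A = m (A ∩ {0}) := fun A =>
    (measure_inter_eq_of_ae_High hae A).symm
  have hz : m {0} = 1 := by
    rw [← h1, key (Ioo (-1) 1)]
    congr 1
    ext s
    simp only [mem_singleton_iff, mem_inter_iff, mem_Ioo]
    constructor
    · rintro rfl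
      norm_num
    · exact fun h => h.2
  apply hd
  ext A hA
  rw [key A, Measure.dirac_apply' _ hA]
  by_cases h : (0 : ℝ) ∈ A
  · rw [inter_eq_right.2 (singleton_subset_iff.2 h), hz, indicator_of_mem h]
    rfl
  · rw [inter_singleton_eq_empty.2 h, indicator_of_notMem h, measure_empty]

lemma high_swap (x : X n) {a b c d : Fin n} {X' : Set (X n)} (hm : MeasurableSet X')
    {m m' : Measure ℝ} [SFinite m] [SFinite m']
    (h : ∀ᵐ t ∂m, ∀ᵐ s ∂m', act x (uu c d t) ∈ X' ∧ act (act x (uu c d t)) (uu a b s) ∈ X') :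
    ∀ᵐ s ∂m', ∀ᵐ t ∂m, act x (uu c d t) ∈ X' ∧ act (act x (uu c d t)) (uu a b s) ∈ X' := by
  have hmt : Measurable fun p : ℝ × ℝ => act x (uu c d p.1) :=
    (measurable_act_uu c d).comp
      (f := fun p : ℝ × ℝ => ((x, p.1) : X n × ℝ)) (measurable_const.prodMk measurable_fst)
  have hmt2 : Measurable fun p : ℝ × ℝ => act (act x (uu c d p.1)) (uu a b p.2) :=
    (measurable_act_uu a b).comp
      (f := fun p : ℝ × ℝ => ((act x (uu c d p.1), p.2) : X n × ℝ)) (hmt.prodMk measurable_snd)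
  have hmeas : MeasurableSet {p : ℝ × ℝ |
      act x (uu c d p.1) ∈ X' ∧ act (act x (uu c d p.1)) (uu a b p.2) ∈ X'} :=
    (hmt hm).inter (hmt2 hm)
  exact (Measure.ae_ae_comm (μ := m) (ν := m')
    (p := fun t s => act x (uu c d t) ∈ X' ∧ act (act x (uu c d t)) (uu a b s) ∈ X') hmeas).1 h

lemma high_two {μ : Measure (X n)} {a b c d : Fin n} (La : Leaf0 μ a b) (Lb : Leaf0 μ c d)
    {X' : Set (X n)} (h0 : μ X'ᶜ = 0)
    (hinv : ∀ x ∈ X', ∀ s : ℝ, act x (uu a b s) ∈ X' → Lb.ν (act x (uu a b s)) = Lb.ν x) :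
    ∀ᵐ x ∂μ, x ∈ X' ∧ ∀ᵐ s ∂(La.ν x), act x (uu a b s) ∈ X' ∧
      ∀ᵐ t ∂(Lb.ν x), act (act x (uu a b s)) (uu c d t) ∈ X' := by
  have hX : ∀ᵐ x ∂μ, x ∈ X' := h0
  have h1 : ∀ᵐ y ∂μ, y ∈ X' ∧ ∀ᵐ t ∂(Lb.ν y), act y (uu c d t) ∈ X' := by
    filter_upwards [hX, Lb.null h0] with y hy hy2
    exact ⟨hy, hy2⟩
  filter_upwards [hX, La.null (ae_iff.1 h1)] with x hx hx2
  refine ⟨hx, ?_⟩
  have h2 : ∀ᵐ s ∂(La.ν x), act x (uu a b s) ∈ X' ∧
      ∀ᵐ t ∂(Lb.ν (act x (uu a b s))), act (act x (uu a b s)) (uu c d t) ∈ X' :=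
    ae_iff.2 hx2
  filter_upwards [h2] with s hs
  refine ⟨hs.1, ?_⟩
  rw [← hinv x hx s hs.1]
  exact hs.2

theorem high {μ : Measure (X n)} [IsFiniteMeasure μ] (hA : AInv μ) {i j k : Fin n}
    (hij : i ≠ j) (hjk : j ≠ k) (hik : i ≠ k) (La : Leaf0 μ i j) (Lb : Leaf0 μ j k)
    (Lc : Leaf0 μ i k) :
    ∀ᵐ x ∂μ, La.ν x ≠ Measure.dirac 0 → Lb.ν x ≠ Measure.dirac 0 → Lc.ν x = Leb := by
  obtain ⟨Y1, m1, z1, H1⟩ := high_inv hA Lc i j (fun p => if p = j then -1 else 0)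
    (by simp [hij, hjk.symm]) (by simp [hij])
  obtain ⟨Y2, m2, z2, H2⟩ := high_inv hA Lc j k (fun p => if p = j then 1 else 0)
    (by simp [hij, hjk.symm]) (by simp [hjk.symm])
  obtain ⟨Y3, m3, z3, H3⟩ := high_inv hA Lb i j (fun p => if p = i then 1 else 0)
    (by simp [hij.symm, hik.symm]) (by simp [hij.symm])
  obtain ⟨Y4, m4, z4, H4⟩ := high_inv hA La j k (fun p => if p = k then -1 else 0)
    (by simp [hik, hjk]) (by simp [hjk])
  obtain ⟨X', hX'⟩ : ∃ X' : Set (X n),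
      X' = La.X1 ∩ (Lb.X1 ∩ (Lc.X1 ∩ (Y1 ∩ (Y2 ∩ (Y3 ∩ Y4))))) := ⟨_, rfl⟩
  have hm : MeasurableSet X' := by
    rw [hX']
    exact La.meas.inter (Lb.meas.inter (Lc.meas.inter (m1.inter (m2.inter (m3.inter m4)))))
  have h0 : μ X'ᶜ = 0 := by
    have e1 : ∀ᵐ x ∂μ, x ∈ La.X1 := La.conull
    have e2 : ∀ᵐ x ∂μ, x ∈ Lb.X1 := Lb.conull
    have e3 : ∀ᵐ x ∂μ, x ∈ Lc.X1 := Lc.conull
    have f1 : ∀ᵐ x ∂μ, x ∈ Y1 := z1
    have f2 : ∀ᵐ x ∂μ, x ∈ Y2 := z2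
    have f3 : ∀ᵐ x ∂μ, x ∈ Y3 := z3
    have f4 : ∀ᵐ x ∂μ, x ∈ Y4 := z4
    have : ∀ᵐ x ∂μ, x ∈ X' := by
      filter_upwards [e1, e2, e3, f1, f2, f3, f4] with x a1 a2 a3 b1 b2 b3 b4
      rw [hX']
      exact ⟨a1, a2, a3, b1, b2, b3, b4⟩
    exact this
  have hs : ∀ x ∈ X', x ∈ La.X1 ∧ x ∈ Lb.X1 ∧ x ∈ Lc.X1 ∧ x ∈ Y1 ∧ x ∈ Y2 ∧ x ∈ Y3 ∧ x ∈ Y4 := by
    intro x hx
    rw [hX'] at hx
    exact hx
  have A1 := high_two La Lb h0
    (fun x hx s hxs => H3 x (hs x hx).2.2.2.2.2.1 s (hs _ hxs).2.2.2.2.2.1)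
  have A2 := high_two Lb La h0
    (fun x hx s hxs => H4 x (hs x hx).2.2.2.2.2.2 s (hs _ hxs).2.2.2.2.2.2)
  filter_upwards [A1, A2, Lc.stab hik hA] with x hx1 hx2 hst hda hdb
  have hx := hx1.1
  have := La.sfin
  have := Lb.sfin
  have B2 : ∀ᵐ t ∂(Lb.ν x), ∀ᵐ s ∂(La.ν x),
      act x (uu j k t) ∈ X' ∧ act (act x (uu j k t)) (uu i j s) ∈ X' := by
    filter_upwards [hx2.2] with t ht
    filter_upwards [ht.2] with s hs2
    exact ⟨ht.1, hs2⟩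
  have B3 := high_swap x hm B2
  obtain ⟨s, hs0, ⟨hsa, hsb⟩, hsc⟩ :=
    high_exists_ne (La.norm x (hs x hx).1) hda (hx1.2.and B3)
  obtain ⟨t, ht0, htz, htb, hty⟩ :=
    high_exists_ne (Lb.norm x (hs x hx).2.1) hdb (hsb.and hsc)
  have hz : act (act x (uu i j s)) (uu j k t) =
      act (act (act x (uu j k t)) (uu i j s)) (uu i k (s * t)) := by
    simp only [act_mul]
    rw [uu_comm hij hjk hik]
  have ez : Lc.ν (act (act x (uu i j s)) (uu j k t)) = Lc.ν x := by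
    rw [H2 _ (hs _ hsa).2.2.2.2.1 t (hs _ htz).2.2.2.2.1,
      H1 _ (hs _ hx).2.2.2.1 s (hs _ hsa).2.2.2.1]
  have ey : Lc.ν (act (act x (uu j k t)) (uu i j s)) = Lc.ν x := by
    rw [H1 _ (hs _ htb).2.2.2.1 s (hs _ hty).2.2.2.1,
      H2 _ (hs _ hx).2.2.2.2.1 t (hs _ htb).2.2.2.2.1]
  have hsh := Lc.shift _ (hs _ hty).2.2.1 (s * t) (by rw [← hz]; exact (hs _ htz).2.2.1)
  rw [← hz, ez, ey] at hsh
  exact hst (s * t) (mul_ne_zero hs0 ht0) hsh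

end Vale.Agent.P007
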