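import Vale.Agent.P007.E.Basic
import Vale.Agent.P007.E.Erg
import Vale.Agent.P007.E.Lusin

/-!
P007 E, task Hopf: the Hopf argument.
`hopf2`: `X' = ⋃ l, freqGood T (K l) (1/3)` with `T = (act · a)` (`freqGood_compl_le`,
`freqGood_mono`); `frequently_both`, extract a subsequence, then a convergent one
(`IsCompact.tendsto_subseq`); `act_cj` and `continuous_act` give the limit `act z h0 ∈ K l`.
`hopf1`: `lusin_seq` inside a forward invariant conull set on which `f (T x) = f x`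
(`exists_inv_conull`), `hopf2` with `h0 = 1`.
`hopf_ker`: `hopf1` for `x ↦ fun (p q : ℚ) => κ x (Ioo p q)` (values in `ℚ → ℚ → ℝ≥0∞`),
`Real.measure_ext_Ioo_rat`, `locFin_of_fin`.
`hopf_set`: `hopf1` for the indicator of `S` with values in `ℝ`.
-/

open Matrix MeasureTheory ProbabilityTheory Set Filter Topology
open scoped ENNReal

namespace Vale.Agent.P007

variable {n : ℕ} {μ : Measure (X n)} [IsFiniteMeasure μ]

theorem hopf2 {a : SL n} (ha : HInv μ a) {K : ℕ → Set (X n)} (hm : Monotone K)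
    (hK : ∀ l, IsCompact (K l)) (h0 : Tendsto (fun l => μ (K l)ᶜ) atTop (𝓝 0)) :
    ∃ X' : Set (X n), MeasurableSet X' ∧ μ X'ᶜ = 0 ∧ ∀ x ∈ X', ∀ h h0 : SL n, act x h ∈ X' →
      Tendsto (cj a h) atTop (𝓝 h0) → ∃ l, ∃ φ : ℕ → ℕ, ∃ z ∈ K l, StrictMono φ ∧
        act z h0 ∈ K l ∧ (∀ m, act x (a ^ φ m) ∈ K l ∧ act (act x h) (a ^ φ m) ∈ K l) ∧
        Tendsto (fun m => act x (a ^ φ m)) atTop (𝓝 z) ∧
        Tendsto (fun m => act (act x h) (a ^ φ m)) atTop (𝓝 (act z h0)) := by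
  have : BorelSpace (X n) := ⟨rfl⟩
  have hmeas : ∀ l, MeasurableSet (freqGood (fun y : X n => act y a) (K l) (1 / 3)) := fun l =>
    measurableSet_freqGood (measurable_act a) (hK l).measurableSet _
  refine ⟨⋃ l, freqGood (fun y : X n => act y a) (K l) (1 / 3), MeasurableSet.iUnion hmeas, ?_, ?_⟩
  · have h1 : ENNReal.ofReal (1 / 3) *
        μ (⋃ l, freqGood (fun y : X n => act y a) (K l) (1 / 3))ᶜ ≤ 0 := by
      refine ge_of_tendsto' h0 fun l => ?_
      refine le_trans ?_ (freqGood_compl_le ha.mp (hK l).measurableSet (ε := 1 / 3) (by norm_num))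
      gcongr
      exact subset_iUnion (fun l => freqGood (fun y : X n => act y a) (K l) (1 / 3)) l
    rw [nonpos_iff_eq_zero, mul_eq_zero] at h1
    exact h1.resolve_left (by simp)
  · intro x hx h h1 hxh hc
    obtain ⟨l1, hl1⟩ := mem_iUnion.1 hx
    obtain ⟨l2, hl2⟩ := mem_iUnion.1 hxh
    have fb := frequently_both (freqGood_mono (hm (le_max_left l1 l2)) _ hl1)
      (freqGood_mono (hm (le_max_right l1 l2)) _ hl2)
    simp only [iterate_act] at fb
    obtain ⟨φ, hφ, hφ2⟩ := extraction_of_frequently_atTop fb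
    obtain ⟨z, hz, ψ, hψ, hlim⟩ := (hK (max l1 l2)).tendsto_subseq (fun m => (hφ2 m).1)
    have hlim2 : Tendsto (fun m => act (act x h) (a ^ φ (ψ m))) atTop (𝓝 (act z h1)) := by
      have t1 : Tendsto (fun m => act x (a ^ φ (ψ m))) atTop (𝓝 z) := hlim
      have t2 : Tendsto (fun m => cj a h (φ (ψ m))) atTop (𝓝 h1) :=
        hc.comp (hφ.comp hψ).tendsto_atTop
      have t3 := (continuous_act.tendsto (z, h1)).comp (t1.prodMk_nhds t2)
      exact t3.congr fun m => (act_cj x a h _).symm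
    exact ⟨max l1 l2, φ ∘ ψ, z, hz, hφ.comp hψ,
      (hK _).isClosed.mem_of_tendsto hlim2 (Eventually.of_forall fun m => (hφ2 _).2),
      fun m => hφ2 _, hlim, hlim2⟩

theorem hopf1 {Z : Type} [TopologicalSpace Z] [SecondCountableTopology Z] [T2Space Z]
    [MeasurableSpace Z] [OpensMeasurableSpace Z] {a : SL n} (ha : HInv μ a) {f : X n → Z}
    (hf : Measurable f) (hinv : ∀ᵐ x ∂μ, f (act x a) = f x) :
    ∃ X' : Set (X n), MeasurableSet X' ∧ μ X'ᶜ = 0 ∧ ∀ x ∈ X', ∀ h : SL n, act x h ∈ X' →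
      Tendsto (cj a h) atTop (𝓝 1) → f (act x h) = f x := by
  have : BorelSpace (X n) := ⟨rfl⟩
  obtain ⟨S, hS, hS0, hSp⟩ := exists_inv_conull ha.mp hinv
  have hit : ∀ x ∈ S, ∀ k : ℕ, f (act x (a ^ k)) = f x := by
    intro x hx k
    induction k with
    | zero => rw [pow_zero, act_one]
    | succ k ih =>
      have := (hSp x hx k).2
      rw [iterate_act, act_mul, ← pow_succ] at this
      rw [this, ih]
  obtain ⟨K, hm, hK, h0⟩ := lusin_seq hf hS hS0
  obtain ⟨X', m1, m2, H⟩ := hopf2 ha hm (fun l => (hK l).1) h0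
  refine ⟨X' ∩ S, m1.inter hS, ?_, fun x hx h hxh hc => ?_⟩
  · rw [compl_inter]
    exact measure_union_null m2 hS0
  · obtain ⟨l, φ, z, hz, -, -, hmem, t1, t2⟩ := H x hx.1 h 1 hxh.1 hc
    rw [act_one] at t2
    have c := (hK l).2.2 z hz
    have u1 := c.tendsto.comp (tendsto_nhdsWithin_iff.2
      ⟨t1, Eventually.of_forall fun m => (hmem m).1⟩)
    have u2 := c.tendsto.comp (tendsto_nhdsWithin_iff.2
      ⟨t2, Eventually.of_forall fun m => (hmem m).2⟩)
    simp only [Function.comp_def, hit x hx.2] at u1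
    simp only [Function.comp_def, hit _ hxh.2] at u2
    rw [tendsto_nhds_unique tendsto_const_nhds u1, tendsto_nhds_unique tendsto_const_nhds u2]

theorem hopf_ker {a : SL n} (ha : HInv μ a) (κ : Kernel (X n) ℝ)
    (hfin : ∀ᵐ x ∂μ, ∀ R : ℝ, κ x (Ioo (-R) R) ≠ ∞) (hinv : ∀ᵐ x ∂μ, κ (act x a) = κ x) :
    ∃ X' : Set (X n), MeasurableSet X' ∧ μ X'ᶜ = 0 ∧ ∀ x ∈ X', ∀ h : SL n, act x h ∈ X' →
      Tendsto (cj a h) atTop (𝓝 1) → κ (act x h) = κ x := by
  obtain ⟨S, hS, hS0, hSp⟩ := exists_inv_conull ha.mp hfin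
  obtain ⟨X', m1, m2, H⟩ := hopf1 ha
    (f := fun x (p : ℚ × ℚ) => κ x (Ioo (p.1 : ℝ) p.2))
    (measurable_pi_lambda _ fun p => κ.measurable_coe measurableSet_Ioo)
    (hinv.mono fun x hx => by rw [hx])
  refine ⟨X' ∩ S, m1.inter hS, ?_, fun x hx h hxh hc => ?_⟩
  · rw [compl_inter]
    exact measure_union_null m2 hS0
  · have : IsLocallyFiniteMeasure (κ (act x h)) := locFin_of_fin (hSp _ hxh.2 0).2
    exact Real.measure_ext_Ioo_rat fun p q => congrFun (H x hx.1 h hxh.1 hc) (p, q)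

theorem hopf_set {a : SL n} (ha : HInv μ a) {S : Set (X n)} (hS : MeasurableSet S)
    (hinv : ∀ᵐ x ∂μ, (act x a ∈ S ↔ x ∈ S)) :
    ∃ X' : Set (X n), MeasurableSet X' ∧ μ X'ᶜ = 0 ∧ ∀ x ∈ X', ∀ h : SL n, act x h ∈ X' →
      Tendsto (cj a h) atTop (𝓝 1) → (act x h ∈ S ↔ x ∈ S) := by
  have key : ∀ x y : X n, S.indicator (fun _ => (1 : ℝ)) y = S.indicator (fun _ => (1 : ℝ)) x ↔
      (y ∈ S ↔ x ∈ S) := by
    intro x y
    by_cases hx : x ∈ S <;> by_cases hy : y ∈ S <;> simp [hx, hy]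
  obtain ⟨X', m1, m2, H⟩ := hopf1 ha (f := S.indicator fun _ => (1 : ℝ))
    (measurable_const.indicator hS) (hinv.mono fun x hx => (key _ _).2 hx)
  exact ⟨X', m1, m2, fun x hx h hxh hc => (key _ _).1 (H x hx h hxh hc)⟩

end Vale.Agent.P007
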