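import Vale.Agent.P007.E.Defs
import Vale.Agent.P007.Topo

/-!
Interface between the number theory half (folder `N/`, helper3) and the rigidity half
(folder `E/`, helper13).
-/

open Matrix MeasureTheory

namespace Vale.Agent.P007

/-- Lattices with a nonzero vector in the open cube `(-2,2)^n` whose coordinate product is
within `η` of `t` (an open set). -/
def thin (n : ℕ) (t η : ℝ) : Set (X n) :=
  {x | ∃ g : SL n, x = coset g ∧ ∃ w ∈ rowLattice g, w ≠ 0 ∧ (∀ j, |w j| < 2) ∧
    |∏ j, w j - t| < η}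

/-- `μ` is invariant under `A_n`. -/
def AInv {n : ℕ} (μ : Measure (X n)) : Prop :=
  ∀ (u : Fin n → ℝ) (hu : ∑ j, u j = 0), μ.map (fun x => act x (diagA u hu)) = μ

/-- Hypothesis (S1). -/
def S1 {n : ℕ} (μ : Measure (X n)) : Prop :=
  ∃ C c : ℝ, 0 < c ∧ ∀ t η : ℝ, 0 < η → η < 1 → μ (thin n t η) ≤ ENNReal.ofReal (C * η ^ c)

/-- Rigidity (proved in `E/`): for prime `n ≥ 3` an `A_n`-invariant probability with (S1) is
`SL_n(ℝ)`-invariant. -/
def RigidStmt (n : ℕ) : Prop :=
  ∀ μ : Measure (X n), IsProbabilityMeasure μ → AInv μ → S1 μ → IsInvProb μ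

/-- Uniqueness of the invariant probability (proved in `E/`). -/
def UniqStmt (n : ℕ) : Prop :=
  ∀ m m' : Measure (X n), IsInvProb m → IsInvProb m' → m = m'

end Vale.Agent.P007
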