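import Vale.Agent.P007.E.Basic

/-!
P007 E, task Latt: the lattice of a point.
`minkowski_box`: `exists_ne_zero_mem_lattice_of_measure_mul_two_pow_lt_measure` for the lattice
`span ℤ (range b)`, `b` the basis of rows of `g` (`ZSpan.isAddFundamentalDomain`,
`ZSpan.volume_fundamentalDomain`, determinant one), body `pi univ (Ioo (-c j) (c j))`.
Alternatively pull the box back by `v ↦ v ᵥ* mat g` (measure preserving) and use `ℤ^n`.
`noHyp_ae`: the bad set is the union over `p` and `R : ℕ` of `H p R = {x | ∃ w ∈ lat x, w ≠ 0,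
w p = 0, ∀ j, |w j| < R}`; for `a = diagA u` with `u j = -log (R+1)` for `j ≠ p`,
`H p R ⊆ (act · a) ⁻¹' thin n 0 η` for every `η > 0`, so `μ (H p R) ≤ C η^c → 0`.
`measurableSet_noHyp`: countable intersection over `v : Fin n → ℤ`; the complement is the
image under `coset` of a countable union of closed (hence σ-compact) sets; or write it as
`⋃ p R, ⋂ m, {open set with |w p| < 1/(m+1), |w j| < R}` using finiteness of `lat x` in a box.
-/

open Matrix MeasureTheory ProbabilityTheory Set Filter Topology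
open scoped ENNReal

namespace Vale.Agent.P007

variable {n : ℕ}

lemma latt_gam_mul {γ : SL n} (hγ : γ ∈ Gam n) (g : SL n) :
    rowLattice (γ * g) ⊆ rowLattice g := by
  rintro _ ⟨v, rfl⟩
  obtain ⟨δ, rfl⟩ := hγ
  refine ⟨v ᵥ* (δ : Matrix (Fin n) (Fin n) ℤ), ?_⟩
  change _ ᵥ* mat (_ * g) = _ ᵥ* mat g
  rw [mat_mul, ← vecMul_vecMul]
  congr 1
  ext j
  simp [vecMul, dotProduct, mat]

lemma lat_coset (g : SL n) : lat (coset g) = rowLattice g := by
  apply Subset.antisymm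
  · rintro w ⟨g', hg, hw⟩
    obtain ⟨γ, hγ, h⟩ := mk_eq_iff.1 hg.symm
    rw [← h] at hw
    exact latt_gam_mul hγ g hw
  · intro w hw
    exact ⟨g, rfl, hw⟩

lemma latt_mem_row (g : SL n) (w : Fin n → ℝ) :
    w ∈ rowLattice g ↔ ∃ v : Fin n → ℤ, w = (fun i => (v i : ℝ)) ᵥ* mat g := Iff.rfl

lemma latt_closedEmb (g : SL n) :
    IsClosedEmbedding (fun v : Fin n → ℤ => (fun i => (v i : ℝ)) ᵥ* mat g) := by
  have h1 : IsClosedEmbedding (Pi.map (fun (_ : Fin n) (z : ℤ) => (z : ℝ))) :=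
    IsClosedEmbedding.piMap fun _ => isClosedEmbedding_intCast
  let e : (Fin n → ℝ) ≃ₜ (Fin n → ℝ) :=
    { toFun := fun w => w ᵥ* mat g
      invFun := fun w => w ᵥ* mat g⁻¹
      left_inv := fun w => by simp only [vecMul_vecMul, mat_mul_inv, vecMul_one]
      right_inv := fun w => by simp only [vecMul_vecMul, mat_inv_mul, vecMul_one]
      continuous_toFun := by fun_prop
      continuous_invFun := by fun_prop }
  exact e.isClosedEmbedding.comp h1

lemma mem_lat_act (x : X n) (h : SL n) (w : Fin n → ℝ) :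
    w ∈ lat (act x h) ↔ ∃ v ∈ lat x, w = v ᵥ* mat h := by
  obtain ⟨g, rfl⟩ := (isOpenQuotientMap_mk n).surjective x
  rw [act_coset, lat_coset, lat_coset]
  constructor
  · rintro ⟨v, rfl⟩
    exact ⟨_, ⟨v, rfl⟩, by rw [vecMul_vecMul]; rfl⟩
  · rintro ⟨_, ⟨v, rfl⟩, rfl⟩
    exact ⟨v, by rw [vecMul_vecMul]; rfl⟩

lemma zero_mem_lat (x : X n) : (0 : Fin n → ℝ) ∈ lat x := by
  obtain ⟨g, rfl⟩ := (isOpenQuotientMap_mk n).surjective x
  rw [lat_coset]
  refine ⟨0, ?_⟩
  ext j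
  simp [vecMul, dotProduct]

lemma sub_mem_lat {x : X n} {v w : Fin n → ℝ} (hv : v ∈ lat x) (hw : w ∈ lat x) :
    v - w ∈ lat x := by
  obtain ⟨g, rfl⟩ := (isOpenQuotientMap_mk n).surjective x
  rw [lat_coset] at hv hw ⊢
  obtain ⟨a, rfl⟩ := hv
  obtain ⟨b, rfl⟩ := hw
  refine ⟨a - b, ?_⟩
  rw [← sub_vecMul]
  congr 1
  ext j
  simp

lemma finite_lat_box (x : X n) (R : ℝ) : {w | w ∈ lat x ∧ ∀ j, |w j| ≤ R}.Finite := by
  obtain ⟨g, rfl⟩ := (isOpenQuotientMap_mk n).surjective x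
  have hK : IsCompact (Set.pi univ fun _ : Fin n => Icc (-R) R) :=
    isCompact_univ_pi fun _ => isCompact_Icc
  have h2 := ((latt_closedEmb g).isCompact_preimage hK).finite_of_discrete
  refine (h2.image (fun v : Fin n → ℤ => (fun i => (v i : ℝ)) ᵥ* mat g)).subset ?_
  rintro w ⟨hw, hR⟩
  rw [lat_coset] at hw
  obtain ⟨v, rfl⟩ := hw
  exact ⟨v, fun j _ => abs_le.1 (hR j), rfl⟩

lemma isClosed_lat (x : X n) : IsClosed (lat x) := by
  obtain ⟨g, rfl⟩ := (isOpenQuotientMap_mk n).surjective x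
  rw [lat_coset]
  convert (latt_closedEmb g).isClosed_range using 1
  ext w
  exact ⟨fun ⟨v, hv⟩ => ⟨v, hv.symm⟩, fun ⟨v, hv⟩ => ⟨v, hv.symm⟩⟩

/-- The set of points whose lattice meets an open set is open. -/
lemma isOpen_lat_meets {V : Set (Fin n → ℝ)} (hV : IsOpen V) :
    IsOpen {x : X n | ∃ w ∈ lat x, w ∈ V} := by
  rw [← (isOpenQuotientMap_mk n).isQuotientMap.isOpen_preimage]
  have : coset ⁻¹' {x : X n | ∃ w ∈ lat x, w ∈ V} =
      ⋃ v : Fin n → ℤ, (fun g : SL n => (fun i => (v i : ℝ)) ᵥ* mat g) ⁻¹' V := by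
    ext g
    simp only [mem_preimage, mem_ofPred_eq, lat_coset, mem_iUnion]
    constructor
    · rintro ⟨_, ⟨v, rfl⟩, h⟩
      exact ⟨v, h⟩
    · rintro ⟨v, h⟩
      exact ⟨_, ⟨v, rfl⟩, h⟩
  rw [this]
  refine isOpen_iUnion fun v => hV.preimage ?_
  exact continuous_const.matrix_vecMul continuous_mat

lemma mem_thin_iff (x : X n) (t η : ℝ) :
    x ∈ thin n t η ↔ ∃ w ∈ lat x, w ≠ 0 ∧ (∀ j, |w j| < 2) ∧ |∏ j, w j - t| < η := by
  constructor
  · rintro ⟨g, hg, w, hw, h⟩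
    exact ⟨w, ⟨g, hg, hw⟩, h⟩
  · rintro ⟨w, ⟨g, hg, hw⟩, h⟩
    exact ⟨g, hg, w, hw, h⟩

lemma isOpen_thin (t η : ℝ) : IsOpen (thin n t η) := by
  have hV : IsOpen {w : Fin n → ℝ | w ≠ 0 ∧ (∀ j, |w j| < 2) ∧ |∏ j, w j - t| < η} := by
    refine isOpen_ne.inter (IsOpen.inter ?_ ?_)
    · change IsOpen {w : Fin n → ℝ | ∀ j, |w j| < 2}
      rw [ofPred_forall]
      exact isOpen_iInter_of_finite fun j => isOpen_lt (by fun_prop) continuous_const
    · change IsOpen {w : Fin n → ℝ | |∏ j, w j - t| < η}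
      exact isOpen_lt (by fun_prop) continuous_const
  convert isOpen_lat_meets hV using 1
  ext x
  exact mem_thin_iff x t η

lemma minkowski_box (hn : 0 < n) (x : X n) (c : Fin n → ℝ) (hc : ∀ j, 0 < c j)
    (h1 : 1 < ∏ j, c j) : ∃ w ∈ lat x, w ≠ 0 ∧ ∀ j, |w j| < c j := by
  obtain ⟨g, rfl⟩ := (isOpenQuotientMap_mk n).surjective x
  let e : (Fin n → ℝ) ≃ₗ[ℝ] (Fin n → ℝ) :=
    { toFun := fun w => w ᵥ* mat g
      invFun := fun w => w ᵥ* mat g⁻¹
      map_add' := fun v w => add_vecMul _ _ _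
      map_smul' := fun a w => smul_vecMul _ _ _
      left_inv := fun w => by simp only [vecMul_vecMul, mat_mul_inv, vecMul_one]
      right_inv := fun w => by simp only [vecMul_vecMul, mat_inv_mul, vecMul_one] }
  let b := (Pi.basisFun ℝ (Fin n)).map e
  have hb : ∀ i, b i = mat g i := by
    intro i
    simp only [b, Module.Basis.map_apply, Pi.basisFun_apply]
    change Pi.single i (1 : ℝ) ᵥ* mat g = _
    rw [single_one_vecMul]
    rfl
  have hdet : (Matrix.of b).det = 1 := by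
    have : Matrix.of b = mat g := by
      ext i j
      simp [hb]
    rw [this]
    exact g.2
  have hcount : Countable (Submodule.span ℤ (Set.range b)).toAddSubgroup :=
    inferInstanceAs (Countable (Submodule.span ℤ (Set.range b)))
  have hvol : volume (ZSpan.fundamentalDomain b) * 2 ^ Module.finrank ℝ (Fin n → ℝ) <
      volume (Set.pi univ fun j => Ioo (-c j) (c j)) := by
    rw [ZSpan.volume_fundamentalDomain, hdet, Real.volume_pi_Ioo]
    rw [← ENNReal.ofReal_prod_of_nonneg (fun j _ => by linarith [hc j])]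
    have h2 : ∏ j, (c j - -c j) = 2 ^ n * ∏ j, c j := by
      rw [show (fun j => c j - -c j) = fun j => 2 * c j from funext fun j => by ring,
        Finset.prod_mul_distrib]
      simp
    rw [h2, Module.finrank_fin_fun, abs_one, ENNReal.ofReal_one, one_mul]
    have h3 : (2 : ℝ≥0∞) ^ n = ENNReal.ofReal (2 ^ n) := by
      rw [ENNReal.ofReal_pow (by norm_num)]
      simp
    have h4 : (0 : ℝ) < 2 ^ n := by positivity
    rw [h3, ENNReal.ofReal_lt_ofReal_iff (by nlinarith)]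
    nlinarith
  obtain ⟨w, hw0, hw⟩ := exists_ne_zero_mem_lattice_of_measure_mul_two_pow_lt_measure
    (ZSpan.isAddFundamentalDomain' b volume)
    (s := Set.pi univ fun j => Ioo (-c j) (c j))
    (fun w hw j _ => by
      have := hw j (mem_univ j)
      exact ⟨by simpa using this.2, by simpa [neg_lt] using this.1⟩)
    (convex_pi fun j _ => convex_Ioo _ _) hvol
  refine ⟨w, ?_, fun h => hw0 (Subtype.ext h), fun j => abs_lt.2 (hw j (mem_univ j))⟩
  rw [lat_coset]
  obtain ⟨v, hv⟩ := (Submodule.mem_span_range_iff_exists_fun ℤ).1 w.2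
  refine ⟨v, ?_⟩
  rw [← hv]
  ext j
  simp [hb, vecMul, dotProduct, mat]

lemma vecMul_uu {i j : Fin n} (hij : i ≠ j) (v : Fin n → ℝ) (t : ℝ) :
    v ᵥ* mat (uu i j t) = v + Pi.single j (t * v i) := by
  rw [mat_uu hij, vecMul_add, vecMul_one]
  congr 1
  ext k
  by_cases hk : k = j
  · subst hk
    simp [vecMul, dotProduct, single_apply, mul_comm]
  · simp [vecMul, dotProduct, hk, Ne.symm hk]

lemma latt_notHyp {x : X n} (h : ¬ NoHypPt x) :
    ∃ (p : Fin n) (R : ℕ), ∃ w ∈ lat x, w ≠ 0 ∧ w p = 0 ∧ ∀ j, |w j| < R := by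
  unfold NoHypPt at h
  push Not at h
  obtain ⟨w, hw, h0, p, hp⟩ := h
  obtain ⟨R, hR⟩ := exists_nat_gt ‖w‖
  exact ⟨p, R, w, hw, h0, hp, fun j => lt_of_le_of_lt (norm_le_pi_norm w j) hR⟩

lemma measurableSet_noHyp : MeasurableSet {x : X n | NoHypPt x} := by
  have key : {x : X n | NoHypPt x}ᶜ = ⋃ (p : Fin n) (R : ℕ), ⋂ m : ℕ, {x : X n | ∃ w ∈ lat x,
      w ∈ {w : Fin n → ℝ | w ≠ 0 ∧ |w p| < 1 / ((m : ℝ) + 1) ∧ ∀ j, |w j| < R}} := by
    ext x
    simp only [mem_compl_iff, mem_ofPred_eq, mem_iUnion, mem_iInter]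
    constructor
    · intro h
      obtain ⟨p, R, w, hw, h0, hp, hR⟩ := latt_notHyp h
      refine ⟨p, R, fun m => ⟨w, hw, h0, ?_, hR⟩⟩
      rw [hp, abs_zero]
      positivity
    · rintro ⟨p, R, h⟩ hx
      have hfin : {w | (w ∈ lat x ∧ ∀ j, |w j| ≤ R) ∧ w ≠ 0}.Finite :=
        (finite_lat_box x R).subset fun w hw => hw.1
      have hne : {w | (w ∈ lat x ∧ ∀ j, |w j| ≤ R) ∧ w ≠ 0}.Nonempty := by
        obtain ⟨w, hw, h0, -, hR⟩ := h 0
        exact ⟨w, ⟨hw, fun j => (hR j).le⟩, h0⟩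
      obtain ⟨w0, hw0, hmin⟩ := Set.exists_min_image _ (fun w => |w p|) hfin hne
      have hpos : 0 < |w0 p| := abs_pos.2 (hx w0 hw0.1.1 hw0.2 p)
      obtain ⟨m, hm⟩ := exists_nat_one_div_lt hpos
      obtain ⟨w, hw, h0, hp, hR⟩ := h m
      have := hmin w ⟨⟨hw, fun j => (hR j).le⟩, h0⟩
      linarith
  rw [← MeasurableSet.compl_iff, key]
  refine MeasurableSet.iUnion fun p => MeasurableSet.iUnion fun R =>
    MeasurableSet.iInter fun m => (isOpen_lat_meets ?_).measurableSet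
  refine isOpen_ne.inter (IsOpen.inter ?_ ?_)
  · change IsOpen {w : Fin n → ℝ | |w p| < 1 / ((m : ℝ) + 1)}
    exact isOpen_lt (by fun_prop) continuous_const
  · change IsOpen {w : Fin n → ℝ | ∀ j, |w j| < R}
    rw [ofPred_forall]
    exact isOpen_iInter_of_finite fun j => isOpen_lt (by fun_prop) continuous_const

lemma noHyp_ae (hn : 2 ≤ n) {μ : Measure (X n)} (hA : AInv μ) (hS : S1 μ) :
    ∀ᵐ x ∂μ, NoHypPt x := by
  obtain ⟨C, c, hc, hS⟩ := hS
  have key : ∀ (p : Fin n) (R : ℕ),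
      μ {x | ∃ w ∈ lat x, w ≠ 0 ∧ w p = 0 ∧ ∀ j, |w j| < R} = 0 := by
    intro p R
    set L := Real.log ((R : ℝ) + 1) with hL
    let u : Fin n → ℝ := fun j => (if j = p then (n : ℝ) * L else 0) - L
    have hu : ∑ j, u j = 0 := by
      simp [u, Finset.sum_sub_distrib]
    have hle : ∀ η : ℝ, 0 < η → η < 1 →
        μ {x | ∃ w ∈ lat x, w ≠ 0 ∧ w p = 0 ∧ ∀ j, |w j| < R} ≤ ENNReal.ofReal (C * η ^ c) := by
      intro η h0 h1
      refine le_trans ?_ (hS 0 η h0 h1)
      rw [← (hA.hinv u hu).mp.measure_preimage (isOpen_thin 0 η).measurableSet.nullMeasurableSet]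
      apply measure_mono
      rintro x ⟨w, hw, hw0, hp, hR⟩
      rw [mem_preimage, mem_thin_iff]
      have hent : ∀ j, (w ᵥ* mat (diagA u hu)) j = w j * Real.exp (u j) := by
        intro j
        rw [mat_diagA, vecMul_diagonal]
      refine ⟨w ᵥ* mat (diagA u hu), (mem_lat_act _ _ _).2 ⟨w, hw, rfl⟩, ?_, ?_, ?_⟩
      · intro h
        apply hw0
        ext j
        have := congrFun h j
        rw [hent] at this
        simpa using this
      · intro j
        rw [hent]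
        by_cases hj : j = p
        · rw [hj, hp]
          simp
        · have hR1 : (0 : ℝ) < R + 1 := by positivity
          have he : Real.exp (u j) = ((R : ℝ) + 1)⁻¹ := by
            simp only [u, hj, if_false, zero_sub, Real.exp_neg, hL, Real.exp_log hR1]
          rw [he, abs_mul, abs_of_pos (inv_pos.2 hR1), ← div_eq_mul_inv, div_lt_iff₀ hR1]
          linarith [hR j]
      · rw [Finset.prod_eq_zero (Finset.mem_univ p) (by rw [hent, hp, zero_mul])]
        simpa using h0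
    have hlim : Tendsto (fun η : ℝ => ENNReal.ofReal (C * η ^ c)) (𝓝[>] 0) (𝓝 0) := by
      have h1 : Tendsto (fun η : ℝ => C * η ^ c) (𝓝 0) (𝓝 (C * 0 ^ c)) :=
        ((Real.continuousAt_rpow_const 0 c (Or.inr hc.le)).tendsto).const_mul C
      rw [Real.zero_rpow hc.ne', mul_zero] at h1
      have h2 := ENNReal.tendsto_ofReal (h1.mono_left (nhdsWithin_le_nhds (s := Ioi 0)))
      simpa using h2
    refine le_antisymm (ge_of_tendsto hlim ?_) zero_le
    filter_upwards [Ioo_mem_nhdsGT (zero_lt_one' ℝ)] with η hη using hle η hη.1 hη.2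
  rw [ae_iff]
  refine measure_mono_null (t := ⋃ (p : Fin n) (R : ℕ),
    {x | ∃ w ∈ lat x, w ≠ 0 ∧ w p = 0 ∧ ∀ j, |w j| < R}) ?_ ?_
  · intro x hx
    obtain ⟨p, R, h⟩ := latt_notHyp hx
    exact mem_iUnion₂.2 ⟨p, R, h⟩
  · exact measure_iUnion_null fun p => measure_iUnion_null fun R => key p R

end Vale.Agent.P007
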