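import Vale.Agent.P007.E.Down2
import Vale.Agent.P007.E.Hopf

/-!
P007 E, task LeafBasic: consequences of the structure `Leaf` (Core).
`null`: `mt` with `F (x,t) = 1_{N'} x` (`N' = toMeasurable μ N`): left side `0`; on the right the
integrand is nonzero iff `act x (uu t) ∈ N'` (the denominator is finite on `X1`).
`measurableSet_eq`: `Real.measure_ext_Ioo_rat`.
`uinv_of_leb`: `mt` with `F (x,t) = f x * ψ t`, `f` bounded continuous nonnegative
(`X n →ᵇ ℝ≥0`), `ψ` the indicator of a measurable set: the continuous function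
`t ↦ ∫ f (act x (uu i j t)) dμ` has the same integrals as the constant `∫ f dμ`, so it is a.e.
and then everywhere constant (`Continuous.ae_eq_iff_eq`); `ext_of_forall_lintegral_eq_of_IsFiniteMeasure`.
`triv_iff`: (←) `X' = X1 ∩ {ν = dirac 0}`, `shift`. (→) `null` for `X'ᶜ` gives
`ν x {t | t ≠ 0} = 0` for a.e. `x ∈ X'`, and `norm`.
`dirac_inv`, `leb_inv`: `scale` and `norm` (`Prp.eq_of_norm`; for the converse implication
apply the inverse scaling map).
`eq_of_scale_one`: `scale` with `exp 0 = 1`, `Prp.eq_of_norm`.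
`exists_good`: `K2 = X1 \ toMeasurable μ (⋃ δ : ℕ, badMax … δ)`; the union is monotone
(`Monotone.measure_iUnion`).
`scale_iter`: countably many instances of `scale` (`diagA_pow`).
-/

open Matrix MeasureTheory ProbabilityTheory Set Filter Topology
open scoped ENNReal

namespace Vale.Agent.P007

variable {n : ℕ}

variable {μ : Measure (X n)} {i j : Fin n}

lemma Leaf0.measurable_den (L : Leaf0 μ i j) :
    Measurable fun p : X n × ℝ => L.ν p.1 (Ioo (p.2 - 1) (p.2 + 1)) := by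
  have := L.sfin
  have h : MeasurableSet {q : (X n × ℝ) × ℝ | q.1.2 - 1 < q.2 ∧ q.2 < q.1.2 + 1} :=
    (measurableSet_lt (measurable_fst.snd.sub_const 1) measurable_snd).inter
      (measurableSet_lt measurable_snd (measurable_fst.snd.add_const 1))
  exact Kernel.measurable_kernel_prodMk_left (κ := L.ν.comap Prod.fst measurable_fst) h

lemma Leaf0.den_ne_top (L : Leaf0 μ i j) {x : X n} (hx : x ∈ L.X1) (t : ℝ) :
    L.ν x (Ioo (t - 1) (t + 1)) ≠ ∞ := by
  refine ne_top_of_le_ne_top (L.fin x hx (|t| + 1)) (measure_mono (Ioo_subset_Ioo ?_ ?_))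
  · linarith [neg_abs_le t]
  · linarith [le_abs_self t]

lemma Leaf0.ae_mem (L : Leaf0 μ i j) : ∀ᵐ x ∂μ, x ∈ L.X1 := L.conull

lemma Leaf0.ae_mem_act (L : Leaf0 μ i j) {h : SL n} (H : HInv μ h) :
    ∀ᵐ x ∂μ, act x h ∈ L.X1 :=
  H.mp.quasiMeasurePreserving.ae L.ae_mem

lemma Leaf0.null_aux (L : Leaf0 μ i j) {g : X n → ℝ≥0∞} (hg : Measurable g)
    (h0 : ∀ᵐ x ∂μ, g x = 0) : ∀ᵐ x ∂μ, ∀ᵐ t ∂(L.ν x), g (act x (uu i j t)) = 0 := by
  have := L.sfin
  have hF : Measurable fun p : X n × ℝ => g p.1 := hg.comp measurable_fst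
  have hG0 : Measurable fun p : X n × ℝ => g (act p.1 (uu i j p.2)) :=
    hg.comp (measurable_act_uu i j)
  have hG : Measurable fun p : X n × ℝ => g (act p.1 (uu i j p.2)) /
      L.ν p.1 (Ioo (p.2 - 1) (p.2 + 1)) := hG0.div L.measurable_den
  have h1 : ∫⁻ x, ∫⁻ _t, g x ∂(L.ν x) ∂μ =
      ∫⁻ x, ∫⁻ t, g (act x (uu i j t)) / L.ν x (Ioo (t - 1) (t + 1)) ∂(L.ν x) ∂μ := L.mt _ hF
  have h2 : ∫⁻ x, ∫⁻ _t, g x ∂(L.ν x) ∂μ = 0 := by
    refine lintegral_eq_zero_of_ae_eq_zero ?_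
    filter_upwards [h0] with x hx
    rw [hx, lintegral_zero]
    rfl
  have h3 : Measurable fun x => ∫⁻ t, g (act x (uu i j t)) / L.ν x (Ioo (t - 1) (t + 1))
      ∂(L.ν x) := hG.lintegral_kernel_prod_right' (κ := L.ν)
  have h4 := (lintegral_eq_zero_iff h3).1 (h1.symm.trans h2)
  filter_upwards [h4, L.ae_mem] with x hx hx1
  have hGx : Measurable fun t : ℝ => g (act x (uu i j t)) / L.ν x (Ioo (t - 1) (t + 1)) :=
    hG.of_uncurry_left (f := fun (x : X n) (t : ℝ) =>
      g (act x (uu i j t)) / L.ν x (Ioo (t - 1) (t + 1)))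
  filter_upwards [(lintegral_eq_zero_iff hGx).1 hx] with t ht
  exact (ENNReal.div_eq_zero_iff.1 ht).resolve_right (L.den_ne_top hx1 t)

theorem Leaf0.null (L : Leaf0 μ i j) {N : Set (X n)} (hN : μ N = 0) :
    ∀ᵐ x ∂μ, L.ν x {t | act x (uu i j t) ∈ N} = 0 := by
  have hm : MeasurableSet (toMeasurable μ N) := measurableSet_toMeasurable μ N
  have h0 : μ (toMeasurable μ N) = 0 := by rw [measure_toMeasurable, hN]
  have h1 := L.null_aux (g := (toMeasurable μ N).indicator 1) (measurable_one.indicator hm)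
    ((measure_eq_zero_iff_ae_notMem.1 h0).mono fun x hx => indicator_of_notMem hx _)
  filter_upwards [h1] with x hx
  refine measure_eq_zero_iff_ae_notMem.2 (hx.mono fun t ht hmem => ?_)
  rw [indicator_of_mem (subset_toMeasurable μ N hmem)] at ht
  exact one_ne_zero ht

lemma Leb_Ioo (a b : ℝ) : Leb (Ioo a b) = ENNReal.ofReal ((b - a) / 2) := by
  rw [Leb, Measure.smul_apply, Real.volume_Ioo, smul_eq_mul,
    ENNReal.ofReal_div_of_pos (by norm_num), ENNReal.ofReal_ofNat, ENNReal.div_eq_inv_mul]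

lemma Leb_unit (t : ℝ) : Leb (Ioo (t - 1) (t + 1)) = 1 := by
  rw [Leb_Ioo, show (t + 1 - (t - 1)) / 2 = 1 by ring, ENNReal.ofReal_one]

lemma Leb_norm : Leb (Ioo (-1) 1) = 1 := by
  rw [Leb_Ioo, show ((1 : ℝ) - -1) / 2 = 1 by ring, ENNReal.ofReal_one]

lemma dirac_norm : Measure.dirac (0 : ℝ) (Ioo (-1) 1) = 1 :=
  Measure.dirac_apply_of_mem ⟨by norm_num, by norm_num⟩

lemma leb_ne_dirac : Leb ≠ Measure.dirac 0 := by
  intro h
  have h1 : Leb {0} = 0 := by rw [Leb, Measure.smul_apply, Real.volume_singleton, smul_zero]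
  rw [h, Measure.dirac_apply_of_mem (mem_singleton _)] at h1
  exact one_ne_zero h1

lemma measurableSet_ker_eq {Y : Type} [MeasurableSpace Y] (ν : Kernel Y ℝ) {m : Measure ℝ}
    (hm : ∀ R : ℝ, m (Ioo (-R) R) ≠ ∞) : MeasurableSet {x | ν x = m} := by
  have := locFin_of_fin hm
  have e : {x | ν x = m} = ⋂ p : ℚ, ⋂ q : ℚ, {x | ν x (Ioo (p : ℝ) q) = m (Ioo (p : ℝ) q)} := by
    ext x
    simp only [mem_iInter, mem_ofPred_eq]
    exact ⟨fun h p q => by rw [h], fun h =>
      (Real.measure_ext_Ioo_rat fun p q => (h p q).symm).symm⟩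
  rw [e]
  exact MeasurableSet.iInter fun p => MeasurableSet.iInter fun q =>
    measurableSet_eq_fun (ν.measurable_coe measurableSet_Ioo) measurable_const

theorem Leaf0.uinv_of_leb [IsFiniteMeasure μ] (L : Leaf0 μ i j) (h : ∀ᵐ x ∂μ, L.ν x = Leb) :
    UInv μ i j := by
  have : SigmaFinite Leb := by
    have : IsLocallyFiniteMeasure Leb :=
      locFin_of_fin fun R => by rw [Leb_Ioo]; exact ENNReal.ofReal_ne_top
    infer_instance
  intro t₀
  unfold HInv
  refine ext_of_forall_lintegral_eq_of_IsFiniteMeasure fun f => ?_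
  have hf : Measurable fun x => (f x : ℝ≥0∞) := f.continuous.measurable.coe_nnreal_ennreal
  have hfu : Measurable fun p : X n × ℝ => (f (act p.1 (uu i j p.2)) : ℝ≥0∞) :=
    hf.comp (measurable_act_uu i j)
  rw [lintegral_map hf (measurable_act _)]
  set g : ℝ → ℝ≥0∞ := fun t => ∫⁻ x, (f (act x (uu i j t)) : ℝ≥0∞) ∂μ with hg
  have hgc : Continuous g := by
    refine continuous_iff_continuousAt.2 fun t => ?_
    refine tendsto_lintegral_filter_of_dominated_convergence (fun _ => (nndist f 0 : ℝ≥0∞))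
      (Eventually.of_forall fun s => hf.comp (measurable_act _))
      (Eventually.of_forall fun s => Eventually.of_forall fun x => ?_) ?_
      (Eventually.of_forall fun x => ?_)
    · exact ENNReal.coe_le_coe.2 (BoundedContinuousFunction.NNReal.upper_bound f _)
    · rw [lintegral_const]
      exact ENNReal.mul_ne_top ENNReal.coe_ne_top (measure_ne_top _ _)
    · have hc : Continuous fun s : ℝ => (f (act x (uu i j s)) : ℝ≥0∞) :=
        ENNReal.continuous_coe.comp (f.continuous.comp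
          (continuous_act.comp (continuous_const.prodMk (continuous_uu i j))))
      exact hc.tendsto t
  have hae : g =ᵐ[Leb] fun _ => ∫⁻ x, (f x : ℝ≥0∞) ∂μ := by
    refine ae_eq_of_forall_setLIntegral_eq_of_sigmaFinite hgc.measurable measurable_const
      fun A hA _ => ?_
    have hA1 : Measurable (A.indicator (1 : ℝ → ℝ≥0∞)) := measurable_one.indicator hA
    have h1 := L.mt (fun p => (f p.1 : ℝ≥0∞) * A.indicator (1 : ℝ → ℝ≥0∞) (-p.2))
      ((hf.comp measurable_fst).mul (hA1.comp measurable_snd.neg))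
    have h2 : ∫⁻ x, ∫⁻ t, (f x : ℝ≥0∞) * A.indicator (1 : ℝ → ℝ≥0∞) (-t) ∂(L.ν x) ∂μ =
        (∫⁻ x, (f x : ℝ≥0∞) ∂μ) * Leb A := by
      rw [← lintegral_mul_const _ hf]
      refine lintegral_congr_ae ?_
      filter_upwards [h] with x hx
      have hA2 : Measurable fun t : ℝ => A.indicator (1 : ℝ → ℝ≥0∞) (-t) :=
        hA1.comp measurable_neg
      rw [hx, lintegral_const_mul _ hA2, Leb, lintegral_smul_measure,
        lintegral_neg_eq_self (A.indicator (1 : ℝ → ℝ≥0∞)), lintegral_indicator_one hA,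
        Measure.smul_apply]
    have h3 : ∫⁻ x, ∫⁻ t, (f (act x (uu i j t)) : ℝ≥0∞) * A.indicator (1 : ℝ → ℝ≥0∞) (- -t) /
        L.ν x (Ioo (t - 1) (t + 1)) ∂(L.ν x) ∂μ = ∫⁻ t in A, g t ∂Leb := by
      have h4 : ∫⁻ x, ∫⁻ t, (f (act x (uu i j t)) : ℝ≥0∞) *
          A.indicator (1 : ℝ → ℝ≥0∞) (- -t) / L.ν x (Ioo (t - 1) (t + 1)) ∂(L.ν x) ∂μ =
          ∫⁻ x, ∫⁻ t, (f (act x (uu i j t)) : ℝ≥0∞) * A.indicator (1 : ℝ → ℝ≥0∞) t ∂Leb ∂μ := by
        refine lintegral_congr_ae ?_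
        filter_upwards [h] with x hx
        simp only [hx, Leb_unit, div_one, neg_neg]
      rw [h4, lintegral_lintegral_swap (hfu.mul (hA1.comp measurable_snd)).aemeasurable,
        ← lintegral_indicator hA]
      refine lintegral_congr fun t => ?_
      have hft : Measurable fun x => (f (act x (uu i j t)) : ℝ≥0∞) :=
        hf.comp (measurable_act _)
      rw [lintegral_mul_const _ hft]
      by_cases ht : t ∈ A
      · rw [indicator_of_mem ht, indicator_of_mem ht, Pi.one_apply, mul_one]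
      · rw [indicator_of_notMem ht, indicator_of_notMem ht, mul_zero]
    rw [setLIntegral_const, ← h2, ← h3]
    exact h1.symm
  have hae' : g =ᵐ[volume] fun _ => ∫⁻ x, (f x : ℝ≥0∞) ∂μ :=
    (Measure.ae_ennreal_smul_measure_iff (by simp)).1 hae
  exact congrFun ((hgc.ae_eq_iff_eq volume continuous_const).1 hae') t₀

theorem Leaf0.triv_iff (L : Leaf0 μ i j) :
    Triv μ i j ↔ ∀ᵐ x ∂μ, L.ν x = Measure.dirac 0 := by
  constructor
  · rintro ⟨X', -, h0, hX⟩
    have h1 : ∀ᵐ x ∂μ, x ∈ X' := h0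
    filter_upwards [L.null h0, h1, L.ae_mem] with x hx hx' hx1
    have h2 : L.ν x {0}ᶜ = 0 :=
      measure_mono_null (fun t ht hmem => ht (hX x hx' t hmem)) hx
    have h3 : L.ν x {0} = 1 := by
      have h4 : Ioo (-1 : ℝ) 1 ∩ {0} = {0} :=
        inter_eq_right.2 (singleton_subset_iff.2 ⟨by norm_num, by norm_num⟩)
      rw [← h4, measure_inter_conull h2, L.norm x hx1]
    refine Measure.ext fun s hs => ?_
    rw [← measure_inter_conull h2, Measure.dirac_apply' _ hs]
    by_cases h5 : (0 : ℝ) ∈ s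
    · rw [inter_eq_right.2 (singleton_subset_iff.2 h5), h3, indicator_of_mem h5, Pi.one_apply]
    · rw [inter_singleton_eq_empty.2 h5, measure_empty, indicator_of_notMem h5]
  · intro h
    refine ⟨L.X1 ∩ {x | L.ν x = Measure.dirac 0},
      L.meas.inter (measurableSet_ker_eq L.ν fun R => measure_ne_top _ _), ?_, ?_⟩
    · rw [compl_inter]
      exact measure_union_null L.conull h
    · rintro x ⟨hx, hx0⟩ t ⟨ht, ht0⟩
      obtain ⟨c, -, -, hc⟩ := L.shift x hx t ht
      rw [show L.ν x = Measure.dirac 0 from hx0,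
        show L.ν (act x (uu i j t)) = Measure.dirac 0 from ht0,
        Measure.map_dirac' (measurable_sub_const t)] at hc
      by_contra hne
      have h1 := congrArg (fun m : Measure ℝ => m {0}) hc
      have h2 : (0 : ℝ) - t ∉ ({0} : Set ℝ) := by simpa using hne
      simp only [Measure.smul_apply, Measure.dirac_apply, indicator_of_notMem h2, smul_zero,
        indicator_of_mem (mem_singleton (0 : ℝ)), Pi.one_apply] at h1
      exact one_ne_zero h1

lemma prp_scale_iff {a b m : Measure ℝ} {e : ℝ} (he : e ≠ 0)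
    (hm : ∀ c : ℝ, c ≠ 0 → Prp (m.map fun t => t * c) m) (hm1 : m (Ioo (-1) 1) = 1)
    (ha : a (Ioo (-1) 1) = 1) (hb : b (Ioo (-1) 1) = 1) (h : Prp a (b.map fun t => t * e)) :
    a = m ↔ b = m := by
  constructor
  · rintro rfl
    have h1 := h.map fun t => t * e⁻¹
    rw [Measure.map_map (measurable_mul_const _) (measurable_mul_const _)] at h1
    have h2 : ((fun t : ℝ => t * e⁻¹) ∘ fun t => t * e) = id := by
      funext t
      simp [he]
    rw [h2, Measure.map_id] at h1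
    exact (h1.symm.trans (hm _ (inv_ne_zero he))).eq_of_norm hb hm1
  · rintro rfl
    exact (h.trans (hm e he)).eq_of_norm ha hm1

lemma prp_dirac (c : ℝ) : Prp ((Measure.dirac (0 : ℝ)).map fun t => t * c) (Measure.dirac 0) := by
  rw [Measure.map_dirac' (measurable_mul_const c), zero_mul]
  exact Prp.refl _

lemma prp_leb {c : ℝ} (hc : c ≠ 0) : Prp (Leb.map fun t => t * c) Leb := by
  refine ⟨ENNReal.ofReal |c⁻¹|, ?_, ENNReal.ofReal_ne_top, ?_⟩
  · exact (ENNReal.ofReal_pos.2 (abs_pos.2 (inv_ne_zero hc))).ne'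
  · rw [Leb, Measure.map_smul, Real.map_volume_mul_right hc, smul_comm]

lemma Leaf0.dirac_inv (L : Leaf0 μ i j) (hA : AInv μ) (u : Fin n → ℝ) (hu : ∑ p, u p = 0) :
    ∀ᵐ x ∂μ, (L.ν (act x (diagA u hu)) = Measure.dirac 0 ↔ L.ν x = Measure.dirac 0) := by
  filter_upwards [L.scale u hu, L.ae_mem, L.ae_mem_act (hA.hinv u hu)] with x h h1 h2
  exact prp_scale_iff (Real.exp_ne_zero _) (fun c _ => prp_dirac c) dirac_norm (L.norm _ h2)
    (L.norm _ h1) h

lemma Leaf0.leb_inv (L : Leaf0 μ i j) (hA : AInv μ) (u : Fin n → ℝ) (hu : ∑ p, u p = 0) :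
    ∀ᵐ x ∂μ, (L.ν (act x (diagA u hu)) = Leb ↔ L.ν x = Leb) := by
  filter_upwards [L.scale u hu, L.ae_mem, L.ae_mem_act (hA.hinv u hu)] with x h h1 h2
  exact prp_scale_iff (Real.exp_ne_zero _) (fun c hc => prp_leb hc) Leb_norm (L.norm _ h2)
    (L.norm _ h1) h

lemma Leaf0.eq_of_scale_one (L : Leaf0 μ i j) (hA : AInv μ) (u : Fin n → ℝ)
    (hu : ∑ p, u p = 0) (hij : u i = u j) : ∀ᵐ x ∂μ, L.ν (act x (diagA u hu)) = L.ν x := by
  filter_upwards [L.scale u hu, L.ae_mem, L.ae_mem_act (hA.hinv u hu)] with x h h1 h2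
  simp only [hij, sub_self, Real.exp_zero, mul_one, Measure.map_id'] at h
  exact h.eq_of_norm (L.norm _ h2) (L.norm _ h1)

lemma Leaf0.scale_iter (L : Leaf0 μ i j) (hA : AInv μ) (u : Fin n → ℝ) (hu : ∑ p, u p = 0) :
    ∀ᵐ x ∂μ, ∀ k : ℕ, act x (diagA u hu ^ k) ∈ L.X1 ∧
      Prp (L.ν (act x (diagA u hu ^ k))) ((L.ν x).map fun t => t * Real.exp (k * (u j - u i))) := by
  refine ae_all_iff.2 fun k => (L.ae_mem_act ((hA.hinv u hu).pow k)).and ?_
  rw [diagA_pow, mul_sub]
  exact L.scale _ _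

theorem Leaf.exists_good (L : Leaf μ i j) {N : Set (X n)} (hN : MeasurableSet N) {ε : ℝ≥0∞}
    (h0 : ε ≠ 0) (h1 : ε ≠ ∞) : ∃ K2 : Set (X n), MeasurableSet K2 ∧ K2 ⊆ L.X1 ∧
      ε * μ K2ᶜ ≤ L.C * μ N ∧ ∀ x ∈ K2, ∀ R : ℝ, 0 < R →
        L.ν x {t | t ∈ Ioo (-R) R ∧ act x (uu i j t) ∈ N} ≤ ε * L.ν x (Ioo (-R) R) := by
  set B : Set (X n) := ⋃ δ : ℕ, badMax L.ν i j N ε δ with hB
  have hmono : Monotone fun δ : ℕ => badMax L.ν i j N ε δ := by
    rintro a b hab x ⟨R, hR, hRa, h⟩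
    exact ⟨R, hR, hRa.trans (Nat.cast_le.2 hab), h⟩
  refine ⟨L.X1 \ toMeasurable μ B, L.meas.diff (measurableSet_toMeasurable μ B), sdiff_subset,
    ?_, fun x hx R hR => ?_⟩
  · have h2 : μ (L.X1 \ toMeasurable μ B)ᶜ ≤ μ B := by
      rw [sdiff_eq, compl_inter, compl_compl]
      refine (measure_union_le _ _).trans ?_
      rw [L.conull, zero_add, measure_toMeasurable]
    refine (mul_le_mul_right h2 ε).trans ?_
    rw [hB, hmono.measure_iUnion, ENNReal.mul_iSup]
    exact iSup_le fun δ => L.maxi N hN ε h0 h1 δ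
  · by_contra hlt
    exact hx.2 (subset_toMeasurable μ B
      (mem_iUnion.2 ⟨⌈R⌉₊, R, hR, Nat.le_ceil R, not_le.1 hlt⟩))

/-- Equal leafwise measures stay equal after moving both points by the same `uu i j t`. -/
lemma Leaf0.eq_shift (L : Leaf0 μ i j) {x y : X n} (hx : x ∈ L.X1) (hy : y ∈ L.X1) {t : ℝ}
    (hx' : act x (uu i j t) ∈ L.X1) (hy' : act y (uu i j t) ∈ L.X1) (h : L.ν x = L.ν y) :
    L.ν (act x (uu i j t)) = L.ν (act y (uu i j t)) := by
  have h1 := L.shift x hx t hx'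
  rw [h] at h1
  exact (h1.trans (L.shift y hy t hy').symm).eq_of_norm (L.norm _ hx') (L.norm _ hy')

end Vale.Agent.P007
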