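import Vale.Agent.P007.E.Reduce

/-!
P007 E, task Level: the level and the injectivity radius (`lev`, `rho` in `E/Core.lean`).
`measurable_lev`: `{lev ≤ k}` is the image under the open map `coset` of an open set.
`inv_bound`: `mat g⁻¹ = adjugate`, entries are determinants (`adjugate_apply`, `Matrix.det_le`).
`rho_inj`: with `g` from `lev_spec`, `γ = g h g⁻¹ ∈ Γ` (`mk_eq_iff`), `γ - 1 = g (h-1) g⁻¹` has
entries of size `≤ n² 2^k ρ n! 2^{kn} < 1`, and they are integers.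
`lintegral_lev`: by `reduce`, for `k ≥ 1`, `{lev > C (k+1)} ⊆ thin n 0 (2^{-k})` (`n ≥ 1`;
`lev = 0` if `n = 0`); `lev x ≤ 2 C + ∑_{k ≥ 1} C * 1{lev x > C (k+1)}`.
`conj_cont`: `h = a⁻¹ g a g'⁻¹` fixes `act x a` and is `Near` of size `C ε rho (act x a)`
(`Near.conj`, `rho_act`, `Near.mul`, `Near.inv`).
-/

open Matrix MeasureTheory ProbabilityTheory Set Filter Topology
open scoped ENNReal

namespace Vale.Agent.P007

variable {n : ℕ}

lemma lv_bound (M : Matrix (Fin n) (Fin n) ℝ) : ∃ k : ℕ, ∀ p q, |M p q| < 2 ^ k := by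
  obtain ⟨k, hk⟩ := pow_unbounded_of_one_lt (∑ p, ∑ q, |M p q|) (one_lt_two (α := ℝ))
  refine ⟨k, fun p q => lt_of_le_of_lt ?_ hk⟩
  refine le_trans ?_ (Finset.single_le_sum (f := fun p => ∑ q, |M p q|)
    (fun p _ => Finset.sum_nonneg fun q _ => abs_nonneg _) (Finset.mem_univ p))
  exact Finset.single_le_sum (f := fun q => |M p q|) (fun q _ => abs_nonneg _) (Finset.mem_univ q)

lemma lev_spec (x : X n) : ∃ g : SL n, coset g = x ∧ ∀ p q, |mat g p q| < 2 ^ lev x := by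
  obtain ⟨g, hg⟩ := coset_surj x
  obtain ⟨k, hk⟩ := lv_bound (mat g)
  exact Nat.sInf_mem (s := {k : ℕ | ∃ g : SL n, coset g = x ∧ ∀ p q, |mat g p q| < 2 ^ k})
    ⟨k, g, hg, hk⟩

lemma lev_le {g : SL n} {k : ℕ} (h : ∀ p q, |mat g p q| < 2 ^ k) : lev (coset g) ≤ k := by
  exact Nat.sInf_le ⟨g, rfl, h⟩

lemma measurable_lev : Measurable (lev : X n → ℕ) := by
  refine measurable_of_Iic fun k => ?_
  have e : (lev : X n → ℕ) ⁻¹' Iic k = coset '' {g : SL n | ∀ p q, |mat g p q| < 2 ^ k} := by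
    ext x
    constructor
    · intro hx
      obtain ⟨g, hg, h⟩ := lev_spec x
      exact ⟨g, fun p q => (h p q).trans_le (pow_le_pow_right₀ one_le_two hx), hg⟩
    · rintro ⟨g, hg, rfl⟩
      exact lev_le hg
  rw [e]
  refine ((isOpenQuotientMap_mk n).isOpenMap _ ?_).measurableSet
  rw [ofPred_forall]
  refine isOpen_iInter_of_finite fun p => ?_
  rw [ofPred_forall]
  refine isOpen_iInter_of_finite fun q => isOpen_lt ?_ continuous_const
  exact (continuous_mat.matrix_elem p q).abs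

lemma inv_bound {g : SL n} {R : ℝ} (hR : 1 ≤ R) (h : ∀ p q, |mat g p q| ≤ R) (p q : Fin n) :
    |mat g⁻¹ p q| ≤ (n.factorial : ℝ) * R ^ n := by
  have e : mat g⁻¹ = adjugate (mat g) := Matrix.SpecialLinearGroup.coe_inv g
  rw [e, adjugate_apply]
  have := Matrix.det_le (A := (mat g).updateRow q (Pi.single p 1)) (abv := AbsoluteValue.abs)
    (x := R) (fun i j => by
      rw [AbsoluteValue.abs_apply, updateRow_apply]
      split_ifs
      · rw [Pi.single_apply]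
        split_ifs
        · simpa using hR
        · simpa using zero_le_one.trans hR
      · exact h i j)
  simpa [nsmul_eq_mul] using this

lemma rho_pos (x : X n) : 0 < rho x := by
  unfold rho
  positivity

lemma rho_le_one (x : X n) : rho x ≤ 1 := by
  unfold rho
  rw [div_le_one (by positivity)]
  have h1 : (1 : ℝ) ≤ 2 ^ ((n + 1) * lev x) := one_le_pow₀ one_le_two
  have h2 : (0 : ℝ) ≤ (n : ℝ) ^ 2 * (n.factorial : ℝ) := by positivity
  nlinarith

lemma rho_inj {x : X n} {h : SL n} (hx : act x h = x) (hn : Near h (rho x)) : h = 1 := by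
  obtain ⟨g, rfl, hg⟩ := lev_spec x
  rw [act_coset] at hx
  obtain ⟨γ, hγ, e⟩ := mk_eq_iff.1 hx
  have e1 : γ = g * h * g⁻¹ := by rw [← e, mul_inv_cancel_right]
  have e2 : mat γ - 1 = mat g * (mat h - 1) * mat g⁻¹ := by
    rw [e1, mat_mul, mat_mul, mul_sub, sub_mul, mul_one, mat_mul_inv]
  set k := lev (coset g) with hk
  have h1 : (1 : ℝ) ≤ 2 ^ k := one_le_pow₀ one_le_two
  have b1 := abs_mul_le_Basic (A := mat g) (B := mat h - 1) (fun p q => (hg p q).le)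
    (fun p q => hn p q)
  have b2 := abs_mul_le_Basic b1 (inv_bound h1 fun p q => (hg p q).le)
  have b3 : (n : ℝ) * (n * 2 ^ k * rho (coset g)) * ((n.factorial : ℝ) * (2 ^ k) ^ n) < 1 := by
    have e3 : (n : ℝ) * (n * 2 ^ k * rho (coset g)) * ((n.factorial : ℝ) * (2 ^ k) ^ n) =
        ((n : ℝ) ^ 2 * (n.factorial : ℝ)) / (2 * ((n : ℝ) ^ 2 * (n.factorial : ℝ) + 1)) := by
      unfold rho
      rw [← hk, mul_comm (n + 1) k, pow_mul]
      field_simp
      ring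
    rw [e3, div_lt_one (by positivity)]
    have h2 : (0 : ℝ) ≤ (n : ℝ) ^ 2 * (n.factorial : ℝ) := by positivity
    linarith
  have e4 : γ = 1 := by
    apply mat_inj
    ext p q
    obtain ⟨z, hz⟩ := (mem_gam_iff γ).1 hγ p q
    obtain ⟨z', hz'⟩ := (mem_gam_iff (1 : SL n)).1 (one_mem _) p q
    have b4 := (b2 p q).trans_lt b3
    rw [← e2, Matrix.sub_apply, hz, ← mat_one, hz', ← Int.cast_sub, ← Int.cast_abs] at b4
    have b5 : |z - z'| < 1 := by exact_mod_cast b4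
    rw [hz, hz', show z = z' by have := Int.abs_lt_one_iff.1 b5; omega]
  rw [e4, one_mul] at e
  exact (mul_eq_left.1 e.symm)

lemma rho_act (a : SL n) : ∃ C : ℝ, 0 < C ∧ ∀ x : X n, rho x ≤ C * rho (act x a) := by
  obtain ⟨c, hc⟩ := lv_bound (mat a)
  obtain ⟨d, hd⟩ := pow_unbounded_of_one_lt (n : ℝ) (one_lt_two (α := ℝ))
  refine ⟨2 ^ ((n + 1) * (c + d)), by positivity, fun x => ?_⟩
  obtain ⟨g, rfl, hg⟩ := lev_spec x
  have h1 : lev (act (coset g) a) ≤ lev (coset g) + (c + d) := by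
    rw [act_coset]
    refine lev_le fun p q => ?_
    refine (abs_mul_le_Basic (fun p q => (hg p q).le) (fun p q => (hc p q).le) p q).trans_lt ?_
    rw [pow_add, pow_add]
    have : (0 : ℝ) < 2 ^ lev (coset g) * 2 ^ c := by positivity
    nlinarith
  unfold rho
  rw [mul_one_div, div_le_div_iff₀ (by positivity) (by positivity), one_mul]
  have h2 : (2 : ℝ) ^ ((n + 1) * lev (act (coset g) a)) ≤
      2 ^ ((n + 1) * (c + d)) * 2 ^ ((n + 1) * lev (coset g)) := by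
    rw [← pow_add]
    refine pow_le_pow_right₀ one_le_two ?_
    rw [← mul_add]
    exact Nat.mul_le_mul_left _ (by omega)
  have h3 : (0 : ℝ) ≤ 2 * ((n : ℝ) ^ 2 * (n.factorial : ℝ) + 1) := by positivity
  calc _ ≤ 2 * ((n : ℝ) ^ 2 * (n.factorial : ℝ) + 1) *
      (2 ^ ((n + 1) * (c + d)) * 2 ^ ((n + 1) * lev (coset g))) :=
        mul_le_mul_of_nonneg_left h2 h3
    _ = _ := by ring

lemma Near.conj (a : SL n) : ∃ C : ℝ, 0 < C ∧ ∀ (g : SL n) (ε : ℝ), Near g ε →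
    Near (a⁻¹ * g * a) (C * ε) := by
  obtain ⟨c, hc⟩ := lv_bound (mat a)
  obtain ⟨d, hd⟩ := lv_bound (mat a⁻¹)
  refine ⟨(n : ℝ) ^ 2 * 2 ^ d * 2 ^ c + 1, by positivity, fun g ε hg p q => ?_⟩
  have e : mat (a⁻¹ * g * a) - 1 = mat a⁻¹ * (mat g - 1) * mat a := by
    rw [mat_mul, mat_mul, mul_sub, sub_mul, mul_one, mat_inv_mul]
  have b1 := abs_mul_le_Basic (A := mat a⁻¹) (B := mat g - 1) (fun p q => (hd p q).le)
    (fun p q => hg p q)
  have b2 := abs_mul_le_Basic b1 (fun p q => (hc p q).le) p q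
  rw [← e, Matrix.sub_apply] at b2
  have h0 : 0 ≤ ε := (abs_nonneg _).trans (hg p q)
  refine b2.trans ?_
  nlinarith

lemma lv_nat (L D : ℕ) (hD : 0 < D) (f : ℕ → ℝ≥0∞)
    (hf : ∀ k, D * (k + 2) < L → (D : ℝ≥0∞) ≤ f k) : (L : ℝ≥0∞) ≤ 3 * D + ∑' k, f k := by
  have h1 : L < D * (L / D + 1) := Nat.lt_mul_div_succ L hD
  have h2 : D * (L / D) ≤ L := Nat.mul_div_le L D
  set m := L / D with hm
  have h3 : L ≤ 3 * D + (m - 2) * D := by
    have : m + 1 ≤ 3 + (m - 2) := by omega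
    nlinarith
  have h4 : (((m - 2) * D : ℕ) : ℝ≥0∞) ≤ ∑ k ∈ Finset.range (m - 2), f k := by
    have := Finset.card_nsmul_le_sum (Finset.range (m - 2)) f (D : ℝ≥0∞) fun k hk => by
      refine hf k ?_
      have h5 : k + 3 ≤ m := by have := Finset.mem_range.1 hk; omega
      nlinarith
    rwa [Finset.card_range, nsmul_eq_mul, ← Nat.cast_mul] at this
  calc (L : ℝ≥0∞) ≤ ((3 * D + (m - 2) * D : ℕ) : ℝ≥0∞) := by exact_mod_cast h3
    _ = 3 * D + (((m - 2) * D : ℕ) : ℝ≥0∞) := by push_cast; rfl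
    _ ≤ _ := add_le_add le_rfl (h4.trans (ENNReal.sum_le_tsum _))

lemma lv_thin {x : X n} {η : ℝ} (hη : η ≤ 1) {w : Fin n → ℝ} (hw : w ∈ lat x) (h0 : w ≠ 0)
    (h : ∀ j, |w j| < η) : x ∈ thin n 0 η := by
  refine (mem_thin_iff x 0 η).2 ⟨w, hw, h0, fun j => by linarith [h j], ?_⟩
  obtain ⟨j, -⟩ := Function.ne_iff.1 h0
  rw [sub_zero, Finset.abs_prod, ← Finset.mul_prod_erase _ _ (Finset.mem_univ j)]
  have h1 : ∏ i ∈ Finset.univ.erase j, |w i| ≤ 1 :=
    Finset.prod_le_one (fun i _ => abs_nonneg _) fun i _ => (h i).le.trans hη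
  exact (mul_le_of_le_one_right (abs_nonneg _) h1).trans_lt (h j)

theorem lintegral_lev {μ : Measure (X n)} [IsFiniteMeasure μ] (hS : S1 μ) :
    ∫⁻ x, (lev x : ℝ≥0∞) ∂μ ≠ ∞ := by
  obtain ⟨C, hC⟩ := reduce n
  obtain ⟨C', c, hc, hS⟩ := hS
  have key : ∀ x : X n, (lev x : ℝ≥0∞) ≤ 3 * ((C + 1 : ℕ) : ℝ≥0∞) +
      ∑' k : ℕ, (thin n 0 ((1 / 2 : ℝ) ^ (k + 1))).indicator (fun _ => ((C + 1 : ℕ) : ℝ≥0∞)) x := by
    intro x
    refine lv_nat _ _ (Nat.succ_pos C) _ fun k hk => ?_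
    have hx : x ∈ thin n 0 ((1 / 2 : ℝ) ^ (k + 1)) := by
      by_contra hx
      obtain ⟨g, rfl, hg⟩ := hC (k + 1) x fun w hw h0 => by
        by_contra hj
        push Not at hj
        exact hx (lv_thin (pow_le_one₀ (by norm_num) (by norm_num)) hw h0 hj)
      have := lev_le hg
      nlinarith
    rw [indicator_of_mem hx]
  refine ne_top_of_le_ne_top ?_ (lintegral_mono key)
  rw [lintegral_add_left measurable_const, lintegral_const, lintegral_tsum fun k =>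
    (measurable_const.indicator (isOpen_thin _ _).measurableSet).aemeasurable]
  refine ENNReal.add_ne_top.2 ⟨ENNReal.mul_ne_top (ENNReal.mul_ne_top (by norm_num)
    (ENNReal.natCast_ne_top _)) (measure_ne_top _ _), ?_⟩
  have hr0 : (0 : ℝ) ≤ (1 / 2 : ℝ) ^ c := by positivity
  have hr1 : (1 / 2 : ℝ) ^ c < 1 := Real.rpow_lt_one (by norm_num) (by norm_num) hc
  have hs : Summable fun k : ℕ => C' * ((1 / 2 : ℝ) ^ c) ^ (k + 1) :=
    ((summable_nat_add_iff 1).2 (summable_geometric_of_lt_one hr0 hr1)).mul_left C'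
  refine ne_top_of_le_ne_top (b := ∑' k : ℕ, ((C + 1 : ℕ) : ℝ≥0∞) *
    ENNReal.ofReal (C' * ((1 / 2 : ℝ) ^ c) ^ (k + 1))) ?_ (ENNReal.tsum_le_tsum fun k => ?_)
  · rw [ENNReal.tsum_mul_left]
    exact ENNReal.mul_ne_top (ENNReal.natCast_ne_top _) hs.tsum_ofReal_ne_top
  · rw [lintegral_indicator_const (isOpen_thin _ _).measurableSet,
      Real.rpow_pow_comm (by norm_num)]
    exact mul_le_mul_right (hS 0 _ (by positivity)
      (pow_lt_one₀ (by norm_num) (by norm_num) (Nat.succ_ne_zero k))) _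

theorem conj_cont (a : SL n) : ∃ ε0 : ℝ, 0 < ε0 ∧ ∀ ε : ℝ, 0 < ε → ε ≤ ε0 →
    ∀ (x : X n) (g g' : SL n), Near g (ε * rho x) → Near g' (ε * rho (act x a)) →
      act (act x g) a = act (act x a) g' → g' = a⁻¹ * g * a := by
  obtain ⟨C1, hC1, h1⟩ := Near.conj a
  obtain ⟨C2, hC2, h2⟩ := rho_act a
  have hK : (0 : ℝ) < 2 * n + 2 * (C1 * C2) + 2 := by positivity
  refine ⟨1 / (2 * n + 2 * (C1 * C2) + 2), by positivity, fun ε hε hε0 x g g' hg hg' e => ?_⟩
  rw [le_div_iff₀ hK] at hε0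
  set r := rho (act x a) with hr
  have r0 : 0 < r := rho_pos _
  have r1 : r ≤ 1 := rho_le_one _
  have hn0 : (0 : ℝ) ≤ n := Nat.cast_nonneg n
  have hCC : 0 < C1 * C2 := mul_pos hC1 hC2
  have a1 : 2 * n * ε ≤ 1 := by nlinarith
  have a2 : 2 * n * (ε * r) ≤ 1 := by
    have : 2 * n * ε * r ≤ 1 * 1 := mul_le_mul a1 r1 r0.le zero_le_one
    linarith
  have n1 : Near (a⁻¹ * g * a) (C1 * C2 * (ε * r)) := by
    refine (h1 g _ hg).mono ?_
    have := mul_le_mul_of_nonneg_left (h2 x) (mul_pos hC1 hε).le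
    linarith
  have n2 := n1.mul (hg'.inv a2)
  have e1 : act (act x a) (a⁻¹ * g * a * g'⁻¹) = act x a := by
    rw [← act_mul, act_mul x, ← mul_assoc, mul_inv_cancel_left, ← act_mul x, e, act_mul,
      mul_inv_cancel, act_one]
  have e2 := rho_inj e1 (n2.mono (by
    have b0 : 0 < ε * r := mul_pos hε r0
    have b1 : (n : ℝ) * (C1 * C2 * (ε * r)) * (2 * (ε * r)) ≤ C1 * C2 * (ε * r) := by
      have := mul_le_mul_of_nonneg_left a2 (mul_pos hCC b0).le
      linarith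
    have b2 : (2 * (C1 * C2) + 2) * ε ≤ 1 := by nlinarith
    have b3 := mul_le_mul_of_nonneg_right b2 r0.le
    rw [← hr]
    linarith))
  exact (mul_inv_eq_one.1 e2).symm

/-- Equal itineraries for an adapted partition keep the displacement small. -/
theorem adapted_chain (a : SL n) : ∃ ε0 : ℝ, 0 < ε0 ∧ ∀ ε : ℝ, 0 < ε → ε ≤ ε0 →
    ∀ P : X n → ℕ, Adapted P ε → ∀ (x : X n) (g : SL n) (k : ℕ), Near g (ε * rho x) →
      (∀ j, 1 ≤ j → j ≤ k → P (act x (a ^ j)) = P (act (act x g) (a ^ j))) →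
        ∀ j, j ≤ k → Near (cj a g j) (ε * rho (act x (a ^ j))) := by
  obtain ⟨ε0, h0, H⟩ := conj_cont a
  refine ⟨ε0, h0, fun ε hε hε0 P hP x g k hg hk j hj => ?_⟩
  induction j with
  | zero => rwa [cj_zero, pow_zero, act_one]
  | succ j ih =>
    obtain ⟨g', e, hg'⟩ := hP _ _ (hk (j + 1) (Nat.succ_pos j) hj)
    have e1 : act (act x (a ^ j)) a = act x (a ^ (j + 1)) := by rw [act_mul, pow_succ]
    have := H ε hε hε0 (act x (a ^ j)) (cj a g j) g' (ih (Nat.le_of_succ_le hj))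
      (by rwa [e1]) (by rw [e1, ← e, ← act_cj, act_mul _ (a ^ j), pow_succ])
    rwa [cj_succ, ← this]

end Vale.Agent.P007
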