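import Vale.Agent.P007.E.LeviA
import Vale.Agent.P007.E.Arith

/-!
P007 E, task Levi: a proper invariant block is impossible for prime `n`.
`common_move`: `H = blockGrp C` is a closed subgroup, so locally compact and second countable;
Borel σ-algebra (subtype instance), `m = Measure.haar` (left invariant), `B = {h : H | Near h 1}`
compact neighbourhood of `1`, `B' = B * B` compact. `c = 3 m B' / m B`. For measurable `K1` let
`K2 = {x | 3 * m {h ∈ B' | act x h ∉ K1} < m B}` (measurable by `measurable_measure_prodMk_left`);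
Tonelli and invariance give `∫ m {h ∈ B' | act x h ∉ K1} dμ = m B' * μ K1ᶜ`, Markov gives
`μ K2ᶜ ≤ c μ K1ᶜ`. For `x, y ∈ K2`, `k ∈ B`: `m {h ∈ B | act y (k h) ∉ K1} ≤ m {h' ∈ B' | act y h' ∉ K1}`
by left invariance, so some `h ∈ B` is good for both.
`levi`: `X'` from `peel`, `K ⊆ X'` compact with `μ Kᶜ` tiny (`exists_compact_subset`),
`K1 = ⋂_{a ≠ b ∈ C} freqGood (uu a b 1) K (1/10)` (`freqGood_compl_le`), `K2` from `common_move`
with `μ K2ᶜ < 1`. With `ε` from `levi_shear`, `conj_near` (for `isCompact_near 1`), `Near.mul` and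
`levi_norm`: there is `δ > 0` such that `x, act x g ∈ K2`, `Near g δ` imply `BlockDiag C g`
(apply `levi_shear` to `act x h` and `h⁻¹ g k h`, `scalar_block_conj`). Fix `a ≠ b ∈ C`; `recur` for
`uu a b 1` on `K2 ∩ {NoHypPt}` (`measurableSet_noHyp`), `exists_lift`, and `levi_arith` with
`s m = uu a b (φ m) * (g m)⁻¹` (shifted so that all `g m` are block diagonal), `c m = 1/φ m`.
-/

open Matrix MeasureTheory ProbabilityTheory Set Filter Topology
open scoped ENNReal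

namespace Vale.Agent.P007

variable {n : ℕ}

open scoped Pointwise in
theorem common_move_Levi {G Y : Type} [Group G] [TopologicalSpace G] [IsTopologicalGroup G]
    [LocallyCompactSpace G] [SecondCountableTopology G] [T2Space G] [MeasurableSpace G]
    [BorelSpace G] [MeasurableSpace Y] {μ : Measure Y} [SFinite μ] (a : Y → G → Y)
    (ha : Measurable fun p : Y × G => a p.1 p.2)
    (hinv : ∀ h, MeasurePreserving (fun x => a x h) μ μ) {B : Set G} (hB : IsCompact B)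
    (h1 : B ∈ 𝓝 1) :
    ∃ c : ℝ≥0∞, c ≠ ∞ ∧ ∀ K1 : Set Y, MeasurableSet K1 → ∃ K2 : Set Y,
      MeasurableSet K2 ∧ μ K2ᶜ ≤ c * μ K1ᶜ ∧ ∀ x ∈ K2, ∀ y ∈ K2, ∀ k ∈ B,
        ∃ h ∈ B, a x h ∈ K1 ∧ a y (k * h) ∈ K1 := by
  let m : Measure G := Measure.haar
  have hB' : IsCompact (B * B) := hB.mul hB
  have hb0 : m B ≠ 0 := (Measure.measure_pos_of_mem_nhds m h1).ne'
  have hb1 : m B ≠ ∞ := hB.measure_lt_top.ne
  have he0 : m B / 2 ≠ 0 := (ENNReal.half_pos hb0).ne'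
  have he1 : m B / 2 ≠ ∞ := ENNReal.div_ne_top hb1 two_ne_zero
  refine ⟨m (B * B) / (m B / 2), ENNReal.div_ne_top hB'.measure_lt_top.ne he0, fun K1 hK1 => ?_⟩
  let S : Set (Y × G) := {p | p.2 ∈ B * B ∧ a p.1 p.2 ∉ K1}
  have hS : MeasurableSet S := (measurable_snd hB'.measurableSet).inter (ha hK1).compl
  have hF : Measurable fun x => m (Prod.mk x ⁻¹' S) := measurable_measure_prodMk_left hS
  refine ⟨{x | m (Prod.mk x ⁻¹' S) < m B / 2}, measurableSet_lt hF measurable_const, ?_,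
    fun x hx y hy k hk => ?_⟩
  · have e : {x | m (Prod.mk x ⁻¹' S) < m B / 2}ᶜ = {x | m B / 2 ≤ m (Prod.mk x ⁻¹' S)} :=
      Set.ext fun x => not_lt (a := m (Prod.mk x ⁻¹' S))
    have e2 : ∀ h : G, μ ((fun x => (x, h)) ⁻¹' S) = (B * B).indicator (fun _ => μ K1ᶜ) h := by
      intro h
      by_cases hh : h ∈ B * B
      · rw [indicator_of_mem hh, ← (hinv h).measure_preimage hK1.compl.nullMeasurableSet]
        exact congrArg μ (Set.ext fun x => ⟨fun hx => hx.2, fun hx => ⟨hh, hx⟩⟩)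
      · rw [indicator_of_notMem hh, ← measure_empty (μ := μ)]
        exact congrArg μ (Set.ext fun x => ⟨fun hx => hh hx.1, fun hx => hx.elim⟩)
    rw [e]
    refine (meas_ge_le_lintegral_div hF.aemeasurable he0 he1).trans (le_of_eq ?_)
    rw [← Measure.prod_apply hS, Measure.prod_apply_symm hS]
    simp only [e2]
    rw [lintegral_indicator_const hB'.measurableSet, div_eq_mul_inv, div_eq_mul_inv (m (B * B))]
    ring
  · by_contra hcon
    push Not at hcon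
    have hsub : B ⊆ Prod.mk x ⁻¹' S ∪ (fun h => k * h) ⁻¹' (Prod.mk y ⁻¹' S) := by
      intro h hh
      by_cases hx1 : a x h ∈ K1
      · exact Or.inr ⟨mul_mem_mul hk hh, hcon h hh hx1⟩
      · exact Or.inl ⟨⟨1, mem_of_mem_nhds h1, h, hh, one_mul h⟩, hx1⟩
    have h2 := (measure_mono (μ := m) hsub).trans (measure_union_le _ _)
    rw [measure_preimage_mul] at h2
    have h3 := ENNReal.add_lt_add (show m (Prod.mk x ⁻¹' S) < m B / 2 from hx)
      (show m (Prod.mk y ⁻¹' S) < m B / 2 from hy)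
    rw [ENNReal.add_halves] at h3
    exact absurd h2 (not_le.2 h3)

theorem common_move {μ : Measure (X n)} [IsFiniteMeasure μ] {C : Finset (Fin n)}
    (hH : ∀ h : SL n, InBlock C h → HInv μ h) :
    ∃ c : ℝ≥0∞, c ≠ ∞ ∧ ∀ K1 : Set (X n), MeasurableSet K1 → ∃ K2 : Set (X n),
      MeasurableSet K2 ∧ μ K2ᶜ ≤ c * μ K1ᶜ ∧ ∀ x ∈ K2, ∀ y ∈ K2, ∀ k : SL n, InBlock C k →
        Near k 1 → ∃ h : SL n, InBlock C h ∧ Near h 1 ∧ act x h ∈ K1 ∧ act y (k * h) ∈ K1 := by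
  have hcl := isClosed_blockGrp C
  have : LocallyCompactSpace (blockGrp C) := hcl.isClosedEmbedding_subtypeVal.locallyCompactSpace
  have : SecondCountableTopology (blockGrp C) :=
    hcl.isClosedEmbedding_subtypeVal.isEmbedding.secondCountableTopology
  obtain ⟨c, hc, H⟩ := common_move_Levi (μ := μ) (G := blockGrp C) (fun x h => act x h.1)
    (measurable_act2.comp (measurable_fst.prodMk (measurable_subtype_coe.comp measurable_snd)))
    (fun h => (hH h.1 h.2).mp) (B := Subtype.val ⁻¹' {g : SL n | Near g 1})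
    (hcl.isClosedEmbedding_subtypeVal.isCompact_preimage (isCompact_near 1))
    (continuous_subtype_val.continuousAt.preimage_mem_nhds (near_mem_nhds one_pos))
  refine ⟨c, hc, fun K1 hK1 => ?_⟩
  obtain ⟨K2, h1, h2, h3⟩ := H K1 hK1
  refine ⟨K2, h1, h2, fun x hx y hy k hk hk1 => ?_⟩
  obtain ⟨h, hh, h4⟩ := h3 x hx y hy ⟨k, hk⟩ hk1
  exact ⟨h.1, h.2, hh, h4⟩

theorem inBlock_uu_Levi {C : Finset (Fin n)} {a b : Fin n} (ha : a ∈ C) (hb : b ∈ C) (hab : a ≠ b)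
    (t : ℝ) : InBlock C (uu a b t) := by
  intro p q hpq
  rw [mat_uu hab, Matrix.add_apply, single_apply, if_neg, add_zero]
  rintro ⟨rfl, rfl⟩
  exact hpq ⟨ha, hb⟩

theorem good_set_Levi {μ : Measure (X n)} [IsProbabilityMeasure μ] (hA : AInv μ)
    {C : Finset (Fin n)} (hC : 2 ≤ C.card) (hU : ∀ i ∈ C, ∀ j ∈ C, i ≠ j → UInv μ i j)
    (hT : ∀ i j, ¬ (i ∈ C ↔ j ∈ C) → Triv μ i j) :
    ∃ K2 : Set (X n), MeasurableSet K2 ∧ μ K2 ≠ 0 ∧ ∃ δ : ℝ, 0 < δ ∧
      ∀ x ∈ K2, ∀ g : SL n, act x g ∈ K2 → Near g δ → BlockDiag C g := by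
  obtain ⟨X', -, hX0, hX⟩ := peel hA {α | ¬ (α.1 ∈ C ↔ α.2 ∈ C)} fun α hα => hT _ _ hα
  obtain ⟨X'', hsub, hm, h0⟩ : ∃ X'' ⊆ X', MeasurableSet X'' ∧ μ X''ᶜ = 0 :=
    ⟨(toMeasurable μ X'ᶜ)ᶜ, compl_subset_comm.1 (subset_toMeasurable _ _),
      (measurableSet_toMeasurable _ _).compl, by rw [compl_compl, measure_toMeasurable, hX0]⟩
  obtain ⟨c, hc, hcm⟩ := common_move (μ := μ) (C := C) fun h hh => hinv_of_inBlock hU hh
  let ι := {p : Fin n × Fin n // p.1 ∈ C ∧ p.2 ∈ C ∧ p.1 ≠ p.2}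
  obtain ⟨c', hc'⟩ : ∃ c' : ℝ≥0∞, c' = c * (Fintype.card ι * 10) := ⟨_, rfl⟩
  have hc1 : c' ≠ ∞ := by
    rw [hc']
    exact ENNReal.mul_ne_top hc (ENNReal.mul_ne_top (ENNReal.natCast_ne_top _) (by norm_num))
  obtain ⟨K, hK, hKX, hKm⟩ := exists_compact_subset (μ := μ) hm (ε := c'⁻¹)
    (ENNReal.inv_ne_zero.2 hc1)
  have hKc : μ Kᶜ < c'⁻¹ := by
    refine lt_of_le_of_lt ?_ hKm
    refine (measure_mono (t := (X'' \ K) ∪ X''ᶜ) fun x hx => ?_).trans
      ((measure_union_le _ _).trans (by rw [h0, add_zero]))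
    by_cases hx' : x ∈ X''
    · exact Or.inl ⟨hx', hx⟩
    · exact Or.inr hx'
  let F : ι → Set (X n) := fun p => freqGood (fun y => act y (uu p.1.1 p.1.2 1)) K (1 / 10)
  have hF : ∀ p, μ (F p)ᶜ ≤ 10 * μ Kᶜ := fun p => by
    have h := freqGood_compl_le (hU _ p.2.1 _ p.2.2.1 p.2.2.2 1).mp hK.measurableSet
      (ε := 1 / 10) (by norm_num)
    have e : (10 : ℝ≥0∞) * ENNReal.ofReal (1 / 10) = 1 := by
      rw [← ENNReal.ofReal_ofNat, ← ENNReal.ofReal_mul (by norm_num)]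
      norm_num
    calc μ (F p)ᶜ = 10 * (ENNReal.ofReal (1 / 10) * μ (F p)ᶜ) := by rw [← mul_assoc, e, one_mul]
      _ ≤ 10 * μ Kᶜ := by gcongr
  obtain ⟨K2, hK2, hK2m, hmv⟩ := hcm (⋂ p, F p) (MeasurableSet.iInter fun p =>
    measurableSet_freqGood (measurable_act _) hK.measurableSet _)
  have hlt : μ K2ᶜ < 1 := by
    have h1 : μ (⋂ p, F p)ᶜ ≤ Fintype.card ι * (10 * μ Kᶜ) := by
      rw [compl_iInter, ← nsmul_eq_mul]
      exact (measure_iUnion_fintype_le μ _).trans (Finset.sum_le_card_nsmul _ _ _ fun p _ => hF p)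
    have h2 : μ K2ᶜ ≤ c' * μ Kᶜ := by
      rw [hc', mul_assoc, mul_assoc]
      exact hK2m.trans (by gcongr)
    refine h2.trans_lt ?_
    rcases eq_or_ne c' 0 with z | z
    · rw [z, zero_mul]
      exact one_pos
    · rw [← ENNReal.mul_inv_cancel z hc1]
      exact ENNReal.mul_lt_mul_right z hc1 hKc
  refine ⟨K2, hK2, fun z => ?_, ?_⟩
  · rw [(prob_compl_eq_one_iff hK2).2 z] at hlt
    exact lt_irrefl _ hlt
  obtain ⟨ε, hε, hsh⟩ := levi_shear hC hX hK (hKX.trans hsub)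
  obtain ⟨δ1, hδ1, hcj⟩ := conj_near (isCompact_near (n := n) 1) hε
  have hη : 0 < min 1 (δ1 / (2 + n)) := lt_min one_pos (by positivity)
  obtain ⟨δ2, hδ2, hnm⟩ := levi_norm C (Finset.card_pos.1 (by omega)) hη
  refine ⟨min δ2 (min 1 (δ1 / (2 + n))), lt_min hδ2 hη, fun x hx g hxg hg => ?_⟩
  obtain ⟨k, hk, hkn, lam, hlam⟩ := hnm g (hg.mono (min_le_left _ _))
  obtain ⟨h, hh, hhn, m1, m2⟩ := hmv x hx _ hxg k hk (hkn.mono (min_le_left _ _))
  have hgk : Near (g * k) δ1 := by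
    refine ((hg.mono (min_le_right _ _)).mul hkn).mono ?_
    have a1 : min 1 (δ1 / (2 + n)) ≤ 1 := min_le_left _ _
    have a2 : min 1 (δ1 / (2 + n)) * (2 + n) ≤ δ1 :=
      (le_div_iff₀ (by positivity)).1 (min_le_right _ _)
    have a3 : (n : ℝ) * min 1 (δ1 / (2 + n)) * min 1 (δ1 / (2 + n)) ≤
        n * min 1 (δ1 / (2 + n)) := mul_le_of_le_one_right (by positivity) a1
    linarith
  have e : act (act x h) (h⁻¹ * (g * k) * h) = act (act x g) (k * h) := by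
    rw [act_mul, act_mul]
    congr 1
    group
  have hb := hsh (act x h) (h⁻¹ * (g * k) * h) (fun a ha b hb hab =>
    ⟨mem_iInter.1 m1 ⟨(a, b), ha, hb, hab⟩, e ▸ mem_iInter.1 m2 ⟨(a, b), ha, hb, hab⟩⟩)
    (hcj _ hgk h hhn) ⟨lam, scalar_block_conj hh hlam⟩
  have e2 : g = h * (h⁻¹ * (g * k) * h) * h⁻¹ * k⁻¹ := by group
  rw [e2]
  exact ((hh.blockDiag.mul hb).mul hh.blockDiag.inv).mul hk.blockDiag.inv

theorem levi (hn : n.Prime) {μ : Measure (X n)} [IsProbabilityMeasure μ] (hA : AInv μ)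
    (hN : ∀ᵐ x ∂μ, NoHypPt x) {C : Finset (Fin n)} (hC : 2 ≤ C.card) (hC' : C ≠ Finset.univ)
    (hU : ∀ i ∈ C, ∀ j ∈ C, i ≠ j → UInv μ i j)
    (hT : ∀ i j, ¬ (i ∈ C ↔ j ∈ C) → Triv μ i j) : False := by
  obtain ⟨K2, hK2, h0, δ, hδ, hbd⟩ := good_set_Levi hA hC hU hT
  obtain ⟨a, ha, b, hb, hab⟩ := Finset.one_lt_card.1 hC
  obtain ⟨x, hx, hxN, hr⟩ := ((frequently_ae_mem_iff.2 h0).and_eventually
    (hN.and (recur (hU a ha b hb hab 1).mp hK2))).exists
  obtain ⟨φ, hφ, hφK, hφx⟩ := hr hx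
  obtain ⟨g, hg, hgx⟩ := exists_lift hφx
  obtain ⟨M, hM⟩ := eventually_atTop.1 (hg.eventually (near_mem_nhds hδ))
  have hit : ∀ m, act x (uu a b (φ m)) = act x (g m) := fun m => by
    rw [← hgx, iterate_act, uu_pow, mul_one]
  have hsh : Tendsto (fun m => m + (M + 1)) atTop atTop := tendsto_add_atTop_nat _
  refine levi_arith hn hxN hab ⟨a, ha⟩ hC'
    (s := fun m => uu a b (φ (m + (M + 1))) * (g (m + (M + 1)))⁻¹)
    (c := fun m => ((φ (m + (M + 1)) : ℝ))⁻¹) (fun m => ?_) (fun m => ?_) ?_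
  · rw [← act_mul, hit, act_mul, mul_inv_cancel, act_one]
  · exact (inBlock_uu_Levi ha hb hab _).blockDiag.mul
      (hbd x hx _ (hgx _ ▸ hφK _) (hM _ (by omega))).inv
  · have h1 : Tendsto (fun m => ((φ (m + (M + 1)) : ℝ))⁻¹) atTop (𝓝 0) :=
      tendsto_inv_atTop_zero.comp
        (tendsto_natCast_atTop_atTop.comp (hφ.tendsto_atTop.comp hsh))
    have h2 : Tendsto (fun m => mat (g (m + (M + 1)))⁻¹) atTop (𝓝 (mat (1 : SL n)⁻¹)) :=
      (continuous_mat.tendsto _).comp (hg.comp hsh).inv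
    have h3 := ((h1.smul_const (1 : Matrix (Fin n) (Fin n) ℝ)).add_const
      (single a b (1 : ℝ))).mul h2
    rw [inv_one, mat_one, zero_smul, zero_add, mul_one] at h3
    refine h3.congr fun m => ?_
    have h4 : (φ (m + (M + 1)) : ℝ) ≠ 0 := by
      have := hφ.id_le (m + (M + 1))
      exact Nat.cast_ne_zero.2 (by simp only [id] at this; omega)
    rw [mat_mul, mat_uu hab, ← smul_mul_assoc, smul_add, smul_single, smul_eq_mul,
      inv_mul_cancel₀ h4]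

end Vale.Agent.P007
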