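import Vale.Agent.P007.E.Basic

/-!
P007 E, task Shear: matrix computations for unipotent shearing (`kap`, `bet` in Core).
`mat_shear`: `(1 - r E) g (1 + r E) = g + r g E - r E g - r² E g E` with `E = single a b 1`.
`shear_lower`: put `c1 = (g a a - g b b)/κ`, `c2 = g b a / κ²`, both in `[-1,1]`, `r = s/κ`.
`s0 = c1 / c2`. If the maximum in `kap` is attained at an entry `g p a` or `g b p`, the entry
`(p,b)` or `(a,p)` moves by `|s| ≥ ρ ≥ ρ²/2`. Otherwise the entry `(a,b)` moves by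
`|s| |c1 - s c2|`; if `|c2| ≥ 1/2` this is `≥ ρ ρ/2`, else `|c1| = 1` and it is `≥ ρ/2`.
`kap_cj`: by `mat_cj_diagA` the entry `(b,a)` is multiplied by `exp (2 m)`, the entries `(p,a)`,
`(b,p)` by `exp m`, the diagonal is fixed, all other entries are multiplied by `1`, `exp (-m)` or
`exp (-2 m)`.
-/

open Matrix MeasureTheory ProbabilityTheory Set Filter Topology
open scoped ENNReal

namespace Vale.Agent.P007

variable {n : ℕ}

variable {a b : Fin n}

lemma shr_left (M : Matrix (Fin n) (Fin n) ℝ) (c : ℝ) (p q : Fin n) :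
    (single a b c * M) p q = if p = a then c * M b q else 0 := by
  split_ifs with h
  · rw [h, single_mul_apply_same]
  · exact single_mul_apply_of_ne _ _ _ _ _ h _

lemma shr_right (M : Matrix (Fin n) (Fin n) ℝ) (c : ℝ) (p q : Fin n) :
    (M * single a b c) p q = if q = b then M p a * c else 0 := by
  split_ifs with h
  · rw [h, mul_single_apply_same]
  · exact mul_single_apply_of_ne _ _ _ _ _ h _

lemma shr_k1 (g : SL n) : |mat g a a - mat g b b| ≤ kap a b g := le_max_left _ _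

lemma shr_k2 (g : SL n) : √|mat g b a| ≤ kap a b g := (le_max_left _ _).trans (le_max_right _ _)

lemma shr_k2' (g : SL n) : |mat g b a| ≤ kap a b g ^ 2 := by
  rw [← Real.sq_sqrt (abs_nonneg (mat g b a))]
  exact pow_le_pow_left₀ (Real.sqrt_nonneg _) (shr_k2 g) 2

lemma shr_k3 (g : SL n) {p : Fin n} (ha : p ≠ a) (hb : p ≠ b) :
    |mat g p a| ≤ kap a b g ∧ |mat g b p| ≤ kap a b g := by
  have h := norm_le_pi_norm
    (fun p : Fin n => if p ≠ a ∧ p ≠ b then max |mat g p a| |mat g b p| else 0) p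
  rw [if_pos ⟨ha, hb⟩] at h
  exact max_le_iff.1 (((le_abs_self _).trans h).trans
    ((le_max_right _ _).trans (le_max_right _ _)))

lemma shr_kle {g : SL n} {K : ℝ} (h1 : |mat g a a - mat g b b| ≤ K) (h2 : √|mat g b a| ≤ K)
    (h3 : ∀ p, p ≠ a → p ≠ b → |mat g p a| ≤ K ∧ |mat g b p| ≤ K) : kap a b g ≤ K := by
  have hK := (abs_nonneg _).trans h1
  refine max_le h1 (max_le h2 ((pi_norm_le_iff_of_nonneg hK).2 fun p => ?_))
  split_ifs with h
  · rw [Real.norm_of_nonneg ((abs_nonneg _).trans (le_max_left _ _))]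
    exact max_le_iff.2 (h3 p h.1 h.2)
  · rwa [norm_zero]

lemma shr_wa (hab : a ≠ b) : wab a b a = 1 := by simp [wab, hab]

lemma shr_wb (hab : a ≠ b) : wab a b b = -1 := by simp [wab, hab.symm]

lemma shr_wp {p : Fin n} (ha : p ≠ a) (hb : p ≠ b) : wab a b p = 0 := by simp [wab, ha, hb]

lemma shr_succ (g : SL n) (m : ℕ) (p q : Fin n) : mat (cj (bet a b) g (m + 1)) p q =
    mat (cj (bet a b) g m) p q * Real.exp (wab a b q - wab a b p) := by
  rw [cj_succ]
  exact mat_conj_diagA _ _ _ p q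

lemma shr_step (hab : a ≠ b) {g h : SL n}
    (H : ∀ p q, mat h p q = mat g p q * Real.exp (wab a b q - wab a b p)) :
    |mat h a a - mat h b b| = |mat g a a - mat g b b| ∧
      √|mat h b a| = Real.exp 1 * √|mat g b a| ∧ ∀ p, p ≠ a → p ≠ b →
        |mat h p a| = Real.exp 1 * |mat g p a| ∧ |mat h b p| = Real.exp 1 * |mat g b p| := by
  refine ⟨by simp [H], ?_, fun p ha hb => ?_⟩
  · rw [H, shr_wa hab, shr_wb hab, abs_mul, Real.abs_exp, sub_neg_eq_add, Real.exp_add,
      Real.sqrt_mul (abs_nonneg _), Real.sqrt_mul_self (Real.exp_pos 1).le, mul_comm]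
  · simp [H, shr_wa hab, shr_wb hab, shr_wp ha hb, abs_mul, mul_comm]

lemma mat_shear (hab : a ≠ b) (g : SL n) (r : ℝ) (p q : Fin n) :
    mat (uu a b (-r) * g * uu a b r) p q = mat g p q + (if q = b then r * mat g p a else 0) -
      (if p = a then r * mat g b q else 0) - (if p = a ∧ q = b then r ^ 2 * mat g b a else 0) := by
  simp only [mat_mul, mat_uu hab, add_mul, mul_add, one_mul, mul_one, Matrix.add_apply,
    shr_left, shr_right]
  by_cases h1 : p = a <;> by_cases h2 : q = b <;> simp [h1, h2] <;> ring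

lemma kap_nonneg (g : SL n) : 0 ≤ kap a b g := (abs_nonneg _).trans (shr_k1 g)

lemma commute_of_kap_eq_zero (hab : a ≠ b) {g : SL n} (h : kap a b g = 0) :
    Commute (mat g) (single a b (1 : ℝ)) := by
  have h1 := shr_k1 (a := a) (b := b) g
  have h2 := shr_k2' (a := a) (b := b) g
  have h3 := fun p => shr_k3 (a := a) (b := b) g (p := p)
  simp only [h, abs_nonpos_iff, sub_eq_zero, ne_eq, OfNat.ofNat_ne_zero, not_false_eq_true,
    zero_pow] at h1 h2 h3
  ext p q
  rw [shr_left, shr_right]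
  split_ifs with k1 k2 k2
  · rw [k1, k2, h1, mul_comm]
  · rcases eq_or_ne p b with rfl | k3
    · rw [h2, zero_mul]
    · rw [(h3 p k2 k3).1, zero_mul]
  · rcases eq_or_ne q a with rfl | k3
    · rw [h2, mul_zero]
    · rw [(h3 q k3 k1).2, mul_zero]
  · rfl

lemma kap_le_of_near (hab : a ≠ b) {g : SL n} {ε : ℝ} (hε : ε ≤ 1) (h : Near g ε) :
    kap a b g ≤ 2 * √ε := by
  have h0 : 0 ≤ ε := (abs_nonneg _).trans (h a a)
  have h1 : ε ≤ √ε := Real.le_sqrt_of_sq_le (by nlinarith)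
  have h2 : ∀ p q, p ≠ q → |mat g p q| ≤ ε := fun p q hpq => by
    simpa [one_apply_ne hpq] using h p q
  refine shr_kle ?_ ?_ fun p ha hb => ⟨?_, ?_⟩
  · have k1 := abs_le.1 (h a a)
    have k2 := abs_le.1 (h b b)
    rw [one_apply_eq] at k1 k2
    exact abs_le.2 ⟨by linarith [k1.1, k2.2], by linarith [k1.2, k2.1]⟩
  · linarith [Real.sqrt_le_sqrt (h2 b a hab.symm), Real.sqrt_nonneg ε]
  · linarith [h2 p a ha]
  · linarith [h2 b p hb.symm]

lemma kap_cj_mono (hab : a ≠ b) (g : SL n) (m : ℕ) :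
    kap a b (cj (bet a b) g m) ≤ kap a b (cj (bet a b) g (m + 1)) := by
  obtain ⟨h1, h2, h3⟩ := shr_step hab (shr_succ (a := a) (b := b) g m)
  have he : ∀ x : ℝ, 0 ≤ x → x ≤ Real.exp 1 * x := fun x hx =>
    le_mul_of_one_le_left hx (Real.one_le_exp zero_le_one)
  refine shr_kle (h1 ▸ shr_k1 _) ((he _ (Real.sqrt_nonneg _)).trans (h2 ▸ shr_k2 _))
    fun p ha hb => ⟨(he _ (abs_nonneg _)).trans ?_, (he _ (abs_nonneg _)).trans ?_⟩
  · exact (h3 p ha hb).1 ▸ (shr_k3 _ ha hb).1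
  · exact (h3 p ha hb).2 ▸ (shr_k3 _ ha hb).2

lemma kap_cj_le (hab : a ≠ b) (g : SL n) (m : ℕ) :
    kap a b (cj (bet a b) g (m + 1)) ≤ Real.exp 1 * kap a b (cj (bet a b) g m) := by
  obtain ⟨h1, h2, h3⟩ := shr_step hab (shr_succ (a := a) (b := b) g m)
  have he : ∀ {x y : ℝ}, x ≤ y → Real.exp 1 * x ≤ Real.exp 1 * y := fun h =>
    mul_le_mul_of_nonneg_left h (Real.exp_pos 1).le
  refine shr_kle (h1.trans_le ((shr_k1 _).trans ?_)) (h2.trans_le (he (shr_k2 _)))
    fun p ha hb => ⟨(h3 p ha hb).1.trans_le (he (shr_k3 _ ha hb).1),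
      (h3 p ha hb).2.trans_le (he (shr_k3 _ ha hb).2)⟩
  exact le_mul_of_one_le_left (kap_nonneg _) (Real.one_le_exp zero_le_one)

lemma near_cj_bet (hab : a ≠ b) {g : SL n} {ε : ℝ} (h : Near g ε) (m : ℕ)
    (h1 : kap a b (cj (bet a b) g m) ≤ 1) :
    Near (cj (bet a b) g m) (max ε (kap a b (cj (bet a b) g m))) := by
  intro p q
  have H : mat (cj (bet a b) g m) p q = mat g p q * Real.exp (m * (wab a b q - wab a b p)) :=
    mat_cj_diagA _ _ g m p q
  rcases eq_or_ne p q with rfl | hpq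
  · rw [H, sub_self, mul_zero, Real.exp_zero, mul_one]
    exact (h p p).trans (le_max_left _ _)
  have h2 := h p q
  rw [one_apply_ne hpq, sub_zero] at h2 ⊢
  have h3 := shr_k2' (a := a) (b := b) (cj (bet a b) g m)
  have h4 := kap_nonneg (a := a) (b := b) (cj (bet a b) g m)
  by_cases hq : q = a
  · subst hq
    refine le_trans ?_ (le_max_right _ _)
    rcases eq_or_ne p b with rfl | hp
    · nlinarith
    · exact (shr_k3 _ hpq hp).1
  by_cases hp : p = b
  · subst hp
    exact (shr_k3 _ hq hpq.symm).2.trans (le_max_right _ _)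
  have k1 : wab a b q ≤ 0 := by
    rcases eq_or_ne q b with rfl | hq'
    · rw [shr_wb hab]
      norm_num
    · exact (shr_wp hq hq').le
  have k2 : 0 ≤ wab a b p := by
    rcases eq_or_ne p a with rfl | hp'
    · rw [shr_wa hab]
      norm_num
    · exact (shr_wp hp' hp).ge
  rw [H, abs_mul, Real.abs_exp]
  exact ((mul_le_of_le_one_right (abs_nonneg _) (Real.exp_le_one_iff.2
    (mul_nonpos_of_nonneg_of_nonpos (Nat.cast_nonneg m) (by linarith)))).trans h2).trans
      (le_max_left _ _)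

lemma shr_ba (g : SL n) {r : ℝ} (hr : |r| * kap a b g ≤ 1) : |r * mat g b a| ≤ kap a b g := by
  have h1 := mul_le_mul_of_nonneg_left (shr_k2' (a := a) (b := b) g) (abs_nonneg r)
  have h2 := mul_le_mul_of_nonneg_right hr (kap_nonneg (a := a) (b := b) g)
  rw [abs_mul]
  nlinarith

lemma shear_upper (hab : a ≠ b) (g : SL n) {r : ℝ} (hr : |r| * kap a b g ≤ 1) (p q : Fin n) :
    |mat (uu a b (-r) * g * uu a b r) p q - mat g p q| ≤ max 2 (kap a b g) := by
  have h0 : ∀ x : ℝ, |x| ≤ kap a b g → |r * x| ≤ 1 := fun x hx => by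
    rw [abs_mul]
    exact (mul_le_mul_of_nonneg_left hx (abs_nonneg r)).trans hr
  have h1 := shr_ba g hr
  rw [mat_shear hab]
  by_cases hp : p = a <;> by_cases hq : q = b
  · have k1 := abs_le.1 (h0 _ (shr_k1 g))
    have k2 := abs_le.1 (h0 _ h1)
    simp only [hp, hq, and_self, if_true]
    refine le_trans (abs_le.2 ⟨?_, ?_⟩) (le_max_left _ _) <;> nlinarith [k1.1, k1.2, k2.1, k2.2]
  · simp only [hp, hq, and_false, if_true, if_false, add_zero, sub_zero, sub_sub_cancel_left,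
      abs_neg]
    rcases eq_or_ne q a with rfl | k
    · exact h1.trans (le_max_right _ _)
    · exact ((h0 _ (shr_k3 g k hq).2).trans one_le_two).trans (le_max_left _ _)
  · simp only [hp, hq, false_and, if_true, if_false, sub_zero, add_sub_cancel_left]
    rcases eq_or_ne p b with rfl | k
    · exact h1.trans (le_max_right _ _)
    · exact ((h0 _ (shr_k3 g hp k).1).trans one_le_two).trans (le_max_left _ _)
  · simp [hp, hq]

lemma shear_off (hab : a ≠ b) (g : SL n) {r : ℝ} (hr : |r| * kap a b g ≤ 1) {p q : Fin n}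
    (h1 : ¬ (p = a ∧ q ≠ a)) (h2 : ¬ (q = b ∧ p ≠ b)) :
    |mat (uu a b (-r) * g * uu a b r) p q - mat g p q| ≤ kap a b g := by
  have h0 := shr_ba g hr
  rw [mat_shear hab]
  by_cases hp : p = a
  · obtain rfl : q = a := by_contra fun k => h1 ⟨hp, k⟩
    simpa [hp, hab] using h0
  by_cases hq : q = b
  · obtain rfl : p = b := by_contra fun k => h2 ⟨hq, k⟩
    simpa [hp, hq] using h0
  simpa [hp, hq] using kap_nonneg g

lemma shear_lower (hab : a ≠ b) (g : SL n) (hk : 0 < kap a b g) : ∃ s0 : ℝ, ∀ ρ s : ℝ, 0 < ρ →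
    |s| ≤ 1 → ρ ≤ |s| → ρ ≤ |s - s0| → ∃ p q,
      ρ ^ 2 / 2 ≤ |mat (uu a b (-(s / kap a b g)) * g * uu a b (s / kap a b g)) p q - mat g p q| := by
  obtain ⟨c1, hc1⟩ : ∃ c, c = (mat g a a - mat g b b) / kap a b g := ⟨_, rfl⟩
  obtain ⟨c2, hc2⟩ : ∃ c, c = mat g b a / kap a b g ^ 2 := ⟨_, rfl⟩
  refine ⟨c1 / c2, fun ρ s h0 h1 h2 h3 => ?_⟩
  have h4 : ρ ^ 2 ≤ ρ := by nlinarith
  have h5 : ∀ x : ℝ, kap a b g ≤ |x| → ρ ^ 2 / 2 ≤ |s / kap a b g * x| := fun x hx => by
    rw [abs_mul, abs_div, abs_of_pos hk, div_mul_eq_mul_div, le_div_iff₀ hk]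
    have := mul_le_mul h2 hx hk.le (abs_nonneg s)
    nlinarith
  by_cases hA : ∃ p, p ≠ a ∧ p ≠ b ∧ kap a b g ≤ |mat g p a|
  · obtain ⟨p, ha, hb, hp⟩ := hA
    refine ⟨p, b, ?_⟩
    rw [mat_shear hab]
    simpa only [ha, false_and, if_true, if_false, sub_zero, add_sub_cancel_left] using h5 _ hp
  by_cases hB : ∃ p, p ≠ a ∧ p ≠ b ∧ kap a b g ≤ |mat g b p|
  · obtain ⟨p, ha, hb, hp⟩ := hB
    refine ⟨a, p, ?_⟩
    rw [mat_shear hab]
    simpa only [hb, and_false, if_true, if_false, add_zero, sub_zero, sub_sub_cancel_left,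
      abs_neg] using h5 _ hp
  refine ⟨a, b, ?_⟩
  have e : mat (uu a b (-(s / kap a b g)) * g * uu a b (s / kap a b g)) a b - mat g a b =
      s * (c1 - s * c2) := by
    rw [mat_shear hab, hc1, hc2]
    simp only [and_self, if_true]
    field_simp
    ring
  rw [e, abs_mul]
  rcases le_or_gt (1 / 2) |c2| with h6 | h6
  · have h7 : c2 ≠ 0 := fun h => by
      rw [h, abs_zero] at h6
      norm_num at h6
    have h8 : |c1 - s * c2| = |s - c1 / c2| * |c2| := by
      rw [← abs_mul, abs_sub_comm]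
      exact congrArg _ (by field_simp)
    have h9 := mul_le_mul h2 (mul_le_mul h3 h6 (by norm_num) (abs_nonneg _)) (by positivity)
      (abs_nonneg _)
    rw [h8]
    linarith
  · have h7 : kap a b g ≤ |mat g a a - mat g b b| := by
      by_contra h
      push Not at h hA hB
      refine lt_irrefl (kap a b g) (max_lt h (max_lt ?_ ((pi_norm_lt_iff hk).2 fun p => ?_)))
      · rw [hc2, abs_div, abs_of_pos (pow_pos hk 2), div_lt_iff₀ (pow_pos hk 2)] at h6
        exact (Real.sqrt_lt' hk).2 (by linarith [pow_pos hk 2])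
      · split_ifs with k
        · rw [Real.norm_of_nonneg ((abs_nonneg _).trans (le_max_left _ _))]
          exact max_lt (hA p k.1 k.2) (hB p k.1 k.2)
        · rwa [norm_zero]
    have h8 : 1 ≤ |c1| := by
      rwa [hc1, abs_div, abs_of_pos hk, le_div_iff₀ hk, one_mul]
    have h9 : |s * c2| ≤ 1 / 2 := by
      rw [abs_mul]
      nlinarith [abs_nonneg s, abs_nonneg c2]
    have h10 := mul_le_mul h2 (show 1 / 2 ≤ |c1 - s * c2| by
      linarith [abs_sub_abs_le_abs_sub c1 (s * c2)]) (by norm_num) (abs_nonneg _)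
    linarith

end Vale.Agent.P007
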