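import Vale.Agent.P007.E.Peel
import Vale.Agent.P007.E.Shear
import Vale.Agent.P007.E.Gen

/-!
P007 E, task LeviA: shearing in the block case.
`levi_unif` (compactness, as a limit of sequences in `K` and `isCompact_near 2`; there are
finitely many pairs `(a,b)`, so prove it for a fixed pair and take a minimum): the limit `h` has
diagonal one, support in `{(a,q), (p,b) | p, q ∉ C}`, weight `wab a b`, so `h = 1`.
`levi_shear`: `d` from `levi_unif`, `ε = min d (1/20)`. If `g` is not block diagonal, let `κ > 0`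
be the largest absolute value of an entry `(p,q)` with exactly one of `p, q` in `C`. If it is
`g p a` (`p ∉ C`, `a ∈ C`) take any `b ∈ C \ {a}`; if it is `g b q` take any `a ∈ C \ {b}`.
`N = ⌊1/κ⌋ ≥ 20`; `exists_both_second_half` for `T = (act · (uu a b 1))` gives `k`
(`iterate_act`, `uu_pow`); `h = uu a b (-k) * g * uu a b k`, `act (x uu k) h = (x g) uu k`;
by `mat_shear` only the entries `(p,b)`, `(a,q)`, `p, q ∉ C` move, by at most `k κ ≤ 1`, and one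
of them moves by `k κ ≥ (1 - κ)/2`, contradicting `Near h (1/4)`.
-/

open Matrix MeasureTheory ProbabilityTheory Set Filter Topology
open scoped ENNReal

namespace Vale.Agent.P007

variable {n : ℕ}

open Classical in
lemma leviA_pair {C : Finset (Fin n)} {X' K : Set (X n)}
    (hX : PeelSet {α | ¬ (α.1 ∈ C ↔ α.2 ∈ C)} X') (hK : IsCompact K) (hKX : K ⊆ X')
    {a b : Fin n} (ha : a ∈ C) (hb : b ∈ C) (hab : a ≠ b) :
    ∃ d : ℝ, 0 < d ∧ ∀ z ∈ K, ∀ h : SL n, act z h ∈ K → Near h 2 →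
      (∀ p q, ¬ (p = a ∧ q ∉ C) → ¬ (q = b ∧ p ∉ C) →
        |mat h p q - (1 : Matrix (Fin n) (Fin n) ℝ) p q| ≤ d) → Near h (1 / 4) := by
  let S : Set (X n × SL n) := (K ×ˢ {g | Near g 2}) ∩ (fun p => act p.1 p.2) ⁻¹' K
  have hS : IsCompact S :=
    (hK.prod (isCompact_near 2)).inter_right (hK.isClosed.preimage continuous_act)
  let E : X n × SL n → Fin n × Fin n → ℝ := fun p α =>
    mat p.2 α.1 α.2 - (1 : Matrix (Fin n) (Fin n) ℝ) α.1 α.2
  have hE1 : ∀ α : Fin n × Fin n, Continuous fun p => E p α := fun α =>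
    ((continuous_mat.comp continuous_snd).matrix_elem _ _).sub continuous_const
  have hE : Continuous E := continuous_pi hE1
  have h2 : IsCompact (S ∩ {p | 1 / 4 ≤ ‖E p‖}) :=
    hS.inter_right (isClosed_le continuous_const hE.norm)
  let D : X n × SL n → Fin n × Fin n → ℝ := fun p α =>
    if ¬ (α.1 = a ∧ α.2 ∉ C) ∧ ¬ (α.2 = b ∧ α.1 ∉ C) then E p α else 0
  have h3 : Continuous D := continuous_pi fun α => continuous_if_const _
    (fun _ => hE1 α) fun _ => continuous_const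
  obtain ⟨d, hd, h4⟩ := h2.exists_forall_le' (a := 0) h3.norm.continuousOn fun p hp => by
    refine norm_pos_iff.2 fun h0 => ?_
    have h5 : ∀ r q, ¬ (r = a ∧ q ∉ C) → ¬ (q = b ∧ r ∉ C) →
        mat p.2 r q = (1 : Matrix (Fin n) (Fin n) ℝ) r q := fun r q k1 k2 =>
      sub_eq_zero.1 ((if_pos (⟨k1, k2⟩ : ¬ ((r, q).1 = a ∧ (r, q).2 ∉ C) ∧
        ¬ ((r, q).2 = b ∧ (r, q).1 ∉ C))).symm.trans (congrFun h0 (r, q)))
    have h6 : ∀ r q, r ≠ q → mat p.2 r q ≠ 0 → (r = a ∧ q ∉ C) ∨ (q = b ∧ r ∉ C) := by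
      intro r q hrq h
      by_contra hc
      exact h ((h5 r q (fun k => hc (Or.inl k)) fun k => hc (Or.inr k)).trans (one_apply_ne hrq))
    have h7 : p.2 = 1 := by
      refine hX p.1 (hKX hp.1.1.1) p.2 (hKX hp.1.2) (fun r => ?_) (fun r q hrq h => ?_)
        ⟨fun r => if r = a then 1 else if r = b then -1 else 0, fun r q hrq h => ?_⟩
      · exact (h5 r r (fun k => k.2 (k.1 ▸ ha)) fun k => k.2 (k.1 ▸ hb)).trans (one_apply_eq r)
      · rcases h6 r q hrq h with ⟨k1, k2⟩ | ⟨k1, k2⟩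
        · exact fun k => k2 (k.1 (k1 ▸ ha))
        · exact fun k => k2 (k.2 (k1 ▸ hb))
      · rcases h6 r q hrq h with ⟨k1, k2⟩ | ⟨k1, k2⟩
        · have e1 : q ≠ a := fun e => k2 (e ▸ ha)
          have e2 : q ≠ b := fun e => k2 (e ▸ hb)
          simp [k1, e1, e2]
        · have e1 : r ≠ a := fun e => k2 (e ▸ ha)
          have e2 : r ≠ b := fun e => k2 (e ▸ hb)
          simp [k1, e1, e2, hab.symm]
    have h8 : E p = 0 := by
      funext α
      change mat p.2 α.1 α.2 - _ = 0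
      rw [h7, mat_one, sub_self]
    have h9 : 1 / 4 ≤ ‖E p‖ := hp.2
    rw [h8, norm_zero] at h9
    norm_num at h9
  refine ⟨d / 2, half_pos hd, fun z hz h h5 h6 h7 => by_contra fun h8 => ?_⟩
  have h9 : 1 / 4 ≤ ‖E (z, h)‖ := by
    by_contra hc
    exact h8 fun r q => (norm_le_pi_norm (E (z, h)) (r, q)).trans (not_le.1 hc).le
  refine (half_lt_self hd).not_ge ((h4 (z, h) ⟨⟨⟨hz, h6⟩, h5⟩, h9⟩).trans
    ((pi_norm_le_iff_of_nonneg (half_pos hd).le).2 fun α => ?_))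
  by_cases h10 : ¬ (α.1 = a ∧ α.2 ∉ C) ∧ ¬ (α.2 = b ∧ α.1 ∉ C)
  · exact (congrArg norm (if_pos h10)).trans_le (h7 _ _ h10.1 h10.2)
  · exact (congrArg norm (if_neg h10)).trans_le (norm_zero.trans_le (half_pos hd).le)

lemma levi_unif {C : Finset (Fin n)} {X' K : Set (X n)}
    (hX : PeelSet {α | ¬ (α.1 ∈ C ↔ α.2 ∈ C)} X') (hK : IsCompact K) (hKX : K ⊆ X') :
    ∃ d : ℝ, 0 < d ∧ ∀ a ∈ C, ∀ b ∈ C, a ≠ b → ∀ z ∈ K, ∀ h : SL n, act z h ∈ K → Near h 2 →
      (∀ p q, ¬ (p = a ∧ q ∉ C) → ¬ (q = b ∧ p ∉ C) →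
        |mat h p q - (1 : Matrix (Fin n) (Fin n) ℝ) p q| ≤ d) → Near h (1 / 4) := by
  have h1 : ∀ α : Fin n × Fin n, ∃ d : ℝ, 0 < d ∧ (α.1 ∈ C → α.2 ∈ C → α.1 ≠ α.2 →
      ∀ z ∈ K, ∀ h : SL n, act z h ∈ K → Near h 2 →
        (∀ p q, ¬ (p = α.1 ∧ q ∉ C) → ¬ (q = α.2 ∧ p ∉ C) →
          |mat h p q - (1 : Matrix (Fin n) (Fin n) ℝ) p q| ≤ d) → Near h (1 / 4)) := by
    intro α
    by_cases hα : α.1 ∈ C ∧ α.2 ∈ C ∧ α.1 ≠ α.2
    · obtain ⟨d, hd, h⟩ := leviA_pair hX hK hKX hα.1 hα.2.1 hα.2.2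
      exact ⟨d, hd, fun _ _ _ => h⟩
    · exact ⟨1, one_pos, fun k1 k2 k3 => absurd ⟨k1, k2, k3⟩ hα⟩
  choose d hd h using h1
  obtain ⟨d0, hd0, h2⟩ := (isCompact_univ (X := Fin n × Fin n)).exists_forall_le' (a := 0) (f := d)
    continuous_of_discreteTopology.continuousOn fun α _ => hd α
  exact ⟨d0, hd0, fun a ha b hb hab z hz g k1 k2 k3 => h (a, b) ha hb hab z hz g k1 k2
    fun p q k4 k5 => (k3 p q k4 k5).trans (h2 (a, b) (mem_univ _))⟩

lemma leviA_mat {C : Finset (Fin n)} {a b : Fin n} (ha : a ∈ C) (hb : b ∈ C) (hab : a ≠ b)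
    {g : SL n} {lam : ℝ} (hg : ∀ p ∈ C, ∀ q ∈ C, mat g p q = if p = q then lam else 0) (r : ℝ)
    (p q : Fin n) : mat (uu a b (-r) * g * uu a b r) p q = mat g p q +
      (if q = b ∧ p ∉ C then r * mat g p a else 0) - (if p = a ∧ q ∉ C then r * mat g b q else 0) := by
  rw [mat_shear hab, hg b hb a ha, if_neg hab.symm, mul_zero, ite_self, sub_zero]
  by_cases hp : p = a
  · subst hp
    by_cases hq : q = b
    · subst hq
      simp [ha, hb, hg p ha p ha, hg q hb q hb]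
    · by_cases hq2 : q ∈ C
      · simp [hq, hq2, hg b hb q hq2, Ne.symm hq]
      · simp [hq, hq2]
  · by_cases hp2 : p ∈ C
    · simp [hp, hp2, hg p hp2 a ha]
    · simp [hp, hp2]

lemma leviA_false {C : Finset (Fin n)} {K : Set (X n)} {a b : Fin n} (ha : a ∈ C) (hb : b ∈ C)
    (hab : a ≠ b) {d ε κ lam : ℝ} (hεd : ε ≤ d) (hε : ε ≤ 1 / 20) (hκ : 0 < κ) (hκε : κ ≤ ε)
    (hd : ∀ z ∈ K, ∀ h : SL n, act z h ∈ K → Near h 2 →
      (∀ p q, ¬ (p = a ∧ q ∉ C) → ¬ (q = b ∧ p ∉ C) →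
        |mat h p q - (1 : Matrix (Fin n) (Fin n) ℝ) p q| ≤ d) → Near h (1 / 4))
    {x : X n} {g : SL n} (hx : x ∈ freqGood (fun y => act y (uu a b 1)) K (1 / 10))
    (hxg : act x g ∈ freqGood (fun y => act y (uu a b 1)) K (1 / 10)) (hn : Near g ε)
    (hg : ∀ p ∈ C, ∀ q ∈ C, mat g p q = if p = q then lam else 0)
    (hmax : ∀ p q, ¬ (p ∈ C ↔ q ∈ C) → |mat g p q| ≤ κ)
    (hat : (∃ p, p ∉ C ∧ |mat g p a| = κ) ∨ ∃ q, q ∉ C ∧ |mat g b q| = κ) : False := by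
  have hN : 10 ≤ ⌊1 / κ⌋₊ := by
    refine Nat.le_floor ?_
    rw [le_div_iff₀ hκ]
    push_cast
    linarith
  obtain ⟨k, k1, k2, k3, k4⟩ := exists_both_second_half hx hxg hN
  rw [iterate_act, uu_pow, mul_one] at k3 k4
  have hk0 : (0 : ℝ) ≤ k := Nat.cast_nonneg k
  have a1 : (k : ℝ) * κ ≤ 1 := by
    have h1 : (k : ℝ) ≤ 1 / κ := (Nat.cast_le.2 k2.le).trans (Nat.floor_le (by positivity))
    rwa [le_div_iff₀ hκ] at h1
  have a2 : 1 - κ ≤ 2 * ((k : ℝ) * κ) := by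
    have h1 := Nat.lt_floor_add_one (1 / κ)
    have h2 : (⌊1 / κ⌋₊ : ℝ) ≤ 2 * k := by exact_mod_cast k1
    rw [div_lt_iff₀ hκ] at h1
    nlinarith
  have hm := leviA_mat ha hb hab hg k
  have b1 : ∀ p, p ∉ C → |(k : ℝ) * mat g p a| ≤ 1 := fun p hp => by
    rw [abs_mul, abs_of_nonneg hk0]
    exact (mul_le_mul_of_nonneg_left (hmax p a fun e => hp (e.2 ha)) hk0).trans a1
  have b2 : ∀ q, q ∉ C → |(k : ℝ) * mat g b q| ≤ 1 := fun q hq => by
    rw [abs_mul, abs_of_nonneg hk0]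
    exact (mul_le_mul_of_nonneg_left (hmax b q fun e => hq (e.1 hb)) hk0).trans a1
  have hact : act (act x (uu a b k)) (uu a b (-k) * g * uu a b k) = act (act x g) (uu a b k) := by
    rw [act_mul, act_mul, ← uu_inv, mul_assoc, mul_inv_cancel_left]
  have h4 := hd _ k3 (uu a b (-k) * g * uu a b k) (hact ▸ k4) (fun p q => by
    have c := abs_le.1 (hn p q)
    rw [hm, abs_le]
    split_ifs with e1 e2 e2
    · exact absurd (e1.1 ▸ hb) e2.2
    · have c2 := abs_le.1 (b1 p e1.2)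
      constructor <;> linarith [c.1, c.2, c2.1, c2.2]
    · have c2 := abs_le.1 (b2 q e2.2)
      constructor <;> linarith [c.1, c.2, c2.1, c2.2]
    · constructor <;> linarith [c.1, c.2]) (fun p q e1 e2 => by
    rw [hm, if_neg e1, if_neg e2, add_zero, sub_zero]
    exact (hn p q).trans hεd)
  rcases hat with ⟨p, hp, e⟩ | ⟨q, hq, e⟩
  · have c := h4 p b
    have hpb : p ≠ b := fun e => hp (e ▸ hb)
    rw [hm, if_pos ⟨rfl, hp⟩, if_neg fun e => e.2 hb, one_apply_ne hpb, sub_zero, sub_zero] at c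
    have c2 := hmax p b fun e => hp (e.2 hb)
    have c3 := abs_sub (mat g p b + k * mat g p a) (mat g p b)
    rw [add_sub_cancel_left, abs_mul, abs_of_nonneg hk0, e] at c3
    linarith
  · have c := h4 a q
    have haq : a ≠ q := fun e => hq (e ▸ ha)
    rw [hm, if_neg fun e => e.2 ha, if_pos ⟨rfl, hq⟩, one_apply_ne haq, add_zero, sub_zero] at c
    have c2 := hmax a q fun e => hq (e.1 ha)
    have c3 := abs_sub (mat g a q) (mat g a q - k * mat g b q)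
    rw [sub_sub_cancel, abs_mul, abs_of_nonneg hk0, e] at c3
    linarith

theorem levi_shear {C : Finset (Fin n)} (hC : 2 ≤ C.card) {X' K : Set (X n)}
    (hX : PeelSet {α | ¬ (α.1 ∈ C ↔ α.2 ∈ C)} X') (hK : IsCompact K) (hKX : K ⊆ X') :
    ∃ ε : ℝ, 0 < ε ∧ ∀ (x : X n) (g : SL n),
      (∀ a ∈ C, ∀ b ∈ C, a ≠ b → x ∈ freqGood (fun y => act y (uu a b 1)) K (1 / 10) ∧
        act x g ∈ freqGood (fun y => act y (uu a b 1)) K (1 / 10)) →
      Near g ε → (∃ lam : ℝ, ∀ p ∈ C, ∀ q ∈ C, mat g p q = if p = q then lam else 0) →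
        BlockDiag C g := by
  obtain ⟨d, hd, hu⟩ := levi_unif hX hK hKX
  refine ⟨min d (1 / 20), lt_min hd (by norm_num), ?_⟩
  rintro x g hx hn ⟨lam, hg⟩ p1 q1 h1
  by_contra hne
  obtain ⟨⟨p, q⟩, hpq, hmax⟩ := Finset.exists_max_image
    (Finset.univ.filter fun α : Fin n × Fin n => ¬ (α.1 ∈ C ↔ α.2 ∈ C))
    (fun α => |mat g α.1 α.2|) ⟨(p1, q1), Finset.mem_filter.2 ⟨Finset.mem_univ _, h1⟩⟩
  have hpq' : ¬ (p ∈ C ↔ q ∈ C) := (Finset.mem_filter.1 hpq).2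
  have hmax' : ∀ r s, ¬ (r ∈ C ↔ s ∈ C) → |mat g r s| ≤ |mat g p q| := fun r s h =>
    hmax (r, s) (Finset.mem_filter.2 ⟨Finset.mem_univ _, h⟩)
  have hκ : 0 < |mat g p q| := (abs_pos.2 hne).trans_le (hmax' p1 q1 h1)
  have hκε : |mat g p q| ≤ min d (1 / 20) := by
    have h := hn p q
    rwa [one_apply_ne fun e => hpq' (by rw [e]), sub_zero] at h
  by_cases hp : p ∈ C
  · have hq : q ∉ C := fun hq => hpq' ⟨fun _ => hq, fun _ => hp⟩
    obtain ⟨a, ha, hap⟩ := Finset.exists_mem_ne (show 1 < C.card from hC) p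
    exact leviA_false ha hp hap (min_le_left _ _) (min_le_right _ _) hκ hκε (hu a ha p hp hap)
      (hx a ha p hp hap).1 (hx a ha p hp hap).2 hn hg hmax' (Or.inr ⟨q, hq, rfl⟩)
  · have hq : q ∈ C := by
      by_contra hq
      exact hpq' ⟨fun h => absurd h hp, fun h => absurd h hq⟩
    obtain ⟨b, hb, hbq⟩ := Finset.exists_mem_ne (show 1 < C.card from hC) q
    exact leviA_false hq hb hbq.symm (min_le_left _ _) (min_le_right _ _) hκ hκε
      (hu q hq b hb hbq.symm) (hx q hq b hb hbq.symm).1 (hx q hq b hb hbq.symm).2 hn hg hmax'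
      (Or.inl ⟨p, hp, rfl⟩)

end Vale.Agent.P007
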