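import Vale.Agent.P007.E.Basic

/-!
P007 E, task Lift: measurable sections and the lifted measure (`IsSec`, `liftM` in Core).
`exists_sec`: enumerate a dense sequence... simplest: every `g` has an open neighbourhood `V` on
which `coset` is injective (proper discontinuity `instPropDisc`, the action of `Γ` is free;
or directly with `finite_int_matrices`); by second countability countably many `V m` cover `G`;
`coset` restricted to `V m` is an open embedding, so its inverse is continuous on the open set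
`coset '' V m`; `σ x` is the point of `V m` over `x` for the least `m` (`Measurable.find`,
`ContinuousOn.measurable_piecewise`).
`liftM_right`: `σ x * h` and `σ (act x h)` lie in the same coset, reindex the sum over `Γ`.
`liftM_compact`: if `γ g, γ' g ∈ C` then `γ γ'⁻¹ ∈ C C⁻¹`, a compact set with finitely many
elements of `Γ`, so the number of `γ` with `γ g ∈ C` is bounded independently of `g`.
-/

open Matrix MeasureTheory ProbabilityTheory Set Filter Topology
open scoped ENNReal

namespace Vale.Agent.P007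

variable {n : ℕ}

/-- `coset` is locally injective. -/
lemma exists_open_inj_Lift (g : SL n) : ∃ V : Set (SL n), IsOpen V ∧ g ∈ V ∧ InjOn coset V := by
  obtain ⟨U, hU, hU'⟩ := ProperlyDiscontinuousSMul.exists_nhds_image_smul_eq_self (Gam n) g
  refine ⟨interior U, isOpen_interior, mem_interior_iff_mem_nhds.2 hU, fun a ha b hb hab => ?_⟩
  obtain ⟨γ, hγ, e⟩ := mk_eq_iff.1 hab
  have h := hU' ⟨γ, hγ⟩ ⟨a, ⟨b, interior_subset hb, e⟩, interior_subset ha⟩
  have h1 : γ = 1 := mul_eq_right.1 h
  rw [← e, h1, one_mul]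

theorem exists_sec (n : ℕ) : ∃ σ : X n → SL n, IsSec σ := by
  classical
  choose V hVo hVg hVi using exists_open_inj_Lift (n := n)
  obtain ⟨s, hsc, hs⟩ := TopologicalSpace.countable_cover_nhds
    (f := V) fun g => (hVo g).mem_nhds (hVg g)
  have hne : s.Nonempty := by
    have : (1 : SL n) ∈ ⋃ x ∈ s, V x := hs ▸ mem_univ _
    obtain ⟨x, hx, -⟩ := mem_iUnion₂.1 this
    exact ⟨x, hx⟩
  obtain ⟨e, rfl⟩ := hsc.exists_eq_range hne
  have hinj : ∀ g, Function.Injective (fun v : V g => coset (v : SL n)) :=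
    fun g a b hab => Subtype.ext (hVi g a.2 b.2 hab)
  have hemb : ∀ g, MeasurableEmbedding (fun v : V g => coset (v : SL n)) := fun g =>
    (IsOpenEmbedding.of_continuous_injective_isOpenMap
      ((isOpenQuotientMap_mk n).continuous.comp continuous_subtype_val) (hinj g)
      ((isOpenQuotientMap_mk n).isOpenMap.comp (hVo g).isOpenMap_subtype_val)).measurableEmbedding
  have hex : ∀ x : X n, ∃ m, x ∈ coset '' V (e m) := fun x => by
    obtain ⟨g, rfl⟩ := coset_surj x
    have : g ∈ ⋃ x ∈ range e, V x := hs ▸ mem_univ _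
    obtain ⟨_, ⟨m, rfl⟩, hm⟩ := mem_iUnion₂.1 this
    exact ⟨m, g, hm, rfl⟩
  refine ⟨fun x => Function.extend (fun v : V (e (Nat.find (hex x))) => coset (v : SL n))
    Subtype.val (fun _ => 1) x, ?_, fun x => ?_⟩
  · exact Measurable.find (f := fun m => Function.extend (fun v : V (e m) => coset (v : SL n))
      Subtype.val (fun _ => 1))
      (fun m => (hemb _).measurable_extend measurable_subtype_coe measurable_const)
      (fun m => ((isOpenQuotientMap_mk n).isOpenMap _ (hVo _)).measurableSet) hex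
  · obtain ⟨g, hg, hx⟩ := Nat.find_spec (hex x)
    have := (hinj (e (Nat.find (hex x)))).extend_apply Subtype.val (fun _ => 1) ⟨g, hg⟩
    simp only [hx] at this
    simp only [this, hx]

variable {σ : X n → SL n} {μ : Measure (X n)}

lemma IsSec.measurableSet_range (hσ : IsSec σ) : MeasurableSet (range σ) := by
  have e : range σ = {g | σ (coset g) = g} := by
    ext g
    constructor
    · rintro ⟨x, rfl⟩
      show σ (coset (σ x)) = σ x
      rw [hσ.2]
    · exact fun h => ⟨_, h⟩
  rw [e]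
  exact measurableSet_eq_fun (hσ.1.comp measurable_coset) measurable_id

lemma IsSec.exists_gam (hσ : IsSec σ) (g : SL n) :
    ∃ γ : Gam n, σ (coset g) = (γ : SL n) * g := by
  obtain ⟨γ, hγ, e⟩ := mk_eq_iff.1 (hσ.2 (coset g))
  exact ⟨⟨γ, hγ⟩, e.symm⟩

lemma IsSec.eq_of_mem (hσ : IsSec σ) {g : SL n} {γ : Gam n} (h : (γ : SL n) * g ∈ range σ) :
    σ (coset g) = (γ : SL n) * g := by
  obtain ⟨x, hx⟩ := h
  rw [← coset_gam_mul γ g, ← hx, hσ.2]

lemma IsSec.existsUnique_mem (hσ : IsSec σ) (g : SL n) :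
    ∃! γ : Gam n, (γ : SL n) * g ∈ range σ := by
  obtain ⟨γ, hγ⟩ := hσ.exists_gam g
  refine ⟨γ, ⟨_, hγ⟩, fun γ' h' => Subtype.ext ?_⟩
  have := hσ.eq_of_mem h'
  rw [hγ] at this
  exact (mul_right_cancel this).symm

lemma IsSec.measurable_mul (hσ : IsSec σ) (γ : SL n) : Measurable fun x => γ * σ x :=
  (continuous_const_mul γ).measurable.comp hσ.1

lemma lintegral_liftM (hσ : IsSec σ) {F : SL n → ℝ≥0∞} (hF : Measurable F) :
    ∫⁻ g, F g ∂(liftM σ μ) = ∫⁻ x, ∑' γ : Gam n, F ((γ : SL n) * σ x) ∂μ := by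
  rw [liftM, lintegral_sum_measure,
    lintegral_tsum (f := fun (γ : Gam n) x => F ((γ : SL n) * σ x))
      fun γ : Gam n => (hF.comp (hσ.measurable_mul γ)).aemeasurable]
  exact tsum_congr fun γ => lintegral_map hF (hσ.measurable_mul γ)

lemma lintegral_liftM_range (hσ : IsSec σ) {F : SL n → ℝ≥0∞} (hF : Measurable F) :
    ∫⁻ g, (range σ).indicator F g ∂(liftM σ μ) = ∫⁻ x, F (σ x) ∂μ := by
  rw [lintegral_liftM hσ (hF.indicator hσ.measurableSet_range)]
  refine lintegral_congr fun x => ?_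
  rw [tsum_eq_single (1 : Gam n)]
  · simp
  · intro γ hγ
    refine indicator_of_notMem (fun h => hγ ?_) _
    exact (hσ.existsUnique_mem (σ x)).unique h (by simp)

lemma liftM_restrict (hσ : IsSec σ) {S : Set (X n)} (hS : MeasurableSet S) :
    liftM σ μ (coset ⁻¹' S ∩ range σ) = μ S := by
  have hS' : MeasurableSet (coset ⁻¹' S : Set (SL n)) := measurable_coset hS
  have h := lintegral_liftM_range (μ := μ) hσ (F := (coset ⁻¹' S).indicator 1)
    (measurable_one.indicator hS')
  rw [← lintegral_indicator_one (hS'.inter hσ.measurableSet_range), ← lintegral_indicator_one hS,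
    inter_comm, ← indicator_indicator, h]
  refine lintegral_congr fun x => ?_
  by_cases hx : x ∈ S
  · rw [indicator_of_mem hx, indicator_of_mem (show σ x ∈ coset ⁻¹' S by rwa [mem_preimage, hσ.2])]
    rfl
  · rw [indicator_of_notMem hx,
      indicator_of_notMem (show σ x ∉ coset ⁻¹' S by rwa [mem_preimage, hσ.2])]

lemma liftM_left (hσ : IsSec σ) (γ : Gam n) :
    (liftM σ μ).map (fun g => (γ : SL n) * g) = liftM σ μ := by
  have hm : Measurable fun g : SL n => (γ : SL n) * g := (continuous_const_mul _).measurable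
  refine Measure.ext_of_lintegral _ fun F hF => ?_
  rw [lintegral_map hF hm, lintegral_liftM hσ (F := fun g => F ((γ : SL n) * g)) (hF.comp hm),
    lintegral_liftM hσ hF]
  refine lintegral_congr fun x => ?_
  rw [← (Equiv.mulLeft γ).tsum_eq fun γ' : Gam n => F ((γ' : SL n) * σ x)]
  simp only [Equiv.coe_mulLeft, Subgroup.coe_mul, mul_assoc]

lemma liftM_right (hσ : IsSec σ) {h : SL n} (hh : HInv μ h) :
    (liftM σ μ).map (fun g => g * h) = liftM σ μ := by
  have hm : Measurable fun g : SL n => g * h := (continuous_mul_const _).measurable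
  refine Measure.ext_of_lintegral _ fun F hF => ?_
  have hΦ : Measurable fun x => ∑' γ : Gam n, F ((γ : SL n) * σ x) :=
    Measurable.tsum fun γ => hF.comp (hσ.measurable_mul γ)
  rw [lintegral_map hF hm, lintegral_liftM hσ (F := fun g => F (g * h)) (hF.comp hm),
    lintegral_liftM hσ hF, ← hh.mp.lintegral_comp hΦ]
  refine lintegral_congr fun x => ?_
  obtain ⟨δ, hδ⟩ := hσ.exists_gam (σ x * h)
  rw [← act_coset, hσ.2] at hδ
  rw [hδ, ← (Equiv.mulRight δ).tsum_eq fun γ' : Gam n => F ((γ' : SL n) * σ x * h)]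
  simp only [Equiv.coe_mulRight, Subgroup.coe_mul, mul_assoc]

lemma liftM_le_Lift (hσ : IsSec σ) {N : Set (SL n)} (hN : MeasurableSet N)
    (hinj : InjOn coset N) : liftM σ μ N ≤ μ (coset '' N) := by
  rw [← lintegral_indicator_one hN, lintegral_liftM hσ (measurable_one.indicator hN)]
  refine le_trans (lintegral_mono fun x => ?_) (lintegral_indicator_one_le _)
  by_cases h : ∃ γ : Gam n, (γ : SL n) * σ x ∈ N
  · obtain ⟨γ, hγ⟩ := h
    have hx : x ∈ coset '' N := ⟨_, hγ, by rw [coset_gam_mul, hσ.2]⟩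
    rw [tsum_eq_single γ, indicator_of_mem hγ, indicator_of_mem hx]
    · exact le_rfl
    · intro γ' hγ'
      refine indicator_of_notMem (fun h' => hγ' (Subtype.ext ?_)) _
      exact mul_right_cancel (hinj h' hγ (by rw [coset_gam_mul, coset_gam_mul]))
  · push Not at h
    simp only [indicator_of_notMem (h _), tsum_zero, zero_le]

lemma liftM_compact [IsFiniteMeasure μ] (hσ : IsSec σ) {C : Set (SL n)} (hC : IsCompact C) :
    liftM σ μ C ≠ ∞ := by
  refine (hC.measure_lt_top_of_nhdsWithin fun g _ => ?_).ne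
  obtain ⟨V, hVo, hg, hV⟩ := exists_open_inj_Lift g
  exact ⟨V, mem_nhdsWithin_of_mem_nhds (hVo.mem_nhds hg),
    (liftM_le_Lift hσ hVo.measurableSet hV).trans_lt (measure_lt_top _ _)⟩

lemma ae_of_ae_liftM (hσ : IsSec σ) {p : SL n → Prop} (h : ∀ᵐ g ∂(liftM σ μ), p g) :
    ∀ᵐ x ∂μ, ∀ γ : Gam n, p ((γ : SL n) * σ x) := by
  rw [liftM, Measure.ae_sum_iff] at h
  exact ae_all_iff.2 fun γ => ae_of_ae_map (hσ.measurable_mul γ).aemeasurable (h γ)

lemma liftM_le_of_injOn (hσ : IsSec σ) {N : Set (SL n)} (hN : MeasurableSet N)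
    (hinj : InjOn coset N) : liftM σ μ N ≤ μ (coset '' N) :=
  liftM_le_Lift hσ hN hinj

/-- Thickening a compact set on which `coset` is injective keeps it injective. -/
lemma exists_injOn_thicken {Ω : Set (SL n)} (hΩ : IsCompact Ω) (hinj : InjOn coset Ω) :
    ∃ ε : ℝ, 0 < ε ∧ InjOn coset {g | ∃ ω ∈ Ω, ∃ h : SL n, Near h ε ∧ g = ω * h} := by
  obtain ⟨t, hto, hΩt, ht⟩ := hinj.exists_isOpen_superset hΩ
    (fun g _ => (isOpenQuotientMap_mk n).continuous.continuousAt) fun g _ => by
      obtain ⟨V, hVo, hg, hV⟩ := exists_open_inj_Lift g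
      exact ⟨V, hVo.mem_nhds hg, hV⟩
  obtain ⟨U, hU, hUt⟩ := compact_open_separated_mul_right hΩ hto hΩt
  obtain ⟨ε, hε, hεU⟩ := exists_near_subset hU
  refine ⟨ε, hε, ht.mono ?_⟩
  rintro _ ⟨ω, hω, h, hh, rfl⟩
  exact hUt (mul_mem_mul hω (hεU h hh))

end Vale.Agent.P007
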