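import Vale.Agent.P007.E.LowLim
import Vale.Agent.P007.E.Arith

/-!
P007 E, task Low: assembly of the low entropy method.
Take `X'` from `peelL`, the a.e. set of `stab` together with `ν ≠ Leb`, and a compact
`K` inside (`lusin_vague`) with `μ Kᶜ` so small that `K2` from `exists_good` (`N = Kᶜ`,
`ε = 10⁻¹`) has `μ K2ᶜ < 1/400`; `D` from `nonconc` with `μ Dᶜ < 1/400`; then
`μ (freqGood β (K2 ∩ D) (1/100))ᶜ ≤ 1/2` (`freqGood_compl_le`). Let `c` be a third index,
`a' = diagA u` with `u a = u b = 1`, `u c = -2`, else `0`. `G` = that set intersected with a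
measurable conull set where `scale_iter` holds, `NoHypPt` holds, and
`ν (act x (a'^k)) = ν x` for all `k` (`eq_of_scale_one`, `exists_inv_conull`). `μ G > 0`, so
`recur` gives `x ∈ G` with `act x (a'^φ m) ∈ G` tending to `x`; `exists_lift` gives `g m → 1`;
`low_pair` gives `kap (g m) = 0` for large `m`, so `s = a'^φ m * (g m)⁻¹` fixes `x` and commutes
with `single a b 1` (`commute_of_kap_eq_zero`); `stab_commute` gives `a'^φ m = c • g m` with
`|c| = 1`; the entry `(a,a)` is `exp (φ m) ≥ e` on the left (for `m ≥ 1`), near `1` on the right.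
-/

open Matrix MeasureTheory ProbabilityTheory Set Filter Topology
open scoped ENNReal

namespace Vale.Agent.P007

variable {n : ℕ}

lemma low_third (h3 : 3 ≤ n) (a b : Fin n) : ∃ c : Fin n, c ≠ a ∧ c ≠ b := by
  by_contra h
  push Not at h
  have hsub : (Finset.univ : Finset (Fin n)) ⊆ {a, b} := by
    intro c _
    by_cases hc : c = a
    · simp [hc]
    · simp [h c hc]
  have h1 := Finset.card_le_card hsub
  have h2 : ({a, b} : Finset (Fin n)).card ≤ 2 := Finset.card_le_two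
  rw [Finset.card_univ, Fintype.card_fin] at h1
  omega

lemma low_diag_comm {a b : Fin n} (u : Fin n → ℝ) (hu : ∑ p, u p = 0) (h : u a = u b) :
    Commute (mat (diagA u hu)) (single a b (1 : ℝ)) := by
  show mat (diagA u hu) * single a b (1 : ℝ) = single a b (1 : ℝ) * mat (diagA u hu)
  ext p q
  rw [shr_left, shr_right, mat_diagA]
  by_cases hp : p = a
  · by_cases hq : q = b
    · subst hp
      subst hq
      simp [h]
    · simp [hp, hq, diagonal_apply_ne _ (Ne.symm hq)]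
  · by_cases hq : q = b
    · simp [hp, hq]
    · simp [hp, hq]

lemma low_inv_comm {g : SL n} {E : Matrix (Fin n) (Fin n) ℝ} (h : Commute (mat g) E) :
    Commute (mat g⁻¹) E := by
  show mat g⁻¹ * E = E * mat g⁻¹
  calc mat g⁻¹ * E = mat g⁻¹ * E * (mat g * mat g⁻¹) := by rw [mat_mul_inv, mul_one]
    _ = mat g⁻¹ * (E * mat g) * mat g⁻¹ := by simp only [mul_assoc]
    _ = mat g⁻¹ * (mat g * E) * mat g⁻¹ := by rw [h.eq]
    _ = (mat g⁻¹ * mat g) * E * mat g⁻¹ := by simp only [mul_assoc]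
    _ = E * mat g⁻¹ := by rw [mat_inv_mul, one_mul]

/-- The final contradiction. -/
lemma low_end (hn : n.Prime) {x : X n} (hx : NoHypPt x) {a b : Fin n} (hab : a ≠ b)
    (u : Fin n → ℝ) (hu : ∑ p, u p = 0) (ha : u a = 1) (hb : u b = 1) {k : ℕ} (hk : 1 ≤ k)
    {g : SL n} (hg : act x (diagA u hu ^ k) = act x g) (hnear : Near g (1 / 2))
    (hkap : kap a b g = 0) : False := by
  have hs : act x (diagA u hu ^ k * g⁻¹) = x := by
    rw [← act_mul, hg, act_mul, mul_inv_cancel, act_one]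
  have hc : Commute (mat (diagA u hu ^ k * g⁻¹)) (single a b (1 : ℝ)) := by
    rw [mat_mul]
    refine Commute.mul_left ?_ (low_inv_comm (commute_of_kap_eq_zero hab hkap))
    rw [diagA_pow]
    exact low_diag_comm _ _ (by simp only [ha, hb])
  obtain ⟨c, hc1, hc2⟩ := stab_commute hn hx hab hs hc
  have e1 : mat (diagA u hu ^ k) = c • mat g := by
    calc mat (diagA u hu ^ k) = mat (diagA u hu ^ k * g⁻¹ * g) := by
          rw [inv_mul_cancel_right]
      _ = c • mat g := by rw [mat_mul, hc2, smul_mul_assoc, one_mul]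
  have e2 : Real.exp k = c * mat g a a := by
    have := congrFun (congrFun e1 a) a
    rw [diagA_pow, mat_diagA, diagonal_apply_eq, ha, mul_one] at this
    exact this
  have h1 := hnear a a
  rw [one_apply_eq] at h1
  have h2 : |mat g a a| ≤ 3 / 2 := by
    have := abs_le.mp h1
    rw [abs_le]
    constructor <;> linarith [this.1, this.2]
  have h3 : Real.exp k ≤ 3 / 2 := by
    calc Real.exp k ≤ |c * mat g a a| := by rw [e2]; exact le_abs_self _
      _ = |mat g a a| := by rw [abs_mul, hc1, one_mul]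
      _ ≤ 3 / 2 := h2
  have h4 : (k : ℝ) + 1 ≤ Real.exp k := Real.add_one_le_exp _
  have h5 : (1 : ℝ) ≤ k := by exact_mod_cast hk
  linarith

lemma low_num {C m1 m2 : ℝ≥0∞} (hC : C ≠ ∞) (h1 : m1 < (4000 * (C + 1))⁻¹)
    (h2 : 10⁻¹ * m2 ≤ C * m1) : m2 ≤ 400⁻¹ := by
  have h3 : C * m1 ≤ 4000⁻¹ := by
    calc C * m1 ≤ (C + 1) * (4000 * (C + 1))⁻¹ := by
          gcongr
          exact le_self_add
      _ = 4000⁻¹ := by
          rw [ENNReal.mul_inv (by simp) (by simp), mul_left_comm,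
            ENNReal.mul_inv_cancel (by simp) (by simp [hC]), mul_one]
  have h4 : (10 : ℝ≥0∞) * (10⁻¹ * m2) ≤ 10 * 4000⁻¹ := by
    gcongr
    exact h2.trans h3
  rw [← mul_assoc, ENNReal.mul_inv_cancel (by simp) (by simp), one_mul] at h4
  refine h4.trans (le_of_eq ?_)
  have : (4000 : ℝ≥0∞) = 10 * 400 := by norm_num
  rw [this, ENNReal.mul_inv (by simp) (by simp), ← mul_assoc,
    ENNReal.mul_inv_cancel (by simp) (by simp), one_mul]

lemma low_num2 : ¬ ENNReal.ofReal (1 / 100) ≤ (400⁻¹ + 400⁻¹ : ℝ≥0∞) := by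
  intro h
  have h1 := ENNReal.toReal_mono (by simp) h
  rw [ENNReal.toReal_ofReal (by norm_num), ENNReal.toReal_add (by simp) (by simp)] at h1
  simp only [ENNReal.toReal_inv, ENNReal.toReal_ofNat] at h1
  norm_num at h1

theorem low (hn : n.Prime) (h3 : 3 ≤ n) {μ : Measure (X n)} [IsProbabilityMeasure μ]
    (hA : AInv μ) (hN : ∀ᵐ x ∂μ, NoHypPt x) {a b : Fin n} (hab : a ≠ b) (L : Leaf μ a b)
    (hT : ∀ p, p ≠ a → p ≠ b → Triv μ p b ∧ Triv μ a p)
    (hnt : ∀ᵐ x ∂μ, L.ν x ≠ Measure.dirac 0) (hnl : ∀ᵐ x ∂μ, L.ν x ≠ Leb) : False := by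
  obtain ⟨X', hX'm, hX'0, hX'⟩ := peelL hA hab hT
  have hst : ∀ᵐ x ∂μ, ∀ r : ℝ, r ≠ 0 → ¬ Prp (L.ν x) ((L.ν x).map fun t => t - r) := by
    filter_upwards [L.toLeaf0.stab hab hA, hnl] with x h1 h2 r hr hp
    exact h2 (h1 r hr hp)
  obtain ⟨S0, hS0sub, hS0m, hS00⟩ := exists_measurable_superset_of_null (ae_iff.mp hst)
  have hSm : MeasurableSet (X' ∩ S0ᶜ ∩ L.X1) := (hX'm.inter hS0m.compl).inter L.meas
  have hSc : μ (X' ∩ S0ᶜ ∩ L.X1)ᶜ = 0 :=
    peel_inter (peel_inter hX'0 (by rwa [compl_compl])) L.conull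
  have _ := L.sfin
  have hε0 : (4000 * (L.C + 1))⁻¹ ≠ 0 := by
    rw [ENNReal.inv_ne_zero]
    exact ENNReal.mul_ne_top (by simp) (by simp [L.hC])
  obtain ⟨K, hK, hKS, hKμ, hV⟩ := lusin_vague L.ν hSm hSc (fun x hx => L.fin x hx.2) hε0
  obtain ⟨K2, hK2m, -, hK2μ, hK2⟩ := L.exists_good (N := Kᶜ) hK.measurableSet.compl
    (ε := 10⁻¹) (by simp) (by simp)
  have hK2' : μ K2ᶜ ≤ 400⁻¹ := low_num L.hC hKμ hK2μ
  obtain ⟨ρ, hρ0, hρ1, D, hDm, -, hDμ, hD⟩ := L.toLeaf0.nonconc hab hA hnt (ε := 400⁻¹) (by simp)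
  have hβ : MeasurePreserving (fun x : X n => act x (bet a b)) μ μ :=
    (hA.hinv (wab a b) (wab_sum a b)).mp
  have hFm : MeasurableSet (freqGood (fun x : X n => act x (bet a b)) (K2 ∩ D) (1 / 100)) :=
    measurableSet_freqGood hβ.measurable (hK2m.inter hDm) _
  have hF0 : μ (freqGood (fun x : X n => act x (bet a b)) (K2 ∩ D) (1 / 100)) ≠ 0 := by
    intro h0
    have h1 := freqGood_compl_le hβ (hK2m.inter hDm) (ε := 1 / 100) (by norm_num)
    rw [(prob_compl_eq_one_iff hFm).mpr h0, mul_one, compl_inter] at h1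
    exact low_num2 (h1.trans ((measure_union_le _ _).trans (add_le_add hK2' hDμ.le)))
  obtain ⟨c, hca, hcb⟩ := low_third h3 a b
  let u : Fin n → ℝ := Pi.single a 1 + Pi.single b 1 - Pi.single c 2
  have hu : ∑ p, u p = 0 := by
    simp only [u, Pi.sub_apply, Pi.add_apply, Finset.sum_sub_distrib, Finset.sum_add_distrib,
      Finset.sum_pi_single', Finset.mem_univ, if_true]
    norm_num
  have hua : u a = 1 := by simp [u, hab, hca.symm]
  have hub : u b = 1 := by simp [u, hab.symm, hcb.symm]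
  have hα : MeasurePreserving (fun x : X n => act x (diagA u hu)) μ μ := (hA.hinv u hu).mp
  obtain ⟨S1, hS1m, hS10, hS1⟩ := exists_inv_conull hα
    (L.toLeaf0.eq_of_scale_one hA u hu (hua.trans hub.symm))
  have hν : ∀ x ∈ S1, ∀ k : ℕ, L.ν (act x (diagA u hu ^ k)) = L.ν x := by
    intro x hx k
    induction k with
    | zero => rw [pow_zero, act_one]
    | succ k ih =>
      have h1 := (hS1 x hx k).2
      rw [iterate_act] at h1
      rw [pow_succ, ← act_mul, h1, ih]
  obtain ⟨S2, hS2sub, hS2m, hS20⟩ := exists_measurable_superset_of_null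
    (ae_iff.mp ((L.toLeaf0.scale_iter hA (wab a b) (wab_sum a b)).and hN))
  set G : Set (X n) :=
    freqGood (fun x : X n => act x (bet a b)) (K2 ∩ D) (1 / 100) ∩ (S1 ∩ S2ᶜ) with hG
  have hGm : MeasurableSet G := hFm.inter (hS1m.inter hS2m.compl)
  have hG0 : μ G ≠ 0 := by
    have h1 : μ (S1 ∩ S2ᶜ)ᶜ = 0 := peel_inter hS10 (by rwa [compl_compl])
    rw [hG, measure_inter_conull h1]
    exact hF0
  have hG2 : ∀ x ∈ G, (∀ k : ℕ, act x (bet a b ^ k) ∈ L.X1 ∧ Prp (L.ν (act x (bet a b ^ k)))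
      ((L.ν x).map fun t => t * Real.exp (k * (wab a b b - wab a b a)))) ∧ NoHypPt x := by
    intro x hx
    by_contra h
    exact hx.2.2 (hS2sub h)
  obtain ⟨ε, hε, hpair⟩ := low_pair hab L.toLeaf0 (K2 := K2) (D := D) (G := G) hK
    (fun x hx => (hKS hx).2) hV
    (fun x hx h hh => hX' x (hKS hx).1.1 h (hKS hh).1.1)
    (fun x hx => by
      by_contra h
      exact (hKS hx).1.2 (hS0sub h))
    hK2 hρ0 hρ1 hD inter_subset_left (fun x hx => (hG2 x hx).1)
  obtain ⟨x, hxG, hx⟩ := Measure.exists_mem_of_measure_ne_zero_of_ae hG0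
    (ae_restrict_of_ae (recur hα hGm))
  obtain ⟨φ, hφ, hφG, hlim⟩ := hx hxG
  obtain ⟨g, hg1, hg⟩ := exists_lift hlim
  have hev : ∀ᶠ m in atTop, Near (g m) ε ∧ Near (g m) (1 / 2) ∧ 1 ≤ m :=
    (hg1.eventually (near_mem_nhds hε)).and
      ((hg1.eventually (near_mem_nhds (by norm_num))).and (eventually_ge_atTop 1))
  obtain ⟨m, hm1, hm2, hm3⟩ := hev.exists
  have e : act x (diagA u hu ^ φ m) = act x (g m) := by
    rw [← hg m, iterate_act]
  have hkap : kap a b (g m) = 0 := by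
    refine hpair x hxG (g m) ?_ hm1 ?_
    · rw [← hg m]
      exact hφG m
    · rw [← e]
      exact hν x hxG.2.1 _
  exact low_end hn (hG2 x hxG).2 hab u hu hua hub (hm3.trans hφ.le_apply) e hm2 hkap

end Vale.Agent.P007
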