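import Vale.Agent.P007.E.UpUniq

/-!
P007 E, task LowPick: choice of the time `m` and of the shear parameter `t`.
`pick_time`: let `M = ⌊(1/2) log (1/κ 0)⌋ ≥ 20`, `R m = exp (2 m) / κ m`, `k m = ⌊(1/2) log (R m)⌋`.
For `m ≤ M`: `κ m ≤ exp m * κ 0 ≤ √(κ 0) ≤ 1`, `1 ≤ R m ≤ exp (2m) / κ 0` so `k m ≤ 2 M + 1`;
`R (m+2) ≥ exp 2 * R m`, so `m' ↦ k (2 m')` is injective. Among the `m' < M/2` (at least
`(M-1)/2` values) the bad ones number at most `M/100 + M/100 + (2M+2)/100`.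
`pick_param`: write `ν1 = c • ν2.map (· * lam)`. The sets `Ioo (-R) R` and
`{|t/R| < ρ}`, `{|t/R - s0| < ρ}` pull back to `Ioo (-R') R'`, `R' = R / lam ∈ [1, 8)`, and to
intervals of radius `ρ R' ≤ ρ'`; each bad set has at most `1/10` of the mass of `Ioo (-R) R`
(`ν2 (Ioo (-R') R') ≥ 1`), and that mass is positive and finite.
-/

open Matrix MeasureTheory ProbabilityTheory Set Filter Topology
open scoped ENNReal

namespace Vale.Agent.P007

open Classical in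
lemma lpk_card (B : ℕ → Prop) {f : ℕ → ℕ} (hf : StrictMono f) {J N : ℕ} (h : ∀ j < J, f j < N) :
    ((Finset.range J).filter fun j => B (f j)).card ≤ ((Finset.range N).filter B).card := by
  refine Finset.card_le_card_of_injOn f (fun j hj => ?_) hf.injective.injOn
  simp only [Finset.coe_filter, Finset.mem_range, mem_ofPred_eq] at hj ⊢
  exact ⟨h j hj.1, hj.2⟩

open Classical in
theorem pick_time {κ : ℕ → ℝ} (hpos : 0 < κ 0) (hmono : ∀ m, κ m ≤ κ (m + 1))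
    (hle : ∀ m, κ (m + 1) ≤ Real.exp 1 * κ m) (hsmall : κ 0 ≤ Real.exp (-40))
    {B1 B2 B3 : ℕ → Prop}
    (h1 : ∀ N : ℕ, (((Finset.range N).filter B1).card : ℝ) ≤ 1 / 100 * N)
    (h2 : ∀ N : ℕ, (((Finset.range N).filter B2).card : ℝ) ≤ 1 / 100 * N)
    (h3 : ∀ N : ℕ, (((Finset.range N).filter B3).card : ℝ) ≤ 1 / 100 * N) :
    ∃ m k : ℕ, ¬ B1 m ∧ ¬ B2 m ∧ ¬ B3 k ∧ κ m ≤ √(κ 0) ∧
      1 ≤ Real.exp (2 * m - 2 * k) / κ m ∧ Real.exp (2 * m - 2 * k) / κ m < 8 := by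
  have p0 : ∀ m, κ 0 ≤ κ m := fun m => monotone_nat_of_le_succ hmono (Nat.zero_le m)
  have p1 : ∀ m, 0 < κ m := fun m => hpos.trans_le (p0 m)
  have p2 : ∀ m, Real.log (κ (m + 1)) ≤ 1 + Real.log (κ m) := fun m => by
    have := Real.log_le_log (p1 _) (hle m)
    rwa [Real.log_mul (Real.exp_pos 1).ne' (p1 m).ne', Real.log_exp] at this
  have p3 : ∀ m : ℕ, Real.log (κ m) ≤ m + Real.log (κ 0) := fun m => by
    induction m with
    | zero => simp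
    | succ m ih =>
      push_cast
      linarith [p2 m]
  have p4 : Real.log (κ 0) ≤ -40 := by
    simpa using Real.log_le_log hpos hsmall
  obtain ⟨M, hM⟩ : ∃ M, M = ⌊-Real.log (κ 0) / 2⌋₊ := ⟨_, rfl⟩
  have m1 : (M : ℝ) ≤ -Real.log (κ 0) / 2 := hM ▸ Nat.floor_le (by linarith)
  have m2 : -Real.log (κ 0) / 2 < M + 1 := hM ▸ Nat.lt_floor_add_one _
  obtain ⟨x, hx⟩ : ∃ x : ℕ → ℝ, ∀ m, x m = m - Real.log (κ m) / 2 := ⟨_, fun _ => rfl⟩
  have x0 : ∀ m, 0 ≤ x m := fun m => by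
    rw [hx]
    linarith [p3 m, (Nat.cast_nonneg m : (0 : ℝ) ≤ m)]
  have x1 : StrictMono fun j => ⌊x (2 * j)⌋₊ := strictMono_nat_of_lt_succ fun j => by
    refine Nat.lt_of_succ_le (Nat.le_floor ?_)
    have k1 := p2 (2 * j)
    have k2 := p2 (2 * j + 1)
    have k3 := Nat.floor_le (x0 (2 * j))
    rw [show 2 * (j + 1) = 2 * j + 1 + 1 by ring, hx (2 * j + 1 + 1)]
    rw [hx] at k3 ⊢
    push_cast at k3 ⊢
    linarith
  have x2 : ∀ j < M / 2 + 1, ⌊x (2 * j)⌋₊ < 2 * M + 1 := fun j hj => by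
    refine (Nat.floor_lt (x0 _)).2 ?_
    have k1 : ((2 * j : ℕ) : ℝ) ≤ M := by exact_mod_cast (by omega : 2 * j ≤ M)
    have k2 := Real.log_le_log hpos (p0 (2 * j))
    rw [hx]
    push_cast at k1 ⊢
    linarith
  have x3 : StrictMono fun j : ℕ => 2 * j := fun i j h => by
    change 2 * i < 2 * j
    omega
  have key : ∃ j < M / 2 + 1, ¬ B1 (2 * j) ∧ ¬ B2 (2 * j) ∧ ¬ B3 ⌊x (2 * j)⌋₊ := by
    by_contra hc
    have k0 : Finset.range (M / 2 + 1) ⊆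
        ((Finset.range (M / 2 + 1)).filter fun j => B1 (2 * j)) ∪
          ((Finset.range (M / 2 + 1)).filter fun j => B2 (2 * j)) ∪
          (Finset.range (M / 2 + 1)).filter fun j => B3 ⌊x (2 * j)⌋₊ := fun j hj => by
      simp only [Finset.mem_union, Finset.mem_filter, hj, true_and]
      by_contra h
      push Not at h
      exact hc ⟨j, Finset.mem_range.1 hj, h.1.1, h.1.2, h.2⟩
    have k1 := (Finset.card_le_card k0).trans ((Finset.card_union_le _ _).trans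
      (add_le_add ((Finset.card_union_le _ _).trans (add_le_add
        (lpk_card B1 x3 (N := M + 1) fun j hj => by omega)
        (lpk_card B2 x3 (N := M + 1) fun j hj => by omega))) (lpk_card B3 x1 x2)))
    rw [Finset.card_range] at k1
    have k2 : ((M + 1 : ℕ) : ℝ) ≤ 2 * ((M / 2 + 1 : ℕ) : ℝ) := by
      exact_mod_cast (by omega : M + 1 ≤ 2 * (M / 2 + 1))
    have k3 := (Nat.cast_le (α := ℝ)).2 k1
    have k4 := h1 (M + 1)
    have k5 := h2 (M + 1)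
    have k6 := h3 (2 * M + 1)
    rw [Nat.cast_add, Nat.cast_add, Nat.cast_add] at k3
    push_cast at k2 k3 k4 k5 k6
    linarith [(Nat.cast_nonneg M : (0 : ℝ) ≤ M)]
  obtain ⟨j, hj, b1, b2, b3⟩ := key
  have e : Real.exp (2 * ((2 * j : ℕ) : ℝ) - 2 * (⌊x (2 * j)⌋₊ : ℝ)) / κ (2 * j) =
      Real.exp (2 * (x (2 * j) - ⌊x (2 * j)⌋₊)) := by
    rw [← Real.exp_log (p1 (2 * j)), ← Real.exp_sub]
    refine congrArg _ ?_
    have := hx (2 * j)
    linarith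
  refine ⟨2 * j, _, b1, b2, b3, ?_, ?_, ?_⟩
  · have k1 : ((2 * j : ℕ) : ℝ) ≤ M := by exact_mod_cast (by omega : 2 * j ≤ M)
    refine (Real.log_le_log_iff (p1 _) (Real.sqrt_pos.2 hpos)).1 ?_
    rw [Real.log_sqrt hpos.le]
    linarith [p3 (2 * j)]
  · rw [e]
    exact Real.one_le_exp (by linarith [Nat.floor_le (x0 (2 * j))])
  · rw [e]
    refine (Real.exp_le_exp.2 (show _ ≤ 1 + 1 by
      linarith [Nat.lt_floor_add_one (x (2 * j))])).trans_lt ?_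
    rw [Real.exp_add]
    nlinarith [Real.exp_one_lt_d9, Real.exp_pos 1]

theorem pick_param {ν1 ν2 : Measure ℝ} {lam R ρ ρ' s0 : ℝ} (hlam : 0 < lam) (hR : 0 < R)
    (hP : Prp ν1 (ν2.map fun t => t * lam)) (h1 : 1 ≤ R / lam) (h8 : R / lam < 8)
    (hρ : 8 * ρ ≤ ρ') (hn : ν2 (Ioo (-1) 1) = 1) (hfin : ν2 (Ioo (-8) 8) ≠ ∞)
    (hD : ∀ c : ℝ, ν2 (Ioo (c - ρ') (c + ρ') ∩ Ioo (-8) 8) ≤ 10⁻¹) {N1 N2 : Set ℝ}
    (hN1 : ν1 {t | t ∈ Ioo (-R) R ∧ t ∈ N1} ≤ 10⁻¹ * ν1 (Ioo (-R) R))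
    (hN2 : ν1 {t | t ∈ Ioo (-R) R ∧ t ∈ N2} ≤ 10⁻¹ * ν1 (Ioo (-R) R)) :
    ∃ t ∈ Ioo (-R) R, t ∉ N1 ∧ t ∉ N2 ∧ ρ ≤ |t / R| ∧ ρ ≤ |t / R - s0| := by
  obtain ⟨c, c0, c1, hc⟩ := hP
  have hm : ∀ S : Set ℝ, MeasurableSet S → ν1 ((fun t => t / lam) ⁻¹' S) = c * ν2 S := fun S hS => by
    rw [hc, Measure.smul_apply, smul_eq_mul, Measure.map_apply (measurable_mul_const lam)
      (measurable_div_const lam hS), ← preimage_comp]
    refine congrArg (fun T => c * ν2 T) (Set.ext fun t => ?_)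
    simp [hlam.ne']
  have hI : Ioo (-R) R = (fun t => t / lam) ⁻¹' Ioo (-(R / lam)) (R / lam) := by
    ext t
    simp only [mem_Ioo, mem_preimage, ← neg_div, div_lt_div_iff_of_pos_right hlam]
  have a1 : c ≤ ν1 (Ioo (-R) R) := by
    rw [hI, hm _ measurableSet_Ioo]
    exact le_mul_of_one_le_right' (hn ▸ measure_mono (Ioo_subset_Ioo (by linarith) h1))
  have a2 : ν1 (Ioo (-R) R) ≠ ∞ := by
    rw [hI, hm _ measurableSet_Ioo]
    exact ENNReal.mul_ne_top c1 (ne_top_of_le_ne_top hfin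
      (measure_mono (Ioo_subset_Ioo (by linarith) h8.le)))
  have a3 : ∀ s : ℝ, ν1 {t | t ∈ Ioo (-R) R ∧ |t / R - s| < ρ} ≤ 10⁻¹ * ν1 (Ioo (-R) R) :=
    fun s => by
    refine le_trans (measure_mono (t := (fun t => t / lam) ⁻¹'
      (Ioo (s * (R / lam) - ρ') (s * (R / lam) + ρ') ∩ Ioo (-8) 8)) fun t ht => ?_) ?_
    · obtain ⟨k1, k2⟩ := ht
      rw [hI] at k1
      have k3 : |t / lam - s * (R / lam)| < ρ' := by
        rw [show t / lam - s * (R / lam) = (t / R - s) * (R / lam) by field_simp, abs_mul,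
          abs_of_pos (div_pos hR hlam)]
        nlinarith [abs_nonneg (t / R - s)]
      have k4 := abs_lt.1 k3
      exact ⟨⟨by linarith [k4.1], by linarith [k4.2]⟩, by linarith [k1.1], k1.2.trans h8⟩
    · rw [hm _ (measurableSet_Ioo.inter measurableSet_Ioo), mul_comm]
      exact mul_le_mul' (hD _) a1
  by_contra hcon
  have b1 : Ioo (-R) R ⊆ ({t | t ∈ Ioo (-R) R ∧ t ∈ N1} ∪ {t | t ∈ Ioo (-R) R ∧ t ∈ N2}) ∪
      ({t | t ∈ Ioo (-R) R ∧ |t / R - 0| < ρ} ∪ {t | t ∈ Ioo (-R) R ∧ |t / R - s0| < ρ}) :=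
    fun t ht => by
    simp only [mem_union, mem_ofPred_eq, ht, true_and, sub_zero]
    by_contra h
    push Not at h
    exact hcon ⟨t, ht, h.1.1, h.1.2, h.2.1, h.2.2⟩
  have b2 := (measure_mono (μ := ν1) b1).trans ((measure_union_le _ _).trans (add_le_add
    ((measure_union_le _ _).trans (add_le_add hN1 hN2))
    ((measure_union_le _ _).trans (add_le_add (a3 0) (a3 s0)))))
  have b3 : 0 < (ν1 (Ioo (-R) R)).toReal :=
    ENNReal.toReal_pos (fun h => c0 (le_zero_iff.1 (h ▸ a1))) a2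
  have b4 : (10⁻¹ : ℝ≥0∞) * ν1 (Ioo (-R) R) ≠ ∞ := ENNReal.mul_ne_top (by simp) a2
  have b5 := ENNReal.toReal_mono (by simp [b4]) b2
  rw [ENNReal.toReal_add (by simp [b4]) (by simp [b4]), ENNReal.toReal_add b4 b4,
    ENNReal.toReal_mul] at b5
  norm_num at b5
  linarith

end Vale.Agent.P007
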