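import Vale.Agent.P007.E.LeafBasic

/-!
P007 E, task NonAtom: nontrivial leafwise measures have no atoms; uniform non-concentration.
`nonatom0`: `f x = ν x {0} ≤ 1` on `X1`. For `a = diagA u` with `lam = exp (u j - u i) < 1`,
`scale` and `norm` give `f (x a) = ν x {0} / ν x (Ioo (-1/lam) (1/lam)) ≤ f x`, so
`ae_eq_of_le_comp` gives equality a.e.; the same for `a⁻¹` by invariance. Iterating
(`exists_inv_conull`, `scale_iter` for `u` and `-u`): if `f x ≠ 0` then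
`ν x (Ioo (-R) R) = 1` for `R = lam^{±k}`, so `ν x {0} = 1` (continuity from above) and
`ν x univ = 1`: `ν x = dirac 0`.
`nonatom`: by `Leaf0.null`, for a.e. `x` and `ν x`-a.e. `t` the point `act x (uu t)` is in `X1`
and satisfies `nonatom0`; an atom at `t` gives `ν (x uu t) = dirac 0`, so by `shift` `ν x` is
carried by `{t}`, so `t = 0` by `pos`.
`nonconc`: `D l = X1 ∩ {x | ∀ c : ℚ, ν x (Ioo (c - 2/(l+1)) (c + 2/(l+1)) ∩ Ioo (-8) 8) ≤ 1/10}` is
measurable and increasing; a locally finite measure without atoms lies in some `D l`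
(compactness of `Icc (-9) 9` / Lebesgue number); take `ρ = 1/(l+1)`.
-/

open Matrix MeasureTheory ProbabilityTheory Set Filter Topology
open scoped ENNReal

namespace Vale.Agent.P007

variable {n : ℕ}

variable {μ : Measure (X n)} [IsFiniteMeasure μ] {i j : Fin n}

lemma na_key {m m' : Measure ℝ} {s : ℝ} (h : Prp m' (m.map fun t => t * Real.exp s))
    (h1 : m' (Ioo (-1) 1) = 1) :
    m' {0} * m (Ioo (-Real.exp (-s)) (Real.exp (-s))) = m {0} := by
  obtain ⟨c, -, -, rfl⟩ := h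
  have hm : Measurable fun t : ℝ => t * Real.exp s := measurable_id.mul_const _
  have hp := Real.exp_pos s
  have e1 : (fun t : ℝ => t * Real.exp s) ⁻¹' {0} = {0} := by
    ext t
    simp
  have e2 : (fun t : ℝ => t * Real.exp s) ⁻¹' Ioo (-1) 1 =
      Ioo (-Real.exp (-s)) (Real.exp (-s)) := by
    rw [preimage_mul_const_Ioo₀ _ _ hp, Real.exp_neg, neg_div, one_div]
  rw [Measure.smul_apply, Measure.map_apply hm measurableSet_Ioo, e2, smul_eq_mul] at h1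
  rw [Measure.smul_apply, Measure.map_apply hm (measurableSet_singleton 0), e1, smul_eq_mul,
    mul_right_comm, h1, one_mul]

lemma na_dirac {m : Measure ℝ} (h1 : m (Ioo (-1) 1) = 1) (h0 : m {0}ᶜ = 0) :
    m = Measure.dirac 0 := by
  have h2 : ∀ s : Set ℝ, m s = m (s ∩ {0}) := fun s => (measure_inter_conull h0).symm
  have h3 : m {0} = 1 := by
    rw [← h1, h2 (Ioo (-1) 1), inter_eq_right.2 (by simp)]
  refine Measure.ext fun s hs => ?_
  rw [h2, Measure.dirac_apply' _ hs]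
  by_cases h : (0 : ℝ) ∈ s
  · rw [inter_eq_right.2 (singleton_subset_iff.2 h), h3, indicator_of_mem h, Pi.one_apply]
  · rw [inter_singleton_eq_empty.2 h, measure_empty, indicator_of_notMem h]

omit [IsFiniteMeasure μ] in
lemma Leaf0.na_le (L : Leaf0 μ i j) {x : X n} (hx : x ∈ L.X1) : L.ν x {0} ≤ 1 := by
  rw [← L.norm x hx]
  exact measure_mono (by simp)

omit [IsFiniteMeasure μ] in
lemma Leaf0.na_eq (L : Leaf0 μ i j) (hA : AInv μ) (u : Fin n → ℝ) (hu : ∑ p, u p = 0) :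
    ∀ᵐ x ∂μ, L.ν (act x (diagA u hu)) {0} *
      L.ν x (Ioo (-Real.exp (-(u j - u i))) (Real.exp (-(u j - u i)))) = L.ν x {0} := by
  have h1 : ∀ᵐ x ∂μ, x ∈ L.X1 := L.conull
  filter_upwards [L.scale u hu, (hA.hinv u hu).mp.quasiMeasurePreserving.ae h1] with x h2 h3
  exact na_key h2 (L.norm _ h3)

lemma Leaf0.na_inv0 (L : Leaf0 μ i j) (hA : AInv μ) (u : Fin n → ℝ) (hu : ∑ p, u p = 0)
    (h : u j - u i ≤ 0) : ∀ᵐ x ∂μ, L.ν (act x (diagA u hu)) {0} = L.ν x {0} := by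
  have h1 : ∀ᵐ x ∂μ, x ∈ L.X1 := L.conull
  refine ae_eq_of_le_comp (hA.hinv u hu).mp (f := fun x => L.ν x {0})
    (L.ν.measurable_coe (measurableSet_singleton 0)) (h1.mono fun x hx => L.na_le hx) ?_
  filter_upwards [h1, L.na_eq hA u hu] with x h2 h3
  have h4 : 1 ≤ Real.exp (-(u j - u i)) := Real.one_le_exp (by linarith)
  rw [← h3]
  refine le_mul_of_one_le_right' ?_
  rw [← L.norm x h2]
  exact measure_mono (Ioo_subset_Ioo (by linarith) h4)

lemma Leaf0.na_inv (L : Leaf0 μ i j) (hA : AInv μ) (u : Fin n → ℝ) (hu : ∑ p, u p = 0) :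
    ∀ᵐ x ∂μ, L.ν (act x (diagA u hu)) {0} = L.ν x {0} := by
  rcases le_total (u j - u i) 0 with h | h
  · exact L.na_inv0 hA u hu h
  · have h1 := L.na_inv0 hA (-u) (by simp [hu]) (by simp only [Pi.neg_apply]; linarith)
    filter_upwards [(hA.hinv u hu).mp.quasiMeasurePreserving.ae h1] with x hx
    rw [← diagA_inv u hu, act_mul, mul_inv_cancel, act_one] at hx
    exact hx.symm

lemma Leaf0.na_one (L : Leaf0 μ i j) (hij : i ≠ j) (hA : AInv μ) (s : ℝ) :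
    ∀ᵐ x ∂μ, L.ν x {0} ≠ 0 → L.ν x (Ioo (-Real.exp s) (Real.exp s)) = 1 := by
  obtain ⟨u, hu, h⟩ := exists_sum_zero (Pi.single j (-s) : Fin n → ℝ)
  have h1 : -(u j - u i) = s := by
    rw [h, Pi.single_eq_same, Pi.single_eq_of_ne hij, sub_zero, neg_neg]
  have h2 : ∀ᵐ x ∂μ, x ∈ L.X1 := L.conull
  filter_upwards [h2, L.na_eq hA u hu, L.na_inv hA u hu] with x h3 h4 h5 h6
  rw [h5, h1] at h4
  exact (ENNReal.mul_right_inj h6 (ne_top_of_le_ne_top ENNReal.one_ne_top (L.na_le h3))).1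
    (h4.trans (mul_one _).symm)

theorem Leaf0.nonatom0 (L : Leaf0 μ i j) (hij : i ≠ j) (hA : AInv μ) :
    ∀ᵐ x ∂μ, L.ν x {0} ≠ 0 → L.ν x = Measure.dirac 0 := by
  have h2 : ∀ᵐ x ∂μ, x ∈ L.X1 := L.conull
  filter_upwards [h2, ae_all_iff.2 fun k : ℕ => L.na_one hij hA k,
    ae_all_iff.2 fun k : ℕ => L.na_one hij hA (-k)] with x hx h3 h4 h0
  refine na_dirac (L.norm x hx) (measure_mono_null (t := ⋃ k : ℕ,
    Ioo (-Real.exp k) (Real.exp k) \ Ioo (-Real.exp (-k)) (Real.exp (-k))) (fun t ht => ?_)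
    (measure_iUnion_null fun k => ?_))
  · have h5 : 0 < |t| := abs_pos.2 ht
    obtain ⟨k, hk⟩ := exists_nat_gt (max |t| |t|⁻¹)
    have h6 := Real.add_one_le_exp (k : ℝ)
    obtain ⟨h7, h8⟩ := max_lt_iff.1 hk
    refine mem_iUnion.2 ⟨k, abs_lt.1 (by linarith), fun h9 => ?_⟩
    have h10 : |t| < Real.exp (-k) := abs_lt.2 h9
    rw [Real.exp_neg, lt_inv_comm₀ h5 (Real.exp_pos _)] at h10
    linarith
  · have h5 : Real.exp (-k) ≤ Real.exp k :=
      Real.exp_le_exp.2 (by linarith [Nat.cast_nonneg (α := ℝ) k])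
    rw [measure_sdiff (Ioo_subset_Ioo (by linarith) h5) measurableSet_Ioo.nullMeasurableSet
      (L.fin x hx _), h3 k h0, h4 k h0, tsub_self]

theorem Leaf0.nonatom (L : Leaf0 μ i j) (hij : i ≠ j) (hA : AInv μ) :
    ∀ᵐ x ∂μ, L.ν x ≠ Measure.dirac 0 → ∀ t : ℝ, L.ν x {t} = 0 := by
  have h2 : ∀ᵐ x ∂μ, x ∈ L.X1 := L.conull
  filter_upwards [h2, L.null (ae_iff.1 (h2.and (L.nonatom0 hij hA)))] with x hx h3 hne t
  by_contra ht
  have h4 : act x (uu i j t) ∈ L.X1 ∧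
      (L.ν (act x (uu i j t)) {0} ≠ 0 → L.ν (act x (uu i j t)) = Measure.dirac 0) := by
    by_contra h4
    exact ht (measure_mono_null (singleton_subset_iff.2 h4) h3)
  obtain ⟨c, hc, -, e⟩ := L.shift x hx t h4.1
  have hm : Measurable fun r : ℝ => r - t := measurable_id.sub_const t
  have e1 : (fun r : ℝ => r - t) ⁻¹' {0} = {t} := by
    ext r
    simp [sub_eq_zero]
  have h5 : L.ν (act x (uu i j t)) {0} ≠ 0 := by
    rw [e, Measure.smul_apply, Measure.map_apply hm (measurableSet_singleton 0), e1, smul_eq_mul]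
    exact mul_ne_zero hc ht
  have h6 : L.ν (act x (uu i j t)) {0}ᶜ = 0 := by
    rw [h4.2 h5]
    simp
  rw [e, Measure.smul_apply, Measure.map_apply hm (measurableSet_singleton 0).compl,
    preimage_compl, e1, smul_eq_mul] at h6
  have h7 := (mul_eq_zero.1 h6).resolve_left hc
  by_cases h0 : t = 0
  · subst h0
    exact hne (na_dirac (L.norm x hx) h7)
  · refine L.pos x hx |t| (abs_pos.2 h0) (measure_mono_null (t := {t}ᶜ) (fun r hr h8 => ?_) h7)
    rw [mem_singleton_iff.1 h8] at hr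
    exact lt_irrefl _ (abs_lt.2 hr)

lemma na_inv_le (l : ℕ) : 1 / ((l : ℝ) + 1) ≤ 1 :=
  (div_le_one (by positivity)).2 (by linarith [Nat.cast_nonneg (α := ℝ) l])

lemma na_small {m : Measure ℝ} (hf : m (Ioo (-8) 8) ≠ ∞) (h0 : ∀ t, m {t} = 0) :
    ∃ l : ℕ, ∀ c : ℝ,
      m (Ioo (c - 2 * (1 / ((l : ℝ) + 1))) (c + 2 * (1 / ((l : ℝ) + 1))) ∩ Ioo (-8) 8) ≤ 10⁻¹ := by
  have : IsFiniteMeasure (m.restrict (Ioo (-8) 8)) := isFiniteMeasure_restrict.2 hf
  have h1 : ∀ t : ℝ, ∃ U, U ⊇ {t} ∧ IsOpen U ∧ m.restrict (Ioo (-8) 8) U < 10⁻¹ := fun t =>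
    Set.exists_isOpen_lt_of_lt _ _ (((Measure.restrict_apply_le _ _).trans_eq (h0 t)).trans_lt
      (ENNReal.inv_pos.2 (by norm_num)))
  choose U hU1 hU2 hU3 using h1
  obtain ⟨δ, hδ, h2⟩ := lebesgue_number_lemma_of_metric (isCompact_Icc (a := (-10 : ℝ)) (b := 10))
    hU2 fun t _ => mem_iUnion.2 ⟨t, hU1 t rfl⟩
  obtain ⟨l, hl⟩ := exists_nat_one_div_lt (half_pos hδ)
  refine ⟨l, fun c => ?_⟩
  by_cases hc : c ∈ Icc (-10 : ℝ) 10
  · obtain ⟨t, ht⟩ := h2 c hc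
    have h3 := hU3 t
    rw [Measure.restrict_apply (hU2 t).measurableSet] at h3
    refine le_trans (measure_mono (inter_subset_inter_left _ (subset_trans ?_ ht))) h3.le
    rw [Real.ball_eq_Ioo]
    exact Ioo_subset_Ioo (by linarith) (by linarith)
  · have h3 : 1 / ((l : ℝ) + 1) ≤ 1 := na_inv_le l
    refine le_of_eq_of_le (measure_mono_null (t := ∅) (fun r hr => hc ⟨?_, ?_⟩) measure_empty)
      zero_le
    · linarith [hr.1.2, hr.2.1]
    · linarith [hr.1.1, hr.2.2]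

theorem Leaf0.nonconc (L : Leaf0 μ i j) (hij : i ≠ j) (hA : AInv μ)
    (hnt : ∀ᵐ x ∂μ, L.ν x ≠ Measure.dirac 0) {ε : ℝ≥0∞} (hε : ε ≠ 0) :
    ∃ ρ : ℝ, 0 < ρ ∧ ρ ≤ 1 ∧ ∃ D : Set (X n), MeasurableSet D ∧ D ⊆ L.X1 ∧ μ Dᶜ < ε ∧
      ∀ x ∈ D, ∀ c : ℝ, L.ν x (Ioo (c - ρ) (c + ρ) ∩ Ioo (-8) 8) ≤ 10⁻¹ := by
  have h2 : ∀ᵐ x ∂μ, x ∈ L.X1 := L.conull
  let D : ℕ → Set (X n) := fun l => L.X1 ∩ ⋂ c : ℚ, {x | L.ν x
    (Ioo ((c : ℝ) - 2 * (1 / ((l : ℝ) + 1))) (c + 2 * (1 / ((l : ℝ) + 1))) ∩ Ioo (-8) 8) ≤ 10⁻¹}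
  have hm : ∀ l, MeasurableSet (D l) := fun l => L.meas.inter (MeasurableSet.iInter fun c =>
    measurableSet_le (L.ν.measurable_coe (measurableSet_Ioo.inter measurableSet_Ioo))
      measurable_const)
  have hmono : Monotone D := fun l l' h x hx => by
    refine ⟨hx.1, mem_iInter.2 fun c => le_trans (measure_mono (inter_subset_inter_left _ ?_))
      (mem_iInter.1 hx.2 c)⟩
    have h3 : 1 / ((l' : ℝ) + 1) ≤ 1 / ((l : ℝ) + 1) := Nat.one_div_le_one_div h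
    exact Ioo_subset_Ioo (by linarith) (by linarith)
  have h3 : μ (⋂ l, (D l)ᶜ) = 0 := by
    rw [← compl_iUnion]
    refine (?_ : ∀ᵐ x ∂μ, x ∈ ⋃ l, D l)
    filter_upwards [h2, hnt, L.nonatom hij hA] with x hx h4 h5
    obtain ⟨l, hl⟩ := na_small (L.fin x hx 8) (h5 h4)
    exact mem_iUnion.2 ⟨l, hx, mem_iInter.2 fun c => hl c⟩
  have h4 := tendsto_measure_iInter_atTop (μ := μ) (fun l => (hm l).compl.nullMeasurableSet)
    (fun l l' h => compl_subset_compl.2 (hmono h)) ⟨0, measure_ne_top _ _⟩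
  rw [h3] at h4
  obtain ⟨l, hl⟩ := (h4.eventually (gt_mem_nhds (pos_iff_ne_zero.2 hε))).exists
  have h5 : (0 : ℝ) < 1 / ((l : ℝ) + 1) := Nat.one_div_pos_of_nat
  refine ⟨1 / ((l : ℝ) + 1), h5, na_inv_le l, D l, hm l,
    inter_subset_left, hl, fun x hx c => ?_⟩
  obtain ⟨q, h6, h7⟩ := exists_rat_btwn (show c < c + 1 / ((l : ℝ) + 1) by linarith)
  refine le_trans (measure_mono (inter_subset_inter_left _ ?_)) (mem_iInter.1 hx.2 q)
  exact Ioo_subset_Ioo (by linarith) (by linarith)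

end Vale.Agent.P007
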