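import Vale.Agent.P007.E.Stab
import Vale.Agent.P007.E.NonAtom
import Vale.Agent.P007.E.Peel
import Vale.Agent.P007.E.Shear
import Vale.Agent.P007.E.LowPick

/-!
P007 E, task LowLim: the core of the low entropy method.
`low_unif` (compactness): otherwise there are `z m → z`, `h m → h` (`isCompact_near 3`) with
`z, act z h ∈ K`, `h ≠ 1` of the shape of `peelL`, so `h = uu a b r`, `r ≠ 0`; `VCont` and
`ext_of_cc` give `ν (act z h) = ν z`; `shift` gives `Prp (ν z) ((ν z).map (· - r))`, so `ν z = Leb`.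
`low_pair`: `θ = ρ²/5` with `ρ = ρ'/8`, `d` from `low_unif`. Choose `ε ≤ 1` so small that
`2 √ε ≤ exp (-40)`, and `e1 := max ε √(2 √ε)` satisfies `2 e1 ≤ d`, `e1 < ρ²/5`. For `x`,
`y = act x g`: `κ m = kap a b (cj β g m)`, `pick_time` with `B1 m = (x β^m ∉ K2)`,
`B2 m = (y β^m ∉ K2)`, `B3 k = (x β^k ∉ D)` (`iterate_act`, `cntOut`). `x' = x β^m`,
`y' = y β^m = act x' (cj β g m)` (`act_cj`), `ν x' = ν y'` (`Prp.eq_of_norm`),
`Prp (ν x') ((ν (x β^k)).map (· * exp (2k - 2m)))` (the weight gives `u b - u a = -2`).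
`pick_param` with `R = 1/κ m`, `N1 = {t | x' uu t ∉ K}`, `N2 = {t | y' uu t ∉ K}` gives `t`;
`z = x' uu t`, `h = uu (-t) * cj β g m * uu t`, `act z h = y' uu t`, `eq_shift`; `near_cj_bet`,
`shear_upper`, `shear_off` verify the hypotheses of `low_unif`, `shear_lower` with `s = t κ m`
contradicts its conclusion.
-/

open Matrix MeasureTheory ProbabilityTheory Set Filter Topology
open scoped ENNReal

namespace Vale.Agent.P007

variable {n : ℕ}

variable {μ : Measure (X n)} {a b : Fin n}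

lemma low_unif (L : Leaf0 μ a b) {K : Set (X n)} (hK : IsCompact K) (hK1 : K ⊆ L.X1)
    (hV : VCont L.ν K)
    (hP : ∀ x ∈ K, ∀ h : SL n, act x h ∈ K →
      (∀ p q, ¬ (p = a ∧ q ≠ a) → ¬ (q = b ∧ p ≠ b) →
        mat h p q = (1 : Matrix (Fin n) (Fin n) ℝ) p q) → ∃ r : ℝ, h = uu a b r)
    (hS : ∀ x ∈ K, ∀ r : ℝ, r ≠ 0 → ¬ Prp (L.ν x) ((L.ν x).map fun t => t - r))
    {θ : ℝ} (hθ : 0 < θ) :
    ∃ d : ℝ, 0 < d ∧ ∀ z ∈ K, ∀ h : SL n, act z h ∈ K → L.ν (act z h) = L.ν z → Near h 3 →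
      (∀ p q, ¬ (p = a ∧ q ≠ a) → ¬ (q = b ∧ p ≠ b) →
        |mat h p q - (1 : Matrix (Fin n) (Fin n) ℝ) p q| ≤ d) → Near h θ := by
  by_contra hc
  have hc' : ∀ m : ℕ, ∃ z ∈ K, ∃ h : SL n, act z h ∈ K ∧ L.ν (act z h) = L.ν z ∧ Near h 3 ∧
      (∀ p q, ¬ (p = a ∧ q ≠ a) → ¬ (q = b ∧ p ≠ b) →
        |mat h p q - (1 : Matrix (Fin n) (Fin n) ℝ) p q| ≤ 1 / ((m : ℝ) + 1)) ∧ ¬ Near h θ := by
    intro m
    by_contra hm
    refine hc ⟨1 / ((m : ℝ) + 1), by positivity, fun z hz h h1 h2 h3 h4 => ?_⟩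
    by_contra h5
    exact hm ⟨z, hz, h, h1, h2, h3, h4, h5⟩
  choose z hz h h1 h2 h3 h4 h5 using hc'
  obtain ⟨⟨z0, h0⟩, ⟨hz0, -⟩, φ, hφ, hlim⟩ := (hK.prod (isCompact_near (n := n) 3)).tendsto_subseq
    (x := fun m => (z m, h m)) fun m => ⟨hz m, h3 m⟩
  have tz : Tendsto (fun m => z (φ m)) atTop (𝓝 z0) := (continuous_fst.tendsto _).comp hlim
  have th : Tendsto (fun m => h (φ m)) atTop (𝓝 h0) := (continuous_snd.tendsto _).comp hlim
  have ta : Tendsto (fun m => act (z (φ m)) (h (φ m))) atTop (𝓝 (act z0 h0)) := by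
    have := (continuous_act.tendsto (z0, h0)).comp (tz.prodMk_nhds th)
    simpa only [Function.comp_def] using this
  have ha0 : act z0 h0 ∈ K := hK.isClosed.mem_of_tendsto ta (Eventually.of_forall fun m => h1 _)
  obtain ⟨r, hr⟩ := hP z0 hz0 h0 ha0 fun p q hp hq => by
    have t1 := ((tendsto_SL_iff.1 th p q).sub_const ((1 : Matrix (Fin n) (Fin n) ℝ) p q)).abs
    have t2 : Tendsto (fun m => 1 / (((φ m : ℕ) : ℝ) + 1)) atTop (𝓝 0) :=
      tendsto_one_div_add_atTop_nhds_zero_nat.comp hφ.tendsto_atTop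
    have := le_of_tendsto_of_tendsto' t1 t2 fun m => h4 _ p q hp hq
    exact sub_eq_zero.1 (abs_nonpos_iff.1 this)
  have hr0 : r ≠ 0 := by
    rintro rfl
    rw [hr, uu_zero] at th
    obtain ⟨m, hm⟩ := (th.eventually (near_mem_nhds hθ)).exists
    exact h5 _ hm
  have he : L.ν (act z0 h0) = L.ν z0 := by
    refine ext_of_cc (L.fin _ (hK1 ha0)) (L.fin _ (hK1 hz0)) fun ψ hψ hψc => ?_
    have t1 : Tendsto (fun m => ∫ t, ψ t ∂(L.ν (act (z (φ m)) (h (φ m))))) atTop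
        (𝓝 (∫ t, ψ t ∂(L.ν (act z0 h0)))) := ((hV ψ hψ hψc) _ ha0).tendsto.comp
      (tendsto_nhdsWithin_iff.2 ⟨ta, Eventually.of_forall fun m => h1 _⟩)
    have t2 : Tendsto (fun m => ∫ t, ψ t ∂(L.ν (z (φ m)))) atTop (𝓝 (∫ t, ψ t ∂(L.ν z0))) :=
      ((hV ψ hψ hψc) _ hz0).tendsto.comp
        (tendsto_nhdsWithin_iff.2 ⟨tz, Eventually.of_forall fun m => hz _⟩)
    simp only [h2] at t1
    exact tendsto_nhds_unique t1 t2
  refine hS z0 hz0 r hr0 ?_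
  have := L.shift z0 (hK1 hz0) r (hr ▸ hK1 ha0)
  rwa [← hr, he] at this

open Classical in
lemma card_le_LowLim {Y : Type} {T : Y → Y} {S : Set Y} {ε : ℝ} {x : Y} (hx : x ∈ freqGood T S ε)
    {B : ℕ → Prop} (hB : ∀ k, B k → T^[k] x ∉ S) (N : ℕ) :
    (((Finset.range N).filter B).card : ℝ) ≤ ε * N := by
  refine le_trans ?_ (hx N)
  unfold cntOut
  refine Nat.cast_le.2 (Finset.card_le_card fun k hk => ?_)
  simp only [Finset.mem_filter] at hk ⊢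
  exact ⟨hk.1, hB k hk.2⟩

lemma wab_LowLim (hab : a ≠ b) : wab a b b - wab a b a = -2 := by
  simp only [wab, Pi.sub_apply, Pi.single_eq_same, Pi.single_eq_of_ne hab,
    Pi.single_eq_of_ne hab.symm]
  norm_num

theorem low_pair (hab : a ≠ b) (L : Leaf0 μ a b) {K K2 D G : Set (X n)} (hK : IsCompact K)
    (hK1 : K ⊆ L.X1) (hV : VCont L.ν K)
    (hP : ∀ x ∈ K, ∀ h : SL n, act x h ∈ K →
      (∀ p q, ¬ (p = a ∧ q ≠ a) → ¬ (q = b ∧ p ≠ b) →
        mat h p q = (1 : Matrix (Fin n) (Fin n) ℝ) p q) → ∃ r : ℝ, h = uu a b r)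
    (hS : ∀ x ∈ K, ∀ r : ℝ, r ≠ 0 → ¬ Prp (L.ν x) ((L.ν x).map fun t => t - r))
    (hK2 : ∀ x ∈ K2, ∀ R : ℝ, 0 < R →
      L.ν x {t | t ∈ Ioo (-R) R ∧ act x (uu a b t) ∈ Kᶜ} ≤ 10⁻¹ * L.ν x (Ioo (-R) R))
    {ρ' : ℝ} (hρ : 0 < ρ') (hρ1 : ρ' ≤ 1)
    (hD : ∀ x ∈ D, ∀ c : ℝ, L.ν x (Ioo (c - ρ') (c + ρ') ∩ Ioo (-8) 8) ≤ 10⁻¹)
    (hG : G ⊆ freqGood (fun x => act x (bet a b)) (K2 ∩ D) (1 / 100))
    (hGs : ∀ x ∈ G, ∀ k : ℕ, act x (bet a b ^ k) ∈ L.X1 ∧ Prp (L.ν (act x (bet a b ^ k)))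
      ((L.ν x).map fun t => t * Real.exp (k * (wab a b b - wab a b a)))) :
    ∃ ε : ℝ, 0 < ε ∧ ∀ x ∈ G, ∀ g : SL n, act x g ∈ G → Near g ε → L.ν (act x g) = L.ν x →
      kap a b g = 0 := by
  set ρ : ℝ := ρ' / 8 with hρd
  have hρ0 : 0 < ρ := by positivity
  obtain ⟨d, hd, hlow⟩ := low_unif L hK hK1 hV hP hS (θ := ρ ^ 2 / 5) (by positivity)
  obtain ⟨δ, hδ0, hδd, hδρ, hδe⟩ : ∃ δ : ℝ, 0 < δ ∧ δ ≤ d / 2 ∧ δ ≤ ρ ^ 2 / 10 ∧
      δ ≤ Real.exp (-40) :=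
    ⟨min (min (d / 2) (ρ ^ 2 / 10)) (Real.exp (-40)), by positivity,
      (min_le_left _ _).trans (min_le_left _ _), (min_le_left _ _).trans (min_le_right _ _),
      min_le_right _ _⟩
  have hδ1 : δ ≤ 1 := hδe.trans (Real.exp_le_one_iff.2 (by norm_num))
  have hδ2 : δ ^ 2 ≤ δ := by nlinarith
  have hεδ : (δ ^ 2 / 2) ^ 2 ≤ δ := by nlinarith [sq_nonneg δ]
  refine ⟨(δ ^ 2 / 2) ^ 2, by positivity, fun x hx g hy hg hν => ?_⟩
  by_contra hk
  have hk0 : 0 < kap a b (cj (bet a b) g 0) := by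
    rw [cj_zero]
    exact lt_of_le_of_ne (kap_nonneg g) (Ne.symm hk)
  have hk1 : kap a b (cj (bet a b) g 0) ≤ δ ^ 2 := by
    have := kap_le_of_near hab (hεδ.trans hδ1) hg
    rw [Real.sqrt_sq (by positivity)] at this
    rw [cj_zero]
    linarith
  obtain ⟨m, k, hm1, hm2, hm3, hm4, hm5, hm6⟩ :=
    pick_time (κ := fun m => kap a b (cj (bet a b) g m)) hk0 (kap_cj_mono hab g) (kap_cj_le hab g)
      (hk1.trans (hδ2.trans hδe)) (B1 := fun m => act x (bet a b ^ m) ∉ K2)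
      (B2 := fun m => act (act x g) (bet a b ^ m) ∉ K2) (B3 := fun k => act x (bet a b ^ k) ∉ D)
      (card_le_LowLim (hG hx) fun k hB hS => hB (by rw [← iterate_act]; exact hS.1))
      (card_le_LowLim (hG hy) fun k hB hS => hB (by rw [← iterate_act]; exact hS.1))
      (card_le_LowLim (hG hx) fun k hB hS => hB (by rw [← iterate_act]; exact hS.2))
  rw [not_not] at hm1 hm2 hm3
  obtain ⟨hx1, hxP⟩ := hGs x hx m
  obtain ⟨hy1, hyP⟩ := hGs _ hy m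
  obtain ⟨hz1, hzP⟩ := hGs x hx k
  rw [hν] at hyP
  rw [act_cj] at hm2 hy1 hyP
  rw [wab_LowLim hab] at hxP hzP hyP
  have hnear := near_cj_bet hab hg m
  generalize cj (bet a b) g m = g' at hm2 hm4 hm5 hm6 hy1 hyP hnear
  generalize act x (bet a b ^ m) = x' at hm1 hm2 hx1 hy1 hxP hyP
  have hκδ : kap a b g' ≤ δ := hm4.trans (Real.sqrt_le_iff.2 ⟨hδ0.le, hk1⟩)
  have hκ0 : 0 < kap a b g' := by
    refine lt_of_le_of_ne (kap_nonneg g') fun h => ?_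
    rw [← h, div_zero] at hm5
    norm_num at hm5
  have hn : Near g' δ := (hnear (hκδ.trans hδ1)).mono (max_le hεδ hκδ)
  have heq : L.ν (act x' g') = L.ν x' :=
    (hyP.trans hxP.symm).eq_of_norm (L.norm _ hy1) (L.norm _ hx1)
  have hPr : Prp (L.ν x') ((L.ν (act x (bet a b ^ k))).map
      fun t => t * Real.exp (2 * k - 2 * m)) := by
    refine hxP.trans (Prp.symm ?_)
    have h1 := hzP.map fun t => t * Real.exp (2 * k - 2 * m)
    rw [Measure.map_map (by fun_prop) (by fun_prop)] at h1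
    have e : ((fun t : ℝ => t * Real.exp (2 * k - 2 * m)) ∘ fun t => t * Real.exp (k * -2)) =
        fun t => t * Real.exp (m * -2) := by
      funext t
      rw [Function.comp_apply, mul_assoc, ← Real.exp_add]
      congr 2
      ring
    rwa [e] at h1
  have hq : (kap a b g')⁻¹ / Real.exp (2 * k - 2 * m) = Real.exp (2 * m - 2 * k) / kap a b g' := by
    rw [show (2 * m - 2 * k : ℝ) = -(2 * k - 2 * m) by ring, Real.exp_neg]
    field_simp
  obtain ⟨s0, hs0⟩ := shear_lower hab g' hκ0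
  obtain ⟨t, ht, htx, hty, ht1, ht2⟩ := pick_param (ρ := ρ) (s0 := s0) (Real.exp_pos _)
    (inv_pos.2 hκ0) hPr (hq ▸ hm5) (hq ▸ hm6) (by rw [hρd]; linarith) (L.norm _ hz1)
    (L.fin _ hz1 8) (hD _ hm3) (N1 := {t | act x' (uu a b t) ∈ Kᶜ})
    (N2 := {t | act (act x' g') (uu a b t) ∈ Kᶜ}) (hK2 _ hm1 _ (inv_pos.2 hκ0))
    (heq ▸ hK2 _ hm2 _ (inv_pos.2 hκ0))
  have htx' : act x' (uu a b t) ∈ K := not_not.1 htx
  have hty' : act (act x' g') (uu a b t) ∈ K := not_not.1 hty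
  have htk : |t| * kap a b g' ≤ 1 := by
    have := mul_le_mul_of_nonneg_right (abs_lt.2 ht).le hκ0.le
    rwa [inv_mul_cancel₀ hκ0.ne'] at this
  have hact : act (act x' (uu a b t)) (uu a b (-t) * g' * uu a b t) =
      act (act x' g') (uu a b t) := by
    rw [act_mul, act_mul, ← uu_inv, mul_assoc, mul_inv_cancel_left]
  have hθ : Near (uu a b (-t) * g' * uu a b t) (ρ ^ 2 / 5) := by
    refine hlow _ htx' _ (hact ▸ hty') ?_ (fun p q => ?_) fun p q hp hq => ?_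
    · rw [hact]
      exact L.eq_shift hy1 hx1 (hK1 hty') (hK1 htx') heq
    · have h1 := (shear_upper hab g' htk p q).trans (max_le le_rfl (by linarith))
      have h2 := abs_sub_le (mat (uu a b (-t) * g' * uu a b t) p q) (mat g' p q)
        ((1 : Matrix (Fin n) (Fin n) ℝ) p q)
      linarith [hn p q]
    · have h1 := shear_off hab g' htk hp hq
      have h2 := abs_sub_le (mat (uu a b (-t) * g' * uu a b t) p q) (mat g' p q)
        ((1 : Matrix (Fin n) (Fin n) ℝ) p q)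
      linarith [hn p q]
  obtain ⟨p, q, hpq⟩ := hs0 ρ (t / (kap a b g')⁻¹) hρ0
    (by rwa [div_inv_eq_mul, abs_mul, abs_of_pos hκ0]) ht1 ht2
  rw [div_inv_eq_mul, mul_div_cancel_right₀ _ hκ0.ne'] at hpq
  have h2 := abs_sub_le (mat (uu a b (-t) * g' * uu a b t) p q)
    ((1 : Matrix (Fin n) (Fin n) ℝ) p q) (mat g' p q)
  have h3 := hn p q
  rw [abs_sub_comm] at h3
  have h4 : 0 < ρ ^ 2 := by positivity
  linarith [hθ p q]

end Vale.Agent.P007
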