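import Vale.Agent.P007.E.Level
import Vale.Agent.P007.E.Ent

/-!
P007 E, task Part: adapted partitions of finite entropy.
Mesh `m k = ε c 2^{-(2n+1) k}` with `c > 0` depending on `n` only (may assume `ε ≤ 1`). For
`c : Fin n → Fin n → ℤ` let `U k c` be the image under `coset` of the open set
`{g | |g p q| < 2^k, |g p q - c p q * m k| < m k}`. Each `x` lies in some `U (lev x) c` with
`c` in the finite box `B k = {|c p q| ≤ 2^k / m k + 1}` (round the entries of `lev_spec`).
Enumerate the countable type of `c`; let `P x` encode `(lev x, first c ∈ B (lev x) with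
x ∈ U (lev x) c)` (`Nat.find`; fibres are Boolean combinations of measurable sets).
Adapted: `x = coset g`, `y = coset g'` with `|g - g'| < 2 m k`, and `g⁻¹ g' - 1 = g⁻¹ (g' - g)`
(`inv_bound`). Entropy: `ent_gibbs` with `q (k,c) = 2^{-k-1} / card (B k)` on `B k`, and
`log card (B k) ≤ C (k+1)`.
-/

open Matrix MeasureTheory ProbabilityTheory Set Filter Topology
open scoped ENNReal

namespace Vale.Agent.P007

variable {n : ℕ}

theorem part_abs {Y : Type} [MeasurableSpace Y] {μ : Measure Y} [IsProbabilityMeasure μ]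
    {L : Y → ℕ} (hL : Measurable L) (hl : ∫⁻ x, (L x : ℝ≥0∞) ∂μ ≠ ∞) (T : ℕ → Type)
    [∀ k, Fintype (T k)] (U : ∀ k, T k → Set Y) (hU : ∀ k c, MeasurableSet (U k c))
    (hc : ∀ x, ∃ c, x ∈ U (L x) c) {C : ℝ} (hC : ∀ k : ℕ,
      Real.log (Fintype.card (T k)) ≤ C * (k + 1)) :
    ∃ P : Y → ℕ, MFib P ∧ Ent μ P ≠ ∞ ∧
      ∀ x y, P x = P y → ∃ c, x ∈ U (L x) c ∧ y ∈ U (L x) c := by
  classical
  let V : ℕ → ℕ → Set Y := fun k i =>
    ⋃ c : T k, {x | (Fintype.equivFin (T k) c : ℕ) = i} ∩ U k c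
  have hV : ∀ k i, MeasurableSet (V k i) := fun k i =>
    MeasurableSet.iUnion fun c => (MeasurableSet.const _).inter (hU k c)
  have hex : ∀ x, ∃ i, x ∈ V (L x) i := fun x => by
    obtain ⟨c, h⟩ := hc x
    exact ⟨_, mem_iUnion.2 ⟨c, rfl, h⟩⟩
  have hF : Measurable fun x => Nat.find (hex x) := by
    refine measurable_find hex fun i => ?_
    have e : {x | x ∈ V (L x) i} = ⋃ k, L ⁻¹' {k} ∩ V k i := by
      ext x
      simp only [mem_iUnion, mem_inter_iff, mem_preimage, mem_singleton_iff, mem_ofPred_eq]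
      exact ⟨fun h => ⟨_, rfl, h⟩, fun ⟨k, h1, h2⟩ => h1 ▸ h2⟩
    rw [e]
    exact MeasurableSet.iUnion fun k => (hL (measurableSet_singleton k)).inter (hV k i)
  let f : Y → ℕ × ℕ := fun x => (L x, Nat.find (hex x))
  have hf : MFib f := fun a => (hL.prodMk hF) (measurableSet_singleton a)
  have hlt : ∀ x, Nat.find (hex x) < Fintype.card (T (L x)) := fun x => by
    obtain ⟨c, h, -⟩ := mem_iUnion.1 (Nat.find_spec (hex x))
    exact (show _ = _ from h) ▸ (Fintype.equivFin _ c).2
  let q : ℕ × ℕ → ℝ := fun a =>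
    if a.2 < Fintype.card (T a.1) then (1 / 2) ^ (a.1 + 1) / Fintype.card (T a.1) else 0
  have hq : ∀ x, q (f x) = (1 / 2) ^ (L x + 1) / Fintype.card (T (L x)) := fun x =>
    if_pos (hlt x)
  have hN : ∀ x, (0 : ℝ) < Fintype.card (T (L x)) := fun x =>
    Nat.cast_pos.2 (Nat.zero_lt_of_lt (hlt x))
  refine ⟨fun x => Nat.pair (f x).1 (f x).2, hf.post fun a => Nat.pair a.1 a.2, ?_, ?_⟩
  · refine ne_top_of_le_ne_top ?_ ((ent_mono (g := f) (S := univ) (by simp)
      fun x _ y _ h => by rw [h]).trans (ent_gibbs hf q (fun a => ?_)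
        (Eventually.of_forall fun x => ?_) ?_))
    · refine ne_top_of_le_ne_top ?_ (lintegral_mono
        (g := fun x => ENNReal.ofReal (1 + C) * ((L x : ℝ≥0∞) + 1)) fun x => ?_)
      · rw [lintegral_const_mul' _ _ ENNReal.ofReal_ne_top, lintegral_add_right _ measurable_const]
        exact ENNReal.mul_ne_top ENNReal.ofReal_ne_top (ENNReal.add_ne_top.2 ⟨hl, by simp⟩)
      · have e : ((L x : ℝ≥0∞) + 1) = ENNReal.ofReal ((L x : ℝ) + 1) := by
          rw [ENNReal.ofReal_add (Nat.cast_nonneg _) zero_le_one, ENNReal.ofReal_natCast,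
            ENNReal.ofReal_one]
        dsimp only
        rw [e, ← ENNReal.ofReal_mul' (by positivity), hq, Real.log_div (by positivity) (hN x).ne',
          Real.log_pow, one_div, Real.log_inv]
        refine ENNReal.ofReal_le_ofReal ?_
        have h1 := Real.log_le_sub_one_of_pos (two_pos : (0 : ℝ) < 2)
        have h2 := hC (L x)
        have h3 : (0 : ℝ) ≤ L x := Nat.cast_nonneg _
        push_cast
        nlinarith
    · simp only [q]
      split_ifs <;> positivity
    · rw [hq]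
      exact div_pos (by positivity) (hN x)
    · rw [ENNReal.tsum_prod']
      refine le_trans (ENNReal.tsum_le_tsum (g := fun k : ℕ => (2⁻¹ : ℝ≥0∞) ^ (k + 1))
        fun k => ?_) (le_of_eq ?_)
      · rw [tsum_eq_sum (s := Finset.range (Fintype.card (T k)))
          fun i hi => by simp only [q, if_neg (mt Finset.mem_range.2 hi), ENNReal.ofReal_zero],
          Finset.sum_congr rfl (g := fun _ => ENNReal.ofReal ((1 / 2) ^ (k + 1) /
            Fintype.card (T k))) fun i hi => by simp only [q, if_pos (Finset.mem_range.1 hi)],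
          Finset.sum_const, Finset.card_range, nsmul_eq_mul, ← ENNReal.ofReal_natCast,
          ← ENNReal.ofReal_mul (Nat.cast_nonneg _)]
        refine le_trans (ENNReal.ofReal_le_ofReal (q := (1 / 2) ^ (k + 1)) ?_) (le_of_eq ?_)
        · rw [mul_div_left_comm]
          exact mul_le_of_le_one_right (by positivity) (div_self_le_one _)
        · rw [ENNReal.ofReal_pow (by norm_num), one_div, ENNReal.ofReal_inv_of_pos two_pos,
            ENNReal.ofReal_ofNat]
      · rw [ENNReal.tsum_geometric_add_one, ENNReal.one_sub_inv_two, inv_inv,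
          ENNReal.inv_mul_cancel two_ne_zero ENNReal.ofNat_ne_top]
  · intro x y h
    obtain ⟨h1, h2⟩ : L x = L y ∧ Nat.find (hex x) = Nat.find (hex y) := Nat.pair_eq_pair.1 h
    have h3 := Nat.find_spec (hex x)
    have h4 := Nat.find_spec (hex y)
    rw [← h2, ← h1] at h4
    obtain ⟨c, c1, c2⟩ := mem_iUnion.1 h3
    obtain ⟨d, d1, d2⟩ := mem_iUnion.1 h4
    obtain rfl : c = d := (Fintype.equivFin _).injective (Fin.ext ((show _ = _ from c1).trans
      (show _ = _ from d1).symm))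
    exact ⟨c, c2, d2⟩

theorem exists_adapted {μ : Measure (X n)} [IsProbabilityMeasure μ]
    (hl : ∫⁻ x, (lev x : ℝ≥0∞) ∂μ ≠ ∞) {ε : ℝ} (hε : 0 < ε) :
    ∃ P : X n → ℕ, MFib P ∧ Ent μ P ≠ ∞ ∧ Adapted P ε := by
  obtain ⟨M, hM⟩ := exists_nat_gt (8 * n * n.factorial * ((n : ℝ) ^ 2 * n.factorial + 1) / ε)
  have hM0 : (0 : ℝ) < M := lt_of_le_of_lt (by positivity) hM
  have hM1 : (1 : ℝ) ≤ M := by exact_mod_cast Nat.cast_pos.1 hM0
  let N : ℕ → ℕ := fun k => M * 2 ^ ((2 * n + 2) * k)
  have hN : ∀ k, (N k : ℝ) = M * 2 ^ ((2 * n + 2) * k) := fun k => by simp [N]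
  have hN0 : ∀ k, (0 : ℝ) < N k := fun k => by rw [hN]; positivity
  let m : ℕ → ℝ := fun k => 2 * 2 ^ k / N k
  have hm : ∀ k, 0 < m k := fun k => div_pos (by positivity) (hN0 k)
  let W : ∀ k, (Fin n × Fin n → Fin (N k)) → Set (SL n) := fun k c =>
    ⋂ a : Fin n × Fin n, {g | |mat g a.1 a.2| < 2 ^ k} ∩
      {g | |mat g a.1 a.2 + 2 ^ k - (c a : ℕ) * m k| < m k}
  have hW : ∀ k c, IsOpen (W k c) := fun k c => isOpen_iInter_of_finite fun a => by
    have h : Continuous fun g : SL n => mat g a.1 a.2 := continuous_mat.matrix_elem _ _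
    exact (isOpen_lt h.abs continuous_const).inter
      (isOpen_lt ((h.add continuous_const).sub continuous_const).abs continuous_const)
  obtain ⟨P, h1, h2, h3⟩ := part_abs measurable_lev hl (fun k => Fin n × Fin n → Fin (N k))
    (fun k c => coset '' W k c)
    (fun k c => ((isOpenQuotientMap_mk n).isOpenMap _ (hW k c)).measurableSet)
    (fun x => by
      obtain ⟨g, g1, g2⟩ := lev_spec x
      have h0 : ∀ a : Fin n × Fin n, 0 ≤ (mat g a.1 a.2 + 2 ^ lev x) / m (lev x) := fun a =>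
        div_nonneg (by linarith [(abs_lt.1 (g2 a.1 a.2)).1]) (hm _).le
      refine ⟨fun a => ⟨⌊(mat g a.1 a.2 + 2 ^ lev x) / m (lev x)⌋₊, ?_⟩, g,
        mem_iInter.2 fun a => ⟨g2 _ _, ?_⟩, g1⟩
      · rw [Nat.floor_lt (h0 a), div_lt_iff₀ (hm _), mul_div_cancel₀ _ (hN0 _).ne']
        linarith [(abs_lt.1 (g2 a.1 a.2)).2]
      · have k1 := (le_div_iff₀ (hm _)).1 (Nat.floor_le (h0 a))
        have k2 := (div_lt_iff₀ (hm _)).1
          (Nat.lt_floor_add_one ((mat g a.1 a.2 + 2 ^ lev x) / m (lev x)))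
        rw [mem_ofPred_eq, abs_lt]
        constructor <;> linarith [hm (lev x)])
    (C := (n * n : ℕ) * (Real.log M + (2 * n + 2))) (fun k => by
      rw [Fintype.card_fun, Fintype.card_fin, Fintype.card_prod, Fintype.card_fin, Nat.cast_pow,
        Real.log_pow, mul_assoc, hN, Real.log_mul hM0.ne' (by positivity), Real.log_pow]
      refine mul_le_mul_of_nonneg_left ?_ (Nat.cast_nonneg _)
      have k1 := Real.log_le_sub_one_of_pos (two_pos : (0 : ℝ) < 2)
      have k2 := Real.log_nonneg hM1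
      have k3 : (0 : ℝ) ≤ (2 * n + 2) * k := by positivity
      have k4 : (0 : ℝ) ≤ Real.log M * k := by positivity
      have k5 : (0 : ℝ) ≤ n := Nat.cast_nonneg n
      push_cast
      nlinarith)
  refine ⟨P, h1, h2, fun x y h => ?_⟩
  obtain ⟨c, ⟨g, g1, g2⟩, g', g1', rfl⟩ := h3 x y h
  refine ⟨g⁻¹ * g', ?_, fun p q => ?_⟩
  · rw [← g2]
    exact congrArg coset (mul_inv_cancel_left g g').symm
  · have e : mat (g⁻¹ * g') - 1 = mat g⁻¹ * (mat g' - mat g) := by
      rw [mat_mul, Matrix.mul_sub, mat_inv_mul]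
    have k1 := inv_bound (g := g) (R := 2 ^ lev x) (one_le_pow₀ one_le_two)
      fun p q => (mem_iInter.1 g1 (p, q)).1.le
    have k2 : ∀ r, |(mat g' - mat g) r q| ≤ 2 * m (lev x) := fun r => by
      have a1 := abs_lt.1 (mem_ofPred_eq ▸ (mem_iInter.1 g1 (r, q)).2)
      have a2 := abs_lt.1 (mem_ofPred_eq ▸ (mem_iInter.1 g1' (r, q)).2)
      rw [Matrix.sub_apply, abs_le]
      constructor <;> linarith [a1.1, a1.2, a2.1, a2.2]
    rw [← Matrix.sub_apply, e, Matrix.mul_apply]
    refine (Finset.abs_sum_le_sum_abs _ _).trans ((Finset.sum_le_card_nsmul _ _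
      (n.factorial * (2 ^ lev x) ^ n * (2 * m (lev x))) fun r _ => ?_).trans ?_)
    · rw [abs_mul]
      exact mul_le_mul (k1 p r) (k2 r) (abs_nonneg _) (by positivity)
    · rw [Finset.card_univ, Fintype.card_fin, nsmul_eq_mul, rho]
      simp only [m]
      rw [hN, show (2 * n + 2) * lev x = (n + 1) * lev x + (lev x * n + lev x) by ring, pow_add,
        pow_add, pow_mul 2 (lev x) n]
      rw [div_lt_iff₀ hε] at hM
      have hA : 0 < (2 : ℝ) ^ ((n + 1) * lev x) := by positivity
      have hB : 0 < (2 : ℝ) ^ lev x := by positivity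
      generalize (2 : ℝ) ^ ((n + 1) * lev x) = A at hA ⊢
      generalize (2 : ℝ) ^ lev x = B at hB ⊢
      have e2 : n * (n.factorial * B ^ n * (2 * (2 * B / (M * (A * (B ^ n * B)))))) =
          4 * n * n.factorial / (M * A) := by
        field_simp
        norm_num
      rw [e2, mul_one_div, div_le_div_iff₀ (by positivity) (by positivity)]
      nlinarith [mul_le_mul_of_nonneg_right hM.le hA.le]

end Vale.Agent.P007
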