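import Vale.Agent.P007.E.EntA
import Vale.Agent.P007.E.EntB
import Vale.Agent.P007.E.EntC
import Vale.Agent.P007.E.High
import Vale.Agent.P007.E.Low
import Vale.Agent.P007.E.Levi

/-!
P007 E, task Pure: the pure case. Let `R i j := i ≠ j ∧ ¬ Triv μ i j` (by `triv_iff` and purity,
`R i j` means `ν ≠ dirac 0` a.e.; `leb_ne_dirac`; `μ ≠ 0` so a.e. statements are not vacuous).
1. `high`: `R i j`, `R j k`, `i ≠ k` give `ν_{ik} = Leb` a.e., so `R i k` and `UInv μ i k`.
2. `R` is nonempty: else take an injective `u` (`exists_sum_zero` of `p ↦ p`), `entC` gives `P`,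
   `entA` gives `ZeroEnt`.
3. `R` is symmetric (`rel_symm`): `τ p = card {q | q = p ∨ R p q}`; `R p q → τ q ≤ τ p`, strictly if
   `¬ R q p`. So every root with `τ p < τ q` is trivial; `entA` (with `ent_fintype_ne_top`) and
   `entB` (`noHyp_ae`) make every root with `τ q < τ p` trivial.
4. Take `R a b`, `C = {p | p = a ∨ R a p}`. For `i ≠ j` in `C`, `R i j`; roots between `C` and
   `Cᶜ` are trivial. If `C` has a third element every root of `C` is invariant by 1. If
   `C = {a,b}`: for the root `(i,j) = (a,b)` or `(b,a)` the third purity case is excluded by `low`,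
   the first by `R`, so `ν = Leb` a.e. and `uinv_of_leb` applies.
5. `levi` forces `C = univ`.
-/

open Matrix MeasureTheory ProbabilityTheory Set Filter Topology
open scoped ENNReal

namespace Vale.Agent.P007

variable {n : ℕ}

theorem pure_case (hn : n.Prime) (h3 : 3 ≤ n) {μ : Measure (X n)} [IsProbabilityMeasure μ]
    (hA : AInv μ) (hS : S1 μ) (L : ∀ i j : Fin n, i ≠ j → Leaf μ i j)
    (hpure : ∀ i j (h : i ≠ j), (∀ᵐ x ∂μ, (L i j h).ν x = Measure.dirac 0) ∨
      (∀ᵐ x ∂μ, (L i j h).ν x = Leb) ∨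
      ((∀ᵐ x ∂μ, (L i j h).ν x ≠ Measure.dirac 0) ∧ ∀ᵐ x ∂μ, (L i j h).ν x ≠ Leb)) :
    ∀ i j : Fin n, i ≠ j → UInv μ i j := by
  classical
  have hN : ∀ᵐ x ∂μ, NoHypPt x := noHyp_ae (by omega) hA hS
  obtain ⟨R, hR⟩ : ∃ R : Fin n → Fin n → Prop, ∀ i j, R i j ↔ (i ≠ j ∧ ¬ Triv μ i j) :=
    ⟨_, fun _ _ => Iff.rfl⟩
  have hne : ∀ i j, R i j → i ≠ j := fun i j h => ((hR i j).1 h).1
  have htr : ∀ i j, i ≠ j → ¬ R i j → Triv μ i j := by
    intro i j hij h
    by_contra h2
    exact h ((hR i j).2 ⟨hij, h2⟩)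
  have hnd : ∀ i j (h : R i j), ∀ᵐ x ∂μ, (L i j (hne i j h)).ν x ≠ Measure.dirac 0 := by
    intro i j h
    rcases hpure i j (hne i j h) with h1 | h1 | h1
    · exact absurd ((L i j (hne i j h)).toLeaf0.triv_iff.2 h1) ((hR i j).1 h).2
    · filter_upwards [h1] with x hx
      rw [hx]
      exact leb_ne_dirac
    · exact h1.1
  have hhigh : ∀ i j k, R i j → R j k → ∀ h : i ≠ k, ∀ᵐ x ∂μ, (L i k h).ν x = Leb := by
    intro i j k h1 h2 h
    filter_upwards [high hA (hne i j h1) (hne j k h2) h (L i j (hne i j h1)).toLeaf0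
      (L j k (hne j k h2)).toLeaf0 (L i k h).toLeaf0, hnd i j h1, hnd j k h2] with x a b c
    exact a b c
  have htrans : ∀ i j k, R i j → R j k → i ≠ k → R i k := by
    intro i j k h1 h2 h
    refine (hR i k).2 ⟨h, fun ht => ?_⟩
    obtain ⟨x, hx1, hx2⟩ := ((hhigh i j k h1 h2 h).and ((L i k h).toLeaf0.triv_iff.1 ht)).exists
    exact leb_ne_dirac (hx1.symm.trans hx2)
  have hsymm : ∀ a b, R a b → R b a := by
    intro a b hab
    by_contra hba
    let S : Fin n → Finset (Fin n) := fun p => Finset.univ.filter fun q => q = p ∨ R p q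
    have hSm : ∀ p q, q ∈ S p ↔ (q = p ∨ R p q) := fun p q => by simp [S]
    have hsub : ∀ p q, R p q → S q ⊆ S p := by
      intro p q h r hr
      rw [hSm] at hr ⊢
      rcases hr with rfl | hr
      · exact Or.inr h
      · by_cases hrp : r = p
        · exact Or.inl hrp
        · exact Or.inr (htrans p q r h hr (Ne.symm hrp))
    obtain ⟨u, hu, huτ⟩ := exists_sum_zero fun p => ((S p).card : ℝ)
    have hT : ∀ i j, u i < u j → Triv μ i j := by
      intro i j hij
      refine htr i j (fun h => by rw [h] at hij; exact lt_irrefl _ hij) fun h => ?_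
      have h1 : ((S j).card : ℝ) ≤ (S i).card := by exact_mod_cast Finset.card_le_card (hsub i j h)
      have h2 := huτ i j
      linarith
    have hlt : u b < u a := by
      have h1 : (S b).card < (S a).card := by
        refine Finset.card_lt_card ⟨hsub a b hab, fun h => ?_⟩
        rcases (hSm b a).1 (h ((hSm a a).2 (Or.inl rfl))) with h2 | h2
        · exact hne a b hab h2
        · exact hba h2
      have h2 : ((S b).card : ℝ) < (S a).card := by exact_mod_cast h1
      have h3 := huτ a b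
      linarith
    exact ((hR a b).1 hab).2
      (entB hA hN u hu (fun B hB => entA hA hS u hu hT hB (ent_fintype_ne_top hB)) hlt)
  have hex : ∃ a b, R a b := by
    by_contra hno
    obtain ⟨u, hu, huτ⟩ := exists_sum_zero fun p : Fin n => ((p : ℕ) : ℝ)
    have hinj : Function.Injective u := by
      intro p q h
      have h1 := huτ p q
      rw [h, sub_self] at h1
      have h2 : ((p : ℕ) : ℝ) = (q : ℕ) := by linarith
      exact Fin.ext (by exact_mod_cast h2)
    obtain ⟨P, hP, hfin, hz⟩ := entC (by omega) hA hS u hu hinj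
    refine hz (entA hA hS u hu (fun i j hij => ?_) hP hfin)
    exact htr i j (fun h => by rw [h] at hij; exact lt_irrefl _ hij) fun h => hno ⟨i, j, h⟩
  obtain ⟨a, b, hab⟩ := hex
  obtain ⟨C, hC⟩ : ∃ C : Finset (Fin n), ∀ p, p ∈ C ↔ (p = a ∨ R a p) :=
    ⟨Finset.univ.filter fun q => q = a ∨ R a q, fun p => by simp⟩
  have hin : ∀ i ∈ C, ∀ j ∈ C, i ≠ j → R i j := by
    intro i hi j hj hij
    rcases (hC i).1 hi with rfl | h1
    · exact ((hC j).1 hj).resolve_left (Ne.symm hij)
    · rcases (hC j).1 hj with rfl | h2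
      · exact hsymm _ _ h1
      · exact htrans i a j (hsymm _ _ h1) h2 hij
  have hcl : ∀ i ∈ C, ∀ j, R i j → j ∈ C := by
    intro i hi j h
    rw [hC]
    rcases (hC i).1 hi with rfl | h1
    · exact Or.inr h
    · by_cases hja : j = a
      · exact Or.inl hja
      · exact Or.inr (htrans a i j h1 h (Ne.symm hja))
  have hout : ∀ i j, ¬ (i ∈ C ↔ j ∈ C) → Triv μ i j := by
    intro i j h
    refine htr i j (fun hij => h (by rw [hij])) fun hr => h ⟨fun hi => hcl i hi j hr, fun hj => ?_⟩
    exact hcl j hj i (hsymm _ _ hr)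
  have hU : ∀ i ∈ C, ∀ j ∈ C, i ≠ j → UInv μ i j := by
    intro i hi j hj hij
    refine (L i j hij).toLeaf0.uinv_of_leb ?_
    by_cases hk : ∃ k ∈ C, k ≠ i ∧ k ≠ j
    · obtain ⟨k, hk, h1, h2⟩ := hk
      exact hhigh i k j (hin i hi k hk h1.symm) (hin k hk j hj h2) hij
    · rcases hpure i j hij with h1 | h1 | h1
      · exact absurd ((L i j hij).toLeaf0.triv_iff.2 h1) ((hR i j).1 (hin i hi j hj hij)).2
      · exact h1
      · refine (low hn h3 hA hN hij (L i j hij) (fun p h2 h4 => ?_) h1.1 h1.2).elim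
        have hp : p ∉ C := fun hp => hk ⟨p, hp, h2, h4⟩
        exact ⟨hout p j fun h => hp (h.2 hj), hout i p fun h => hp (h.1 hi)⟩
  have hCu : C = Finset.univ := by
    by_contra hCu
    refine levi hn hA hN ?_ hCu hU hout
    exact Finset.one_lt_card.2 ⟨a, (hC a).2 (Or.inl rfl), b, (hC b).2 (Or.inr hab), hne a b hab⟩
  intro i j hij
  exact hU i (by simp [hCu]) j (by simp [hCu]) hij


end Vale.Agent.P007
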