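import Vale.Agent.P007.E.Latt

/-!
P007 E, task Reduce: quantitative Mahler criterion.
Plan (`n ≥ 1`; `n = 0` is trivial). Let `ε = 2^{-k}`.
1. For every nonzero `c : Fin n → ℝ` there is `w ∈ lat x` with `|w j| < T := 2 (n/ε)^(n-1)`
   and `∑ c j * w j ≠ 0`: take `p` with `|c p|` maximal, `minkowski_box` with side `ε/n` at
   `j ≠ p` and `T` at `p`; if the sum vanished then `|w p| < ε`, all entries `< ε`, impossible.
   Hence the lattice vectors bounded by `T` span `ℝ^n`; choose a basis among them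
   (`exists_linearIndependent` / `Basis.ofSpan`): an integer matrix `M` with `det M ≠ 0` and
   all entries of `M * g` bounded by `T`. `|det M| = |det (M g)| ≤ n! T^n` (`Matrix.det_le`).
2. Induction on `m`: if `0 < |det M| ≤ 2^m` and `M g` is bounded by `B` there is an integer
   `M'` with `|det M'| = 1` and `M' g` bounded by `n^m B`. If `|det M| > 1` then `M⁻¹` (over
   `ℚ` or `ℝ`) has a non-integral row `c`; `c' = c - round c` has `|c' q| ≤ 1/2`, `c' p ≠ 0` for
   some `p`, `c' ᵥ* M` is integral; replace row `p` of `M` by it (`det_updateRow_sum`): the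
   determinant is multiplied by `c' p`.
3. Negate a row if `det = -1`. Bound `n^m T ≤ 2^(C (k+1))` with `m` linear in `k`.
-/

open Matrix MeasureTheory ProbabilityTheory Set Filter Topology
open scoped ENNReal

namespace Vale.Agent.P007

variable {n : ℕ}

lemma red_vec (x : X n) {ε δ T : ℝ} (hδ : 0 < δ) (hδ1 : δ ≤ 1) (hε : n * δ ≤ ε)
    (hT : 1 < T * δ ^ n) (h : ∀ w ∈ lat x, w ≠ 0 → ∃ j, ε ≤ |w j|)
    (c : Fin n → ℝ) (hc : c ≠ 0) : ∃ w ∈ lat x, (∀ j, |w j| < T) ∧ ∑ j, w j * c j ≠ 0 := by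
  obtain ⟨i0, hi0⟩ := Function.ne_iff.1 hc
  have hn : 0 < n := Fin.pos i0
  have hn1 : (1 : ℝ) ≤ n := by exact_mod_cast hn
  obtain ⟨p, -, hp⟩ := Finset.exists_max_image Finset.univ (fun j => |c j|)
    ⟨i0, Finset.mem_univ _⟩
  have hcp : 0 < |c p| := lt_of_lt_of_le (abs_pos.2 hi0) (hp i0 (Finset.mem_univ _))
  have hδn : δ ^ n ≤ 1 := pow_le_one₀ hδ.le hδ1
  have hδp : 0 < δ ^ n := pow_pos hδ n
  have hT1 : 1 < T := by
    by_contra hh
    push Not at hh
    nlinarith
  have hprod : 1 < ∏ j, Function.update (fun _ : Fin n => δ) p T j := by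
    rw [Finset.prod_update_of_mem (Finset.mem_univ p), Finset.prod_const]
    have h1 : δ ^ n ≤ δ ^ (Finset.univ \ {p} : Finset (Fin n)).card := by
      apply pow_le_pow_of_le_one hδ.le hδ1
      exact (Finset.card_le_univ _).trans (by simp)
    nlinarith
  obtain ⟨w, hw, hw0, hb⟩ := minkowski_box hn x (Function.update (fun _ : Fin n => δ) p T)
    (fun j => by
      by_cases hj : j = p
      · rw [hj, Function.update_self]
        linarith
      · rw [Function.update_of_ne hj]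
        exact hδ) hprod
  have hb1 : ∀ j, j ≠ p → |w j| < δ := fun j hj => by
    simpa [Function.update_of_ne hj] using hb j
  refine ⟨w, hw, fun j => ?_, fun hs => ?_⟩
  · by_cases hj : j = p
    · simpa [hj] using hb p
    · linarith [hb1 j hj]
  · obtain ⟨j, hj⟩ := h w hw hw0
    by_cases hjp : j = p
    · subst hjp
      rw [← Finset.add_sum_erase _ _ (Finset.mem_univ j)] at hs
      have h1 : |w j * c j| = |∑ i ∈ Finset.univ.erase j, w i * c i| := by
        rw [eq_neg_of_add_eq_zero_left hs, abs_neg]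
      have h2 : |∑ i ∈ Finset.univ.erase j, w i * c i| ≤
          ∑ i ∈ Finset.univ.erase j, δ * |c j| := by
        refine (Finset.abs_sum_le_sum_abs _ _).trans (Finset.sum_le_sum fun i hi => ?_)
        rw [abs_mul]
        exact mul_le_mul (hb1 i (Finset.ne_of_mem_erase hi)).le (hp i (Finset.mem_univ _))
          (abs_nonneg _) hδ.le
      rw [Finset.sum_const, Finset.card_erase_of_mem (Finset.mem_univ _), Finset.card_univ,
        Fintype.card_fin, nsmul_eq_mul, Nat.cast_sub hn, ← h1, abs_mul] at h2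
      have h3 : |w j| ≤ ((n : ℝ) - 1) * δ := by
        refine le_of_mul_le_mul_right ?_ hcp
        simpa [mul_assoc] using h2
      nlinarith
    · have := hb1 j hjp
      nlinarith

lemma red_basis (g : SL n) {ε δ T : ℝ} (hδ : 0 < δ) (hδ1 : δ ≤ 1) (hε : n * δ ≤ ε)
    (hT : 1 < T * δ ^ n) (h : ∀ w ∈ lat (coset g), w ≠ 0 → ∃ j, ε ≤ |w j|) :
    ∃ M : Matrix (Fin n) (Fin n) ℤ, M.det ≠ 0 ∧
      ∀ p q, |(M.map (fun z : ℤ => (z : ℝ)) * mat g) p q| ≤ T := by
  set S : Set (Fin n → ℝ) := {w | w ∈ lat (coset g) ∧ ∀ j, |w j| < T} with hS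
  have hspan : ⊤ ≤ Submodule.span ℝ S := by
    by_contra hh
    have hlt : Submodule.span ℝ S < ⊤ := lt_top_iff_ne_top.2 fun e => hh e.ge
    obtain ⟨f, hf, hker⟩ := Submodule.exists_le_ker_of_lt_top _ hlt
    have hfw : ∀ w : Fin n → ℝ, f w = ∑ j, w j * f (fun i => if j = i then 1 else 0) :=
      fun w => by rw [LinearMap.pi_apply_eq_sum_univ]; rfl
    obtain ⟨w, hw, hb, hs⟩ := red_vec (coset g) hδ hδ1 hε hT h
      (fun j => f (fun i => if j = i then 1 else 0)) (by
        intro h0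
        apply hf
        ext1 j
        refine LinearMap.ext fun t => ?_
        rw [LinearMap.comp_apply, hfw]
        have h1 : ∀ j, f (fun i => if j = i then 1 else 0) = 0 := fun j => congrFun h0 j
        simp [h1])
    apply hs
    rw [← hfw]
    exact hker (Submodule.subset_span ⟨hw, hb⟩)
  let b0 := Module.Basis.ofSpan hspan
  let b := b0.reindex (b0.indexEquiv (Pi.basisFun ℝ (Fin n)))
  have hb : ∀ i, b i ∈ S := fun i => by
    apply Module.Basis.ofSpan_subset hspan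
    simp only [b, Module.Basis.reindex_apply]
    exact mem_range_self _
  have hv : ∀ i, ∃ v : Fin n → ℤ, b i = (fun j => (v j : ℝ)) ᵥ* mat g := fun i => by
    have := (hb i).1
    rwa [lat_coset] at this
  choose v hv using hv
  have hW : (Matrix.of v).map (fun z : ℤ => (z : ℝ)) * mat g = Matrix.of b := by
    ext p q
    rw [Matrix.of_apply, hv p]
    rfl
  refine ⟨Matrix.of v, fun h0 => ?_, fun p q => ?_⟩
  · have hu : IsUnit (Matrix.of b) :=
      Matrix.linearIndependent_rows_iff_isUnit.1 b.linearIndependent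
    have hd := (Matrix.isUnit_iff_isUnit_det _).1 hu
    rw [← hW, det_mul, ← Int.cast_det, h0] at hd
    simp at hd
  · rw [hW]
    exact ((hb p).2 q).le

lemma red_step (G : Matrix (Fin n) (Fin n) ℝ) (M : Matrix (Fin n) (Fin n) ℤ) {B : ℝ}
    (h0 : M.det ≠ 0) (h1 : |M.det| ≠ 1)
    (hB : ∀ p q, |(M.map (fun z : ℤ => (z : ℝ)) * G) p q| ≤ B) :
    ∃ M' : Matrix (Fin n) (Fin n) ℤ, M'.det ≠ 0 ∧ 2 * |M'.det| ≤ |M.det| ∧
      ∀ p q, |(M'.map (fun z : ℤ => (z : ℝ)) * G) p q| ≤ n * B := by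
  set A := M.map (fun z : ℤ => (z : ℝ)) with hA
  have hdA : A.det = (M.det : ℝ) := (Int.cast_det M).symm
  have hA0 : A.det ≠ 0 := by
    rw [hdA]
    exact_mod_cast h0
  have hinv : A⁻¹ * A = 1 := nonsing_inv_mul A (Ne.isUnit hA0)
  have hex : ∃ i p, A⁻¹ i p - round (A⁻¹ i p) ≠ 0 := by
    by_contra hh
    push Not at hh
    apply h1
    let N : Matrix (Fin n) (Fin n) ℤ := Matrix.of fun i p => round (A⁻¹ i p)
    have hN : N.map (fun z : ℤ => (z : ℝ)) = A⁻¹ := by
      ext i p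
      exact (sub_eq_zero.1 (hh i p)).symm
    have h2 : (N.det : ℝ) * (M.det : ℝ) = 1 := by
      rw [Int.cast_det N, hN, ← hdA, ← det_mul, hinv, det_one]
    have h3 : M.det * N.det = 1 := by
      rw [mul_comm]
      exact_mod_cast h2
    exact Int.isUnit_iff_abs_eq.1 (IsUnit.of_mul_eq_one _ h3)
  obtain ⟨i, p, hp⟩ := hex
  have hn1 : (1 : ℝ) ≤ n := by exact_mod_cast Fin.pos i
  have hB0 : 0 ≤ B := (abs_nonneg _).trans (hB i i)
  set c : Fin n → ℝ := fun q => A⁻¹ i q - round (A⁻¹ i q) with hc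
  have hc2 : ∀ q, |c q| ≤ 1 / 2 := fun q => abs_sub_round _
  let z : Fin n → ℤ := fun s => (if i = s then 1 else 0) - ∑ q, round (A⁻¹ i q) * M q s
  have hz : (fun s => (z s : ℝ)) = ∑ q, c q • A q := by
    ext s
    have e1 : ∑ q, A⁻¹ i q * A q s = if i = s then 1 else 0 := by
      rw [← Matrix.mul_apply, hinv, Matrix.one_apply]
    simp only [z, hc, Finset.sum_apply, Pi.smul_apply, smul_eq_mul, sub_mul,
      Finset.sum_sub_distrib, e1]
    push_cast
    rfl
  have hmap : (M.updateRow p z).map (fun z : ℤ => (z : ℝ)) = A.updateRow p (∑ q, c q • A q) := by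
    rw [Matrix.map_updateRow, ← hz]
    rfl
  have hdet : ((M.updateRow p z).det : ℝ) = c p * M.det := by
    rw [Int.cast_det, hmap, det_updateRow_sum, hdA, smul_eq_mul]
  refine ⟨M.updateRow p z, fun h => ?_, ?_, fun r s => ?_⟩
  · rw [h] at hdet
    have : c p * (M.det : ℝ) ≠ 0 := mul_ne_zero hp (by exact_mod_cast h0)
    exact this (by rw [← hdet]; simp)
  · have h2 : (2 : ℝ) * |((M.updateRow p z).det : ℝ)| ≤ |(M.det : ℝ)| := by
      rw [hdet, abs_mul]
      nlinarith [hc2 p, abs_nonneg (M.det : ℝ)]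
    exact_mod_cast h2
  · rw [hmap]
    by_cases hr : r = p
    · subst hr
      have e : (A.updateRow r (∑ q, c q • A q) * G) r s = ∑ q, c q * (A * G) q s := by
        simp only [Matrix.mul_apply, updateRow_self, Finset.sum_apply, Pi.smul_apply,
          smul_eq_mul, Finset.sum_mul, Finset.mul_sum, mul_assoc]
        exact Finset.sum_comm
      rw [e]
      refine (Finset.abs_sum_le_sum_abs _ _).trans ?_
      have : ∑ q, |c q * (A * G) q s| ≤ ∑ _q : Fin n, B := Finset.sum_le_sum fun q _ => by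
        rw [abs_mul]
        nlinarith [hc2 q, hB q s, abs_nonneg (c q), abs_nonneg ((A * G) q s)]
      simpa using this
    · have e : (A.updateRow p (∑ q, c q • A q) * G) r s = (A * G) r s := by
        simp only [Matrix.mul_apply, updateRow_ne hr]
      rw [e]
      nlinarith [hB r s]

lemma red_ind (hn : 0 < n) (G : Matrix (Fin n) (Fin n) ℝ) (m : ℕ) :
    ∀ (M : Matrix (Fin n) (Fin n) ℤ) (B : ℝ), M.det ≠ 0 → |M.det| ≤ 2 ^ m →
      (∀ p q, |(M.map (fun z : ℤ => (z : ℝ)) * G) p q| ≤ B) →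
      ∃ M' : Matrix (Fin n) (Fin n) ℤ, |M'.det| = 1 ∧
        ∀ p q, |(M'.map (fun z : ℤ => (z : ℝ)) * G) p q| ≤ (n : ℝ) ^ m * B := by
  have hn1 : (1 : ℝ) ≤ n := by exact_mod_cast hn
  induction m with
  | zero =>
    intro M B h0 h1 hB
    refine ⟨M, ?_, by simpa using hB⟩
    have := abs_pos.2 h0
    omega
  | succ m ih =>
    intro M B h0 h1 hB
    by_cases h : |M.det| = 1
    · refine ⟨M, h, fun p q => (hB p q).trans ?_⟩
      have hB0 : 0 ≤ B := (abs_nonneg _).trans (hB p q)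
      exact le_mul_of_one_le_left hB0 (one_le_pow₀ hn1)
    · obtain ⟨M1, g0, g1, g2⟩ := red_step G M h0 h hB
      obtain ⟨M', k1, k2⟩ := ih M1 (n * B) g0 (by rw [pow_succ] at h1; linarith) g2
      exact ⟨M', k1, fun p q => by rw [pow_succ, mul_assoc]; exact k2 p q⟩

lemma red_sign (hn : 0 < n) (G : Matrix (Fin n) (Fin n) ℝ) (M : Matrix (Fin n) (Fin n) ℤ) {B : ℝ}
    (h1 : |M.det| = 1) (hB : ∀ p q, |(M.map (fun z : ℤ => (z : ℝ)) * G) p q| ≤ B) :
    ∃ M' : Matrix (Fin n) (Fin n) ℤ, M'.det = 1 ∧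
      ∀ p q, |(M'.map (fun z : ℤ => (z : ℝ)) * G) p q| ≤ B := by
  rcases abs_eq (zero_le_one' ℤ) |>.1 h1 with h | h
  · exact ⟨M, h, hB⟩
  · let i : Fin n := ⟨0, hn⟩
    refine ⟨M.updateRow i ((-1 : ℤ) • M i), ?_, fun p q => ?_⟩
    · rw [det_updateRow_smul, updateRow_eq_self, h]
      norm_num
    · by_cases hp : p = i
      · have e : ((M.updateRow i ((-1 : ℤ) • M i)).map (fun z : ℤ => (z : ℝ)) * G) p q =
            -(M.map (fun z : ℤ => (z : ℝ)) * G) p q := by
          simp [Matrix.mul_apply, hp]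
        rw [e, abs_neg]
        exact hB p q
      · have e : ((M.updateRow i ((-1 : ℤ) • M i)).map (fun z : ℤ => (z : ℝ)) * G) p q =
            (M.map (fun z : ℤ => (z : ℝ)) * G) p q := by
          simp only [Matrix.mul_apply, Matrix.map_apply, updateRow_ne hp]
        rw [e]
        exact hB p q

theorem reduce (n : ℕ) : ∃ C : ℕ, ∀ (k : ℕ) (x : X n),
    (∀ w ∈ lat x, w ≠ 0 → ∃ j, (1 / 2 : ℝ) ^ k ≤ |w j|) →
      ∃ g : SL n, coset g = x ∧ ∀ p q, |mat g p q| < 2 ^ (C * (k + 1)) := by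
  refine ⟨n ^ 4 + n ^ 3 + 2 * n ^ 2 + n + 2, fun k x h => ?_⟩
  obtain ⟨g, rfl⟩ := (isOpenQuotientMap_mk n).surjective x
  rcases Nat.eq_zero_or_pos n with hn | hn
  · exact ⟨g, rfl, fun p => absurd (Fin.pos p) (by omega)⟩
  have hn2 : (n : ℝ) ≤ 2 ^ n := by exact_mod_cast (Nat.lt_two_pow_self).le
  obtain ⟨M, hM0, hMb⟩ := red_basis g (ε := (1 / 2 : ℝ) ^ k) (δ := (1 / 2 : ℝ) ^ (n + k))
    (T := 2 ^ (1 + (n + k) * n)) (by positivity) (pow_le_one₀ (by norm_num) (by norm_num))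
    (by
      rw [pow_add, ← mul_assoc]
      refine mul_le_of_le_one_left (by positivity) ?_
      rw [one_div, inv_pow, ← div_eq_mul_inv, div_le_one (by positivity)]
      exact hn2)
    (by
      rw [← pow_mul, pow_add, mul_assoc, ← mul_pow]
      norm_num) h
  have hdet : |M.det| ≤ 2 ^ (n * n + (1 + (n + k) * n) * n) := by
    have h1 := Matrix.det_le (abv := AbsoluteValue.abs) hMb
    rw [det_mul, ← Int.cast_det, show (mat g).det = 1 from g.2, mul_one, Fintype.card_fin,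
      nsmul_eq_mul, AbsoluteValue.abs_apply] at h1
    have h2 : ((n.factorial : ℕ) : ℝ) ≤ 2 ^ (n * n) := by
      have h3 : ((n.factorial : ℕ) : ℝ) ≤ (n : ℝ) ^ n := by exact_mod_cast Nat.factorial_le_pow n
      rw [pow_mul]
      exact h3.trans (pow_le_pow_left₀ (by positivity) hn2 n)
    have h4 : |(M.det : ℝ)| ≤ 2 ^ (n * n + (1 + (n + k) * n) * n) := by
      rw [pow_add, pow_mul 2 (1 + (n + k) * n) n]
      exact h1.trans (mul_le_mul_of_nonneg_right h2 (by positivity))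
    exact_mod_cast h4
  obtain ⟨M1, h1, h2⟩ := red_ind hn (mat g) _ M _ hM0 hdet hMb
  obtain ⟨M2, h3, h4⟩ := red_sign hn (mat g) M1 h1 h2
  let δ : SpecialLinearGroup (Fin n) ℤ := ⟨M2, h3⟩
  refine ⟨SpecialLinearGroup.map (n := Fin n) (Int.castRingHom ℝ) δ * g,
    mk_eq_iff.2 ⟨_, ⟨δ, rfl⟩, rfl⟩, fun p q => lt_of_le_of_lt (h4 p q) ?_⟩
  refine lt_of_le_of_lt (mul_le_mul_of_nonneg_right
    (pow_le_pow_left₀ (by positivity) hn2 _) (by positivity)) ?_
  rw [← pow_mul, ← pow_add]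
  refine pow_lt_pow_right₀ (by norm_num) ?_
  have : (n ^ 4 + n ^ 3 + 2 * n ^ 2 + n + 2) * (k + 1) =
      n * (n * n + (1 + (n + k) * n) * n) + (1 + (n + k) * n) +
        (((n ^ 4 + 2 * n ^ 2 + 2) * k + n) + 1) := by ring
  omega

end Vale.Agent.P007
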