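import Vale.Agent.P007.E.LeafBasic

/-!
P007 E, task Stab: a leafwise measure proportional to a nontrivial translate is Lebesgue.
`stab_line` (pure analysis on `ℝ`): `m k → m` vaguely, `m k = c • (m k).map (· - r k)`,
`r k → 0`, `r k ≠ 0`. First, for `φ ∈ C_c` and `s k → s`: `∫ φ(t - s k) d(m k) → ∫ φ(t - s) dm`
(uniform continuity of `φ`, and `∫ χ d(m k)` bounded for a cutoff `χ ≥ 1` near the supports).
Testing with a bump `φ ≥ 0` with `∫ φ dm > 0` gives `c = 1`. Then `m k` is invariant under all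
integer multiples of `r k`; choose `z k * r k → s` (`z k = ⌊s / r k⌋`); `ext_of_cc` gives
`m.map (· - s) = m`; uniqueness of Haar measure (`isAddLeftInvariant_eq_smul`) and the
normalisation give `m = Leb`.
`Leaf0.stab`: `a = diagA u` with `u j - u i < 0`; compact `K l` from `lusin_vague` with
`μ (K l)ᶜ < 2^{-l}`, `recur` on each `K l`, `scale_iter`: if `ν x = c • (ν x).map (· - r)` then
`ν (x a^k) = c • (ν (x a^k)).map (· - r exp (k (u j - u i)))`.
-/

open Matrix MeasureTheory ProbabilityTheory Set Filter Topology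
open scoped ENNReal

namespace Vale.Agent.P007

variable {n : ℕ}

private lemma st_emb (s : ℝ) : MeasurableEmbedding fun t : ℝ => t - s :=
  (Homeomorph.subRight s).measurableEmbedding

private lemma st_cc {φ : ℝ → ℝ} (hc : HasCompactSupport φ) (s : ℝ) :
    HasCompactSupport fun t => φ (t - s) :=
  hc.comp_homeomorph (Homeomorph.subRight s)

private lemma st_cut (R : ℝ) : ∃ χ : ℝ → ℝ, Continuous χ ∧ HasCompactSupport χ ∧ (∀ t, 0 ≤ χ t) ∧
    ∀ t ∈ Icc (-R) R, χ t = 1 := by
  obtain ⟨f, h1, -, h2, h3⟩ := exists_continuous_one_zero_of_isCompact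
    (isCompact_Icc (a := -R) (b := R)) isClosed_empty (disjoint_empty _)
  exact ⟨f, f.continuous, h2, fun t => (h3 t).1, fun t ht => h1 ht⟩

private lemma st_shift {m : Measure ℝ} {ms : ℕ → Measure ℝ}
    (hms : ∀ k, ∀ R : ℝ, ms k (Ioo (-R) R) ≠ ∞)
    (hlim : ∀ φ : ℝ → ℝ, Continuous φ → HasCompactSupport φ →
      Tendsto (fun k => ∫ t, φ t ∂(ms k)) atTop (𝓝 (∫ t, φ t ∂m)))
    {φ : ℝ → ℝ} (hφ : Continuous φ) (hc : HasCompactSupport φ) {s : ℕ → ℝ} {s0 : ℝ}
    (hs : Tendsto s atTop (𝓝 s0)) :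
    Tendsto (fun k => ∫ t, φ (t - s k) ∂(ms k)) atTop (𝓝 (∫ t, φ (t - s0) ∂m)) := by
  obtain ⟨R, hR⟩ := hc.isCompact.isBounded.exists_norm_le
  have hR0 : ∀ t, R < |t| → φ t = 0 := fun t ht =>
    image_eq_zero_of_notMem_tsupport fun h => absurd (hR t h) (by simpa using ht)
  obtain ⟨χ, hχ, hχc, hχ0, hχ1⟩ := st_cut (R + |s0| + 1)
  have huc := hc.uniformContinuous_of_continuous hφ
  have hint : ∀ k (ψ : ℝ → ℝ), Continuous ψ → HasCompactSupport ψ → Integrable ψ (ms k) := by
    intro k ψ h1 h2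
    have := locFin_of_fin (hms k)
    exact h1.integrable_of_hasCompactSupport h2
  have hcs : ∀ a : ℝ, Continuous fun t => φ (t - a) := fun a => by fun_prop
  have h1 := hlim _ (hcs s0) (st_cc hc s0)
  have h2 : (fun k => ∫ t, φ (t - s k) ∂(ms k) - ∫ t, φ (t - s0) ∂(ms k)) =o[atTop]
      fun k => ∫ t, χ t ∂(ms k) := by
    refine Asymptotics.isLittleO_iff.2 fun ε hε => ?_
    obtain ⟨δ, hδ, hd⟩ := Metric.uniformContinuous_iff.1 huc ε hε
    filter_upwards [hs.eventually (Metric.ball_mem_nhds s0 (lt_min hδ one_pos))] with k hk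
    have hk1 : |s k - s0| < min δ 1 := by simpa [Real.dist_eq] using hk
    have hk2 : |s k - s0| < δ := hk1.trans_le (min_le_left _ _)
    have hk3 : |s k - s0| < 1 := hk1.trans_le (min_le_right _ _)
    rw [← integral_sub (hint k _ (hcs _) (st_cc hc _)) (hint k _ (hcs _) (st_cc hc _)),
      Real.norm_of_nonneg (integral_nonneg hχ0), ← integral_const_mul]
    refine norm_integral_le_of_norm_le ((hint k _ hχ hχc).const_mul ε) (Eventually.of_forall fun t => ?_)
    by_cases ht : t ∈ Icc (-(R + |s0| + 1)) (R + |s0| + 1)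
    · rw [hχ1 t ht, mul_one, ← dist_eq_norm]
      refine (hd ?_).le
      rw [Real.dist_eq, show t - s k - (t - s0) = -(s k - s0) by ring, abs_neg]
      exact hk2
    · have ht2 : R + |s0| + 1 < |t| := by
        by_contra hh
        exact ht (abs_le.1 (not_lt.1 hh))
      have a1 : |t| ≤ |t - s0| + |s0| := by
        have := abs_add_le (t - s0) s0
        simpa using this
      have a2 : |t - s0| ≤ |t - s k| + |s k - s0| := abs_sub_le _ _ _
      rw [hR0 (t - s k) (by linarith), hR0 (t - s0) (by linarith)]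
      simpa using mul_nonneg hε.le (hχ0 t)
  have h3 := (h2.trans_isBigO ((hlim χ hχ hχc).isBigO_one ℝ))
  rw [Asymptotics.isLittleO_one_iff] at h3
  simpa using h3.add h1

private lemma st_int {m : Measure ℝ} {r : ℝ} (h : m = m.map fun t => t - r) (z : ℤ) :
    ∀ φ : ℝ → ℝ, ∫ t, φ (t - z * r) ∂m = ∫ t, φ t ∂m := by
  have h0 : ∀ φ : ℝ → ℝ, ∫ t, φ (t - r) ∂m = ∫ t, φ t ∂m := by
    intro φ
    conv_rhs => rw [h, (st_emb r).integral_map]
  induction z using Int.induction_on with
  | zero => intro φ; simp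
  | succ z ih =>
    intro φ
    rw [← h0 φ, ← ih fun t => φ (t - r)]
    congr 1
    funext t
    congr 1
    push_cast
    ring
  | pred z ih =>
    intro φ
    have h1 := h0 fun t => φ (t + r)
    simp only [sub_add_cancel] at h1
    rw [h1, ← ih fun t => φ (t + r)]
    congr 1
    funext t
    congr 1
    push_cast
    ring

theorem stab_line {m : Measure ℝ} {ms : ℕ → Measure ℝ} (hm : ∀ R : ℝ, m (Ioo (-R) R) ≠ ∞)
    (h1 : m (Ioo (-1) 1) = 1) (hms : ∀ k, ∀ R : ℝ, ms k (Ioo (-R) R) ≠ ∞)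
    (hlim : ∀ φ : ℝ → ℝ, Continuous φ → HasCompactSupport φ →
      Tendsto (fun k => ∫ t, φ t ∂(ms k)) atTop (𝓝 (∫ t, φ t ∂m)))
    {c : ℝ≥0∞} (hc : c ≠ ∞) {r : ℕ → ℝ} (hr : ∀ k, r k ≠ 0) (hr0 : Tendsto r atTop (𝓝 0))
    (he : ∀ k, ms k = c • (ms k).map fun t => t - r k) : m = Leb := by
  have hlf := locFin_of_fin hm
  have hc1 : c = 1 := by
    obtain ⟨χ, hχ, hχc, hχ0, hχ1⟩ := st_cut 1
    have a1 := hlim χ hχ hχc
    have a2 := (st_shift hms hlim hχ hχc hr0).const_mul c.toReal
    have a3 : ∀ k, ∫ t, χ t ∂(ms k) = c.toReal * ∫ t, χ (t - r k) ∂(ms k) := by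
      intro k
      conv_lhs => rw [he k, integral_smul_measure, (st_emb (r k)).integral_map, smul_eq_mul]
    simp only [← a3, sub_zero] at a2
    have a4 := tendsto_nhds_unique a1 a2
    have a5 : 1 ≤ ∫ t, χ t ∂m := by
      have b1 : ∫ t in Ioo (-1 : ℝ) 1, χ t ∂m ≤ ∫ t, χ t ∂m :=
        setIntegral_le_integral (hχ.integrable_of_hasCompactSupport hχc) (Eventually.of_forall hχ0)
      have b2 : ∫ t in Ioo (-1 : ℝ) 1, χ t ∂m = ∫ _t in Ioo (-1 : ℝ) 1, (1 : ℝ) ∂m :=
        setIntegral_congr_fun measurableSet_Ioo fun t ht => hχ1 t (Ioo_subset_Icc_self ht)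
      rw [b2] at b1
      simpa [Measure.real, h1] using b1
    have a6 : c.toReal = 1 := by
      have : (c.toReal - 1) * ∫ t, χ t ∂m = 0 := by linarith
      rcases mul_eq_zero.1 this with h | h
      · linarith
      · linarith
    exact (ENNReal.toReal_eq_one_iff c).1 a6
  subst hc1
  simp only [one_smul] at he
  have hinv : ∀ s : ℝ, m.map (fun t => t - s) = m := by
    intro s
    refine ext_of_cc (fun R => ?_) hm fun φ hφ hφc => ?_
    · rw [(st_emb s).map_apply]
      refine ne_top_of_le_ne_top (hm (R + |s|)) (measure_mono fun t ht => ?_)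
      have := le_abs_self s
      have := neg_abs_le s
      exact ⟨by linarith [ht.1], by linarith [ht.2]⟩
    · rw [(st_emb s).integral_map]
      have hs : Tendsto (fun k => (⌊s / r k⌋ : ℝ) * r k) atTop (𝓝 s) := by
        rw [tendsto_iff_norm_sub_tendsto_zero]
        refine squeeze_zero (fun _ => norm_nonneg _) (fun k => ?_) (by simpa using hr0.norm)
        have e : (⌊s / r k⌋ : ℝ) * r k - s = -(Int.fract (s / r k) * r k) := by
          rw [Int.fract, sub_mul, div_mul_cancel₀ _ (hr k)]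
          ring
        rw [e, norm_neg, norm_mul, Real.norm_of_nonneg (Int.fract_nonneg _)]
        exact mul_le_of_le_one_left (norm_nonneg _) (Int.fract_lt_one _).le
      have a1 := st_shift hms hlim hφ hφc hs
      simp only [st_int (he _)] at a1
      exact tendsto_nhds_unique a1 (hlim φ hφ hφc)
  have hli : m.IsAddLeftInvariant := ⟨fun g => by
    have := hinv (-g)
    simpa only [sub_neg_eq_add, add_comm] using this⟩
  have h2 := Measure.isAddLeftInvariant_eq_smul m (volume : Measure ℝ)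
  have h3 : (Measure.addHaarScalarFactor m (volume : Measure ℝ) : ℝ≥0∞) * 2 = 1 := by
    rw [h2] at h1
    have e : ENNReal.ofReal (1 - -1) = 2 := by norm_num
    simpa only [Measure.smul_apply, Real.volume_Ioo, e, ENNReal.smul_def, smul_eq_mul] using h1
  have h4 := ENNReal.eq_inv_of_mul_eq_one_left h3
  rw [h2, Leb, ← h4]
  rfl


theorem Leaf0.stab {μ : Measure (X n)} [IsFiniteMeasure μ] {i j : Fin n} (L : Leaf0 μ i j)
    (hij : i ≠ j) (hA : AInv μ) :
    ∀ᵐ x ∂μ, ∀ r : ℝ, r ≠ 0 → Prp (L.ν x) ((L.ν x).map fun t => t - r) → L.ν x = Leb := by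
  have := L.sfin
  have hu := wab_sum i j
  have hw : wab i j j - wab i j i = -2 := by
    simp [wab, hij, hij.symm]
    norm_num
  have hT := (hA.hinv (wab i j) hu).mp
  have hK : ∀ l : ℕ, ∃ K : Set (X n), IsCompact K ∧ K ⊆ L.X1 ∧ μ Kᶜ < (l : ℝ≥0∞)⁻¹ ∧ VCont L.ν K :=
    fun l => lusin_vague L.ν L.meas L.conull L.fin (ENNReal.inv_ne_zero.2 (ENNReal.natCast_ne_top l))
  choose K hK1 hK2 hK3 hK4 using hK
  have hU : ∀ᵐ x ∂μ, ∃ l, x ∈ K l := by
    rw [ae_iff]
    refine le_antisymm (ge_of_tendsto' ENNReal.tendsto_inv_nat_nhds_zero fun l => ?_) zero_le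
    refine le_trans (measure_mono ?_) (hK3 l).le
    intro x hx hx2
    exact hx ⟨l, hx2⟩
  have hR := ae_all_iff.2 fun l => recur hT (hK1 l).measurableSet
  filter_upwards [hU, hR, L.scale_iter hA (wab i j) hu] with x ⟨l, hl⟩ hx hs r hr ⟨c, _, hc, he⟩
  obtain ⟨φ, hφ, hmem, hlim⟩ := hx l hl
  simp only [iterate_act] at hmem hlim
  have hx1 := hK2 l hl
  refine stab_line (ms := fun k => L.ν (act x (diagA (wab i j) hu ^ φ k))) (L.fin x hx1) (L.norm x hx1)
    (fun k => L.fin _ (hs _).1) (fun ψ h1 h2 => ?_) hc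
    (r := fun k => r * Real.exp (φ k * (wab i j j - wab i j i)))
    (fun k => mul_ne_zero hr (Real.exp_pos _).ne') ?_ fun k => ?_
  · exact ((hK4 l ψ h1 h2) x hl).tendsto.comp
      (tendsto_nhdsWithin_iff.2 ⟨hlim, Eventually.of_forall hmem⟩)
  · rw [hw]
    have a1 : Tendsto (fun k => (φ k : ℝ) * (-2)) atTop atBot :=
      (tendsto_natCast_atTop_atTop.comp hφ.tendsto_atTop).atTop_mul_const_of_neg (by norm_num)
    simpa using (Real.tendsto_exp_atBot.comp a1).const_mul r
  · obtain ⟨d, -, -, hd⟩ := (hs (φ k)).2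
    beta_reduce
    generalize Real.exp (φ k * (wab i j j - wab i j i)) = lam at hd ⊢
    have m1 : Measurable fun t : ℝ => t * lam := measurable_id.mul_const lam
    have e : ((L.ν x).map fun t => t * lam).map (fun t => t - r * lam) =
        ((L.ν x).map fun t => t - r).map fun t => t * lam := by
      rw [Measure.map_map (st_emb _).measurable m1, Measure.map_map m1 (st_emb _).measurable]
      congr 1
      funext t
      simp only [Function.comp]
      ring
    rw [hd, Measure.map_smul, e, smul_comm c d, ← Measure.map_smul c, ← he]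


end Vale.Agent.P007
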